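import Vale.Agent.P196.Conc

/-! P196: facts on the alternating group of a set. -/

namespace Vale.Agent.P196

open Equiv

variable {α : Type} [DecidableEq α]

theorem cyc_mem_AltOn {E : Set α} {a b c : α} (ha : a ∈ E) (hb : b ∈ E) (hc : c ∈ E)
    (h : D3 a b c) : cyc a b c ∈ AltOn E := by
  exact Subgroup.subset_closure ⟨a, ha, b, hb, c, hc, h, rfl⟩

theorem AltOn_mono {E E' : Set α} (h : E ⊆ E') : AltOn E ≤ AltOn E' := by
  refine Subgroup.closure_mono ?_
  rintro _ ⟨a, ha, b, hb, c, hc, h3, rfl⟩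
  exact ⟨a, h ha, b, h hb, c, h hc, h3, rfl⟩

theorem AltOn_fix {E : Set α} {g : Perm α} (hg : g ∈ AltOn E) {x : α} (hx : x ∉ E) : g x = x :=
  by
  induction hg using Subgroup.closure_induction with
  | mem g hg =>
    obtain ⟨a, ha, b, hb, c, hc, h3, rfl⟩ := hg
    have h1 : x ≠ a := fun e => hx (e ▸ ha)
    have h2 : x ≠ b := fun e => hx (e ▸ hb)
    have h4 : x ≠ c := fun e => hx (e ▸ hc)
    simp [cyc_apply h3, h1, h2, h4]
  | one => rfl
  | mul g g' _ _ h1 h2 => simp [h1, h2]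
  | inv g _ h1 => exact Perm.inv_eq_iff_eq.2 h1.symm

theorem AltOn_maps {E : Set α} {g : Perm α} (hg : g ∈ AltOn E) {x : α} (hx : x ∈ E) : g x ∈ E :=
  by
  by_contra h
  have := AltOn_fix hg h
  exact h ((g.injective this).symm ▸ hx)

theorem AltF_chain {E : Set α} {a b c : α} (ha : a ∈ E) (hb : b ∈ E) (hc : c ∈ E)
    (hab : a ≠ b) (hbc : b ≠ c) : swap a b * swap b c ∈ AltOn E := by
  by_cases h : a = c
  · subst h
    rw [swap_comm b a, swap_mul_self]
    exact one_mem _
  · exact cyc_mem_AltOn ha hb hc ⟨hab, h, hbc⟩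

theorem AltF_two {E : Set α} {a b c d : α} (ha : a ∈ E) (hb : b ∈ E) (hc : c ∈ E)
    (hd : d ∈ E) (hab : a ≠ b) (hcd : c ≠ d) : swap a b * swap c d ∈ AltOn E := by
  by_cases h : b = c
  · subst h
    exact AltF_chain ha hb hd hab hcd
  · have : swap a b * swap c d = (swap a b * swap b c) * (swap b c * swap c d) := by
      simp [mul_assoc]
    rw [this]
    exact mul_mem (AltF_chain ha hb hc hab h) (AltF_chain hb hc hd h hcd)

open Classical in
theorem AltF_sign {E : Set α} [Fintype E] (σ : Perm E) :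
    (Perm.sign σ = 1 → Perm.ofSubtype σ ∈ AltOn E) ∧
      (Perm.sign σ = -1 → ∀ a ∈ E, ∀ b ∈ E, a ≠ b → Perm.ofSubtype σ * swap a b ∈ AltOn E) := by
  induction σ using Perm.swap_induction_on' with
  | one =>
    refine ⟨fun _ => by simp, fun h => ?_⟩
    simp at h
  | mul_swap f x y hxy ih =>
    have hxy' : (x : α) ≠ y := fun e => hxy (Subtype.ext e)
    rw [map_mul, map_mul, Perm.sign_swap hxy, Perm.ofSubtype_swap_eq]
    constructor
    · intro h
      refine ih.2 ?_ _ x.2 _ y.2 hxy'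
      rcases Int.units_eq_one_or (Perm.sign f) with e | e
      · rw [e] at h; simp at h
      · exact e
    · intro h a ha b hb hab
      rw [mul_assoc]
      refine mul_mem (ih.1 ?_) (AltF_two x.2 y.2 ha hb hxy' hab)
      rcases Int.units_eq_one_or (Perm.sign f) with e | e
      · exact e
      · rw [e] at h; simp at h

open Classical in
theorem AltF_map {E : Set α} [Fintype E] :
    AltOn E = (alternatingGroup E).map (Perm.ofSubtype (p := (· ∈ E))) := by
  apply le_antisymm
  · refine (Subgroup.closure_le _).2 ?_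
    rintro _ ⟨a, ha, b, hb, c, hc, h3, rfl⟩
    refine ⟨swap ⟨a, ha⟩ ⟨b, hb⟩ * swap ⟨b, hb⟩ ⟨c, hc⟩, ?_, ?_⟩
    · have h1 : (⟨a, ha⟩ : E) ≠ ⟨b, hb⟩ := fun e => h3.1 (congrArg Subtype.val e)
      have h2 : (⟨b, hb⟩ : E) ≠ ⟨c, hc⟩ := fun e => h3.2.2 (congrArg Subtype.val e)
      simp [Perm.mem_alternatingGroup, Perm.sign_swap h1, Perm.sign_swap h2]
    · rw [map_mul, Perm.ofSubtype_swap_eq, Perm.ofSubtype_swap_eq]; rfl
  · rintro _ ⟨σ, hσ, rfl⟩
    exact (AltF_sign σ).1 hσ

theorem exists_fresh (S : Finset I) (h : S.card < 10) : ∃ i, i ∉ S := by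
  by_contra hc
  push Not at hc
  have : S = Finset.univ := Finset.eq_univ_of_forall hc
  rw [this] at h
  simp at h

theorem swap_not_mem_AltOn {E : Set α} (hE : E.Finite) {a b : α} (hab : a ≠ b) :
    swap a b ∉ AltOn E := by
  classical
  intro h
  haveI := hE.fintype
  have ha : a ∈ E := by
    by_contra e
    have := AltOn_fix h e
    simp at this
    exact hab this.symm
  have hb : b ∈ E := by simpa using AltOn_maps h ha
  rw [AltF_map] at h
  obtain ⟨σ, hσ, e⟩ := h
  have e' : Perm.ofSubtype (p := (· ∈ E)) (swap ⟨a, ha⟩ ⟨b, hb⟩) = swap a b :=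
    Perm.ofSubtype_swap_eq _ _
  have : σ = swap ⟨a, ha⟩ ⟨b, hb⟩ := Perm.ofSubtype_injective (e.trans e'.symm)
  subst this
  have h1 : (⟨a, ha⟩ : E) ≠ ⟨b, hb⟩ := fun e => hab (congrArg Subtype.val e)
  have := Perm.mem_alternatingGroup.1 hσ
  rw [Perm.sign_swap h1] at this
  exact absurd this (by decide)

theorem AltOn_dichotomy {E : Set α} (hE : E.Finite) {g : Perm α} (hg : ∀ x, x ∉ E → g x = x)
    {a b : α} (ha : a ∈ E) (hb : b ∈ E) (hab : a ≠ b) :
    g ∈ AltOn E ∨ g * swap a b ∈ AltOn E := by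
  classical
  haveI := hE.fintype
  have h1 : ∀ x, g x ∈ E ↔ x ∈ E := fun x => by
    constructor
    · intro h
      by_contra e
      exact e (hg x e ▸ h)
    · intro h
      by_contra e
      exact e ((g.injective (hg _ e)).symm ▸ h)
  have h2 : ∀ x, g x ≠ x → x ∈ E := fun x hx => by
    by_contra e
    exact hx (hg x e)
  have e := Perm.ofSubtype_subtypePerm (p := (· ∈ E)) h1 h2
  have := AltF_sign (E := E) (Perm.subtypePerm g h1)
  rcases Int.units_eq_one_or (Perm.sign (Perm.subtypePerm g h1 : Perm E)) with h | h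
  · left; rw [← e]; exact this.1 h
  · right; rw [← e]; exact this.2 h a ha b hb hab

theorem AltOn_of_fix {E E' : Set α} (hE' : E'.Finite) (h : E ⊆ E') {g : Perm α}
    (hg : g ∈ AltOn E') (hf : ∀ x, x ∉ E → g x = x) : g ∈ AltOn E := by
  by_cases h1 : ∀ x, g x = x
  · have : g = 1 := Equiv.ext h1
    rw [this]; exact one_mem _
  push Not at h1
  obtain ⟨x, hx⟩ := h1
  have hxE : x ∈ E := by
    by_contra e
    exact hx (hf x e)
  have hgx : g x ∈ E := by
    by_contra e
    exact hx (g.injective (hf _ e))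
  rcases AltOn_dichotomy (hE'.subset h) hf hgx hxE hx with h2 | h2
  · exact h2
  · exfalso
    apply swap_not_mem_AltOn hE' hx
    have := mul_mem (inv_mem hg) (AltOn_mono h h2)
    simpa using this

theorem swap_mul_swap_mem_AltOn {E : Set α} {a b c d : α} (ha : a ∈ E) (hb : b ∈ E) (hc : c ∈ E)
    (hd : d ∈ E) (hab : a ≠ b) (hcd : c ≠ d) : swap a b * swap c d ∈ AltOn E := by
  exact AltF_two ha hb hc hd hab hcd

theorem AltOn_simple {E : Set α} (hE : E.Finite) (h5 : 5 ≤ E.ncard) : IsSimpleGroup (AltOn E) :=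
  by
  classical
  haveI := hE.fintype
  have h : 5 ≤ Nat.card E := by rwa [Nat.card_coe_set_eq]
  haveI := alternatingGroup.isSimpleGroup h
  have e : alternatingGroup E ≃* AltOn E :=
    ((alternatingGroup E).equivMapOfInjective _ Perm.ofSubtype_injective).trans
      (MulEquiv.subgroupCongr AltF_map.symm)
  exact e.symm.isSimpleGroup

/-- generation by the cycles through two fixed points -/
theorem AltOn_base {E : Set α} {k l : α} (hk : k ∈ E) (hl : l ∈ E) (hkl : k ≠ l) :
    AltOn E = Subgroup.closure {g | ∃ a ∈ E, a ≠ k ∧ a ≠ l ∧ g = cyc k l a} := by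
  apply le_antisymm
  · set H := Subgroup.closure {g | ∃ a ∈ E, a ≠ k ∧ a ≠ l ∧ g = cyc k l a} with hH
    have A : ∀ a ∈ E, a ≠ l → swap k l * swap l a ∈ H := fun a ha hal => by
      by_cases e : a = k
      · subst e
        rw [swap_comm l a, swap_mul_self]; exact one_mem _
      · exact Subgroup.subset_closure ⟨a, ha, e, hal, rfl⟩
    have B : ∀ x ∈ E, ∀ y ∈ E, x ≠ y → swap k l * swap x y ∈ H := fun x hx y hy hxy => by
      by_cases e1 : x = l
      · subst e1; exact A y hy hxy.symm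
      by_cases e2 : y = l
      · subst e2; rw [swap_comm x y]; exact A x hx hxy
      have e : swap x y = swap l x * swap l y * swap l x := by
        ext t
        simp only [Perm.mul_apply, swap_apply_def]
        grind
      have : swap k l * swap x y =
          (swap k l * swap l x) * (swap k l * swap l y)⁻¹ * (swap k l * swap l x) := by
        rw [e]; simp [mul_assoc]
      rw [this]
      exact mul_mem (mul_mem (A x hx e1) (inv_mem (A y hy e2))) (A x hx e1)
    refine (Subgroup.closure_le _).2 ?_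
    rintro _ ⟨a, ha, b, hb, c, hc, h3, rfl⟩
    have : cyc a b c = (swap k l * swap a b)⁻¹ * (swap k l * swap b c) := by
      simp [cyc, mul_assoc]
    rw [this]
    exact mul_mem (inv_mem (B a ha b hb h3.1)) (B b hb c hc h3.2.2)
  · refine (Subgroup.closure_le _).2 ?_
    rintro _ ⟨a, ha, h1, h2, rfl⟩
    exact cyc_mem_AltOn hk hl ha ⟨hkl, h1.symm, h2.symm⟩

/-- generation by transversal cycles -/
theorem AltOn_transversal (Q : Set Pos) :
    AltOn (Q ×ˢ (Set.univ : Set I)) = Subgroup.closure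
      {g | ∃ u ∈ Q, ∃ v ∈ Q, ∃ w ∈ Q, ∃ a b c : I, D3 a b c ∧ g = cyc (u, a) (v, b) (w, c)} := by
  apply le_antisymm
  · refine (Subgroup.closure_le _).2 ?_
    rintro _ ⟨p, hp, q, hq, r, hr, h3, rfl⟩
    obtain ⟨i, hi⟩ := exists_fresh {p.2, q.2, r.2} (lt_of_le_of_lt Finset.card_le_three (by norm_num))
    obtain ⟨j, hj⟩ := exists_fresh {i, p.2, q.2, r.2}
      (lt_of_le_of_lt Finset.card_le_four (by norm_num))
    simp only [Finset.mem_insert, Finset.mem_singleton, not_or] at hi hj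
    have hij : (p.1, i) ≠ (p.1, j) := fun e => hj.1 (congrArg Prod.snd e).symm
    have h1 : cyc p q r ∈ AltOn ({p, q, r, (p.1, i), (p.1, j)} : Set Om) :=
      cyc_mem_AltOn (by simp) (by simp) (by simp) h3
    rw [AltOn_base (k := (p.1, i)) (l := (p.1, j)) (by simp) (by simp) hij] at h1
    refine Subgroup.closure_mono ?_ h1
    rintro _ ⟨a, ha, a1, a2, rfl⟩
    have : a.1 ∈ Q ∧ a.2 ≠ i ∧ a.2 ≠ j := by
      simp only [Set.mem_insert_iff, Set.mem_singleton_iff] at ha
      rcases ha with rfl | rfl | rfl | rfl | rfl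
      · exact ⟨hp.1, fun e => hi.1 e.symm, fun e => hj.2.1 e.symm⟩
      · exact ⟨hq.1, fun e => hi.2.1 e.symm, fun e => hj.2.2.1 e.symm⟩
      · exact ⟨hr.1, fun e => hi.2.2 e.symm, fun e => hj.2.2.2 e.symm⟩
      · exact absurd rfl a1
      · exact absurd rfl a2
    exact ⟨p.1, hp.1, p.1, hp.1, a.1, this.1, i, j, a.2,
      ⟨fun e => hj.1 e.symm, this.2.1.symm, this.2.2.symm⟩, rfl⟩
  · refine (Subgroup.closure_le _).2 ?_
    rintro _ ⟨u, hu, v, hv, w, hw, a, b, c, h3, rfl⟩
    exact cyc_mem_AltOn ⟨hu, trivial⟩ ⟨hv, trivial⟩ ⟨hw, trivial⟩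
      ⟨fun e => h3.1 (congrArg Prod.snd e), fun e => h3.2.1 (congrArg Prod.snd e),
        fun e => h3.2.2 (congrArg Prod.snd e)⟩

end Vale.Agent.P196
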