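import Vale.Agent.P196.HatB

/-! P196: the idempotents of a frame form a logic. -/

namespace Vale.Agent.P196

theorem Idem.ext' {G : Type} [Group G] {F : Frame G} {u v : Idem F} (h : u.e = v.e) : u = v := by
  have h' : u.e' = v.e' := MonoidHom.ext fun g => by
    have := (u.tot g).symm.trans (v.tot g)
    rwa [h, mul_right_inj] at this
  cases u
  cases v
  cases h
  cases h'
  rfl

namespace AltLogic

variable {G : Type} [Group G]

theorem hsymm {u v : Hat →* G} (h : HOrth u v) : HOrth v u := fun a b => (h b a).symm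

/-- product of commuting homomorphisms -/
def hmul (u v : Hat →* G) (h : HOrth u v) : Hat →* G :=
  MonoidHom.mk' (fun g => u g * v g) fun a b => by
    rw [map_mul, map_mul, (h b a).mul_mul_mul_comm]

/-- quotient of homomorphisms -/
def hdiv (u v : Hat →* G) (h : ∀ a b, Commute ((u a)⁻¹ * v a) (u b)) : Hat →* G :=
  MonoidHom.mk' (fun g => (u g)⁻¹ * v g) fun a b => by
    rw [map_mul, map_mul, ← mul_assoc _ (u b)⁻¹, (h a b).inv_right.eq]
    group

theorem eq_of_comm {u v : Hat →* G} (h : ∀ a b, Commute ((u a)⁻¹ * v a) (u b))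
    (h' : ∀ a b, Commute ((u a)⁻¹ * v a) (v b)) : u = v :=
  MonoidHom.ext fun g => inv_mul_eq_one.1
    (horth_self (u := hdiv u v h) (fun a b => (h a b).inv_right.mul_right (h' a b)) g)

theorem mem_all {H : Subgroup G} {u : Hat →* G} {S : Set I}
    (h : ∀ a ∈ S, ∀ b ∈ S, ∀ c ∈ S, D3 a b c → u (X a b c) ∈ H) {g : Hat} (hg : g ∈ HatOn S) :
    u g ∈ H := by
  refine (Subgroup.closure_le (H.comap u)).2 ?_ hg
  rintro _ ⟨a, ha, b, hb, c, hc, rfl⟩
  by_cases e : D3 a b c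
  · exact h a ha b hb c hc e
  · rw [X_degen e]
    exact one_mem _

theorem comm_all {y : G} {u : Hat →* G} (h : ∀ a b c, D3 a b c → Commute y (u (X a b c)))
    (g : Hat) : Commute y (u g) :=
  Subgroup.mem_centralizer_singleton_iff.1 (mem_all (H := Subgroup.centralizer {y})
    (S := Set.univ) (fun a _ b _ c _ e => Subgroup.mem_centralizer_singleton_iff.2 (h a b c e).symm)
    (hatOn_univ ▸ Subgroup.mem_top g)) |>.symm

theorem X_move {a b c a' b' c' : I} (h : D3 a b c) (h' : D3 a' b' c') :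
    ∃ x, x * X a b c * x⁻¹ = X a' b' c' := by
  obtain ⟨h1, h2, h3⟩ := h
  obtain ⟨k1, k2, k3⟩ := h'
  obtain ⟨x, hx⟩ := exists_pH {a, b, c} (Finset.card_le_three.trans (by norm_num))
    (fun i => if i = a then a' else if i = b then b' else c') (by
      intro i hi j hj
      simp only [Finset.coe_insert, Finset.coe_singleton, Set.mem_insert_iff,
        Set.mem_singleton_iff] at hi hj
      grind)
  refine ⟨x, ?_⟩
  rw [conj_X, hx a (by simp), hx b (by simp), hx c (by simp)]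
  simp [h1.symm, h2.symm, h3.symm]

theorem X_is_comm {S : Set I} (hS : 5 ≤ S.ncard) {a b c : I} (ha : a ∈ S) (hb : b ∈ S)
    (hc : c ∈ S) (h : D3 a b c) :
    ∃ x ∈ HatOn S, ∃ y ∈ HatOn S, X a b c = x * y * x⁻¹ * y⁻¹ := by
  have h1 : 1 < (S \ {a, b, c}).ncard := by
    have := Set.le_ncard_diff ({a, b, c} : Set I) S
    have := Set.ncard_insert_le a ({b, c} : Set I)
    have := Set.ncard_insert_le b ({c} : Set I)
    rw [Set.ncard_singleton] at this
    omega
  obtain ⟨j, hj, m, hm, hjm⟩ := (Set.one_lt_ncard (Set.toFinite _)).1 h1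
  simp only [Set.mem_diff, Set.mem_insert_iff, Set.mem_singleton_iff, not_or] at hj hm
  exact ⟨_, Subgroup.subset_closure ⟨a, ha, b, hb, j, hj.1, rfl⟩, _,
    Subgroup.subset_closure ⟨a, ha, c, hc, m, hm.1, rfl⟩,
    X_comm h ⟨h.1, Ne.symm hj.2.1, Ne.symm hj.2.2.1⟩ ⟨h.2.1, Ne.symm hm.2.1, Ne.symm hm.2.2.2⟩
      hj.2.2.2 (Ne.symm hm.2.2.1) hjm⟩

theorem conj_of {k c c' y : G} (h : k = c * c') (h' : Commute c' y) :
    k * y * k⁻¹ = c * y * c⁻¹ := by
  rw [h, mul_assoc c, h'.eq]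
  group

variable {F : Frame G}

/-- the complement -/
def cpl (u : Idem F) : Idem F :=
  ⟨u.e', u.e, hsymm u.orth, fun g => (u.tot g).trans (u.orth g g).eq, u.mem', u.mem⟩

theorem conj_e (u : Idem F) (x g : Hat) : F.κ x * u.e g * (F.κ x)⁻¹ = u.e (x * g * x⁻¹) := by
  rw [conj_of (u.tot x) (u.orth g x).symm, map_mul, map_mul, map_inv]

theorem trans {u v c : Idem F} (h : HOrth u.e c.e') (h' : HOrth v.e c.e) : HOrth u.e v.e := by
  have h1 : ∀ x g k, Commute (u.e g) (v.e k) → Commute (u.e (x * g * x⁻¹)) (v.e k) := by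
    intro x g k e
    rw [← conj_e, conj_of (c.tot x) (h g x).symm]
    exact ((h' k x).symm.mul_left e).mul_left (h' k x).symm.inv_left
  have h2 : Commute (u.e (X 0 1 2)) (v.e (X 5 6 7)) := by
    refine F.comm ({0, 1, 2, 3, 4} : Finset I) ({5, 6, 7, 8, 9} : Finset I)
      (Finset.disjoint_coe.2 (by decide)) _ (u.mem _ ?_ _ ?_) _ (v.mem _ ?_ _ ?_)
    · rw [Set.ncard_coe_finset]; decide
    · exact Subgroup.subset_closure ⟨0, by simp, 1, by simp, 2, by simp, rfl⟩
    · rw [Set.ncard_coe_finset]; decide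
    · exact Subgroup.subset_closure ⟨5, by simp, 6, by simp, 7, by simp, rfl⟩
  refine fun g => comm_all (fun a b c e => (comm_all (fun a' b' c' e' => ?_) g).symm)
  obtain ⟨x, hx⟩ := X_move (a := 5) (b := 6) (c := 7) ⟨by decide, by decide, by decide⟩ e
  obtain ⟨y, hy⟩ := X_move (a := 0) (b := 1) (c := 2) ⟨by decide, by decide, by decide⟩ e'
  have h3 := h2.conj (F.κ x)
  rw [conj_e, conj_e, hx] at h3
  have h4 := h1 (y * x⁻¹) _ _ h3
  rw [show y * x⁻¹ * (x * X 0 1 2 * x⁻¹) * (y * x⁻¹)⁻¹ = y * X 0 1 2 * y⁻¹ by group, hy] at h4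
  exact h4.symm

theorem quo (u v : Idem F) (g : Hat) : (u.e g)⁻¹ * v.e g = u.e' g * (v.e' g)⁻¹ := by
  rw [eq_mul_inv_iff_mul_eq, mul_assoc, ← v.tot, u.tot, inv_mul_cancel_left]

theorem antisymm {u v : Idem F} (h : HOrth u.e v.e') (h' : HOrth v.e u.e') : u = v :=
  Idem.ext' (eq_of_comm
    (fun a b => by rw [quo]; exact (u.orth b a).symm.mul_left (h b a).symm.inv_left)
    fun a b => by rw [quo]; exact (h' b a).symm.mul_left (v.orth b a).symm.inv_left)

theorem dif_comm {u v : Idem F} (h : HOrth u.e v.e') (a b : Hat) :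
    Commute ((u.e a)⁻¹ * v.e a) (u.e b) := by
  rw [quo]
  exact (u.orth b a).symm.mul_left (h b a).symm.inv_left

/-- the difference -/
def dif (u v : Idem F) (h : HOrth u.e v.e') : Idem F where
  e := hdiv u.e v.e (dif_comm h)
  e' := hmul u.e v.e' h
  orth a b := (dif_comm h a b).mul_right ((h a b).inv_left.mul_left (v.orth a b))
  tot g := by
    show _ = (u.e g)⁻¹ * v.e g * (u.e g * v.e' g)
    rw [← mul_assoc, (dif_comm h g g).eq, mul_inv_cancel_left, v.tot]
  mem S hS g hg := mul_mem (inv_mem (u.mem S hS g hg)) (v.mem S hS g hg)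
  mem' S hS g hg := mul_mem (u.mem S hS g hg) (v.mem' S hS g hg)

theorem iff_of {u v s : Idem F} (h : ∀ g, s.e g = u.e g * v.e g) (hu : HOrth u.e s.e')
    (hv : HOrth v.e s.e') (t : Idem F) : HOrth t.e s.e ↔ HOrth t.e u.e ∧ HOrth t.e v.e :=
  ⟨fun k => ⟨hsymm (trans hu k), hsymm (trans hv k)⟩,
    fun k a b => by rw [h]; exact (k.1 a b).mul_right (k.2 a b)⟩

theorem join_iff {u v : Idem F} (h : HOrth u.e v.e) (t : Idem F) :
    HOrth t.e (cpl (dif u (cpl v) h)).e ↔ HOrth t.e u.e ∧ HOrth t.e v.e :=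
  iff_of (fun _ => rfl) (fun a b => (dif_comm (v := cpl v) h b a).symm)
    (fun a b => (h b a).symm.inv_right.mul_right (v.orth a b)) t

theorem eq_mul {u v s : Idem F} (h : HOrth u.e v.e)
    (hs : ∀ t : Idem F, HOrth t.e s.e ↔ HOrth t.e u.e ∧ HOrth t.e v.e) (g : Hat) :
    s.e g = u.e g * v.e g := by
  have : s = cpl (dif u (cpl v) h) := antisymm
    (hsymm ((hs _).2 ((join_iff h (dif u (cpl v) h)).1 (dif u (cpl v) h).orth)))
    (hsymm ((join_iff h (cpl s)).2 ((hs (cpl s)).1 (hsymm s.orth))))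
  rw [this]
  rfl

/-- normal closure of the image of `w` under the image of `g` -/
def nc (g w : Hat →* G) : Subgroup G := Subgroup.closure {m | ∃ h x, m = g h * w x * (g h)⁻¹}

theorem mem_nc (g w : Hat →* G) (h x : Hat) : g h * w x * (g h)⁻¹ ∈ nc g w :=
  Subgroup.subset_closure ⟨h, x, rfl⟩

theorem mem_nc' (g w : Hat →* G) (x : Hat) : w x ∈ nc g w := by simpa using mem_nc g w 1 x

theorem nc_conj (g w : Idem F) (x : Hat) {m : G} (hm : m ∈ nc g.e w.e) :
    g.e' x * m * (g.e' x)⁻¹ ∈ nc g.e w.e := by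
  refine (Subgroup.closure_le ((nc g.e w.e).comap (MulAut.conj (g.e' x)).toMonoidHom)).2 ?_ hm
  rintro _ ⟨h, y, rfl⟩
  show g.e' x * (g.e h * w.e y * (g.e h)⁻¹) * (g.e' x)⁻¹ ∈ nc g.e w.e
  have e1 : g.e' x = (g.e x)⁻¹ * F.κ x := by rw [g.tot, inv_mul_cancel_left]
  have e2 : g.e' x * (g.e h * w.e y * (g.e h)⁻¹) * (g.e' x)⁻¹ =
      g.e h * (g.e' x * w.e y * (g.e' x)⁻¹) * (g.e h)⁻¹ := by
    have := (g.orth h x).eq
    calc _ = (g.e' x * g.e h) * w.e y * (g.e' x * g.e h)⁻¹ := by group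
      _ = _ := by rw [← this]; group
  have e3 := mem_nc g.e w.e (h * x⁻¹) (x * y * x⁻¹)
  rw [← conj_e, map_mul, map_inv] at e3
  rw [e2, e1]
  convert e3 using 1
  group

theorem nc_comm {g w w' : Hat →* G} (h : ∀ k x x', Commute (g k * w x * (g k)⁻¹) (w' x'))
    {m m' : G} (hm : m ∈ nc g w) (hm' : m' ∈ nc g w') : Commute m m' := by
  have key : ∀ {T : Set G} {a b : G}, (∀ x ∈ T, Commute x a) → b ∈ Subgroup.closure T →
      Commute b a := fun {T a b} h1 h2 => Subgroup.mem_centralizer_singleton_iff.1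
    ((Subgroup.closure_le (Subgroup.centralizer {a})).2
      (fun x hx => Subgroup.mem_centralizer_singleton_iff.2 (h1 x hx)) h2)
  refine key ?_ hm
  rintro _ ⟨k, x, rfl⟩
  refine (key ?_ hm').symm
  rintro _ ⟨k', x', rfl⟩
  have := (h (k'⁻¹ * k) x x').conj (g k')
  rw [map_mul, map_inv, show g k' * ((g k')⁻¹ * g k * w x * ((g k')⁻¹ * g k)⁻¹) * (g k')⁻¹ =
    g k * w x * (g k)⁻¹ by group] at this
  exact this.symm

theorem split (g w : Idem F) (h : ∀ k x x', Commute (g.e k * w.e x * (g.e k)⁻¹) (w.e' x')) :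
    ∃ y y' : Idem F, HOrth y.e w.e' ∧ HOrth y'.e w.e ∧
      ∀ t : Idem F, HOrth t.e g.e ↔ HOrth t.e y.e ∧ HOrth t.e y'.e := by
  have hc : ∀ {m m'}, m ∈ nc g.e w.e → m' ∈ nc g.e w.e' → Commute m m' := nc_comm h
  let μ : nc g.e w.e × nc g.e w.e' →* G := (nc g.e w.e).subtype.noncommCoprod
    (nc g.e w.e').subtype fun a b => hc a.2 b.2
  have hμ : ∀ x, μ x = x.1 * x.2 := fun _ => rfl
  obtain ⟨U, hU⟩ := lift_exists μ (fun x hx z => by
      rw [hμ] at hx
      refine Prod.ext (Subtype.ext ?_) (Subtype.ext ?_)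
      · show x.1.1 * z.1.1 = z.1.1 * x.1.1
        rw [eq_inv_of_mul_eq_one_left hx]
        exact (hc z.1.2 x.2.2).inv_right.symm
      · show x.2.1 * z.2.1 = z.2.1 * x.2.1
        rw [eq_inv_of_mul_eq_one_right hx]
        exact (hc x.1.2 z.2.2).inv_left) g.e fun k => by
    refine mem_all (H := μ.range) (S := Set.univ) (fun a _ b _ c _ e => ?_)
      (hatOn_univ ▸ Subgroup.mem_top k)
    obtain ⟨x, -, y, -, e'⟩ := X_is_comm (S := Set.univ) (by simp) trivial trivial trivial e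
    have m1 : ∀ m ∈ nc g.e w.e, m ∈ μ.range := fun m hm => ⟨(⟨m, hm⟩, 1), by simp [hμ]⟩
    have m2 : ∀ m ∈ nc g.e w.e', m ∈ μ.range := fun m hm => ⟨(1, ⟨m, hm⟩), by simp [hμ]⟩
    have := mul_mem (mul_mem (m1 _ (mem_nc' g.e w.e x)) (m2 _ (mem_nc' g.e w.e' x)))
      (inv_mem (mul_mem (m1 _ (mem_nc g.e w.e y x)) (m2 _ (mem_nc g.e w.e' y x))))
    rw [e', map_mul, ← conj_e, w.tot, map_inv]
    convert this using 1
    group
  let y : Hat →* G := (nc g.e w.e).subtype.comp ((MonoidHom.fst _ _).comp U)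
  let y' : Hat →* G := (nc g.e w.e').subtype.comp ((MonoidHom.snd _ _).comp U)
  have hy : ∀ k, y k ∈ nc g.e w.e := fun k => (U k).1.2
  have hy' : ∀ k, y' k ∈ nc g.e w.e' := fun k => (U k).2.2
  have hg : ∀ k, g.e k = y k * y' k := fun k => (hU k).symm
  clear_value y y'
  have o1 : HOrth y y' := fun a b => hc (hy a) (hy' b)
  have o2 : HOrth y w.e' := fun a b => hc (hy a) (mem_nc' _ _ b)
  have o3 : HOrth y' w.e := fun a b => (hc (mem_nc' _ _ b) (hy' a)).symm
  have o4 : HOrth y g.e' := fun a x => by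
    have key : ∀ k, ∀ m ∈ nc g.e w.e, Commute ((y k)⁻¹ * (g.e' x * y k * (g.e' x)⁻¹)) m := by
      intro k m hm
      have e : (y k)⁻¹ * (g.e' x * y k * (g.e' x)⁻¹) = y' k * (g.e' x * y' k * (g.e' x)⁻¹)⁻¹ := by
        have := (g.orth k x).eq
        rw [hg k] at this
        calc _ = (y k)⁻¹ * (g.e' x * (y k * y' k)) * ((y' k)⁻¹ * (g.e' x)⁻¹) := by group
          _ = _ := by rw [← this]; group
      rw [e]
      exact (hc hm (mul_mem (hy' k) (inv_mem (nc_conj g (cpl w) x (hy' k))))).symm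
    have := eq_of_comm (u := y) (v := (MulAut.conj (g.e' x)).toMonoidHom.comp y)
      (fun k l => key k _ (hy l)) fun k l => key k _ (nc_conj g w x (hy l))
    exact (eq_mul_inv_iff_mul_eq.1 (DFunLike.congr_fun this a) :)
  have e' : ∀ k, y' k = (y k)⁻¹ * g.e k := fun k => by rw [hg, inv_mul_cancel_left]
  have o5 : HOrth y' g.e' := fun a x => by
    rw [e']
    exact (o4 a x).inv_left.mul_left (g.orth a x)
  have my : ∀ S : Set I, 5 ≤ S.ncard → ∀ k ∈ HatOn S, y k ∈ F.Γ S := fun S hS k hk => by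
    refine mem_all (fun a ha b hb c hc e => ?_) hk
    obtain ⟨p, hp, q, hq, e'⟩ := X_is_comm hS ha hb hc e
    have e1 : y p * y q * (y p)⁻¹ = w.e p * y q * (w.e p)⁻¹ := by
      rw [← conj_of (hg p) (o1 q p).symm, ← conj_of (g.tot p) (o4 q p).symm,
        conj_of (w.tot p) (o2 q p).symm]
    have e2 := conj_of (hg q) (o3 q p).inv_right
    have := mul_mem (w.mem S hS p hp) (mul_mem (mul_mem (g.mem S hS q hq)
      (inv_mem (w.mem S hS p hp))) (inv_mem (g.mem S hS q hq)))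
    rw [e', map_mul, map_mul, map_mul, map_inv, map_inv, e1]
    rw [e2] at this
    convert this using 1
    group
  have my' : ∀ S : Set I, 5 ≤ S.ncard → ∀ k ∈ HatOn S, y' k ∈ F.Γ S := fun S hS k hk => by
    rw [e']
    exact mul_mem (inv_mem (my S hS k hk)) (g.mem S hS k hk)
  refine ⟨⟨y, hmul y' g.e' o5, fun a b => (o1 a b).mul_right (o4 a b),
      fun k => by rw [g.tot, hg, mul_assoc]; rfl, my,
      fun S hS k hk => mul_mem (my' S hS k hk) (g.mem' S hS k hk)⟩,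
    ⟨y', hmul y g.e' o4, fun a b => (o1 b a).symm.mul_right (o5 a b),
      fun k => by rw [g.tot, hg, (o1 k k).eq, mul_assoc]; rfl, my',
      fun S hS k hk => mul_mem (my S hS k hk) (g.mem' S hS k hk)⟩, o2, o3, iff_of hg o4 o5⟩

theorem coh {e f g w w' v v' s s' : Idem F} (h1 : HOrth w.e e.e') (h2 : HOrth w'.e e.e)
    (h3 : ∀ t : Idem F, HOrth t.e f.e ↔ HOrth t.e w.e ∧ HOrth t.e w'.e)
    (h4 : HOrth v.e e.e') (h5 : HOrth v'.e e.e)
    (h6 : ∀ t : Idem F, HOrth t.e g.e ↔ HOrth t.e v.e ∧ HOrth t.e v'.e)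
    (h7 : HOrth s.e f.e') (h8 : HOrth s'.e f.e)
    (h9 : ∀ t : Idem F, HOrth t.e g.e ↔ HOrth t.e s.e ∧ HOrth t.e s'.e) (k x x' : Hat) :
    Commute (g.e k * w.e x * (g.e k)⁻¹) (w.e' x') := by
  have d1 : HOrth (dif w e h1).e w.e := dif_comm h1
  have d2 : HOrth (dif w e h1).e e.e' := fun a b => (h1 a b).inv_left.mul_left (e.orth a b)
  have d3 : HOrth (dif w e h1).e f.e := (h3 _).2 ⟨d1, trans d2 h2⟩
  have wf : HOrth w.e f.e' := hsymm ((h3 (cpl f)).1 (hsymm f.orth)).1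
  have e1 : w.e' x' = (dif w e h1).e x' * e.e' x' := by
    show _ = (w.e x')⁻¹ * e.e x' * e.e' x'
    rw [quo, inv_mul_cancel_right]
  rw [e1]
  refine Commute.mul_right ?_ ?_
  · rw [conj_of (eq_mul (trans h7 h8) h9 k) (trans wf h8 x k).symm]
    exact ((trans h7 d3 k x').mul_left (d1 x' x).symm).mul_left (trans h7 d3 k x').inv_left
  · rw [conj_of (eq_mul (trans h4 h5) h6 k) (trans h1 h5 x k).symm]
    exact ((h4 k x').mul_left (h1 x x')).mul_left (h4 k x').inv_left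

end AltLogic

open AltLogic in
theorem altLogic {G : Type} [Group G] (F : Frame G) : ∃ Q : QL (Idem F),
    (∀ u v, Q.orth u v ↔ HOrth u.e v.e) ∧ (∀ u, (Q.cpl u).e = u.e') ∧
      ∀ u v s, Q.orth u v → (∀ t, Q.orth t s ↔ Q.orth t u ∧ Q.orth t v) →
        ∀ g, s.e g = u.e g * v.e g :=
  ⟨{ orth := fun u v => HOrth u.e v.e
     cpl := cpl
     top := ⟨F.κ, 1, fun _ _ => Commute.one_right _, fun _ => (mul_one _).symm, F.mem,
       fun _ _ _ _ => one_mem _⟩
     symm := hsymm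
     cpl_cpl := fun _ => rfl
     orth_cpl := fun u => u.orth
     trans := trans
     antisymm := antisymm
     zero := fun h t a b => by rw [horth_self h]; exact Commute.one_right _
     le_top := fun _ _ _ => Commute.one_right _
     join := fun h => ⟨_, join_iff h⟩
     diff := fun {u v} h => ⟨dif u v h, hsymm (dif_comm h), iff_of
       (fun g => (mul_inv_cancel_left _ _).symm) h
       fun a b => (h a b).inv_left.mul_left (v.orth a b)⟩
     coh := fun h1 h2 h3 h4 h5 h6 h7 h8 h9 => split _ _ (coh h1 h2 h3 h4 h5 h6 h7 h8 h9) },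
    fun _ _ => Iff.rfl, fun _ => rfl, fun _ _ _ => eq_mul⟩

end Vale.Agent.P196
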