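import Vale.Agent.P196.Conc

/-! P196: almost invariant sets, general facts. -/

namespace Vale.Agent.P196

open Equiv Pointwise

set_option linter.deprecated false

namespace AmA

theorem prod_ge {J : Type} (s : Finset J) (x : J → ℝ) (h : ∀ j, 0 ≤ x j ∧ x j ≤ 1) :
    1 - ∑ j ∈ s, (1 - x j) ≤ ∏ j ∈ s, x j := by
  classical
  induction s using Finset.induction_on with
  | empty => simp
  | insert a s ha ih =>
    rw [Finset.sum_insert ha, Finset.prod_insert ha]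
    have h1 : ∏ j ∈ s, x j ≤ 1 := Finset.prod_le_one (fun j _ => (h j).1) fun j _ => (h j).2
    nlinarith [h a]

theorem cos_prod {J : Type} [Fintype J] (θ : J → ℝ) (h : ∀ j, 0 ≤ θ j ∧ θ j ≤ Real.pi / 2)
    (γ : Perm J) : 1 - (∑ j, (θ j - θ (γ j)) ^ 2) / 2 ≤ ∏ j, Real.cos (θ j - θ (γ j)) ∧
      0 ≤ ∏ j, Real.cos (θ j - θ (γ j)) ∧ ∏ j, Real.cos (θ j - θ (γ j)) ≤ 1 := by
  have c : ∀ j, 0 ≤ Real.cos (θ j - θ (γ j)) := fun j =>
    Real.cos_nonneg_of_mem_Icc ⟨by linarith [h j, h (γ j)], by linarith [h j, h (γ j)]⟩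
  refine ⟨le_trans ?_ (prod_ge _ _ fun j => ⟨c j, Real.cos_le_one _⟩),
    Finset.prod_nonneg fun j _ => c j, Finset.prod_le_one (fun j _ => c j) fun j _ => Real.cos_le_one _⟩
  rw [Finset.sum_div]
  exact sub_le_sub_left (Finset.sum_le_sum fun j _ => by
    linarith [Real.one_sub_sq_div_two_le_cos (x := θ j - θ (γ j))]) 1

theorem amp_flip {J : Type} [Fintype J] [DecidableEq J] (θ : J → ℝ) (γ : Perm J) (c : J → Bool)
    (hc : ∀ j, c j = true → θ j = Real.pi / 4) :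
    ∑ ω, amp θ ω * amp θ (flipE γ c ω) = ∏ j, Real.cos (θ j - θ (γ j)) := by
  have e : ∀ ω, amp θ ω * amp θ (flipE γ c ω) = ∏ j, (if ω j then Real.sin (θ j) else Real.cos (θ j))
      * if xor (ω j) (c j) then Real.sin (θ (γ j)) else Real.cos (θ (γ j)) := fun ω => by
    rw [Finset.prod_mul_distrib, amp, amp, ← Equiv.prod_comp γ fun j =>
      if flipE γ c ω j then Real.sin (θ j) else Real.cos (θ j)]
    simp [flipE]
  simp only [e]
  rw [← Fintype.piFinset_univ, ← Finset.prod_univ_sum (fun _ => Finset.univ) fun j (b : Bool) =>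
    (if b then Real.sin (θ j) else Real.cos (θ j))
      * if xor b (c j) then Real.sin (θ (γ j)) else Real.cos (θ (γ j))]
  refine Finset.prod_congr rfl fun j _ => ?_
  cases h : c j
  · simp [Real.cos_sub, add_comm]
  · simp [Real.cos_sub, hc j h]

variable {G Ω : Type} [Group G] [MulAction G Ω]

/-- the points leaving `D` -/
def lv (g : G) (D : Set Ω) : Set Ω := {ω | ω ∈ D ∧ g • ω ∉ D}

theorem lv_sub (g : G) (D : Set Ω) : lv g D ⊆ D := fun _ h => h.1

theorem lv_img (g : G) (D : Set Ω) : (fun ω => g • ω) '' D \ D = (fun ω => g • ω) '' lv g D := by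
  ext x
  constructor
  · rintro ⟨⟨y, hy, rfl⟩, h⟩
    exact ⟨y, ⟨hy, h⟩, rfl⟩
  · rintro ⟨y, hy, rfl⟩
    exact ⟨⟨y, hy.1, rfl⟩, hy.2⟩

theorem lv_inv' (g : G) {D : Set Ω} (hD : D.Finite) :
    (D \ (fun ω => g • ω) '' D).ncard = (lv g D).ncard := by
  have i := MulAction.injective (β := Ω) g
  rw [← Set.ncard_image_of_injective (lv g D) i, ← lv_img]
  have a := Set.ncard_inter_add_ncard_diff_eq_ncard D ((fun ω => g • ω) '' D) hD
  have b := Set.ncard_inter_add_ncard_diff_eq_ncard ((fun ω => g • ω) '' D) D (hD.image _)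
  rw [Set.inter_comm, Set.ncard_image_of_injective D i] at b
  omega

theorem lv_inv (g : G) {D : Set Ω} (hD : D.Finite) : (lv g⁻¹ D).ncard = (lv g D).ncard := by
  rw [← lv_inv' g hD]
  congr 1
  ext x
  refine and_congr_right fun _ => not_congr ⟨fun h => ⟨_, h, by simp⟩, ?_⟩
  rintro ⟨y, hy, rfl⟩
  simpa using hy

theorem symm_eq (g : G) {D : Set Ω} (hD : D.Finite) :
    ((symmDiff ((fun ω => g • ω) '' D) D).ncard : ℝ) = 2 * (lv g D).ncard := by
  rw [Set.symmDiff_def, Set.ncard_union_eq disjoint_sdiff_sdiff (hD.image _).diff hD.diff,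
    lv_inv' g hD, lv_img, Set.ncard_image_of_injective _ (MulAction.injective (β := Ω) g)]
  push_cast
  ring

theorem fol_iff {K : Finset G} {e : ℝ} {D : Set Ω} : Fol K e D ↔ D.Finite ∧ D.Nonempty ∧
    ∀ g ∈ K, 2 * ((lv g D).ncard : ℝ) ≤ e * D.ncard :=
  and_congr_right fun hD => by simp only [symm_eq _ hD]

theorem namioka (K : Finset G) (e : ℝ) (R : Finset Ω) : ∀ (n : ℕ) (μ : Ω → ℝ), (∀ x, 0 ≤ μ x) →
    {x | μ x ≠ 0} ⊆ R → {x | μ x ≠ 0}.ncard = n → {x | μ x ≠ 0}.Nonempty →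
    ∑ g ∈ K, ∑ x ∈ R, max (μ x - μ (g • x)) 0 ≤ e * ∑ x ∈ R, μ x →
    ∃ D : Set Ω, D ⊆ R ∧ D.Nonempty ∧ ∑ g ∈ K, ((lv g D).ncard : ℝ) ≤ e * D.ncard := by
  classical
  intro n
  induction n using Nat.strong_induction_on with
  | _ n ih =>
  intro μ h0 hR hn hne H
  set D := {x | μ x ≠ 0} with hD
  have fin : D.Finite := R.finite_toSet.subset hR
  by_contra hcon
  have bad : e * D.ncard < ∑ g ∈ K, ((lv g D).ncard : ℝ) :=
    not_le.1 fun h => hcon ⟨D, hR, hne, h⟩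
  obtain ⟨x0, hx0, hm⟩ := Set.exists_min_image D μ fin hne
  have mp : 0 < μ x0 := (h0 x0).lt_of_ne' hx0
  let ν : Ω → ℝ := fun x => if x ∈ D then μ x - μ x0 else 0
  have cnt : ∀ E : Set Ω, E ⊆ D → ∑ x ∈ R, (if x ∈ E then μ x0 else 0) = μ x0 * E.ncard :=
    fun E hE => by
      rw [← Finset.sum_filter, Finset.sum_const, nsmul_eq_mul, mul_comm, ← Set.ncard_coe_finset]
      congr 3
      ext x
      simpa using fun h => hR (hE h)
  have z : ∀ x, x ∉ D → μ x = 0 := fun x h => not_not.1 h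
  have e1 : ∑ x ∈ R, μ x = ∑ x ∈ R, ν x + μ x0 * D.ncard := by
    rw [← cnt D le_rfl, ← Finset.sum_add_distrib]
    refine Finset.sum_congr rfl fun x _ => ?_
    by_cases h : x ∈ D <;> simp [ν, h, z]
  have e2 : ∀ g : G, ∑ x ∈ R, max (μ x - μ (g • x)) 0
      = ∑ x ∈ R, max (ν x - ν (g • x)) 0 + μ x0 * (lv g D).ncard := fun g => by
    rw [← cnt _ (lv_sub g D), ← Finset.sum_add_distrib]
    refine Finset.sum_congr rfl fun x _ => ?_
    by_cases h : x ∈ D <;> by_cases h' : g • x ∈ D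
    · simp [ν, lv, h, h']
    · simp [ν, lv, h, h', z _ h', h0, hm x h]
    · simp [ν, lv, h, h', z _ h, h0, hm _ h']
    · simp [ν, lv, h, h', z _ h, z _ h']
  simp only [e1, e2, Finset.sum_add_distrib, ← Finset.mul_sum] at H
  have lt : ∑ g ∈ K, ∑ x ∈ R, max (ν x - ν (g • x)) 0 < e * ∑ x ∈ R, ν x := by nlinarith
  have sub : {x | ν x ≠ 0} ⊂ D := ⟨fun x hx => by_contra fun h => hx (if_neg h),
    fun h => h hx0 (by simp [ν])⟩
  refine hcon (ih _ (hn ▸ Set.ncard_lt_ncard sub fin) ν (fun x => ?_) (sub.1.trans hR) rfl ?_ lt.le)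
  · by_cases h : x ∈ D <;> simp [ν, h, hm x]
  · by_contra h
    have : ∀ x, ν x = 0 := fun x => by_contra fun hx => h ⟨x, hx⟩
    simp [this] at lt

theorem one_orbit (K : Finset G) (e : ℝ) : ∀ (n : ℕ) (D : Set Ω), D.Finite → D.ncard = n →
    D.Nonempty → ∑ g ∈ K, ((lv g D).ncard : ℝ) ≤ e * D.ncard →
    ∃ D' ⊆ D, ∃ x ∈ D', D' ⊆ MulAction.orbit G x ∧
      ∑ g ∈ K, ((lv g D').ncard : ℝ) ≤ e * D'.ncard := by
  intro n
  induction n using Nat.strong_induction_on with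
  | _ n ih =>
  rintro D fin hn ⟨x, hx⟩ H
  set O := MulAction.orbit G x
  have xO : x ∈ O := MulAction.mem_orbit_self x
  by_cases h : ∑ g ∈ K, ((lv g (D ∩ O)).ncard : ℝ) ≤ e * (D ∩ O).ncard
  · exact ⟨_, Set.inter_subset_left, x, ⟨hx, xO⟩, Set.inter_subset_right, h⟩
  have inv : ∀ (g : G) y, g • y ∈ O ↔ y ∈ O := fun g y =>
    ⟨fun h => by simpa using MulAction.mapsTo_smul_orbit g⁻¹ x h, fun h =>
      MulAction.mapsTo_smul_orbit g x h⟩
  have e2 : ∀ g : G, ((lv g D).ncard : ℝ) = (lv g (D ∩ O)).ncard + (lv g (D \ O)).ncard :=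
    fun g => by
      rw [← Set.ncard_inter_add_ncard_diff_eq_ncard (lv g D) O (fin.subset (lv_sub g D))]
      push_cast
      congr 3 <;> ext y <;> simp only [lv, Set.mem_inter_iff, Set.mem_diff, Set.mem_setOf_eq, inv] <;>
        tauto
  have e1 := Set.ncard_inter_add_ncard_diff_eq_ncard D O fin
  simp only [e2, Finset.sum_add_distrib, ← e1] at H
  push_cast at H
  have lt : ∑ g ∈ K, ((lv g (D \ O)).ncard : ℝ) < e * (D \ O).ncard := by linarith
  obtain ⟨D', a, b⟩ := ih _ (hn ▸ Set.ncard_lt_ncard ⟨Set.diff_subset, fun h => (h hx).2 xO⟩ fin)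
    (D \ O) fin.diff rfl (Set.nonempty_iff_ne_empty.2 fun h => by simp [h, lv] at lt) lt.le
  exact ⟨D', a.trans Set.diff_subset, b⟩

theorem lv_mul (g h : G) {D : Set Ω} (hD : D.Finite) :
    (lv (g * h) D).ncard ≤ (lv g D).ncard + (lv h D).ncard := by
  have i := MulAction.injective (β := Ω) h⁻¹
  rw [← Set.ncard_image_of_injective (lv g D) i]
  refine le_trans (Set.ncard_le_ncard (fun x hx => ?_) (((hD.subset (lv_sub _ _)).image _).union
    (hD.subset (lv_sub _ _)))) (Set.ncard_union_le _ _)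
  by_cases a : h • x ∈ D
  · exact Or.inl ⟨h • x, ⟨a, by simpa [mul_smul] using hx.2⟩, by simp⟩
  · exact Or.inr ⟨hx.1, a⟩

end AmA

open AmA

theorem amp_sq {J : Type} [Fintype J] [DecidableEq J] (θ : J → ℝ) : ∑ ω, amp θ ω ^ 2 = 1 := by
  simpa [sq, flipE, Perm.one_symm] using amp_flip θ 1 (fun _ => false) (by simp)

theorem amp_bound {J₁ J₂ : Type} [Fintype J₁] [DecidableEq J₁] [Fintype J₂] [DecidableEq J₂]
    (θ₁ : J₁ → ℝ) (θ₂ : J₂ → ℝ) (h₁ : ∀ j, 0 ≤ θ₁ j ∧ θ₁ j ≤ Real.pi / 2)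
    (h₂ : ∀ j, 0 ≤ θ₂ j ∧ θ₂ j ≤ Real.pi / 2) (γ₁ : Perm J₁) (γ₂ : Perm J₂)
    (c : (J₁ → Bool) → J₂ → Bool) (hc : ∀ ω j, c ω j = true → θ₂ j = Real.pi / 4) :
    1 - (∑ j, (θ₁ j - θ₁ (γ₁ j)) ^ 2 + ∑ j, (θ₂ j - θ₂ (γ₂ j)) ^ 2) / 2 ≤
      ∑ ω : (J₁ → Bool) × (J₂ → Bool), amp θ₁ ω.1 * amp θ₂ ω.2 *
        (amp θ₁ (flipE γ₁ (fun _ => false) ω.1) * amp θ₂ (flipE γ₂ (c ω.1) ω.2)) := by
  rw [Fintype.sum_prod_type]
  have e : ∀ ω : J₁ → Bool, ∑ ω' : J₂ → Bool, amp θ₁ ω * amp θ₂ ω' *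
      (amp θ₁ (flipE γ₁ (fun _ => false) ω) * amp θ₂ (flipE γ₂ (c ω) ω'))
      = amp θ₁ ω * amp θ₁ (flipE γ₁ (fun _ => false) ω) * ∏ j, Real.cos (θ₂ j - θ₂ (γ₂ j)) :=
    fun ω => by
      rw [← amp_flip θ₂ γ₂ (c ω) (hc ω), Finset.mul_sum]
      exact Finset.sum_congr rfl fun _ _ => by ring
  simp only [e]
  rw [← Finset.sum_mul, amp_flip θ₁ γ₁ _ (by simp)]
  obtain ⟨a1, a2, a3⟩ := cos_prod θ₁ h₁ γ₁
  obtain ⟨b1, b2, b3⟩ := cos_prod θ₂ h₂ γ₂
  nlinarith

theorem fol_of_amp {G Ω W : Type} [Group G] [MulAction G Ω] [Fintype W] (K : Finset G) {e η : ℝ}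
    (he : 0 < e) (hη : 8 * η * (K.card : ℝ) ^ 2 ≤ e ^ 2) (f : W → ℝ) (hf : ∑ ω, f ω ^ 2 = 1)
    (A : W → Ω) (h : ∀ g ∈ K, ∃ T : W ≃ W, (∀ ω, f ω ≠ 0 → g • A ω = A (T ω)) ∧
      1 - η ≤ ∑ ω, f ω * f (T ω)) : ∃ D, Fol K e D ∧ D ⊆ Set.range A := by
  classical
  let μ : Ω → ℝ := fun x => ∑ ω with A ω = x, f ω ^ 2
  let R : Finset Ω := Finset.univ.image A
  have fib : ∀ u : W → ℝ, ∑ x ∈ R, ∑ ω with A ω = x, u ω = ∑ ω, u ω := fun u =>
    Finset.sum_fiberwise_of_maps_to (fun ω _ => Finset.mem_image_of_mem A (Finset.mem_univ ω)) u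
  have key : ∀ g ∈ K, K.card * ∑ x ∈ R, max (μ x - μ (g • x)) 0 ≤ e / 2 := fun g hg => by
    obtain ⟨T, hT, hη'⟩ := h g hg
    have hT2 : ∑ ω, f (T ω) ^ 2 = 1 := (Equiv.sum_comp T fun ω => f ω ^ 2).trans hf
    have s1 : ∑ x ∈ R, max (μ x - μ (g • x)) 0 ≤ ∑ ω, max (f ω ^ 2 - f (T ω) ^ 2) 0 := by
      rw [← fib]
      refine Finset.sum_le_sum fun x _ => max_le ?_ (Finset.sum_nonneg fun _ _ => le_max_right _ _)
      have : ∑ ω with A ω = x, (if f ω = 0 then 0 else f (T ω) ^ 2) ≤ μ (g • x) := by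
        rw [← Finset.sum_filter_of_ne (p := fun ω => f ω ≠ 0) (by intro ω _ h h'; simp [h'] at h),
          Finset.sum_congr rfl (g := fun ω => f (T ω) ^ 2) (by
            intro ω h; rw [if_neg (Finset.mem_filter.1 h).2]),
          ← Finset.sum_image (f := fun ω => f ω ^ 2) T.injective.injOn]
        refine Finset.sum_le_sum_of_subset_of_nonneg (fun y hy => ?_) fun _ _ _ => sq_nonneg _
        obtain ⟨ω, hω, rfl⟩ := Finset.mem_image.1 hy
        simp only [Finset.mem_filter, Finset.mem_univ, true_and] at hω ⊢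
        rw [← hT ω hω.2, hω.1]
      refine (sub_le_sub_left this _).trans ?_
      rw [← Finset.sum_sub_distrib]
      refine Finset.sum_le_sum fun ω _ => ?_
      split_ifs with h0
      · simp [h0]
      · exact le_max_left _ _
    have s2 : 2 * ∑ ω, max (f ω ^ 2 - f (T ω) ^ 2) 0 = ∑ ω, |f ω - f (T ω)| * |f ω + f (T ω)| := by
      have : ∑ ω, (f ω ^ 2 - f (T ω) ^ 2) = 0 := by rw [Finset.sum_sub_distrib, hf, hT2, sub_self]
      refine (sub_eq_self.2 this).symm.trans ?_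
      rw [Finset.mul_sum, ← Finset.sum_sub_distrib]
      refine Finset.sum_congr rfl fun ω _ => ?_
      rw [← abs_mul, show (f ω - f (T ω)) * (f ω + f (T ω)) = f ω ^ 2 - f (T ω) ^ 2 by ring]
      rcases le_total 0 (f ω ^ 2 - f (T ω) ^ 2) with a | a
      · rw [max_eq_left a, abs_of_nonneg a]; ring
      · rw [max_eq_right a, abs_of_nonpos a]; ring
    have s3 := Finset.sum_mul_sq_le_sq_mul_sq Finset.univ (fun ω => |f ω - f (T ω)|)
      fun ω => |f ω + f (T ω)|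
    simp only [sq_abs, sub_sq, add_sq, Finset.sum_add_distrib, Finset.sum_sub_distrib, hf, hT2,
      mul_assoc, ← Finset.mul_sum] at s3
    rw [← s2] at s3
    have s0 : 0 ≤ ∑ x ∈ R, max (μ x - μ (g • x)) 0 := Finset.sum_nonneg fun _ _ => le_max_right _ _
    have s4 := Finset.sum_mul_sq_le_sq_mul_sq Finset.univ f fun ω => f (T ω)
    rw [hf, hT2] at s4
    have s5 : (∑ x ∈ R, max (μ x - μ (g • x)) 0) ^ 2 ≤ 2 * η := by
      have := pow_le_pow_left₀ s0 s1 2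
      nlinarith [sq_nonneg (1 - ∑ ω, f ω * f (T ω))]
    refine (abs_le_of_sq_le_sq' ?_ (by positivity)).2
    rw [mul_pow]
    nlinarith [mul_le_mul_of_nonneg_left s5 (sq_nonneg (K.card : ℝ))]
  have tot : ∑ x ∈ R, μ x = 1 := (fib _).trans hf
  obtain ⟨D, hD, hne, H⟩ := namioka K (e / 2) R _ μ
    (fun x => Finset.sum_nonneg fun _ _ => sq_nonneg _) (fun x hx => by
      obtain ⟨ω, hω, -⟩ := Finset.exists_ne_zero_of_sum_ne_zero hx
      exact Finset.mem_image.2 ⟨ω, Finset.mem_univ _, (Finset.mem_filter.1 hω).2⟩) rfl (by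
      obtain ⟨x, -, hx⟩ := Finset.exists_ne_zero_of_sum_ne_zero (tot.trans_ne one_ne_zero)
      exact ⟨x, hx⟩) (by
      rw [tot, mul_one]
      rcases K.eq_empty_or_nonempty with rfl | hK
      · simpa using (half_pos he).le
      have hK' : (0 : ℝ) < K.card := by exact_mod_cast hK.card_pos
      refine le_of_mul_le_mul_left ?_ hK'
      rw [Finset.mul_sum]
      simpa using Finset.sum_le_card_nsmul K _ _ key)
  refine ⟨D, fol_iff.2 ⟨R.finite_toSet.subset hD, hne, fun g hg => ?_⟩, fun x hx => ?_⟩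
  · linarith [Finset.single_le_sum (f := fun g => ((lv g D).ncard : ℝ)) (fun _ _ => by positivity) hg]
  · simpa [R] using hD hx

theorem Fol.prod {G Ω Ω' : Type} [Group G] [MulAction G Ω] [MulAction G Ω'] {K : Finset G}
    {e e' : ℝ} {D : Set Ω} {D' : Set Ω'} (h : Fol K e D) (h' : Fol K e' D') :
    Fol K (e + e') (D ×ˢ D') := by
  obtain ⟨a1, a2, a3⟩ := fol_iff.1 h
  obtain ⟨b1, b2, b3⟩ := fol_iff.1 h'
  refine fol_iff.2 ⟨a1.prod b1, a2.prod b2, fun g hg => ?_⟩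
  have : (lv g (D ×ˢ D')).ncard ≤ (lv g D).ncard * D'.ncard + D.ncard * (lv g D').ncard := by
    rw [← Set.ncard_prod, ← Set.ncard_prod]
    refine le_trans (Set.ncard_le_ncard (fun x hx => ?_) (((a1.subset (lv_sub _ _)).prod b1).union
      (a1.prod (b1.subset (lv_sub _ _))))) (Set.ncard_union_le _ _)
    by_cases a : g • x.1 ∈ D
    · exact Or.inr ⟨hx.1.1, hx.1.2, fun b => hx.2 ⟨a, b⟩⟩
    · exact Or.inl ⟨⟨hx.1.1, a⟩, hx.1.2⟩
  have : ((lv g (D ×ˢ D')).ncard : ℝ) ≤ (lv g D).ncard * D'.ncard + D.ncard * (lv g D').ncard := by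
    exact_mod_cast this
  rw [Set.ncard_prod]
  push_cast
  nlinarith [mul_le_mul_of_nonneg_right (a3 g hg) (Nat.cast_nonneg (α := ℝ) D'.ncard),
    mul_le_mul_of_nonneg_right (b3 g hg) (Nat.cast_nonneg (α := ℝ) D.ncard)]

/-- extension by locally finite stabilisers -/
theorem Fol.ext {G Ω : Type} [Group G] [MulAction G Ω] {K : Finset G} {e : ℝ} {D : Set Ω}
    (h : Fol K e D) (hs : ∀ ω ∈ D, ∀ s : Finset G, (∀ g ∈ s, g • ω = ω) →
      Finite (Subgroup.closure (s : Set G))) : ∃ F : Set G, Fol K (K.card * e) F := by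
  classical
  obtain ⟨a1, a2, a3⟩ := fol_iff.1 h
  obtain ⟨E, hE, x, hx, hO, H⟩ := one_orbit K (K.card * e / 2) _ D a1 rfl a2 (by
    have := Finset.sum_le_card_nsmul K _ _ a3
    rw [← Finset.mul_sum, nsmul_eq_mul] at this
    linarith)
  have fin := a1.subset hE
  choose! σ hσ using fun y (hy : y ∈ E) => MulAction.mem_orbit_iff.1 (hO hy)
  let s : Finset G := ((K ×ˢ fin.toFinset).filter fun p => p.1 • p.2 ∈ E).image
    fun p => (σ (p.1 • p.2))⁻¹ * p.1 * σ p.2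
  have fix : ∀ g ∈ s, g • x = x := fun g hg => by
    obtain ⟨p, hp, rfl⟩ := Finset.mem_image.1 hg
    simp only [Finset.mem_filter, Finset.mem_product, Set.Finite.mem_toFinset] at hp
    rw [mul_smul, mul_smul, hσ _ hp.1.2, inv_smul_eq_iff, hσ _ hp.2]
  have hL : (Subgroup.closure (s : Set G) : Set G).Finite := hs x (hE hx) s fix
  set L := Subgroup.closure (s : Set G)
  have fix' : ∀ l ∈ L, l • x = x := fun l hl =>
    (Subgroup.closure_le (MulAction.stabilizer G x)).2 fix hl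
  let m : Ω × G → G := fun p => σ p.1 * p.2
  have inj : Set.InjOn m (E ×ˢ (L : Set G)) := fun p hp q hq e => by
    have e1 : p.1 = q.1 := by
      have := congrArg (· • x) e
      simpa only [m, mul_smul, fix' _ hp.2, fix' _ hq.2, hσ _ hp.1, hσ _ hq.1] using this
    exact Prod.ext e1 (by simpa [m, e1] using e)
  refine ⟨m '' E ×ˢ (L : Set G), fol_iff.2 ⟨(fin.prod hL).image _,
    ⟨_, (x, 1), ⟨hx, L.one_mem⟩, rfl⟩, fun g hg => ?_⟩⟩
  have : (lv g (m '' E ×ˢ (L : Set G))).ncard ≤ (lv g E).ncard * (L : Set G).ncard := by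
    rw [← Set.ncard_prod]
    have f2 := (fin.subset (lv_sub g E)).prod hL
    refine le_trans (Set.ncard_le_ncard ?_ (f2.image m)) (Set.ncard_image_le f2)
    rintro _ ⟨⟨p, hp, rfl⟩, hn⟩
    refine ⟨p, ⟨⟨hp.1, fun h => hn ⟨(g • p.1, (σ (g • p.1))⁻¹ * g * σ p.1 * p.2), ⟨h, L.mul_mem
      (Subgroup.subset_closure ?_) hp.2⟩, by simp [m, mul_assoc]⟩⟩, hp.2⟩, rfl⟩
    exact Finset.mem_image.2 ⟨(g, p.1), by simp [hg, hp.1, h], rfl⟩
  have : ((lv g (m '' E ×ˢ (L : Set G))).ncard : ℝ) ≤ (lv g E).ncard * (L : Set G).ncard := by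
    exact_mod_cast this
  rw [inj.ncard_image, Set.ncard_prod]
  push_cast
  have b := Finset.single_le_sum (f := fun g => ((lv g E).ncard : ℝ)) (fun _ _ => by positivity) hg
  nlinarith [mul_le_mul_of_nonneg_right (b.trans H) (Nat.cast_nonneg (α := ℝ) (L : Set G).ncard)]

/-- from generators to the group -/
theorem fol_of_gen {G : Type} [Group G] [DecidableEq G] {S : Set G} (hS : Subgroup.closure S = ⊤)
    (h : ∀ K : Finset G, (K : Set G) ⊆ S → ∀ e : ℝ, 0 < e → ∃ F : Set G, Fol K e F)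
    (K : Finset G) {e : ℝ} (he : 0 < e) : ∃ D : Finset G, D.Nonempty ∧
      ∀ g ∈ K, ((symmDiff (g • D) D).card : ℝ) < e * D.card := by
  have key : ∀ g : G, ∃ (T : Finset G) (n : ℕ), (T : Set G) ⊆ S ∧ ∀ (F : Set G) (a : ℝ), F.Finite →
      0 ≤ a → (∀ s ∈ T, ((lv s F).ncard : ℝ) ≤ a) → ((lv g F).ncard : ℝ) ≤ n * a := fun g => by
    induction (hS ▸ Subgroup.mem_top g : g ∈ Subgroup.closure S) using Subgroup.closure_induction with
    | mem g hg => exact ⟨{g}, 1, by simpa using hg, fun F a _ _ h => by simpa using h⟩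
    | one => exact ⟨∅, 0, by simp, fun F a _ _ _ => by simp [lv]⟩
    | mul g g' _ _ ih ih' =>
      obtain ⟨T, n, a1, a2⟩ := ih
      obtain ⟨T', n', b1, b2⟩ := ih'
      refine ⟨T ∪ T', n + n', by simp [a1, b1], fun F a hF ha h => ?_⟩
      have : ((lv (g * g') F).ncard : ℝ) ≤ (lv g F).ncard + (lv g' F).ncard := by
        exact_mod_cast lv_mul g g' hF
      push_cast
      linarith [a2 F a hF ha fun s hs => h s (Finset.mem_union_left _ hs),
        b2 F a hF ha fun s hs => h s (Finset.mem_union_right _ hs)]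
    | inv g _ ih =>
      obtain ⟨T, n, a1, a2⟩ := ih
      exact ⟨T, n, a1, fun F a hF ha h => lv_inv g hF ▸ a2 F a hF ha h⟩
  choose T n hT hn using key
  obtain ⟨F, hF⟩ := h (K.biUnion T) (by simpa using fun g _ => hT g) (e / (K.sup n + 1 : ℕ))
    (by positivity)
  obtain ⟨a1, a2, a3⟩ := fol_iff.1 hF
  refine ⟨a1.toFinset, by simpa using a2, fun g hg => ?_⟩
  rw [← Set.ncard_coe_finset, ← Set.ncard_coe_finset, Finset.coe_symmDiff, Finset.coe_smul_finset,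
    a1.coe_toFinset, ← Set.image_smul, symm_eq g a1]
  have p : (0 : ℝ) < F.ncard := by exact_mod_cast (Set.ncard_pos a1).2 a2
  have b := hn g F (e / (K.sup n + 1 : ℕ) * F.ncard / 2) a1 (by positivity) fun s hs => by
    linarith [a3 s (Finset.mem_biUnion.2 ⟨g, hg, hs⟩)]
  have c : (n g : ℝ) < (K.sup n + 1 : ℕ) := by exact_mod_cast Nat.lt_succ_of_le (Finset.le_sup hg)
  have d : n g * (e / (K.sup n + 1 : ℕ)) < e := by
    rw [← mul_div_assoc, div_lt_iff₀ (by positivity)]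
    nlinarith
  nlinarith

end Vale.Agent.P196
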