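import Vale.Agent.P196.Conc

/-! P196: cutoff functions of small energy. -/

namespace Vale.Agent.P196

namespace AmK

open Finset Real

theorem harm {a b : ℕ} (h : a ≤ b) :
    ∑ n ∈ Ico a b, 1 / ((n : ℝ) + 1) ≤ 2 * (log (b + 1) - log (a + 1)) := by
  induction b, h using Nat.le_induction with
  | base => simp
  | succ b h ih =>
    rw [sum_Ico_succ_top h]
    have h0 : (0 : ℝ) ≤ b := b.cast_nonneg
    have h1 := one_sub_inv_le_log_of_pos (x := ((b : ℝ) + 1 + 1) / (b + 1)) (by positivity)
    rw [log_div (by positivity) (by positivity), inv_div] at h1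
    have h2 : 1 / ((b : ℝ) + 1) ≤ 2 * (1 - (b + 1) / (b + 1 + 1)) := by
      rw [show 2 * (1 - ((b : ℝ) + 1) / (b + 1 + 1)) = 2 / (b + 2) by field_simp; ring,
        div_le_div_iff₀ (by positivity) (by positivity)]
      linarith
    push_cast
    linarith

theorem log_lip {m m' μ r : ℝ} (hμ : 0 < μ) (h : μ ≤ m) (h' : μ ≤ m') (hr : |m - m'| ≤ r) :
    |log m - log m'| ≤ r / μ := by
  have key : ∀ a b : ℝ, μ ≤ a → μ ≤ b → |a - b| ≤ r → log a - log b ≤ r / μ := by
    intro a b ha hb hab
    have hb0 : 0 < b := hμ.trans_le hb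
    rw [← log_div (hμ.trans_le ha).ne' hb0.ne']
    refine (log_le_sub_one_of_pos (div_pos (hμ.trans_le ha) hb0)).trans ?_
    rw [div_sub_one hb0.ne']
    exact div_le_div₀ ((abs_nonneg _).trans hab) ((le_abs_self _).trans hab) hμ hb
  rw [abs_le, neg_le, neg_sub]
  exact ⟨key _ _ h' h (by rwa [abs_sub_comm]), key _ _ h h' hr⟩

theorem fiber (B : Finset (ℤ × ℤ)) (n : ℕ) :
    (B.filter fun x => max x.1.natAbs x.2.natAbs = n).card ≤ 8 * (n + 1) := by
  have h : (B.filter fun x => max x.1.natAbs x.2.natAbs = n) ⊆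
      ({(n : ℤ), -(n : ℤ)} ×ˢ Icc (-(n : ℤ)) n) ∪ (Icc (-(n : ℤ)) n ×ˢ {(n : ℤ), -(n : ℤ)}) := by
    intro x hx
    have := (mem_filter.1 hx).2
    simp only [mem_union, mem_product, mem_insert, mem_singleton, mem_Icc]
    omega
  refine (card_le_card h).trans ((card_union_le _ _).trans ?_)
  have h1 : ({(n : ℤ), -(n : ℤ)} : Finset ℤ).card ≤ 2 := card_le_two
  have h2 : (Icc (-(n : ℤ)) n).card = 2 * n + 1 := by rw [Int.card_Icc]; omega
  rw [card_product, card_product, h2]
  nlinarith

end AmK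

open AmK Finset Real in
/-- recurrence of the plane -/
theorem cutoff_plane (r : ℕ) {η : ℝ} (hη : 0 < η) : ∃ Λ : ℕ, ∀ L : ℕ, 0 < L → ∃ ψ : ℕ → ℝ,
    (∀ n, 0 ≤ ψ n ∧ ψ n ≤ 1) ∧ (∀ n, n ≤ L → ψ n = 1) ∧ (∀ n, Λ * L ≤ n → ψ n = 0) ∧
    ∀ (B : Finset (ℤ × ℤ)) (φ : ℤ × ℤ → ℤ × ℤ),
      (∀ x ∈ B, |(φ x).1 - x.1| ≤ r ∧ |(φ x).2 - x.2| ≤ r) →
      ∑ x ∈ B, (ψ (max x.1.natAbs x.2.natAbs) - ψ (max (φ x).1.natAbs (φ x).2.natAbs)) ^ 2 ≤ η := by
  obtain ⟨Λ, h1, h2⟩ := (((tendsto_log_atTop.comp tendsto_natCast_atTop_atTop).eventually_ge_atTop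
    (32 * ((r : ℝ) * (r + 2)) ^ 2 / η)).and (Filter.eventually_ge_atTop (2 * r + 3))).exists
  have h1 : 32 * ((r : ℝ) * (r + 2)) ^ 2 / η ≤ log Λ := h1
  have h2' : (2 * r + 3 : ℝ) ≤ Λ := by exact_mod_cast h2
  have hr : (0 : ℝ) ≤ r := r.cast_nonneg
  have hl : 0 < log Λ := log_pos (by linarith)
  refine ⟨Λ, fun L hL => ?_⟩
  have hL' : (0 : ℝ) < L := by exact_mod_cast hL
  have hLL : L ≤ Λ * L := Nat.le_mul_of_pos_left _ (by omega)
  have e : log ((Λ * L : ℕ) : ℝ) - log L = log Λ := by
    rw [Nat.cast_mul, log_mul (by linarith) hL'.ne', add_sub_cancel_right]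
  obtain ⟨P, hP⟩ : ∃ P, P = Λ * L := ⟨_, rfl⟩
  rw [← hP] at hLL e ⊢
  let m : ℕ → ℕ := fun n => min (max n L) P
  have hm : ∀ n, m n = min (max n L) P := fun _ => rfl
  refine ⟨fun n => (log P - log (m n)) / log Λ, fun n => ?_, fun n hn => ?_, fun n hn => ?_,
    fun B φ hφ => ?_⟩
  · have a : log L ≤ log (m n) := log_le_log hL' (by exact_mod_cast (by rw [hm]; omega))
    have b : log (m n) ≤ log P := log_le_log (by exact_mod_cast (by rw [hm]; omega))
      (by exact_mod_cast (by rw [hm]; omega))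
    exact ⟨div_nonneg (by linarith) hl.le, div_le_one_of_le₀ (by linarith) hl.le⟩
  · dsimp only
    rw [show m n = L by rw [hm]; omega, e, div_self hl.ne']
  · dsimp only
    rw [show m n = P by rw [hm]; omega, sub_self, zero_div]
  · let w : ℕ → ℝ := fun n => ((r : ℝ) * (r + 2) / (n + 1) / log Λ) ^ 2
    calc _ ≤ ∑ x ∈ B, if max x.1.natAbs x.2.natAbs ∈ Ico (L - r) (P + r) then
          w (max x.1.natAbs x.2.natAbs) else 0 := by
          refine sum_le_sum fun x hx => ?_
          have k := hφ x hx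
          simp only [abs_le] at k
          have k1 : max (φ x).1.natAbs (φ x).2.natAbs ≤ max x.1.natAbs x.2.natAbs + r := by omega
          have k2 : max x.1.natAbs x.2.natAbs ≤ max (φ x).1.natAbs (φ x).2.natAbs + r := by omega
          generalize max x.1.natAbs x.2.natAbs = n at *
          generalize max (φ x).1.natAbs (φ x).2.natAbs = n' at *
          split_ifs with hn
          · rw [mem_Ico] at hn
            have k3 : |log (m n') - log (m n)| ≤ r / (((n : ℝ) + 1) / (r + 2)) := by
              have k4 : ∀ a : ℕ, 1 ≤ a → n ≤ a + r → ((n : ℝ) + 1) / (r + 2) ≤ a := by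
                intro a h1 h2
                rw [div_le_iff₀ (by positivity)]
                exact_mod_cast (by nlinarith : n + 1 ≤ a * (r + 2))
              refine log_lip (by positivity) (k4 _ (by rw [hm]; omega) (by rw [hm]; omega))
                (k4 _ (by rw [hm]; omega) (by rw [hm]; omega)) ?_
              have : |(m n' : ℤ) - m n| ≤ r := by rw [hm, hm, abs_le]; omega
              exact_mod_cast this
            rw [← sub_div, sub_sub_sub_cancel_left, ← sq_abs, abs_div, abs_of_pos hl]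
            rw [div_div_eq_mul_div] at k3
            show _ ≤ ((r : ℝ) * (r + 2) / (n + 1) / log Λ) ^ 2
            gcongr
          · rw [mem_Ico] at hn
            dsimp only
            rw [show m n = m n' by rw [hm, hm]; omega, sub_self, zero_pow two_ne_zero]
      _ ≤ ∑ n ∈ Ico (L - r) (P + r), 8 * ((r : ℝ) * (r + 2) / log Λ) ^ 2 * (1 / ((n : ℝ) + 1)) := by
          rw [← sum_filter, ← sum_fiberwise_of_maps_to (g := fun x : ℤ × ℤ => max x.1.natAbs x.2.natAbs)
            (t := Ico (L - r) (P + r)) fun x hx => (mem_filter.1 hx).2]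
          refine sum_le_sum fun n _ => ?_
          rw [sum_congr rfl (g := fun _ => w n) fun x hx => by rw [(mem_filter.1 hx).2], sum_const,
            nsmul_eq_mul]
          have k : (((B.filter fun x => max x.1.natAbs x.2.natAbs ∈ Ico (L - r) (P + r)).filter
              fun x => max x.1.natAbs x.2.natAbs = n).card : ℝ) ≤ 8 * (n + 1) := by
            exact_mod_cast fiber _ n
          refine (mul_le_mul_of_nonneg_right k (sq_nonneg _)).trans (le_of_eq ?_)
          field_simp
      _ ≤ 8 * ((r : ℝ) * (r + 2) / log Λ) ^ 2 * (4 * log Λ) := by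
          rw [← mul_sum]
          refine mul_le_mul_of_nonneg_left ((harm (by omega)).trans ?_) (by positivity)
          have k1 : L ≤ (r + 1) * (L - r + 1) := by
            rcases le_total L r with h | h
            · rw [Nat.sub_eq_zero_of_le h]; omega
            · obtain ⟨c, rfl⟩ := Nat.exists_eq_add_of_le h
              rw [Nat.add_sub_cancel_left]; nlinarith
          have k2 : P + r + 1 ≤ Λ * Λ * (L - r + 1) := by
            rw [hP]
            generalize L - r = c at *
            have := Nat.mul_le_mul_left Λ k1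
            have := Nat.mul_le_mul_right (Λ * (c + 1)) h2
            have : r + 1 ≤ Λ * (c + 1) := by nlinarith
            nlinarith
          have k3 : log (((P + r : ℕ) : ℝ) + 1) ≤ log (Λ * Λ * (((L - r : ℕ) : ℝ) + 1)) :=
            log_le_log (by positivity) (by exact_mod_cast k2)
          have hΛ : (Λ : ℝ) ≠ 0 := by linarith
          rw [log_mul (by positivity) (by positivity), log_mul hΛ hΛ] at k3
          linarith
      _ ≤ η := by
          rw [div_le_iff₀ hη] at h1
          rw [show 8 * ((r : ℝ) * (r + 2) / log Λ) ^ 2 * (4 * log Λ) =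
            32 * (r * (r + 2)) ^ 2 / log Λ by field_simp; ring, div_le_iff₀ hl]
          linarith

open Finset in
/-- the linear profile -/
theorem cutoff_line (r R : ℕ) (hR : 0 < R) : ∃ ψ : ℤ → ℝ,
    (∀ a, 0 ≤ ψ a ∧ ψ a ≤ 1) ∧ (∀ a : ℤ, (R : ℤ) ≤ a → ψ a = 1) ∧ (∀ a : ℤ, a ≤ -(R : ℤ) → ψ a = 0) ∧
    ∀ (B : Finset ℤ) (φ : ℤ → ℤ), (∀ a ∈ B, |φ a - a| ≤ r) →
      ∑ a ∈ B, (ψ a - ψ (φ a)) ^ 2 ≤ (r : ℝ) ^ 2 * (R + r + 1) / R ^ 2 := by
  have hR' : (0 : ℝ) < R := by exact_mod_cast hR
  let m : ℤ → ℤ := fun a => max 0 (min (a + R) (2 * R))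
  have hm : ∀ a, m a = max 0 (min (a + R) (2 * R)) := fun _ => rfl
  refine ⟨fun a => m a / (2 * R), fun a => ?_, fun a ha => ?_, fun a ha => ?_, fun B φ hφ => ?_⟩
  · exact ⟨div_nonneg (by exact_mod_cast (by rw [hm]; omega)) (by positivity),
      div_le_one_of_le₀ (by exact_mod_cast (by rw [hm]; omega)) (by positivity)⟩
  · dsimp only
    rw [show m a = 2 * R by rw [hm]; omega]
    push_cast
    field_simp
  · dsimp only
    rw [show m a = 0 by rw [hm]; omega, Int.cast_zero, zero_div]
  · calc _ ≤ ∑ a ∈ B, if a ∈ Icc (-(R + r : ℤ)) (R + r) then ((r : ℝ) / (2 * R)) ^ 2 else 0 := by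
          refine sum_le_sum fun a ha => ?_
          have k := abs_le.1 (hφ a ha)
          split_ifs with h
          · have k1 : |m a - m (φ a)| ≤ r := by rw [hm, hm, abs_le]; omega
            have k2 : |(m a : ℝ) - m (φ a)| ≤ r := by exact_mod_cast k1
            rw [← sub_div, ← sq_abs, abs_div, abs_of_pos (by positivity : (0 : ℝ) < 2 * R)]
            gcongr
          · rw [mem_Icc] at h
            dsimp only
            rw [show m a = m (φ a) by rw [hm, hm]; omega, sub_self, zero_pow two_ne_zero]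
      _ ≤ (4 * (R + r + 1) : ℕ) * ((r : ℝ) / (2 * R)) ^ 2 := by
          rw [← sum_filter, sum_const, nsmul_eq_mul]
          gcongr
          refine (card_le_card (t := Icc (-(R + r : ℤ)) (R + r))
            fun a ha => (mem_filter.1 ha).2).trans ?_
          rw [Int.card_Icc]
          omega
      _ = _ := by
          push_cast
          field_simp
          ring

end Vale.Agent.P196
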