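import Vale.Agent.P196.ModB

/-! P196: strips along the axes. -/

namespace Vale.Agent.P196
open MAux

namespace MAux

/-- quarter of the long period -/
def qq (n : ℕ) : ℤ := cc (n + 1) * sg (n + 2)

/-- centres -/
def ctr (n : ℕ) (m : ℤ) : Prop :=
  m % sg (n + 4) = 0 ∨ m % sg (n + 4) = qq n ∨ m % sg (n + 4) = 2 * qq n ∨
    m % sg (n + 4) = 3 * qq n

/-- phases -/
def phs (n : ℕ) (b : ℤ) : Fin 4 :=
  if b % sg (n + 4) < qq n then 0 else if b % sg (n + 4) < 2 * qq n then 1 else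
    if b % sg (n + 4) < 3 * qq n then 2 else 3

theorem per_eq (n : ℕ) : (sg (n + 4) : ℤ) = 4 * qq n + 2 * sg (n + 2) := by
  rw [sg_add_two (n + 2), nn_succ, qq]; push_cast; ring

theorem qq_pos (n : ℕ) : 0 < qq n := mul_pos (by exact_mod_cast cc_pos _) (sg_pos' _)

theorem mod_eq {P x : ℤ} (β : ℤ) (h0 : 0 ≤ x) (h1 : x < P) : (β * P + x) % P = x := by
  rw [add_comm, Int.add_mul_emod_self_right, Int.emod_eq_of_lt h0 h1]

theorem decomp (n : ℕ) (b : ℤ) : ∃ β x : ℤ, 0 ≤ x ∧ x < sg (n + 4) ∧ b = β * sg (n + 4) + x :=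
  ⟨b / sg (n + 4), b % sg (n + 4), Int.emod_nonneg _ (sg_pos' _).ne',
    Int.emod_lt_of_pos _ (sg_pos' _), (Int.ediv_mul_add_emod _ _).symm⟩

theorem ctr_at (n : ℕ) (β : ℤ) : ctr n (β * sg (n + 4)) ∧ ctr n (β * sg (n + 4) + qq n) ∧
    ctr n (β * sg (n + 4) + 2 * qq n) ∧ ctr n (β * sg (n + 4) + 3 * qq n) ∧
    ctr n (β * sg (n + 4) + sg (n + 4)) := by
  have := per_eq n
  have := qq_pos n
  have := sg_pos' (n + 2)
  refine ⟨Or.inl (by simp), Or.inr (Or.inl (mod_eq β (by omega) (by omega))),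
    Or.inr (Or.inr (Or.inl (mod_eq β (by omega) (by omega)))),
    Or.inr (Or.inr (Or.inr (mod_eq β (by omega) (by omega)))), Or.inl (by simp)⟩

theorem ctr_sep {n : ℕ} {m m' : ℤ} (h : ctr n m) (h' : ctr n m') (hne : m ≠ m') :
    qq n ≤ |m - m'| := by
  obtain ⟨β, x, x0, x1, rfl⟩ := decomp n m
  obtain ⟨β', y, y0, y1, rfl⟩ := decomp n m'
  rw [ctr, mod_eq β x0 x1] at h
  rw [ctr, mod_eq β' y0 y1] at h'
  have := per_eq n
  have := qq_pos n
  have := sg_pos' (n + 2)
  rw [le_abs]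
  rcases lt_trichotomy β β' with e | rfl | e
  · have := mul_le_mul_of_nonneg_right (show β + 1 ≤ β' by omega) (sg_pos' (n + 4)).le
    rw [add_mul] at this
    omega
  · omega
  · have := mul_le_mul_of_nonneg_right (show β' + 1 ≤ β by omega) (sg_pos' (n + 4)).le
    rw [add_mul] at this
    omega

theorem phs_const {n : ℕ} {b δ D : ℤ} (h : ∀ m, ctr n m → D < |b - m|) (hδ : |δ| ≤ D) :
    phs n (b + δ) = phs n b := by
  obtain ⟨β, x, x0, x1, rfl⟩ := decomp n b
  obtain ⟨c0, c1, c2, c3, c4⟩ := ctr_at n β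
  have a0 := lt_abs.1 (h _ c0)
  have a1 := lt_abs.1 (h _ c1)
  have a2 := lt_abs.1 (h _ c2)
  have a3 := lt_abs.1 (h _ c3)
  have a4 := lt_abs.1 (h _ c4)
  have := abs_le.1 hδ
  rw [phs, phs, add_assoc, mod_eq β x0 x1, mod_eq β (by omega) (by omega)]
  simp only [show x + δ < qq n ↔ x < qq n by omega, show x + δ < 2 * qq n ↔ x < 2 * qq n by omega,
    show x + δ < 3 * qq n ↔ x < 3 * qq n by omega]

theorem far_lab {n : ℕ} {y : ℤ} (hy : (sg (n + 2) : ℤ) ∣ y)
    (h : ∀ m, ctr n m → 2 * (sg (n + 2) : ℤ) < |y - m|) :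
    IsRk (n + 2) y ∧ labF (n + 2) (idx (n + 2) y) = ⟨false, (phs n y).castSucc, false, false⟩ := by
  obtain ⟨β, δ, d0, d1, e⟩ := exists_digits (n + 2) y
  have hl := idx_lt (n + 2) y
  obtain rfl : δ = 0 := Int.eq_zero_of_dvd_of_nonneg_of_lt d0 d1 (by
    have : δ = y - (β * nn (n + 2) + idx (n + 2) y) * sg (n + 2) := by
      rw [sg_add_two] at e; linear_combination -e
    rw [this]
    exact hy.sub (Dvd.intro_left _ rfl))
  generalize idx (n + 2) y = j at *
  rw [add_zero] at e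
  subst e
  have hp := sg_pos' (n + 2)
  have hc := cc_pos (n + 1)
  have key : ∀ i : ℤ, ctr n (β * sg (n + 4) + i * sg (n + 2)) → 2 < j - i ∨ 2 < -(j - i) :=
    fun i hi => by
      have := h _ hi
      rw [add_sub_add_left_eq_sub, ← sub_mul, abs_mul, abs_of_pos hp] at this
      exact lt_abs.1 (lt_of_mul_lt_mul_right this hp.le)
  obtain ⟨c0, c1, c2, c3, c4⟩ := ctr_at n β
  have a0 := key 0 (by simpa using c0)
  have a1 := key (cc (n + 1)) c1
  have a2 := key (2 * cc (n + 1)) (by rwa [mul_assoc])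
  have a3 := key (3 * cc (n + 1)) (by rwa [mul_assoc])
  have a4 := key (nn (n + 2)) (by rwa [← sg_add_two])
  have j0 : 0 < j := by omega
  refine ⟨isRk_digit j0 hl β, ?_⟩
  have hφ : (phs n (β * sg (n + 2 + 2) + j * sg (n + 2))).val * cc (n + 1) + 1 < j ∧
      j < (phs n (β * sg (n + 2 + 2) + j * sg (n + 2))).val * cc (n + 1) + cc (n + 1) := by
    rw [phs, mod_eq β (by positivity) (by
      rw [sg_add_two (n + 2)]; exact mul_lt_mul_of_pos_right (by omega) hp), qq, ← mul_assoc,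
      ← mul_assoc]
    simp only [mul_lt_mul_iff_left₀ hp]
    rw [nn_succ] at a4 hl
    split_ifs
    · simp only [Fin.val_zero]; omega
    · simp only [Fin.val_one]; omega
    · simp only [Fin.val_two]; omega
    · rw [show ((3 : Fin 4) : ℕ) = 3 from rfl]; omega
  generalize phs n (β * sg (n + 2 + 2) + j * sg (n + 2)) = φ at *
  have e1 : (j - 1) / cc (n + 1) = φ.val := (div_eq_iff' hc).2 (by omega)
  have b1 := (labF_ph j0 hl).trans e1
  have b2 := (labF_fst (n + 1) j).not
  have b3 := (labF_lst (n + 1) j).not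
  have b4 := labF_star (n + 1) j
  rw [mod_of_div e1, Bool.not_eq_true] at b2 b3
  generalize labF (n + 1 + 1) j = l at *
  cases l
  simp only [Lab.mk.injEq]
  exact ⟨b4, Fin.ext b1, b2.2 (by omega), b3.2 (by omega)⟩

theorem win_lt {n : ℕ} {a : ℤ} (h : |a| ≤ cc n * sg (n + 1)) : |a| < sg (n + 3) := by
  have := sg_pos' (n + 1)
  have : (0 : ℤ) ≤ cc n * sg (n + 1) := by positivity
  rw [sg_add_two (n + 1), nn_succ]
  push_cast
  linarith

theorem idx_win {n : ℕ} {a : ℤ} (h : |a| ≤ cc n * sg (n + 1)) :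
    (0 ≤ a → idx (n + 1) a ≤ cc n) ∧ (a < 0 → 3 * cc n + 2 ≤ idx (n + 1) a) := by
  obtain ⟨β, δ, d0, d1, e⟩ := exists_digits (n + 1) a
  have hl := idx_lt (n + 1) a
  have h1 := abs_lt.1 (win_lt h)
  have h2 := abs_le.1 h
  have hp := sg_pos' (n + 1)
  have hP := sg_add_two (n + 1)
  have m0 : (0 : ℤ) ≤ idx (n + 1) a * sg (n + 1) := by positivity
  have m1 := mul_le_mul_of_nonneg_right (show (idx (n + 1) a : ℤ) + 1 ≤ nn (n + 1) by omega) hp.le
  rw [add_mul, ← hP] at m1
  change a = β * sg (n + 3) + _ + _ at e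
  change _ ≤ (sg (n + 3) : ℤ) at m1
  change (sg (n + 3) : ℤ) = _ at hP
  rw [nn_succ] at hP
  push_cast at hP
  constructor
  · intro h0
    obtain rfl : β = 0 := by
      by_contra hne
      rcases lt_or_gt_of_ne hne with h | h <;> nlinarith
    by_contra hlt
    have := mul_le_mul_of_nonneg_right (show (cc n : ℤ) + 1 ≤ idx (n + 1) a by omega) hp.le
    linarith
  · intro h0
    obtain rfl : β = -1 := by
      by_contra hne
      rcases lt_or_gt_of_ne hne with h | h <;> nlinarith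
    by_contra hlt
    have := mul_le_mul_of_nonneg_right (show (idx (n + 1) a : ℤ) + 1 ≤ 3 * cc n + 2 by omega) hp.le
    linarith

theorem par_line (k k' : Vx) {n : ℕ} {a m : ℤ} (ha : a ≠ 0) (h : |a| ≤ cc n * sg (n + 1))
    (hm : (sg (n + 2) : ℤ) ∣ m) (b : ℤ) :
    ln k (par (n + 1)) a (b + m) = ln k' (par (n + 1)) a b := by
  by_cases h1 : (sg (n + 1) : ℤ) ∣ a
  · have hr : IsRk (n + 1) a := ⟨h1, fun h2 => ha (eq_zero_of_dvd h2 (win_lt h))⟩
    have hw := idx_win h
    have : ¬ (oo (n + 1) ≤ idx (n + 1) a ∧ idx (n + 1) a < oo (n + 1) + cc (n + 1)) := by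
      rw [oo_succ, cc_succ]
      rcases le_or_gt 0 a with h | h
      · have := hw.1 h; omega
      · have := hw.2 h; omega
    rw [ln_rk k hr, ln_rk k' hr, Nat.add_sub_cancel, idx_add hm]
    simp only [coreF, if_neg this]
  · simpa using ln_low k k' h1 (dvd_zero _) hm b

theorem cross_line (k k' : Vx) {n : ℕ} {a y y' : ℤ} (h : |a| ≤ cc n * sg (n + 1))
    (hy : IsRk (n + 2) y) (hy' : IsRk (n + 2) y')
    (hl : labF (n + 2) (idx (n + 2) y) = labF (n + 2) (idx (n + 2) y')) :
    ln k (par (n + 2)) y a = ln k' (par (n + 2)) y' a := by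
  have hw := idx_win h
  have h1 := abs_lt.1 (win_lt h)
  have h2 : (sg (n + 3 + 2) : ℤ) ∣ 0 := dvd_zero _
  have c1 := labF_car hy.idx_pos (idx_lt _ _)
  have c2 := labF_car hy'.idx_pos (idx_lt _ _)
  rw [hl, c2] at c1
  have m1 := Nat.mod_lt (idx (n + 2) y - 1) (cc_pos (n + 1))
  have m2 := Nat.mod_lt (idx (n + 2) y' - 1) (cc_pos (n + 1))
  have e1 := oo_succ n
  have e2 := cc_succ n
  rw [ln_rk k hy, ln_rk k' hy']
  simp only [coreF, Core.mk.injEq]
  refine ⟨hl, decide_eq_decide.2 ?_, ?_⟩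
  · change _ ≤ idx (n + 1) a ↔ _ ≤ idx (n + 1) a
    rcases le_or_gt 0 a with h | h
    · have := hw.1 h; omega
    · have := hw.2 h; omega
  · by_cases hc : oo (n + 2) ≤ idx (n + 2) y ∧ idx (n + 2) y < oo (n + 2) + cc (n + 2)
    · have hc' := c1.2 hc
      rw [if_pos hc, if_pos hc']
      congr 1
      rcases le_or_gt 0 a with h | h
      · have := idx_high h2 h h1.2
        rw [zero_add] at this
        have v := fun s hs => valF_eq (c := cc (n + 2)) (q := 0) (j := 0) (s := s) hs (by omega)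
          (by omega)
        simp only [zero_mul, add_zero] at v
        rw [this, v _ (by omega), v _ (by omega), if_neg (by omega), if_neg (by omega)]
      · have := idx_high' h2 h h1.1.le
        rw [zero_add] at this
        change idx (n + 2 + 1) a + 1 = 4 * cc (n + 2) + 2 at this
        rw [valF, valF, if_pos (by omega), if_pos (by omega)]
    · rw [if_neg hc, if_neg (mt c1.1 hc)]

theorem near_of {k k' : Vx} {ε : Bool} {r : ℕ} {a b b' : ℤ}
    (h1 : ∀ a' δ : ℤ, |a' - a| ≤ r → |δ| ≤ r + 1 → ln k ε a' (b + δ) = ln k' ε a' (b' + δ))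
    (h2 : ∀ a' δ : ℤ, |a' - a| ≤ r + 1 → |δ| ≤ r →
      ln k (!ε) (b + δ) a' = ln k' (!ε) (b' + δ) a') :
    Near r (k, pt ε a b) (k', pt ε a b') := fun d hd => xx_ext' fun δ => by
  have d1 := abs_le.1 (hd ε)
  have d2 := abs_le.1 (hd (!ε))
  rcases Bool.eq_or_eq_not δ ε with rfl | rfl
  · simp only [Pi.add_apply, pt_same, pt_not, add_sub_assoc]
    constructor <;> apply h1 <;> rw [abs_le] <;> omega
  · simp only [Pi.add_apply, pt_same, pt_not, Bool.not_not]
    constructor <;> apply h2 <;> rw [abs_le] <;> omega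

theorem ln_axis (k : Vx) (ε : Bool) {b b' : ℤ} (h : 0 ≤ b ↔ 0 ≤ b') : ln k ε 0 b = ln k ε 0 b' := by
  simp only [ln, h, if_true]

theorem strip (n r t : ℕ) (h1 : 2 * (t : ℤ) + 2 * r + sg (n + 2) + 2 < qq n)
    (h2 : (t : ℤ) + r + 1 ≤ cc n * sg (n + 1)) :
    Strip (par (n + 1)) r (sg (n + 2)) (3 * sg (n + 2) + r) t (ctr n)
      (fun k b => (ln k (par (n + 1)) 0 b, phs n b))
      (fun k m => (xx k (pt (par (n + 1)) 0 m), phs n m)) := by
  have hp := sg_pos' (n + 2)
  have hP := per_eq n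
  have p2 : (!par (n + 1)) = par (n + 2) := (par_succ (n + 1)).symm
  have c0 : ctr n 0 := Or.inl (by simp)
  have dvP : (sg (n + 2) : ℤ) ∣ sg (n + 4) := sg_dvd (by omega) (par_add_two _).symm
  have phP : ∀ {m m' : ℤ}, (sg (n + 4) : ℤ) ∣ m - m' → m % sg (n + 4) = m' % sg (n + 4) :=
    fun h => Int.emod_eq_emod_iff_emod_sub_eq_zero.2 (Int.emod_eq_zero_of_dvd h)
  refine ⟨sg_pos _, fun m m' a b c => by have := ctr_sep a b c; omega, fun k b h δ hδ => ?_,
    fun k b k' b' h h' e hb a ha => ?_, fun k m k' m' h h' e => ?_, fun k b β => ?_, ?_⟩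
  · have a1 := lt_abs.1 (h 0 c0)
    have a2 := abs_le.1 hδ
    exact Prod.ext (ln_axis _ _ (by omega)) (phs_const h (by omega))
  · have a1 := lt_abs.1 (h 0 c0)
    have a1' := lt_abs.1 (h' 0 c0)
    have a3 := abs_le.1 ha
    obtain ⟨e1, e2⟩ := Prod.mk.inj e
    refine near_of (fun a' δ h3 h4 => ?_) fun a' δ h3 h4 => ?_
    · rw [abs_le] at h3 h4
      by_cases h0 : a' = 0
      · rw [h0, ln_axis k _ (b' := b) (by omega), e1, ln_axis k' _ (b' := b' + δ) (by omega)]
      · rw [show b + δ = b' + δ + (b - b') by ring]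
        exact par_line k k' h0 (by rw [abs_le]; omega) hb _
    · rw [p2]
      have h5 := abs_le.1 h3
      have h6 := abs_le.1 h4
      by_cases hd : (sg (n + 2) : ℤ) ∣ b' + δ
      · have far : ∀ {b : ℤ}, (∀ m, ctr n m → ((3 * sg (n + 2) + r : ℕ) : ℤ) < |b - m|) →
            ∀ m, ctr n m → 2 * (sg (n + 2) : ℤ) < |b + δ - m| := fun h m hm => by
          have := lt_abs.1 (h m hm)
          rw [lt_abs]
          omega
        have f1 := far_lab (show (sg (n + 2) : ℤ) ∣ b + δ by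
          rw [show b + δ = b' + δ + (b - b') by ring]; exact hd.add hb) (far h)
        have f2 := far_lab hd (far h')
        refine cross_line k k' (by rw [abs_le]; omega) f1.1 f2.1 ?_
        rw [f1.2, f2.2, phs_const h (by omega), phs_const h' (by omega), e2]
      · rw [show b + δ = b' + δ + (b - b') by ring]
        simpa using ln_low k k' hd hb (dvd_zero _) a'
  · obtain ⟨e1, e2⟩ := Prod.mk.inj e
    have hq := qq_pos n
    have hm : (sg (n + 4) : ℤ) ∣ m - m' := by
      refine Int.dvd_of_emod_eq_zero (Int.emod_eq_emod_iff_emod_sub_eq_zero.1 ?_)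
      simp only [phs] at e2
      rcases h with h | h | h | h <;> rcases h' with h' | h' | h' | h' <;> rw [h, h'] at e2 ⊢ <;>
        split_ifs at e2 <;> omega
    have o1 := congrArg (fun τ : Tile => τ.co (par (n + 1))) e1
    have o2 := congrArg (fun τ : Tile => τ.ci (par (n + 1))) e1
    have o3 := congrArg (fun τ : Tile => τ.co (!par (n + 1))) e1
    have o4 := congrArg (fun τ : Tile => τ.ci (!par (n + 1))) e1
    simp only [co_ln, ci_ln, pt_same, pt_not, Bool.not_not] at o1 o2 o3 o4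
    have sg0 : ∀ {m : ℤ}, ctr n m → m = 0 ∨ qq n ≤ m ∨ qq n ≤ -m := fun {m} h => by
      by_cases h0 : m = 0
      · exact Or.inl h0
      · simpa [le_abs] using Or.inr (ctr_sep h c0 h0)
    have s1 := sg0 h
    have s2 := sg0 h'
    have ax : ∀ δ : ℤ, |δ| ≤ t + r + 1 →
        ln k (par (n + 1)) 0 (m + δ) = ln k' (par (n + 1)) 0 (m' + δ) := fun δ hδ => by
      rw [abs_le] at hδ
      rcases le_or_gt 0 δ with h0 | h0
      · rw [ln_axis k _ (b' := m) (by omega), o1, ln_axis k' _ (b' := m' + δ) (by omega)]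
      · rw [ln_axis k _ (b' := m - 1) (by omega), o2, ln_axis k' _ (b' := m' + δ) (by omega)]
    refine ⟨dvP.trans hm, fun a δ ha hδ => ⟨near_of (fun a' δ' h3 h4 => ?_) fun a' δ' h3 h4 => ?_,
      Prod.ext (ax δ (by omega)) ?_⟩⟩
    · rw [abs_le] at h3 h4 ha hδ
      by_cases h0 : a' = 0
      · rw [h0, add_assoc, add_assoc]
        exact ax _ (by rw [abs_le]; omega)
      · rw [show m + δ + δ' = m' + δ + δ' + (m - m') by ring]
        exact par_line k k' h0 (by rw [abs_le]; omega) (dvP.trans hm) _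
    · rw [abs_le] at h3 h4 ha hδ
      by_cases hd : (sg (n + 4) : ℤ) ∣ m' + δ + δ'
      · have e0 : m' + δ + δ' = m' := by
          by_contra hne
          have := le_abs.1 (ctr_sep (Or.inl (Int.emod_eq_zero_of_dvd hd)) h' hne)
          omega
        rw [e0] at hd ⊢
        have hd' : (sg (n + 4) : ℤ) ∣ m := by simpa using hm.add hd
        rw [show m + δ + δ' = m by omega]
        have w := abs_lt.1 (win_lt (n := n) (a := a') (by rw [abs_le]; omega))
        have p3 : par (n + 3) = par (n + 1) := par_add_two (n + 1)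
        rcases le_or_gt 0 a' with h0 | h0
        · have l1 := ln_const k (ρ := n + 3) hd' (dvd_zero _) h0 w.2
          have l2 := ln_const k' (ρ := n + 3) hd (dvd_zero _) h0 w.2
          rw [zero_add, p3] at l1 l2
          rw [l1, l2, o3]
        · have l1 := ln_const' k (ρ := n + 3) hd' (dvd_zero _) h0 w.1.le
          have l2 := ln_const' k' (ρ := n + 3) hd (dvd_zero _) h0 w.1.le
          rw [zero_add, p3] at l1 l2
          rw [l1, l2, o4]
      · rw [show m + δ + δ' = m' + δ + δ' + (m - m') by ring, p2, ← par_add_two (n + 2)]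
        simpa using ln_low k k' hd hm (dvd_zero _) a'
    · simp only [phs, phP (m := m + δ) (m' := m' + δ) (by simpa using hm)]
  · obtain ⟨γ, x, x0, x1, rfl⟩ := decomp n b
    obtain ⟨m, hm, m0, m1, m2⟩ : ∃ m : ℤ, ctr n (γ * sg (n + 4) + m) ∧ 0 ≤ m ∧ m ≤ 3 * qq n ∧
        ∀ y, m ≤ y → y < m + qq n → phs n (γ * sg (n + 4) + y) = phs n (γ * sg (n + 4) + x) := by
      obtain ⟨d0, d1, d2, d3, -⟩ := ctr_at n γ
      rw [phs.eq_def n (_ + x), mod_eq γ x0 x1]
      split_ifs
      · exact ⟨0, by rwa [add_zero], by omega, by omega, fun y y0 y1 => by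
          rw [phs, mod_eq γ (by omega) (by omega), if_pos (by omega)]⟩
      · exact ⟨_, d1, by omega, by omega, fun y y0 y1 => by
          rw [phs, mod_eq γ (by omega) (by omega), if_neg (by omega), if_pos (by omega)]⟩
      · exact ⟨_, d2, by omega, by omega, fun y y0 y1 => by
          rw [phs, mod_eq γ (by omega) (by omega), if_neg (by omega), if_neg (by omega),
            if_pos (by omega)]⟩
      · exact ⟨_, d3, by omega, by omega, fun y y0 y1 => by
          rw [phs, mod_eq γ (by omega) (by omega), if_neg (by omega), if_neg (by omega),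
            if_neg (by omega)]⟩
    have z0 := Int.emod_nonneg (β - (γ * sg (n + 4) + m + t + 1)) hp.ne'
    have z1 := Int.emod_lt_of_pos (β - (γ * sg (n + 4) + m + t + 1)) hp
    have z2 : (sg (n + 2) : ℤ) ∣ β - (γ * sg (n + 4) + m + t + 1) -
      (β - (γ * sg (n + 4) + m + t + 1)) % sg (n + 2) := Int.dvd_self_sub_emod
    generalize (β - (γ * sg (n + 4) + m + t + 1)) % sg (n + 2) = w at z0 z1 z2
    refine ⟨γ * sg (n + 4) + (m + t + 1 + w), fun m' hm' => ?_,
      Prod.ext (ln_axis _ _ ?_) (m2 _ (by omega) (by omega)), ?_⟩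
    · rw [lt_abs]
      by_cases e : m' = γ * sg (n + 4) + m
      · omega
      · have := le_abs.1 (ctr_sep hm' hm e)
        omega
    · rcases le_or_gt 0 γ with h | h
      · have := mul_nonneg h (sg_pos' (n + 4)).le
        omega
      · have := mul_le_mul_of_nonneg_right (show γ ≤ -1 by omega) (sg_pos' (n + 4)).le
        omega
    · rw [show γ * sg (n + 4) + (m + t + 1 + w) - β =
        -(β - (γ * sg (n + 4) + m + t + 1) - w) by ring]
      exact dvd_neg.2 z2
  · obtain ⟨R, hR⟩ := meas_phase (n + 4)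
    refine ⟨R + t, fun k b k' b' h => ?_⟩
    have e := hR _ _ (h.mono (Nat.le_add_right _ _))
    simp only [par_add_two (n + 2), ← p2, pt_not] at e
    have hm : (sg (n + 4) : ℤ) ∣ b - b' :=
      Int.dvd_of_emod_eq_zero (Int.emod_eq_emod_iff_emod_sub_eq_zero.1 e)
    have tl : ∀ δ : ℤ, |δ| ≤ t →
        xx k (pt (par (n + 1)) 0 (b + δ)) = xx k' (pt (par (n + 1)) 0 (b' + δ)) := fun δ hδ => by
      have := h (pt (par (n + 1)) 0 δ) fun ε => by
        unfold pt
        split_ifs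
        · simp; positivity
        · push_cast; omega
      simpa only [pt_add, add_zero] using this
    refine ⟨Prod.ext ?_ (by simp only [phs, e]), dvP.trans hm, fun δ hδ hc => ?_⟩
    · have := congrArg (fun τ : Tile => τ.co (par (n + 1))) (tl 0 (by simp))
      simpa only [co_ln, pt_same, pt_not, add_zero] using this
    · have e' := phP (m := b + δ) (m' := b' + δ) (by simpa using hm)
      exact ⟨by simpa only [ctr, e'] using hc, Prod.ext (tl δ hδ) (by simp only [phs, e'])⟩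

end MAux

theorem exists_strip (ε : Bool) (r lam : ℕ) : ∃ (p D t : ℕ) (ctr : ℤ → Prop)
    (sty : Vx → ℤ → Core × Fin 4) (cty : Vx → ℤ → Tile × Fin 4),
    lam * (p + D + r + 1) ≤ t ∧ Strip ε r p D t ctr sty cty := by
  obtain ⟨ρ₀, h0⟩ := sg_big (r + 1)
  obtain ⟨ρ₁, h1⟩ := sg_ratio (6 * (6 * lam + 1))
  obtain ⟨ρ, h2, rfl⟩ := exists_par ε (ρ₀ + ρ₁ + 12 * lam + 4)
  obtain ⟨n, rfl⟩ : ∃ n, ρ = n + 1 := ⟨ρ - 1, by omega⟩
  have a0 := h0 (n + 2) (by omega)
  have a1 := h1 (n + 2) (by omega)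
  have a2 : 12 * lam + 4 ≤ cc (n + 1) := h2.trans' (by omega) |>.trans Nat.lt_two_pow_self.le
  have a3 : lam * (sg (n + 2) + (3 * sg (n + 2) + r) + r + 1) ≤ lam * (6 * sg (n + 2)) :=
    Nat.mul_le_mul_left _ (by omega)
  have a4 := Nat.mul_le_mul_right (sg (n + 2)) a2
  have a5 := cc_pos n
  have a6 : sg (n + 2 + 1) ≤ 6 * cc n * sg (n + 1) :=
    Nat.mul_le_mul_right _ (show 4 * cc n + 2 ≤ 6 * cc n by omega)
  refine ⟨_, _, _, _, _, _, le_rfl, strip n r _ ?_ ?_⟩
  · rw [qq]
    norm_cast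
    nlinarith
  · norm_cast
    nlinarith

end Vale.Agent.P196
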