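import Vale.Agent.P196.AmA
import Vale.Agent.P196.AmK
import Vale.Agent.P196.ModC

/-! P196: almost invariant families of upper sets. -/

namespace Vale.Agent.P196

open Equiv Pointwise

namespace AmB

theorem exists_fac {X J J' : Type} (idx : X → J) (P : X → Prop) (φ : X → J') (df : J → J')
    (wd : ∀ x x', P x → P x' → idx x = idx x' → φ x = φ x') :
    ∃ G : J → J', (∀ x, P x → G (idx x) = φ x) ∧
      ∀ j, (¬ ∃ x, P x ∧ idx x = j) → G j = df j := by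
  classical
  refine ⟨fun j => if h : ∃ x, P x ∧ idx x = j then φ h.choose else df j, fun x hx => ?_,
    fun j hj => dif_neg hj⟩
  have h : ∃ x', P x' ∧ idx x' = idx x := ⟨x, hx, rfl⟩
  exact (dif_pos h).trans (wd _ _ h.choose_spec.1 hx h.choose_spec.2)

theorem exists_perm {J : Type} (S : Finset J) (G : J → J) (h3 : ∀ j ∈ S, G (G (G j)) = j) :
    ∃ γ : Perm S, (∀ j, γ j = j ∨ (γ j : J) = G j) ∧
      ∀ j : S, G j ∈ S → G (G j) ∈ S → (γ j : J) = G j := by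
  classical
  let f : S → S := fun j => if h : G j ∈ S ∧ G (G j) ∈ S then ⟨G j, h.1⟩ else j
  have hf : ∀ j : S, G j ∈ S → G (G j) ∈ S → (f j : J) = G j := fun j h h' => by
    simp only [f, dif_pos (And.intro h h')]
  have hf' : ∀ j : S, ¬ (G j ∈ S ∧ G (G j) ∈ S) → f j = j := fun j h => dif_neg h
  have f3 : ∀ j, f (f (f j)) = j := by
    intro j
    by_cases h : G j ∈ S ∧ G (G j) ∈ S
    · have e := h3 j j.2
      have e1 := hf j h.1 h.2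
      have e2 := hf (f j) (e1 ▸ h.2) (by rw [e1, e]; exact j.2)
      have e3 := hf (f (f j)) (by rw [e2, e1, e]; exact j.2) (by rw [e2, e1, e]; exact h.1)
      exact Subtype.ext (by rw [e3, e2, e1, e])
    · rw [hf' j h, hf' j h, hf' j h]
  refine ⟨⟨f, fun j => f (f j), f3, f3⟩, fun j => ?_, hf⟩
  by_cases h : G j ∈ S ∧ G (G j) ∈ S
  · exact Or.inr (hf j h.1 h.2)
  · exact Or.inl (hf' j h)

theorem exists_gamma {X J : Type} (S : Finset J) (idx : X → J) (P : X → Prop) (g : X → X)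
    (Rel : J → J → Prop) (hr : ∀ j, Rel j j) (hg : ∀ x, Rel (idx x) (idx (g x)))
    (g3 : ∀ x, g (g (g x)) = x)
    (wd : ∀ x x', P x → P x' → idx x = idx x' → idx (g x) = idx (g x'))
    (deep : ∀ x, P x → idx x ∈ S → ∃ x', idx x' = idx x ∧ P x' ∧ P (g x') ∧ P (g (g x'))) :
    ∃ γ : Perm S, (∀ j : S, Rel j (γ j)) ∧ ∀ x (j : S), P x → idx x = j →
      (∀ j' j'', Rel j j' → Rel j' j'' → j'' ∈ S) → (γ j : J) = idx (g x) := by
  obtain ⟨G, h1, h2⟩ := exists_fac idx P (fun x => idx (g x)) id wd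
  have hG : ∀ j, Rel j (G j) := fun j => by
    by_cases h : ∃ x, P x ∧ idx x = j
    · obtain ⟨x, hx, rfl⟩ := h
      rw [h1 x hx]
      exact hg x
    · rw [h2 j h]
      exact hr j
  obtain ⟨γ, k1, k2⟩ := exists_perm S G fun j hj => by
    by_cases h : ∃ x, P x ∧ idx x = j
    · obtain ⟨x, hx, rfl⟩ := h
      obtain ⟨x', e, a, b, c⟩ := deep x hx hj
      rw [← e, h1 _ a, h1 _ b, h1 _ c, g3]
    · have e : G j = j := h2 j h
      rw [e, e, e]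
  refine ⟨γ, fun j => ?_, fun x j hx e h => ?_⟩
  · rcases k1 j with e | e
    · rw [e]; exact hr _
    · rw [e]; exact hG _
  · rw [k2 j (h _ _ (hr _) (hG _)) (h _ _ (hG _) (hG _)), ← e, h1 x hx]

/-- extension of a finite family of bits -/
def ext {J : Type} [DecidableEq J] {S : Finset J} (df : J → Bool) (ω : S → Bool) (j : J) : Bool :=
  if h : j ∈ S then ω ⟨j, h⟩ else df j

section
variable {J : Type} [DecidableEq J] {S : Finset J} {df : J → Bool} {ω : S → Bool}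

theorem ext_coe (j : S) : ext df ω j = ω j := dif_pos j.2

theorem ext_out {j : J} (h : j ∉ S) : ext df ω j = df j := dif_neg h

theorem ext_flip (γ : Perm S) (c : S → Bool) (j : S) :
    ext df (flipE γ c ω) (γ j) = xor (ω j) (c j) := by
  rw [ext_coe]
  simp [flipE]

theorem ext_val {j : J} {v : Bool} (h : df j = v) (h' : ∀ i : S, i = j → ω i = v) :
    ext df ω j = v := by
  by_cases hj : j ∈ S
  · exact (ext_coe ⟨j, hj⟩).trans (h' _ rfl)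
  · rw [ext_out hj, h]

theorem ext_far {γ : Perm S} {c : S → Bool} {Rel : J → J → Prop} (hγ : ∀ j : S, Rel j (γ j))
    {j : J} {v : Bool} (h : df j = v) (h' : ∀ i : S, Rel i j → ω i = v ∧ c i = false) :
    ext df (flipE γ c ω) j = v := by
  refine ext_val h fun i e => ?_
  obtain ⟨i, rfl⟩ := γ.surjective i
  have := h' i (e ▸ hγ i)
  exact (ext_coe (df := df) (γ i)).symm.trans (by rw [ext_flip, this.1, this.2, Bool.xor_false])

end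

theorem amp_supp {J : Type} [Fintype J] {θ : J → ℝ} {ω : J → Bool} (h : amp θ ω ≠ 0) (j : J) :
    (θ j = 0 → ω j = false) ∧ (θ j = Real.pi / 2 → ω j = true) := by
  have := Finset.prod_ne_zero_iff.1 h j (Finset.mem_univ _)
  constructor <;> intro e <;> rw [e] at this <;> cases hω : ω j <;> simp_all

theorem card_all {Y : Type} {U : Finset Y} (hU : ∀ y, y ∈ U) : U.card = Nat.card Y := by
  rw [← Nat.card_eq_finsetCard]
  exact Nat.card_congr (Equiv.subtypeUnivEquiv hU)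

theorem exists_all (Y : Type) [Finite Y] : ∃ U : Finset Y, ∀ y, y ∈ U :=
  ⟨(Set.finite_univ (α := Y)).toFinset, by simp⟩

theorem energy {Y β : Type} [DecidableEq Y] [DecidableEq β] (U : Finset Y) (B : Finset β)
    (γ : Perm (U ×ˢ B : Finset (Y × β))) (Rel : β → β → Prop)
    (hγ : ∀ j, Rel j.1.2 (γ j).1.2) (ψ : β → ℝ) (c : ℝ) {E : ℝ}
    (hE : ∀ φ : β → β, (∀ b ∈ B, Rel b (φ b)) → ∑ b ∈ B, (ψ b - ψ (φ b)) ^ 2 ≤ E) :
    ∑ j, (c * ψ j.1.2 - c * ψ (γ j).1.2) ^ 2 ≤ c ^ 2 * (U.card * E) := by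
  let φ : Y × β → β := fun j => if h : j ∈ U ×ˢ B then (γ ⟨j, h⟩).1.2 else j.2
  have hφ : ∀ j : (U ×ˢ B : Finset (Y × β)), φ j = (γ j).1.2 := fun j => dif_pos j.2
  calc _ = c ^ 2 * ∑ j ∈ U ×ˢ B, (ψ j.2 - ψ (φ j)) ^ 2 := by
        rw [← Finset.sum_coe_sort (U ×ˢ B), Finset.mul_sum]
        refine Finset.sum_congr rfl fun j _ => ?_
        rw [hφ]
        ring
    _ ≤ _ := by
        rw [Finset.sum_product, ← nsmul_eq_mul]
        refine mul_le_mul_of_nonneg_left (Finset.sum_le_card_nsmul _ _ _ fun y hy =>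
          hE (fun b => φ (y, b)) fun b hb => ?_) (sq_nonneg c)
        have h : (y, b) ∈ U ×ˢ B := Finset.mk_mem_product hy hb
        rw [hφ ⟨_, h⟩]
        exact hγ ⟨_, h⟩

/-- transversal coordinate -/
def ca (ε : Bool) (x : SS) : ℤ := x.1.2 ε

/-- longitudinal coordinate -/
def cb (ε : Bool) (x : SS) : ℤ := x.1.2 (!ε)

theorem pt_cc (ε : Bool) (x : SS) : (x.1.1, pt ε (ca ε x) (cb ε x)) = x.1 := by
  rw [ca, cb, pt_self]

theorem rule {r : ℕ} {g : Perm SS} (hg : LocP r g) (ε : Bool) (x : SS) : ∃ (u v : ℤ) (j : I),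
    |u| ≤ r ∧ |v| ≤ r ∧ ∀ y : SS, Near r x.1 y.1 → y.2 = x.2 → (g y).1.1 = y.1.1 ∧
      ca ε (g y) = ca ε y + u ∧ cb ε (g y) = cb ε y + v ∧ (g y).2 = j := by
  obtain ⟨d, j, h1, h2⟩ := hg x.1 x.2
  refine ⟨d ε, d (!ε), j, h1 _, h1 _, fun y hy e => ?_⟩
  have : g y = (mv y.1 d, j) := by rw [← h2 _ hy, ← e]
  rw [this]
  exact ⟨rfl, rfl, rfl, rfl⟩

theorem move {r : ℕ} {g : Perm SS} (hg : LocP r g) (ε : Bool) (x : SS) :
    (g x).1.1 = x.1.1 ∧ |ca ε (g x) - ca ε x| ≤ r ∧ |cb ε (g x) - cb ε x| ≤ r := by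
  obtain ⟨u, v, j, h1, h2, h⟩ := rule hg ε x
  obtain ⟨a, b, c, -⟩ := h x (Near.refl _ _) rfl
  rw [b, c]
  simpa using ⟨a, h1, h2⟩

variable {ε : Bool} {r p D t : ℕ} {ctr : ℤ → Prop} {sty : Vx → ℤ → Core × Fin 4}
  {cty : Vx → ℤ → Tile × Fin 4}

/-- index of a point along a periodic segment -/
def i1 (ε : Bool) (p : ℕ) (sty : Vx → ℤ → Core × Fin 4) (x : SS) :
    ((Core × Fin 4) × ZMod p × I) × ℤ :=
  ((sty x.1.1 (cb ε x), (cb ε x : ZMod p), x.2), ca ε x)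

/-- index of a point near a centre -/
def i2 (ε : Bool) (cty : Vx → ℤ → Tile × Fin 4) (x : SS × ℤ) : ((Tile × Fin 4) × I) × ℤ × ℤ :=
  ((cty x.1.1.1 x.2, x.1.2), ca ε x.1, cb ε x.1 - x.2)

theorem gamma1 (H : Strip ε r p D t ctr sty cty) {g : Perm SS} (hg : LocP r g)
    (g3 : ∀ x, g (g (g x)) = x) {M : ℕ} (hM : M + 2 * r ≤ t) (hD : D + 2 * r ≤ t)
    {U : Finset ((Core × Fin 4) × ZMod p × I)} (hU : ∀ y, y ∈ U) :
    ∃ γ : Perm (U ×ˢ Finset.Icc (-M : ℤ) M : Finset (((Core × Fin 4) × ZMod p × I) × ℤ)),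
      (∀ j, |(γ j).1.2 - j.1.2| ≤ r) ∧ ∀ x j, (∀ m, ctr m → (D : ℤ) < |cb ε x - m|) →
        i1 ε p sty x = j.1 → |ca ε x| + 2 * r ≤ M → (γ j).1 = i1 ε p sty (g x) := by
  have hM' : (M : ℤ) + 2 * r ≤ t := by exact_mod_cast hM
  have hD' : (D : ℤ) + 2 * r ≤ t := by exact_mod_cast hD
  obtain ⟨γ, h1, h2⟩ := exists_gamma (U ×ˢ Finset.Icc (-M : ℤ) M) (i1 ε p sty)
    (fun x => (∀ m, ctr m → (D : ℤ) < |cb ε x - m|) ∧ |ca ε x| ≤ t) g
    (fun j j' => |j'.2 - j.2| ≤ r) (fun j => by simp) (fun x => (move hg ε x).2.1) g3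
    (fun x x' hx hx' e => by
      simp only [i1, Prod.mk.injEq] at e ⊢
      obtain ⟨⟨e1, e2, e3⟩, e4⟩ := e
      have n := H.per _ _ _ _ hx.1 hx'.1 e1 ((ZMod.intCast_eq_intCast_iff_dvd_sub _ _ _).1 e2.symm)
        _ hx.2
      rw [pt_cc, e4, pt_cc] at n
      obtain ⟨u, v, j, -, hv, h⟩ := rule hg ε x
      obtain ⟨a1, a2, a3, a4⟩ := h x (Near.refl _ _) rfl
      obtain ⟨b1, b2, b3, b4⟩ := h x' n e3.symm
      rw [a1, a2, a3, a4, b1, b2, b3, b4, H.sty_const _ _ hx.1 v hv, H.sty_const _ _ hx'.1 v hv,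
        e1, e4, Int.cast_add, Int.cast_add, e2]
      exact ⟨⟨rfl, rfl, rfl⟩, rfl⟩)
    (fun x _ hx => by
      have hx' : |ca ε x| ≤ M := abs_le.2 (Finset.mem_Icc.1 (Finset.mem_product.1 hx).2)
      obtain ⟨b, b1, b2, b3⟩ := H.deep x.1.1 (cb ε x) (cb ε x)
      let y : SS := ((x.1.1, pt ε (ca ε x) b), x.2)
      have ya : ca ε y = ca ε x := pt_same _ _ _
      have yb : cb ε y = b := pt_not _ _ _
      obtain ⟨-, m1, m2⟩ := move hg ε y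
      obtain ⟨-, m3, m4⟩ := move hg ε (g y)
      rw [abs_le] at m1 m2 m3 m4 hx'
      refine ⟨y, ?_, ⟨fun m hm => ?_, ?_⟩, ⟨fun m hm => ?_, ?_⟩, fun m hm => ?_, ?_⟩
      · rw [i1, i1, ya, yb, b2, (ZMod.intCast_eq_intCast_iff_dvd_sub _ _ _).2 b3]
      all_goals (try have := b1 m hm); simp only [abs_le, lt_abs] at *; omega)
  refine ⟨γ, h1, fun x j hx e ha => h2 x j ⟨hx, by omega⟩ e fun j' j'' a b => ?_⟩
  have e' : ca ε x = j.1.2 := congrArg Prod.snd e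
  refine Finset.mem_product.2 ⟨hU _, Finset.mem_Icc.2 ?_⟩
  have := le_abs_self (ca ε x)
  have := neg_abs_le (ca ε x)
  rw [abs_le] at a b
  omega

theorem cen' (H : Strip ε r p D t ctr sty cty) {x x' : SS × ℤ} (hx : ctr x.2) (hx' : ctr x'.2)
    (e : i2 ε cty x = i2 ε cty x') (ha : |ca ε x.1| ≤ t) (hb : |cb ε x.1 - x.2| ≤ t) :
    Near r x.1.1 x'.1.1 ∧ (cb ε x.1 : ZMod p) = cb ε x'.1 ∧ ∀ v : ℤ, |cb ε x.1 - x.2 + v| ≤ t →
      sty x.1.1.1 (cb ε x.1 + v) = sty x'.1.1.1 (cb ε x'.1 + v) := by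
  simp only [i2, Prod.mk.injEq] at e
  obtain ⟨⟨e1, -⟩, e3, e4⟩ := e
  obtain ⟨h1, h2⟩ := H.cen _ _ _ _ hx hx' e1
  refine ⟨?_, (ZMod.intCast_eq_intCast_iff_dvd_sub _ _ _).2 ?_, fun v hv => ?_⟩
  · have := (h2 _ _ ha hb).1
    rwa [add_sub_cancel, pt_cc, e3, e4, add_sub_cancel, pt_cc] at this
  · rw [show cb ε x'.1 - cb ε x.1 = -(x.2 - x'.2) by omega]
    exact h1.neg_right
  · have := (h2 0 _ (by simp) hv).2
    rwa [show x.2 + (cb ε x.1 - x.2 + v) = cb ε x.1 + v by omega,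
      show x'.2 + (cb ε x.1 - x.2 + v) = cb ε x'.1 + v by omega] at this

theorem gamma2 (H : Strip ε r p D t ctr sty cty) {g : Perm SS} (hg : LocP r g)
    (g3 : ∀ x, g (g (g x)) = x) {M : ℕ} (hM : M + 2 * r ≤ t)
    {U : Finset ((Tile × Fin 4) × I)} (hU : ∀ y, y ∈ U) :
    ∃ γ : Perm (U ×ˢ (Finset.Icc (-M : ℤ) M ×ˢ Finset.Icc (-M : ℤ) M) :
        Finset (((Tile × Fin 4) × I) × ℤ × ℤ)),
      (∀ j, |(γ j).1.2.1 - j.1.2.1| ≤ r ∧ |(γ j).1.2.2 - j.1.2.2| ≤ r) ∧ ∀ x m j, ctr m →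
        i2 ε cty (x, m) = j.1 → |ca ε x| + 2 * r ≤ M → |cb ε x - m| + 2 * r ≤ M →
        (γ j).1 = i2 ε cty (g x, m) := by
  have hM' : (M : ℤ) + 2 * r ≤ t := by exact_mod_cast hM
  obtain ⟨γ, h1, h2⟩ := exists_gamma
    (U ×ˢ (Finset.Icc (-M : ℤ) M ×ˢ Finset.Icc (-M : ℤ) M)) (i2 ε cty)
    (fun x => ctr x.2 ∧ |ca ε x.1| ≤ t ∧ |cb ε x.1 - x.2| ≤ t) (fun x => (g x.1, x.2))
    (fun j j' => |j'.2.1 - j.2.1| ≤ r ∧ |j'.2.2 - j.2.2| ≤ r) (fun j => by simp)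
    (fun x => ⟨(move hg ε x.1).2.1, by simpa [i2] using (move hg ε x.1).2.2⟩)
    (fun x => by rw [g3])
    (fun x x' hx hx' e => by
      have n := (cen' H hx.1 hx'.1 e hx.2.1 hx.2.2).1
      simp only [i2, Prod.mk.injEq] at e ⊢
      obtain ⟨⟨e1, e2⟩, e3, e4⟩ := e
      obtain ⟨u, v, j, -, -, h⟩ := rule hg ε x.1
      obtain ⟨a1, a2, a3, a4⟩ := h x.1 (Near.refl _ _) rfl
      obtain ⟨b1, b2, b3, b4⟩ := h x'.1 n e2.symm
      rw [a1, a2, a3, a4, b1, b2, b3, b4, e1, e3]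
      exact ⟨⟨rfl, rfl⟩, rfl, by omega⟩)
    (fun x hx hS => by
      have h := Finset.mem_product.1 (Finset.mem_product.1 hS).2
      have h1 : -M ≤ ca ε x.1 ∧ ca ε x.1 ≤ M := Finset.mem_Icc.1 h.1
      have h2 : -M ≤ cb ε x.1 - x.2 ∧ cb ε x.1 - x.2 ≤ M := Finset.mem_Icc.1 h.2
      obtain ⟨-, m1, m2⟩ := move hg ε x.1
      obtain ⟨-, m3, m4⟩ := move hg ε (g x.1)
      refine ⟨x, rfl, hx, ⟨hx.1, ?_, ?_⟩, hx.1, ?_, ?_⟩ <;> simp only [abs_le] at * <;> omega)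
  refine ⟨γ, h1, fun x m j hx e ha hb => h2 (x, m) j ⟨hx, by dsimp only; omega,
    by dsimp only; omega⟩ e fun j' j'' a b => ?_⟩
  have e1 : ca ε x = j.1.2.1 := congrArg (·.2.1) e
  have e2 : cb ε x - m = j.1.2.2 := congrArg (·.2.2) e
  have := le_abs_self (ca ε x)
  have := neg_abs_le (ca ε x)
  have := le_abs_self (cb ε x - m)
  have := neg_abs_le (cb ε x - m)
  simp only [abs_le] at a b
  simp only [Finset.mem_product, hU, Finset.mem_Icc, true_and]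
  omega

theorem exists_H (H : Strip ε r p D t ctr sty cty) {g : Perm SS} (hg : LocP r g) :
    ∃ G : ((Tile × Fin 4) × I) × ℤ × ℤ →
        (((Core × Fin 4) × ZMod p × I) × ℤ) × (((Core × Fin 4) × ZMod p × I) × ℤ),
      ∀ x m, ctr m → |ca ε x| ≤ t → |cb ε x - m| + r ≤ t →
        G (i2 ε cty (x, m)) = (i1 ε p sty x, i1 ε p sty (g x)) := by
  obtain ⟨G, h, -⟩ := exists_fac (i2 ε cty)
    (fun x => ctr x.2 ∧ |ca ε x.1| ≤ t ∧ |cb ε x.1 - x.2| + r ≤ t)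
    (fun x => (i1 ε p sty x.1, i1 ε p sty (g x.1)))
    (fun j => (((⟨j.1.1.1.co ε, 0⟩, 0, 0), 0), ((⟨j.1.1.1.co ε, 0⟩, 0, 0), 0)))
    (fun x x' hx hx' e => by
      obtain ⟨n, c1, c2⟩ := cen' H hx.1 hx'.1 e hx.2.1 (by omega)
      simp only [i1, i2, Prod.mk.injEq] at e ⊢
      obtain ⟨⟨e1, e2⟩, e3, e4⟩ := e
      obtain ⟨u, v, j, -, hv, h⟩ := rule hg ε x.1
      obtain ⟨a1, a2, a3, a4⟩ := h x.1 (Near.refl _ _) rfl
      obtain ⟨b1, b2, b3, b4⟩ := h x'.1 n e2.symm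
      have d1 := c2 0 (by rw [add_zero]; omega)
      have d2 := c2 v ((abs_add_le _ _).trans (by omega))
      rw [add_zero, add_zero] at d1
      rw [a1, a2, a3, a4, b1, b2, b3, b4, d1, d2, Int.cast_add, Int.cast_add, c1, e2, e3]
      exact ⟨⟨⟨rfl, rfl, rfl⟩, rfl⟩, ⟨rfl, rfl, rfl⟩, rfl⟩)
  exact ⟨G, fun x m a b c => h (x, m) ⟨a, b, c⟩⟩

/-- the bit read along the line -/
def v1 (ε : Bool) (p : ℕ) (sty : Vx → ℤ → Core × Fin 4)
    {S : Finset (((Core × Fin 4) × ZMod p × I) × ℤ)} (ω : S → Bool) (x : SS) : Bool :=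
  ext (fun j => decide (0 < j.2)) ω (i1 ε p sty x)

open Classical in
/-- the bit read at the nearest centre -/
noncomputable def v2 (ε : Bool) (ctr : ℤ → Prop) (cty : Vx → ℤ → Tile × Fin 4)
    {S : Finset (((Tile × Fin 4) × I) × ℤ × ℤ)} (ω : S → Bool) (x : SS) : Bool :=
  decide (∃ m, ctr m ∧ ext (fun _ => false) ω (i2 ε cty (x, m)) = true)

theorem mem_of_ext {M : ℕ} {U : Finset ((Tile × Fin 4) × I)}
    {ω : (U ×ˢ (Finset.Icc (-M : ℤ) M ×ˢ Finset.Icc (-M : ℤ) M) : Finset _) → Bool} {x : SS} {m : ℤ}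
    (h : ext (fun _ => false) ω (i2 ε cty (x, m)) = true) : |ca ε x| ≤ M ∧ |cb ε x - m| ≤ M := by
  by_cases hS : i2 ε cty (x, m) ∈ U ×ˢ (Finset.Icc (-M : ℤ) M ×ˢ Finset.Icc (-M : ℤ) M)
  · have h := Finset.mem_product.1 (Finset.mem_product.1 hS).2
    exact ⟨abs_le.2 (Finset.mem_Icc.1 h.1), abs_le.2 (Finset.mem_Icc.1 h.2)⟩
  · rw [ext_out hS] at h
    exact absurd h (by simp)

theorem v2_eq (H : Strip ε r p D t ctr sty cty) {M : ℕ} (hM : M ≤ t)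
    {U : Finset ((Tile × Fin 4) × I)}
    (ω : (U ×ˢ (Finset.Icc (-M : ℤ) M ×ˢ Finset.Icc (-M : ℤ) M) : Finset _) → Bool) {x : SS} {m : ℤ}
    (hm : ctr m) (hb : |cb ε x - m| ≤ t) :
    v2 ε ctr cty ω x = ext (fun _ => false) ω (i2 ε cty (x, m)) := by
  rw [Bool.eq_iff_iff]
  simp only [v2, decide_eq_true_iff]
  refine ⟨fun ⟨m', h1, h2⟩ => ?_, fun h => ⟨m, hm, h⟩⟩
  by_cases e : m = m'
  · rwa [e]
  · have h3 := H.sep m m' hm h1 e
    have h4 := (mem_of_ext h2).2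
    simp only [abs_le, lt_abs] at *
    omega

theorem v2_false {S : Finset (((Tile × Fin 4) × I) × ℤ × ℤ)} {ω : S → Bool} {x : SS}
    (h : ∀ m, ctr m → ext (fun _ => false) ω (i2 ε cty (x, m)) = false) :
    v2 ε ctr cty ω x = false := by
  rw [v2, decide_eq_false_iff_not]
  rintro ⟨m, h1, h2⟩
  rw [h m h1] at h2
  exact absurd h2 (by simp)

theorem upper (H : Strip ε r p D t ctr sty cty) {M₁ M₂ : ℕ} (hM : M₂ ≤ t)
    {U₁ : Finset ((Core × Fin 4) × ZMod p × I)} {U₂ : Finset ((Tile × Fin 4) × I)}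
    (ω₁ : (U₁ ×ˢ Finset.Icc (-M₁ : ℤ) M₁ : Finset _) → Bool)
    (ω₂ : (U₂ ×ˢ (Finset.Icc (-M₂ : ℤ) M₂ ×ˢ Finset.Icc (-M₂ : ℤ) M₂) : Finset _) → Bool) :
    Upper ε {x | xor (v1 ε p sty ω₁ x) (v2 ε ctr cty ω₂ x) = true} := by
  obtain ⟨R, hR⟩ := H.loc
  have far : ∀ x, (M₁ : ℤ) + M₂ < |ca ε x| →
      xor (v1 ε p sty ω₁ x) (v2 ε ctr cty ω₂ x) = decide (0 < ca ε x) := by
    intro x hx
    rw [v1, ext_out, v2_false, Bool.xor_false]
    · rfl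
    · intro m _
      by_contra h
      have := (mem_of_ext (Bool.eq_true_of_not_eq_false h)).1
      omega
    · intro h
      have : |ca ε x| ≤ M₁ := abs_le.2 (Finset.mem_Icc.1 (Finset.mem_product.1 h).2)
      omega
  have key : ∀ (a : ℤ) (i : I) (y y' : S0), y.2 ε = 0 → y'.2 ε = 0 → Near R y y' →
      i1 ε p sty (mv y (pt ε a 0), i) = i1 ε p sty (mv y' (pt ε a 0), i) ∧
      (v2 ε ctr cty ω₂ (mv y (pt ε a 0), i) = true →
        v2 ε ctr cty ω₂ (mv y' (pt ε a 0), i) = true) := by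
    intro a i y y' hy hy' n
    have e : ∀ y : S0, y.2 ε = 0 → y = (y.1, pt ε 0 (y.2 (!ε))) ∧
        ca ε (mv y (pt ε a 0), i) = a ∧ cb ε (mv y (pt ε a 0), i) = y.2 (!ε) := fun y hy =>
      ⟨by rw [← hy, pt_self], by simp [ca, hy], by simp [cb]⟩
    obtain ⟨e1, e2, e3⟩ := e y hy
    obtain ⟨f1, f2, f3⟩ := e y' hy'
    rw [e1, f1] at n
    obtain ⟨h1, h2, h3⟩ := hR _ _ _ _ n
    constructor
    · rw [i1, i1, e2, e3, f2, f3, mv_fst, mv_fst, h1,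
        (ZMod.intCast_eq_intCast_iff_dvd_sub _ _ _).2 h2]
    · simp only [v2, decide_eq_true_iff]
      rintro ⟨m, hm, h⟩
      have h4 := (mem_of_ext h).2
      rw [e3] at h4
      obtain ⟨h5, h6⟩ := h3 (m - y.2 (!ε)) (by rw [abs_sub_comm]; omega) (by simpa using hm)
      refine ⟨_, h5, ?_⟩
      rw [← h, i2, i2, e2, e3, f2, f3]
      dsimp only [mv_fst]
      rw [← h6, add_sub_cancel, sub_add_cancel_left, neg_sub]
  refine ⟨R + M₁ + M₂, fun y i h => ?_, fun y i h => ?_, fun y y' hy hy' n a i h => ?_⟩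
  · have h' : ((R + M₁ + M₂ : ℕ) : ℤ) < ca ε (y, i) := h
    rw [Set.mem_setOf_eq, far _ (by rw [lt_abs]; omega), decide_eq_true_iff]
    omega
  · have h' : ca ε (y, i) < -((R + M₁ + M₂ : ℕ) : ℤ) := h
    rw [Set.mem_setOf_eq, far _ (by rw [lt_abs]; omega), decide_eq_true_iff]
    omega
  · have n' := n.mono (by omega : R ≤ R + M₁ + M₂)
    obtain ⟨k1, k2⟩ := key a i y y' hy hy' n'
    rw [Set.mem_setOf_eq] at h ⊢
    rw [← h, v1, v1, k1, Bool.eq_iff_iff.2 ⟨k2, (key a i y' y hy' hy n'.symm).2⟩]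

theorem equi (H : Strip ε r p D t ctr sty cty) {g : Perm SS} (hg : LocP r g)
    (g3 : ∀ x, g (g (g x)) = x) {R N : ℕ} (hR : 0 < R) (hN : R + D + 2 * r < N)
    (ht : N + 6 * r ≤ t) {U₁ : Finset ((Core × Fin 4) × ZMod p × I)} (hU₁ : ∀ y, y ∈ U₁)
    {U₂ : Finset ((Tile × Fin 4) × I)} (hU₂ : ∀ y, y ∈ U₂) :
    ∃ (γ₁ : Perm (U₁ ×ˢ Finset.Icc (-(R + 4 * r : ℕ) : ℤ) (R + 4 * r : ℕ) : Finset _))
      (γ₂ : Perm (U₂ ×ˢ (Finset.Icc (-(N + 4 * r : ℕ) : ℤ) (N + 4 * r : ℕ) ×ˢ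
        Finset.Icc (-(N + 4 * r : ℕ) : ℤ) (N + 4 * r : ℕ)) : Finset _))
      (c : (_ → Bool) → _ → Bool), (∀ j, |(γ₁ j).1.2 - j.1.2| ≤ r) ∧
      (∀ j, |(γ₂ j).1.2.1 - j.1.2.1| ≤ r ∧ |(γ₂ j).1.2.2 - j.1.2.2| ≤ r) ∧
      (∀ ω j, c ω j = true → max j.1.2.1.natAbs j.1.2.2.natAbs ≤ R + D + 2 * r) ∧
      ∀ ω₁ ω₂, (∀ j, ((R : ℤ) ≤ j.1.2 → ω₁ j = true) ∧ (j.1.2 ≤ -(R : ℤ) → ω₁ j = false)) →
        (∀ j, N ≤ max j.1.2.1.natAbs j.1.2.2.natAbs → ω₂ j = false) → ∀ x,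
        xor (v1 ε p sty (flipE γ₁ (fun _ => false) ω₁) (g x))
          (v2 ε ctr cty (flipE γ₂ (c ω₁) ω₂) (g x)) =
        xor (v1 ε p sty ω₁ x) (v2 ε ctr cty ω₂ x) := by
  obtain ⟨γ₁, a1, a2⟩ := gamma1 H hg g3 (M := R + 4 * r) (by omega) (by omega) hU₁
  obtain ⟨γ₂, b1, b2⟩ := gamma2 H hg g3 (M := N + 4 * r) (by omega) hU₂
  obtain ⟨G, hG⟩ := exists_H H hg
  have hc : ∀ (j : ((Tile × Fin 4) × I) × ℤ × ℤ) (v : Bool),
      (decide (|j.2.1| ≤ R + 2 * r ∧ |j.2.2| ≤ D) && v) = true →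
      max j.2.1.natAbs j.2.2.natAbs ≤ R + D + 2 * r := fun j v h => by
    simp only [Bool.and_eq_true, decide_eq_true_iff, abs_le] at h
    omega
  refine ⟨γ₁, γ₂, fun ω j => decide (|j.1.2.1| ≤ R + 2 * r ∧ |j.1.2.2| ≤ D) &&
    xor (ext (fun j => decide (0 < j.2)) ω (G j).1)
      (ext (fun j => decide (0 < j.2)) (flipE γ₁ (fun _ => false) ω) (G j).2), a1, b1,
    fun ω j => hc _ _, fun ω₁ ω₂ s1 s2 x => ?_⟩
  obtain ⟨-, m1, m2⟩ := move hg ε x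
  have line : ¬ (|ca ε x| ≤ R + 2 * r ∧ ∃ m, ctr m ∧ |cb ε x - m| ≤ D) →
      v1 ε p sty (flipE γ₁ (fun _ => false) ω₁) (g x) = v1 ε p sty ω₁ x := by
    intro h
    by_cases ha : |ca ε x| ≤ R + 2 * r
    · have hS : i1 ε p sty x ∈ U₁ ×ˢ Finset.Icc (-(R + 4 * r : ℕ) : ℤ) (R + 4 * r : ℕ) :=
        Finset.mem_product.2 ⟨hU₁ _, Finset.mem_Icc.2 (abs_le.1 (by
          show |ca ε x| ≤ _; omega))⟩
      rw [v1, v1, ← a2 x ⟨_, hS⟩ (fun m hm => not_le.1 fun h' => h ⟨ha, m, hm, h'⟩) rfl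
        (by omega), ext_flip, Bool.xor_false]
      exact (ext_coe ⟨_, hS⟩).symm
    · have e1 : (i1 ε p sty x).2 = ca ε x := rfl
      have e2 : (i1 ε p sty (g x)).2 = ca ε (g x) := rfl
      rw [not_le, lt_abs] at ha
      rw [abs_le] at m1
      rcases ha with ha | ha
      · rw [v1, v1, ext_far (Rel := fun j j' => |j'.2 - j.2| ≤ (r : ℤ)) (v := true) a1
          (by rw [decide_eq_true_iff]; omega)
          (fun i hi => ⟨(s1 i).1 (by rw [abs_le] at hi; omega), rfl⟩),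
          ext_val (v := true) (by rw [decide_eq_true_iff]; omega)
            fun i hi => (s1 i).1 (by rw [hi]; omega)]
      · rw [v1, v1, ext_far (Rel := fun j j' => |j'.2 - j.2| ≤ (r : ℤ)) (v := false) a1
          (by rw [decide_eq_false_iff_not]; omega)
          (fun i hi => ⟨(s1 i).2 (by rw [abs_le] at hi; omega), rfl⟩),
          ext_val (v := false) (by rw [decide_eq_false_iff_not]; omega)
            fun i hi => (s1 i).2 (by rw [hi]; omega)]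
  by_cases h : ∃ m, ctr m ∧ |ca ε x| ≤ N + 2 * r ∧ |cb ε x - m| ≤ N + 2 * r
  · obtain ⟨m, hm, ha, hb⟩ := h
    have hS : i2 ε cty (x, m) ∈ U₂ ×ˢ (Finset.Icc (-(N + 4 * r : ℕ) : ℤ) (N + 4 * r : ℕ) ×ˢ
        Finset.Icc (-(N + 4 * r : ℕ) : ℤ) (N + 4 * r : ℕ)) :=
      Finset.mem_product.2 ⟨hU₂ _, Finset.mem_product.2
        ⟨Finset.mem_Icc.2 (abs_le.1 (by show |ca ε x| ≤ _; omega)),
          Finset.mem_Icc.2 (abs_le.1 (by show |cb ε x - m| ≤ _; omega))⟩⟩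
    rw [v2_eq H (by omega) ω₂ hm (by omega), v2_eq H (by omega) _ hm (x := g x)
      (by simp only [abs_le] at *; omega), ← b2 x m ⟨_, hS⟩ hm rfl (by omega) (by omega), ext_flip,
      ext_coe (ω := ω₂) ⟨_, hS⟩]
    dsimp only
    rw [hG x m hm (by omega) (by omega)]
    by_cases h' : |ca ε x| ≤ R + 2 * r ∧ |cb ε x - m| ≤ D
    · rw [decide_eq_true (p := |(i2 ε cty (x, m)).2.1| ≤ R + 2 * r ∧ |(i2 ε cty (x, m)).2.2| ≤ D) h',
        v1, v1]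
      generalize ω₂ _ = u
      generalize ext _ ω₁ _ = v
      generalize ext _ (flipE γ₁ _ ω₁) _ = w
      cases u <;> cases v <;> cases w <;> rfl
    · rw [decide_eq_false
        (p := |(i2 ε cty (x, m)).2.1| ≤ R + 2 * r ∧ |(i2 ε cty (x, m)).2.2| ≤ D) h', line,
        Bool.false_and, Bool.xor_false]
      rintro ⟨h1, m', h2, h3⟩
      by_cases e : m = m'
      · exact h' ⟨h1, e ▸ h3⟩
      · have := H.sep m m' hm h2 e
        simp only [abs_le, lt_abs] at *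
        omega
  · have h' : ∀ m, ctr m → (N : ℤ) + 2 * r < |ca ε x| ∨ (N : ℤ) + 2 * r < |cb ε x - m| := by
      intro m hm
      by_contra hc
      exact h ⟨m, hm, by omega, by omega⟩
    rw [line fun ⟨h1, m, h2, h3⟩ => by have := h' m h2; omega, v2_false, v2_false]
    · intro m hm
      refine ext_val rfl fun i hi => s2 i ?_
      have := h' m hm
      rw [hi]
      simp only [i2, lt_abs] at *
      omega
    · intro m hm
      refine ext_far (Rel := fun j j' : ((Tile × Fin 4) × I) × ℤ × ℤ =>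
        |j'.2.1 - j.2.1| ≤ (r : ℤ) ∧ |j'.2.2 - j.2.2| ≤ (r : ℤ)) b1 rfl fun i hi => ?_
      have h1 := h' m hm
      have h2 : N ≤ max i.1.2.1.natAbs i.1.2.2.natAbs := by
        simp only [i2, lt_abs, abs_le] at hi h1 m1 m2
        omega
      refine ⟨s2 i h2, Bool.eq_false_iff.2 fun e => ?_⟩
      have := hc _ _ e
      omega

theorem fol_two {G Ω J₁ J₂ : Type} [Group G] [MulAction G Ω] [Fintype J₁] [Fintype J₂]
    (K : Finset G) {e η : ℝ} (he : 0 < e) (hη : 8 * η * (K.card : ℝ) ^ 2 ≤ e ^ 2)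
    (ψ₁ : J₁ → ℝ) (ψ₂ : J₂ → ℝ) (h₁ : ∀ j, 0 ≤ ψ₁ j ∧ ψ₁ j ≤ 1) (h₂ : ∀ j, 0 ≤ ψ₂ j ∧ ψ₂ j ≤ 1)
    (A : (J₁ → Bool) → (J₂ → Bool) → Ω)
    (h : ∀ g ∈ K, ∃ (γ₁ : Perm J₁) (γ₂ : Perm J₂) (c : (J₁ → Bool) → J₂ → Bool),
      (∀ ω j, c ω j = true → ψ₂ j = 1) ∧
      ∑ j, (Real.pi / 2 * ψ₁ j - Real.pi / 2 * ψ₁ (γ₁ j)) ^ 2 ≤ η ∧
      ∑ j, (Real.pi / 4 * ψ₂ j - Real.pi / 4 * ψ₂ (γ₂ j)) ^ 2 ≤ η ∧
      ∀ ω₁ ω₂, (∀ j, (ψ₁ j = 1 → ω₁ j = true) ∧ (ψ₁ j = 0 → ω₁ j = false)) →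
        (∀ j, ψ₂ j = 0 → ω₂ j = false) →
        g • A ω₁ ω₂ = A (flipE γ₁ (fun _ => false) ω₁) (flipE γ₂ (c ω₁) ω₂)) :
    ∃ D, Fol K e D ∧ ∀ x ∈ D, ∃ ω₁ ω₂, A ω₁ ω₂ = x := by
  classical
  have hpi := Real.pi_pos
  obtain ⟨F, hF, hFA⟩ := fol_of_amp K he hη (fun ω : (J₁ → Bool) × (J₂ → Bool) =>
      amp (fun j => Real.pi / 2 * ψ₁ j) ω.1 * amp (fun j => Real.pi / 4 * ψ₂ j) ω.2)
    (by simp only [Fintype.sum_prod_type, mul_pow, ← Finset.mul_sum, amp_sq, mul_one])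
    (fun ω => A ω.1 ω.2) fun g hg => by
      obtain ⟨γ₁, γ₂, c, a1, a2, a3, a4⟩ := h g hg
      refine ⟨Equiv.prodShear (flipE γ₁ fun _ => false) fun ω => flipE γ₂ (c ω), fun ω hω =>
        a4 ω.1 ω.2 (fun j => ⟨fun h => ?_, fun h => ?_⟩) fun j h => ?_,
        le_trans ?_ (amp_bound _ _ (fun j => ?_) (fun j => ?_) γ₁ γ₂ c fun ω j h => ?_)⟩
      · exact (amp_supp (left_ne_zero_of_mul hω) j).2 (by rw [h, mul_one])
      · exact (amp_supp (left_ne_zero_of_mul hω) j).1 (by rw [h, mul_zero])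
      · exact (amp_supp (right_ne_zero_of_mul hω) j).1 (by rw [h, mul_zero])
      · linarith
      · have := h₁ j
        constructor <;> nlinarith
      · have := h₂ j
        constructor <;> nlinarith
      · rw [a1 ω j h, mul_one]
  exact ⟨F, hF, fun x hx => let ⟨ω, h⟩ := hFA hx; ⟨ω.1, ω.2, h⟩⟩

theorem num1 {e : ℝ} (he : 0 < e) (k : ℝ) : ∃ η : ℝ, 0 < η ∧ 8 * η * k ^ 2 ≤ e ^ 2 := by
  refine ⟨e ^ 2 / (8 * (k ^ 2 + 1)), by positivity, ?_⟩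
  rw [show 8 * (e ^ 2 / (8 * (k ^ 2 + 1))) * k ^ 2 = e ^ 2 * (k ^ 2 / (k ^ 2 + 1)) by field_simp]
  exact mul_le_of_le_one_right (sq_nonneg _) (div_le_one_of_le₀ (by linarith) (by positivity))

theorem num2 {η : ℝ} (hη : 0 < η) (A : ℕ) :
    (Real.pi / 4) ^ 2 * (A * (η / ((Real.pi / 4) ^ 2 * (A + 1)))) ≤ η := by
  have := Real.pi_pos
  rw [show (Real.pi / 4) ^ 2 * (A * (η / ((Real.pi / 4) ^ 2 * (A + 1)))) = η * (A / (A + 1)) by
    field_simp]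
  exact mul_le_of_le_one_right hη.le (div_le_one_of_le₀ (by linarith) (by positivity))

theorem num3 {η : ℝ} (hη : 0 < η) (A r : ℕ) : ∃ l : ℕ, ∀ p D R : ℕ,
    R = (l + 1) * (p + D + r + 1) →
    (Real.pi / 2) ^ 2 * ((A * (p * 10) : ℕ) * ((r : ℝ) ^ 2 * (R + r + 1) / R ^ 2)) ≤ η := by
  obtain ⟨l, hl⟩ := exists_nat_gt ((Real.pi / 2) ^ 2 * (A * 10 * (2 * r ^ 2)) / η)
  refine ⟨l, fun p D R hR => ?_⟩
  have k1 : R + r + 1 ≤ 2 * R := by rw [hR]; nlinarith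
  have k2 : l * p ≤ R := by rw [hR]; nlinarith
  have k1' : (R : ℝ) + r + 1 ≤ 2 * R := by exact_mod_cast k1
  have k2' : (l : ℝ) * p ≤ R := by exact_mod_cast k2
  have k3 : (0 : ℝ) < R := by exact_mod_cast (by omega : 0 < R)
  rw [div_lt_iff₀ hη] at hl
  push_cast
  calc _ ≤ (Real.pi / 2) ^ 2 * (A * (p * 10) * ((r : ℝ) ^ 2 * (2 * R) / R ^ 2)) := by gcongr
    _ = (Real.pi / 2) ^ 2 * (A * 10 * (2 * r ^ 2)) * p / R := by field_simp
    _ ≤ l * η * p / R := by gcongr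
    _ ≤ η := by rw [div_le_iff₀ k3]; nlinarith

theorem num4 {Λ l p D r t R : ℕ} (ht : ((Λ + 1) * (l + 3) + 7) * (p + D + r + 1) ≤ t)
    (hR : R = (l + 1) * (p + D + r + 1)) :
    0 < R ∧ ∃ N, R + D + 2 * r < N ∧ Λ * (R + D + 2 * r) ≤ N ∧ N + 6 * r ≤ t := by
  refine ⟨by rw [hR]; positivity, (Λ + 1) * (R + D + 2 * r) + 1, by nlinarith, by nlinarith, ?_⟩
  have : (Λ + 1) * (R + D + 2 * r) ≤ (Λ + 1) * ((l + 3) * (p + D + r + 1)) :=
    Nat.mul_le_mul_left _ (by rw [hR]; nlinarith)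
  nlinarith

end AmB

open AmB in
theorem fol_upper (ε : Bool) (K : Finset AA) {r : ℕ}
    (hK : ∀ g ∈ K, g ^ 3 = 1 ∧ LocP r (g : Perm SS) ∧ LocP r (g : Perm SS)⁻¹) {e : ℝ}
    (he : 0 < e) : ∃ D : Set (Set SS), Fol K e D ∧ ∀ A ∈ D, Upper ε A := by
  obtain ⟨η, hη, hηe⟩ := num1 he K.card
  obtain ⟨U₂, hU₂⟩ := exists_all ((Tile × Fin 4) × I)
  obtain ⟨Λ, hΛ⟩ := cutoff_plane r (η := η / ((Real.pi / 4) ^ 2 * (U₂.card + 1))) (by positivity)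
  obtain ⟨l, hl⟩ := num3 hη (Nat.card (Core × Fin 4)) r
  obtain ⟨p, D, t, ctr, sty, cty, ht, H⟩ := exists_strip ε r ((Λ + 1) * (l + 3) + 7)
  haveI : NeZero p := ⟨H.pos.ne'⟩
  obtain ⟨U₁, hU₁⟩ := exists_all ((Core × Fin 4) × ZMod p × I)
  obtain ⟨R, hR⟩ : ∃ R, R = (l + 1) * (p + D + r + 1) := ⟨_, rfl⟩
  obtain ⟨hR0, N, hN1, hN2, hN3⟩ := num4 ht hR
  obtain ⟨ψ₁, c1, c2, c3, c4⟩ := cutoff_line r R hR0
  obtain ⟨ψ₂, d1, d2, d3, d4⟩ := hΛ (R + D + 2 * r) (by omega)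
  have e4 := hl p D R hR
  rw [← Nat.card_zmod p, ← Nat.card_fin 10, ← Nat.card_prod, ← Nat.card_prod, ← card_all hU₁] at e4
  obtain ⟨F, hF, hFA⟩ := fol_two K he hηe
    (fun j : (U₁ ×ˢ Finset.Icc (-(R + 4 * r : ℕ) : ℤ) (R + 4 * r : ℕ) : Finset _) => ψ₁ j.1.2)
    (fun j : (U₂ ×ˢ (Finset.Icc (-(N + 4 * r : ℕ) : ℤ) (N + 4 * r : ℕ) ×ˢ
        Finset.Icc (-(N + 4 * r : ℕ) : ℤ) (N + 4 * r : ℕ)) : Finset _) =>
      ψ₂ (max j.1.2.1.natAbs j.1.2.2.natAbs)) (fun _ => c1 _) (fun _ => d1 _)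
    (fun ω₁ ω₂ => {x | xor (v1 ε p sty ω₁ x) (v2 ε ctr cty ω₂ x) = true}) fun g hg => by
      obtain ⟨g1, g2, -⟩ := hK g hg
      have g3 : ∀ x, (g : Perm SS) ((g : Perm SS) ((g : Perm SS) x)) = x := fun x => by
        have := congrArg (fun h : AA => (h : Perm SS) x) g1
        simpa [pow_succ] using this
      obtain ⟨γ₁, γ₂, c, a1, a2, a3, a4⟩ := equi H g2 g3 hR0 hN1 hN3 hU₁ hU₂
      refine ⟨γ₁, γ₂, c, fun ω j h => d2 _ (a3 ω j h),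
        (energy U₁ _ γ₁ (fun a b => |b - a| ≤ r) a1 ψ₁ (Real.pi / 2) (c4 _)).trans e4,
        (energy U₂ _ γ₂ (fun a b : ℤ × ℤ => |b.1 - a.1| ≤ (r : ℤ) ∧ |b.2 - a.2| ≤ (r : ℤ)) a2
          (fun x => ψ₂ (max x.1.natAbs x.2.natAbs)) (Real.pi / 4) (d4 _)).trans (num2 hη _),
        fun ω₁ ω₂ s1 s2 => ?_⟩
      ext x
      obtain ⟨x, rfl⟩ := MulAction.surjective g x
      rw [Set.smul_mem_smul_set_iff, Set.mem_setOf_eq, Set.mem_setOf_eq,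
        ← a4 ω₁ ω₂ (fun j => ⟨fun h => (s1 j).1 (c2 _ h), fun h => (s1 j).2 (c3 _ h)⟩)
          (fun j h => s2 j (d3 _ (hN2.trans h))) x]
      rfl
  refine ⟨F, hF, fun A hA => ?_⟩
  obtain ⟨ω₁, ω₂, rfl⟩ := hFA A hA
  exact upper H (by omega) ω₁ ω₂

end Vale.Agent.P196
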