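import Vale.Agent.P196.ModB

/-! P196: invariant additive set functions of exponent two have finite range. -/

namespace Vale.Agent.P196

set_option linter.deprecated false

namespace Hom0

theorem fin_of {M X : Type} [Finite X] (S : ℕ → Set M) (hm : Monotone S)
    (h : ∀ r, ∃ R : M → X → Prop, (∀ m ∈ S r, ∃ x, R m x) ∧ ∀ m m' x, R m x → R m' x → m = m') :
    (⋃ r, S r).Finite := by
  by_contra hc
  obtain ⟨t, ht, hcard⟩ := Set.Infinite.exists_subset_card_eq hc (Nat.card X + 1)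
  choose! n hn using fun m (hm : m ∈ t) => Set.mem_iUnion.1 (ht hm)
  obtain ⟨R, h1, h2⟩ := h (t.sup n)
  choose x hx using fun m : t => h1 m (hm (Finset.le_sup m.2) (hn m m.2))
  have := Nat.card_le_card_of_injective x fun m m' e => Subtype.ext (h2 _ _ _ (hx m) (e ▸ hx m'))
  simp [hcard] at this

theorem near_of_vtx {ρ r : ℕ} (hρ : 3 ≤ ρ) {v v' : S0} (hv : v ∈ Vtx ρ) (hv' : v' ∈ Vtx ρ)
    (e : xx v.1 v.2 = xx v'.1 v'.2) {u : Pos} (h1 : |u (par ρ)| + r < sg ρ)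
    (h2 : |u (!par ρ)| + r < sg (ρ - 1)) : Near r (mv v u) (mv v' u) := fun d hd => by
  obtain ⟨k, a, b⟩ := near_vtx hρ hv
  obtain ⟨k', a', b'⟩ := near_vtx hρ hv'
  obtain rfl : k = k' := Subtype.ext (a.trans (e.trans a'.symm))
  have c1 := (abs_add_le (u (par ρ)) (d (par ρ))).trans_lt (by linarith [hd (par ρ)] : _ < (sg ρ : ℤ))
  have c2 := (abs_add_le (u (!par ρ)) (d (!par ρ))).trans_lt
    (by linarith [hd (!par ρ)] : _ < (sg (ρ - 1) : ℤ))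
  rw [mv_fst, mv_fst, mv_snd, mv_snd, add_assoc, add_assoc, b (u + d) c1 c2, b' (u + d) c1 c2]

theorem exists_off (ρ : ℕ) (c : ℤ) (p : S0) : ∃ u : Pos, mv p (-u) ∈ Vtx ρ ∧
    (-c ≤ u (par ρ) ∧ u (par ρ) < sg ρ - c) ∧ -c ≤ u (!par ρ) ∧ u (!par ρ) < sg (ρ + 1) - c := by
  have a : (0 : ℤ) < sg ρ := by exact_mod_cast sg_pos ρ
  have b : (0 : ℤ) < sg (ρ + 1) := by exact_mod_cast sg_pos (ρ + 1)
  refine ⟨pt (par ρ) ((p.2 (par ρ) + c) % sg ρ - c) ((p.2 (!par ρ) + c) % sg (ρ + 1) - c),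
    ⟨?_, ?_⟩, ?_⟩
  · simpa [← add_sub_assoc, sub_eq_add_neg, add_assoc] using
      Int.dvd_self_sub_emod (x := p.2 (par ρ) + c) (m := sg ρ)
  · simpa [← add_sub_assoc, sub_eq_add_neg, add_assoc] using
      Int.dvd_self_sub_emod (x := p.2 (!par ρ) + c) (m := sg (ρ + 1))
  · simp only [pt_same, pt_not]
    have := Int.emod_nonneg (p.2 (par ρ) + c) a.ne'
    have := Int.emod_lt_of_pos (p.2 (par ρ) + c) a
    have := Int.emod_nonneg (p.2 (!par ρ) + c) b.ne'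
    have := Int.emod_lt_of_pos (p.2 (!par ρ) + c) b
    omega

theorem fin_union {P : Set S0 → Prop} (h0 : P ∅)
    (hu : ∀ U V, Loc U → Loc V → Disjoint U V → P U → P V → P (U ∪ V)) {ι : Type} {s : Set ι}
    (hs : s.Finite) (V : ι → Set S0) (hV : ∀ i, Loc (V i)) (hP : ∀ i ∈ s, P (V i))
    (hd : s.PairwiseDisjoint V) : P (⋃ i ∈ s, V i) := by
  induction s, hs using Set.Finite.induction_on with
  | empty => simpa using h0
  | @insert a s ha hs ih =>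
    rw [Set.biUnion_insert]
    refine hu _ _ (hV _) (Loc.biUnion hs fun i _ => hV i) ?_ (hP _ (Set.mem_insert _ _))
      (ih (fun i hi => hP i (Set.mem_insert_of_mem _ hi)) (hd.subset (Set.subset_insert _ _)))
    exact Set.disjoint_iUnion₂_right.2 fun i hi =>
      hd (Set.mem_insert _ _) (Set.mem_insert_of_mem _ hi) fun e => ha (e ▸ hi)

/-- vertices with a given tile -/
def Bs (ρ : ℕ) (τ : Tile) : Set S0 := Vtx ρ ∩ {p | xx p.1 p.2 = τ}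

theorem loc_Bs (ρ : ℕ) (τ : Tile) : Loc (Bs ρ τ) :=
  (loc_vtx ρ).inter (by simpa using Loc.ev 0 (· = τ))

theorem piece {P : Set S0 → Prop} (h0 : P ∅)
    (hu : ∀ U V, Loc U → Loc V → Disjoint U V → P U → P V → P (U ∪ V)) (ρ : ℕ) (c : ℤ)
    (hB : ∀ τ u, P (sh u (Bs ρ τ))) {W : Set S0}
    (hW : ∀ u : Pos, (-c ≤ u (par ρ) ∧ u (par ρ) < sg ρ - c) →
      (-c ≤ u (!par ρ) ∧ u (!par ρ) < sg (ρ + 1) - c) → ∀ v ∈ Vtx ρ, ∀ v' ∈ Vtx ρ,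
        xx v.1 v.2 = xx v'.1 v'.2 → mv v u ∈ W → mv v' u ∈ W) : P W := by
  let Q : Set Pos := {u | (-c ≤ u (par ρ) ∧ u (par ρ) < sg ρ - c) ∧
    -c ≤ u (!par ρ) ∧ u (!par ρ) < sg (ρ + 1) - c}
  have hQ : Q.Finite := (ball_finite (c.natAbs + sg ρ + sg (ρ + 1))).subset fun u hu ε => by
    have : ε = par ρ ∨ ε = !par ρ := by cases ε <;> cases par ρ <;> simp
    obtain ⟨⟨a1, a2⟩, a3, a4⟩ := hu
    rcases this with rfl | rfl <;> rw [abs_le] <;> omega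
  have F : Free (Vtx ρ) Q := free_vtx ρ fun u hu v hv => by
    obtain ⟨⟨a1, a2⟩, a3, a4⟩ := hu
    obtain ⟨⟨b1, b2⟩, b3, b4⟩ := hv
    constructor <;> rw [abs_lt] <;> omega
  have e : W = ⋃ i ∈ {i : Pos × Tile | i.1 ∈ Q ∧ sh i.1 (Bs ρ i.2) ⊆ W}, sh i.1 (Bs ρ i.2) := by
    refine Set.Subset.antisymm (fun p hp => ?_) (Set.iUnion₂_subset fun i hi => hi.2)
    obtain ⟨u, a, b⟩ := exists_off ρ c p
    refine Set.mem_iUnion₂.2 ⟨(u, xx p.1 (p.2 + -u)), ⟨b, fun q hq => ?_⟩, a, rfl⟩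
    simpa using hW u b.1 b.2 _ a _ hq.1 hq.2.symm (by simpa using hp)
  rw [e]
  refine fin_union h0 hu ((hQ.prod Set.finite_univ).subset fun i hi => ⟨hi.1, trivial⟩) _
    (fun i => (loc_Bs _ _).sh _) (fun i _ => hB _ _) fun i hi j hj hij => ?_
  refine Set.disjoint_left.2 fun p a b => hij ?_
  have := F _ a.1 _ b.1 _ hi.1 _ hj.1 (by simp)
  exact Prod.ext this (a.2.symm.trans (this ▸ b.2))

/-- points close to a line of high rank -/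
def Nr (ρ r : ℕ) : Set S0 := {p | ∃ δ : ℤ, |δ| ≤ r ∧ (sg ρ : ℤ) ∣ p.2 (par ρ) + δ}

theorem loc_Nr (ρ r : ℕ) : Loc (Nr ρ r) := by
  simpa only [Nr, Int.dvd_iff_emod_eq_zero, Int.emod_add_emod] using
    (meas_phase ρ).loc fun m => ∃ δ : ℤ, |δ| ≤ r ∧ (sg ρ : ℤ) ∣ m + δ

theorem mem_Nr {ρ r : ℕ} {v : S0} (hv : (sg ρ : ℤ) ∣ v.2 (par ρ)) (u : Pos) :
    mv v u ∈ Nr ρ r ↔ ∃ δ : ℤ, |δ| ≤ r ∧ (sg ρ : ℤ) ∣ u (par ρ) + δ := by
  simp only [Nr, Set.mem_setOf_eq, mv_snd, Pi.add_apply, add_assoc, dvd_add_right hv]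

theorem small {s u : ℤ} {r : ℕ} (hs : 2 * r < s) (h1 : -r ≤ u) (h2 : u < s - r)
    (h : ∃ δ : ℤ, |δ| ≤ r ∧ s ∣ u + δ) : |u| ≤ r := by
  obtain ⟨δ, a, b⟩ := h
  rw [abs_le] at a ⊢
  have := Int.eq_zero_of_abs_lt_dvd b (by rw [abs_lt]; omega)
  omega

theorem reduce {P : Set S0 → Prop} (h0 : P ∅)
    (hu : ∀ U V, Loc U → Loc V → Disjoint U V → P U → P V → P (U ∪ V)) {ρ r : ℕ} (hρ : 3 ≤ ρ)
    (hr : 2 * r < sg (ρ - 1)) (hB : ∀ j : Fin 3, ∀ τ u, P (sh u (Bs (ρ + j) τ))) {U : Set S0}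
    (hU : ∀ p q, Near r p q → p ∈ U → q ∈ U) : P U := by
  have L : Loc U := ⟨r, hU⟩
  have LA := loc_Nr (ρ + 1) r
  have LB := loc_Nr (ρ + 2) r
  have s0 : sg (ρ - 1) ≤ sg ρ := sg_mono (by omega)
  have s1 := sg_le_succ ρ
  have s2 := sg_le_succ (ρ + 1)
  have p1 := par_succ ρ
  have p2 := par_add_two ρ
  rw [← Set.inter_union_sdiff U (Nr (ρ + 1) r),
    ← Set.inter_union_sdiff (U \ Nr (ρ + 1) r) (Nr (ρ + 2) r)]
  refine hu _ _ (L.inter LA) (((L.diff LA).inter LB).union ((L.diff LA).diff LB)) (by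
    rw [Set.inter_union_sdiff]; exact Set.disjoint_sdiff_right.mono_left Set.inter_subset_right) ?_
    (hu _ _ ((L.diff LA).inter LB) ((L.diff LA).diff LB)
      (Set.disjoint_sdiff_right.mono_left Set.inter_subset_right) ?_ ?_)
  · refine piece h0 hu ρ r (hB 0) fun u a b v hv v' hv' e h => ?_
    have c := (mem_Nr (p1 ▸ hv.2) u).1 h.2
    refine ⟨hU _ _ (near_of_vtx hρ hv hv' e ?_ ?_) h.1, (mem_Nr (p1 ▸ hv'.2) u).2 c⟩
    · rcases abs_cases (u (par ρ)) with d | d <;> omega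
    · have := small (by omega) b.1 b.2 (p1 ▸ c)
      omega
  · refine piece h0 hu (ρ + 1) r (hB 1) fun u a b v hv v' hv' e h => ?_
    have q : par (ρ + 2) = !par (ρ + 1) := par_succ (ρ + 1)
    have c := (mem_Nr (ρ := ρ + 2) (q ▸ hv.2) u).1 h.2
    refine ⟨⟨hU _ _ (near_of_vtx (by omega) hv hv' e ?_ ?_) h.1.1, fun h' => h.1.2
      ((mem_Nr hv.1 u).2 ((mem_Nr hv'.1 u).1 h'))⟩, (mem_Nr (ρ := ρ + 2) (q ▸ hv'.2) u).2 c⟩
    · rcases abs_cases (u (par (ρ + 1))) with d | d <;> omega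
    · have := small (by omega) b.1 b.2 (q ▸ c)
      simp only [Nat.add_sub_cancel]
      omega
  · refine piece h0 hu (ρ + 2) r (hB 2) fun u _ _ v hv v' hv' _ h => ?_
    have d3 : (sg (ρ + 1) : ℤ) ∣ sg (ρ + 3) := sg_dvd (by omega) (par_add_two (ρ + 1)).symm
    have c : ∀ v ∈ Vtx (ρ + 2), (sg (ρ + 1) : ℤ) ∣ v.2 (par (ρ + 1)) := fun v hv =>
      d3.trans (by rw [p1, ← p2]; exact hv.2)
    refine ⟨⟨hU _ _ (fun d hd => ?_) h.1.1, fun h' => h.1.2 ((mem_Nr (c v hv) u).2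
      ((mem_Nr (c v' hv') u).1 h'))⟩, fun h' => h.2 ((mem_Nr hv.1 u).2 ((mem_Nr hv'.1 u).1 h'))⟩
    have := xx_off (ρ := ρ) v'.1 v.1 (z := v.2 + u + d) (m := v'.2 - v.2)
      (fun x => h.2 ⟨_, hd (par ρ), p2 ▸ x⟩) (fun x => h.1.2 ⟨_, hd (!par ρ), p1 ▸ x⟩)
      (p2 ▸ hv'.1.sub hv.1) (p2 ▸ hv'.2.sub hv.2)
    rw [mv_fst, mv_snd, ← this]
    congr 1
    simp only [mv_snd]
    abel

theorem exists_rho (r : ℕ) : ∃ ρ, 3 ≤ ρ ∧ 2 * r < sg (ρ - 1) :=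
  let ⟨ρ, h⟩ := sg_big (2 * r + 1)
  ⟨ρ + 3, by omega, h _ (by omega)⟩

end Hom0

open Hom0

theorem hom0 {M : Type} [CommGroup M] (ζ : Set S0 → M)
    (hadd : ∀ U V, Loc U → Loc V → Disjoint U V → ζ (U ∪ V) = ζ U * ζ V)
    (hsh : ∀ U d, Loc U → ζ (sh d U) = ζ U) (hsq : ∀ U, Loc U → ζ U * ζ U = 1) :
    {x | ∃ U, Loc U ∧ x = ζ U}.Finite := by
  classical
  refine (fin_of (X := Fin 3 × Tile → Bool)
    (fun r => {x | ∃ U, (∀ p q, Near r p q → p ∈ U → q ∈ U) ∧ x = ζ U}) ?_ fun r => ?_).subset ?_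
  · rintro r r' h _ ⟨U, a, rfl⟩
    exact ⟨U, fun p q n => a p q (n.mono h), rfl⟩
  · obtain ⟨ρ, h3, hr⟩ := exists_rho r
    let F : (Fin 3 × Tile → Bool) → M := fun f => ∏ j, if f j then ζ (Bs (ρ + j.1) j.2) else 1
    refine ⟨fun m f => F f = m, ?_, fun m m' x a b => a.symm.trans b⟩
    rintro _ ⟨U, hU, rfl⟩
    refine reduce (P := fun U => ∃ f, F f = ζ U) ⟨fun _ => false, ?_⟩ ?_ h3 hr (fun j τ u => ?_) hU
    · have : ζ ∅ = 1 := by simpa using (hadd ∅ ∅ Loc.empty Loc.empty (by simp)).symm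
      simp [F, this]
    · rintro U V a b c ⟨f, hf⟩ ⟨g, hg⟩
      refine ⟨fun j => xor (f j) (g j), ?_⟩
      rw [hadd U V a b c, ← hf, ← hg, ← Finset.prod_mul_distrib]
      refine Finset.prod_congr rfl fun j _ => ?_
      cases h : f j <;> cases h' : g j <;> simp [h, h', hsq _ (loc_Bs _ _)]
    · exact ⟨fun i => decide (i = (j, τ)), by simp [F, hsh _ _ (loc_Bs _ _)]⟩
  · rintro _ ⟨U, ⟨r, h⟩, rfl⟩
    exact Set.mem_iUnion.2 ⟨r, U, h, rfl⟩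

end Vale.Agent.P196
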