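import Vale.Agent.P196.ModL

/-! P196: phases, vertices and the local structure of the model configurations. -/

namespace Vale.Agent.P196
open MAux

namespace MAux

theorem first_iff (k : Vx) {ρ j : ℕ} (h0 : 0 < j) (hj : j < nn (ρ + 1)) (β b : ℤ) :
    ((ln k (par (ρ + 1)) (β * sg (ρ + 3) + j * sg (ρ + 1)) b).lab.ph.val = 0 ∧
      (ln k (par (ρ + 1)) (β * sg (ρ + 3) + j * sg (ρ + 1)) b).lab.fst = true) ↔ j = 1 := by
  have h1 := idx_eq hj β le_rfl (sg_pos' _)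
  rw [add_zero] at h1
  rw [ln_rk k (isRk_digit h0 hj β), h1]
  change (labF (ρ + 1) j).ph.val = 0 ∧ (labF (ρ + 1) j).fst = true ↔ _
  rw [labF_ph h0 hj, labF_fst]
  constructor
  · rintro ⟨h2, h3⟩
    rw [mod_of_div h2] at h3
    omega
  · rintro rfl
    simp

theorem eq_zero_of_dvd {s x : ℤ} (h : s ∣ x) (h' : |x| < s) : x = 0 :=
  Int.eq_zero_of_abs_lt_dvd h h'

theorem ln_const (k : Vx) {ρ : ℕ} {v b δ : ℤ} (h : (sg (ρ + 1) : ℤ) ∣ v) (hb : (sg ρ : ℤ) ∣ b)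
    (h0 : 0 ≤ δ) (h1 : δ < sg ρ) : ln k (!par ρ) v (b + δ) = ln k (!par ρ) v b := by
  lift δ to ℕ using h0
  induction δ with
  | zero => simp
  | succ n ih =>
    push_cast at h1 ⊢
    rw [← ih (by omega), ← ln_pass k h (u := b + (n + 1)) fun h' => by
      have := eq_zero_of_dvd ((dvd_add_right hb).1 h') (by rw [abs_of_nonneg] <;> omega)
      omega]
    congr 1
    ring

theorem ln_const' (k : Vx) {ρ : ℕ} {v b δ : ℤ} (h : (sg (ρ + 1) : ℤ) ∣ v) (hb : (sg ρ : ℤ) ∣ b)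
    (h0 : δ < 0) (h1 : -(sg ρ : ℤ) ≤ δ) :
    ln k (!par ρ) v (b + δ) = ln k (!par ρ) v (b - 1) := by
  have hd : (sg ρ : ℤ) ∣ b - sg ρ := hb.sub dvd_rfl
  have h2 := ln_const k h hd (δ := δ + sg ρ) (by omega) (by omega)
  have h3 := ln_const k h hd (δ := sg ρ - 1) (by omega) (by omega)
  rw [show b - sg ρ + (δ + sg ρ) = b + δ by ring] at h2
  rw [show b - sg ρ + (sg ρ - 1) = b - 1 by ring] at h3
  rw [h2, h3]

theorem ln_low (k k' : Vx) {ρ : ℕ} {u m m' : ℤ} (hu : ¬ (sg ρ : ℤ) ∣ u) (hm : (sg ρ : ℤ) ∣ m)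
    (hm' : (sg (ρ + 1) : ℤ) ∣ m') (b : ℤ) :
    ln k (par ρ) (u + m) (b + m') = ln k' (par ρ) u b := by
  obtain ⟨ρ', h1, h2, h3⟩ := exists_rk_lt hu
  have hm2 : (sg (ρ' + 2) : ℤ) ∣ m := (sg_dvd h1 ((par_add_two _).trans h2)).trans hm
  rw [ln_ms k _ (h3.add hm2).ne_zero, ln_ms k' _ h3.ne_zero, ← h2]
  exact ms_inv h3 hm2 ((sg_dvd (by omega) (by
    rw [par_succ ρ, ← h2, par_succ (ρ' + 2), par_add_two])).trans hm') b

/-- one line in the window around a vertex -/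
theorem ln_win (k k' : Vx) {ε : Bool} {ρ ρ' : ℕ} {v b u δ : ℤ} (hε : (!par ρ) = ε)
    (hε' : par ρ' = ε) (h : (sg (ρ + 1) : ℤ) ∣ v) (hb : (sg ρ : ℤ) ∣ b) (h' : (sg ρ' : ℤ) ∣ v)
    (hb' : (sg (ρ' + 1) : ℤ) ∣ b) (hu : |u| < sg ρ') (h0 : -(sg ρ : ℤ) ≤ δ) (h1 : δ < sg ρ)
    (e1 : k'.1.co ε = ln k ε v b) (e2 : k'.1.ci ε = ln k ε v (b - 1)) :
    ln k ε (v + u) (b + δ) = ln k' ε u δ := by
  by_cases hu0 : u = 0
  · rw [hu0, add_zero, ln.eq_def k', if_pos rfl, e1, e2, ← hε]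
    split_ifs with hδ
    · exact ln_const k h hb hδ h1
    · exact ln_const' k h hb (by omega) h0
  · rw [add_comm v, add_comm b, ← hε']
    exact ln_low k k' (fun hd => hu0 (eq_zero_of_dvd hd hu)) h' hb' δ

end MAux

theorem loc_phase (ρ : ℕ) : Loc {p : S0 | (sg ρ : ℤ) ∣ p.2 (par ρ)} := by
  induction ρ using Nat.twoStepInduction with
  | zero => simpa [sg] using Loc.univ
  | one => simpa [sg] using Loc.univ
  | more ρ ih _ =>
    cases ρ with
    | zero =>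
      convert Loc.ev 0 fun τ => ¬ (τ.co false).lab.star = true using 2 with p
      ext p
      rw [add_zero, xx_star, not_not]
      rfl
    | succ ρ =>
      let R : Tile → Prop := fun τ =>
        (τ.co (par (ρ + 1))).lab.ph.val = 0 ∧ (τ.co (par (ρ + 1))).lab.fst = true
      have hn : 6 ≤ nn (ρ + 1) := by have := cc_pos ρ; rw [nn_succ]; omega
      convert (ih.inter (Loc.ev (pt (par (ρ + 1)) (sg (ρ + 1)) 0) R)).inter
        (Loc.ev (pt (par (ρ + 1)) (2 * sg (ρ + 1)) 0) R).compl using 1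
      ext p
      simp only [Set.mem_ofPred_eq, Set.mem_inter_iff, Set.mem_compl_iff, R, co_ln, Pi.add_apply,
        pt_same, pt_not, par_add_two]
      generalize p.2 (par (ρ + 1)) = u
      constructor
      · rintro ⟨β, rfl⟩
        refine ⟨⟨⟨nn (ρ + 1) * β, by rw [sg_add_two]; ring⟩, ?_⟩, ?_⟩
        · have := (first_iff p.1 (ρ := ρ) one_pos (by omega) β (p.2 (!par (ρ + 1)) + 0)).2 rfl
          rwa [Nat.cast_one, one_mul, mul_comm β] at this
        · have := (first_iff p.1 (ρ := ρ) two_pos (by omega) β (p.2 (!par (ρ + 1)) + 0)).not.2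
            (by omega)
          rwa [Nat.cast_ofNat, mul_comm β] at this
      · rintro ⟨⟨h1, h2⟩, h3⟩
        by_contra h4
        have hr : IsRk (ρ + 1) u := ⟨h1, h4⟩
        obtain ⟨β, δ, d0, d1, e⟩ := exists_digits (ρ + 1) u
        have hp := hr.idx_pos
        have hl := idx_lt (ρ + 1) u
        obtain rfl : δ = 0 := Int.eq_zero_of_dvd_of_nonneg_of_lt d0 d1 (by
          have : δ = u - (β * nn (ρ + 1) + idx (ρ + 1) u) * sg (ρ + 1) := by
            rw [sg_add_two] at e; linear_combination -e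
          rw [this]
          exact h1.sub (Dvd.intro_left _ rfl))
        generalize idx (ρ + 1) u = j at *
        rcases (show j + 1 < nn (ρ + 1) ∨ j + 1 = nn (ρ + 1) by omega) with h5 | h5
        · rw [show u + sg (ρ + 1) = β * sg (ρ + 3) + (j + 1 : ℕ) * sg (ρ + 1) by
            rw [e]; push_cast; ring, first_iff p.1 (by omega) h5] at h2
          omega
        · rw [show u + 2 * sg (ρ + 1) = (β + 1) * sg (ρ + 3) + (1 : ℕ) * sg (ρ + 1) by
            rw [e, sg_add_two (ρ + 1), ← h5]; push_cast; ring,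
            first_iff p.1 one_pos (by omega)] at h3
          exact h3 rfl

theorem loc_vtx (ρ : ℕ) : Loc (Vtx ρ) := by
  have := loc_phase (ρ + 1)
  rw [par_succ] at this
  exact (loc_phase ρ).inter this

theorem meas_phase (ρ : ℕ) : Meas fun p : S0 => p.2 (par ρ) % (sg ρ : ℤ) := by
  obtain ⟨r, h⟩ := loc_phase ρ
  refine ⟨r + sg ρ, fun p q n => ?_⟩
  have h0 := Int.emod_nonneg (p.2 (par ρ)) (sg_pos' ρ).ne'
  have h1 := Int.emod_lt_of_pos (p.2 (par ρ)) (sg_pos' ρ)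
  have := h _ _ (n.mv (d := pt (par ρ) (-(p.2 (par ρ) % sg ρ)) 0) fun ε => by
    unfold pt
    split_ifs
    · rw [abs_neg, abs_of_nonneg h0]; exact h1.le
    · simp) (by
      simp only [Set.mem_ofPred_eq, mv_snd, Pi.add_apply, pt_same, ← sub_eq_add_neg]
      exact Int.dvd_self_sub_emod)
  simp only [Set.mem_ofPred_eq, mv_snd, Pi.add_apply, pt_same, ← sub_eq_add_neg] at this
  change p.2 (par ρ) % sg ρ = q.2 (par ρ) % sg ρ
  rw [← Int.emod_emod_of_dvd (p.2 (par ρ)) dvd_rfl]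
  exact (Int.emod_emod_of_dvd _ dvd_rfl).trans ((Int.emod_eq_of_lt h0 h1).symm.trans
    (Int.emod_eq_emod_iff_emod_sub_eq_zero.2 (Int.emod_eq_zero_of_dvd this)).symm)

theorem free_vtx (ρ : ℕ) {Q : Set Pos} (h : ∀ u ∈ Q, ∀ v ∈ Q,
    |u (par ρ) - v (par ρ)| < sg ρ ∧ |u (!par ρ) - v (!par ρ)| < sg (ρ + 1)) :
    Free (Vtx ρ) Q := by
  intro p hp q hq u hu v hv e
  have e' : ∀ ε, u ε - v ε = q.2 ε - p.2 ε := fun ε => by
    have := congrFun (congrArg Prod.snd e) ε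
    simp only [mv_snd, Pi.add_apply] at this
    omega
  refine pos_ext (par ρ) (sub_eq_zero.1 (eq_zero_of_dvd ?_ (h u hu v hv).1))
    (sub_eq_zero.1 (eq_zero_of_dvd ?_ (h u hu v hv).2))
  · rw [e']; exact hq.1.sub hp.1
  · rw [e']; exact hq.2.sub hp.2

theorem sh_vtx (ρ : ℕ) {d : Pos} (h : (sg ρ : ℤ) ∣ d (par ρ))
    (h' : (sg (ρ + 1) : ℤ) ∣ d (!par ρ)) : sh d (Vtx ρ) = Vtx ρ := by
  ext p
  exact and_congr (dvd_add_left (dvd_neg.2 h)) (dvd_add_left (dvd_neg.2 h'))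

/-- around a vertex the configuration looks like a model configuration around its origin -/
theorem near_vtx {ρ : ℕ} (hρ : 3 ≤ ρ) {p : S0} (hp : p ∈ Vtx ρ) : ∃ k : Vx, k.1 = xx p.1 p.2 ∧
    ∀ d : Pos, |d (par ρ)| < sg ρ → |d (!par ρ)| < sg (ρ - 1) → xx p.1 (p.2 + d) = xx k d := by
  obtain ⟨ρ, rfl⟩ : ∃ j, ρ = j + 3 := ⟨ρ - 3, by omega⟩
  obtain ⟨h1, h2⟩ := hp
  have p1 : par (ρ + 3) = par (ρ + 1) := par_add_two (ρ + 1)
  have p2 : (!par (ρ + 3)) = par (ρ + 2) := by rw [par_succ (ρ + 2), Bool.not_not]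
  have h3 : (sg (ρ + 2) : ℤ) ∣ p.2 (!par (ρ + 3)) :=
    (sg_dvd (by omega) (par_add_two (ρ + 2)).symm).trans h2
  have hh : ∀ ε, ((xx p.1 p.2).ci ε).lab.star = false ∧
      ¬ (((xx p.1 p.2).ci ε).lab.fst = true ∧ ((xx p.1 p.2).ci ε).lab.lst = true) := fun ε => by
    rw [ci_ln]
    rcases Bool.eq_or_eq_not ε (par (ρ + 3)) with rfl | rfl
    · have := ln_high p.1 (ρ := ρ + 1) h1 (p.2 (!par (ρ + 3)) - 1)
      rwa [← p1] at this
    · have := ln_high p.1 (ρ := ρ + 2) h2 (p.2 (!!par (ρ + 3)) - 1)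
      rwa [← p2] at this
  refine ⟨⟨_, xx_legal p.1 p.2, (hh false).1, (hh true).2⟩, rfl, fun d d1 d2 => xx_ext' fun ε => ?_⟩
  change |d (!par (ρ + 3))| < sg (ρ + 2) at d2
  have d1' := abs_lt.1 d1
  have d2' := abs_lt.1 d2
  simp only [Pi.add_apply, add_sub_assoc]
  rcases Bool.eq_or_eq_not ε (par (ρ + 3)) with rfl | rfl
  · exact ⟨ln_win _ _ (par_succ (ρ + 2)).symm rfl h1 h3 h1 h2 d1 (by omega) (by omega)
        (co_ln _ _ _) (ci_ln _ _ _),
      ln_win _ _ (par_succ (ρ + 2)).symm rfl h1 h3 h1 h2 d1 (by omega) (by omega)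
        (co_ln _ _ _) (ci_ln _ _ _)⟩
  · simp only [Bool.not_not]
    exact ⟨ln_win _ _ rfl p2.symm h2 h1 h3 h1 d2 (by omega) (by omega)
        (by rw [co_ln, Bool.not_not]) (by rw [ci_ln, Bool.not_not]),
      ln_win _ _ rfl p2.symm h2 h1 h3 h1 d2 (by omega) (by omega)
        (by rw [co_ln, Bool.not_not]) (by rw [ci_ln, Bool.not_not])⟩

/-- off the lines of high rank the tiles are periodic -/
theorem xx_off {ρ : ℕ} (k k' : Vx) {z m : Pos} (h : ¬ (sg (ρ + 2) : ℤ) ∣ z (par ρ))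
    (h' : ¬ (sg (ρ + 1) : ℤ) ∣ z (!par ρ)) (hm : (sg (ρ + 2) : ℤ) ∣ m (par ρ))
    (hm' : (sg (ρ + 3) : ℤ) ∣ m (!par ρ)) : xx k (z + m) = xx k' z := by
  refine xx_ext' fun ε => ?_
  simp only [Pi.add_apply, ← sub_add_eq_add_sub]
  rcases Bool.eq_or_eq_not ε (par ρ) with rfl | rfl
  · have := ln_low k k' h hm hm'
    rw [par_add_two] at this
    exact ⟨this _, this _⟩
  · have := ln_low k k' h' ((sg_dvd (by omega) (par_add_two (ρ + 1)).symm).trans hm') hm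
    rw [par_succ] at this
    simp only [Bool.not_not]
    exact ⟨this _, this _⟩

theorem ball_finite (r : ℕ) : {d : Pos | ∀ ε, |d ε| ≤ r}.Finite := by
  refine (Set.Finite.pi' fun _ : Bool => Set.finite_Icc (-(r : ℤ)) r).subset fun d hd ε => ?_
  exact abs_le.1 (hd ε)

theorem box_finite (a b c d : ℤ) : (box a b c d).Finite := by
  refine (Set.Finite.pi' fun ε : Bool => Set.finite_Icc (if ε then c else a)
    (if ε then d else b)).subset fun u hu ε => ?_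
  cases ε
  · exact ⟨hu.1, hu.2.1⟩
  · exact ⟨hu.2.2.1, hu.2.2.2⟩

namespace MAux

theorem part (ρ : ℕ) {P : Set S0 → Prop}
    (hu : ∀ U V, Loc U → Loc V → Disjoint U V → P U → P V → P (U ∪ V))
    (h0 : ∀ U u, Loc U → U ⊆ sh u (Vtx ρ) → P U) {U : Set S0} (hU : Loc U) : P U := by
  classical
  let f : S0 → ℤ × ℤ := fun p => (p.2 (par ρ) % sg ρ, p.2 (!par ρ) % sg (ρ + 1))
  have hf : Meas f := by
    have := meas_phase (ρ + 1)
    rw [par_succ] at this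
    exact (meas_phase ρ).pair this
  have key : ∀ s : Finset (ℤ × ℤ), P (U ∩ {p | f p ∈ s}) := fun s => by
    induction s using Finset.induction_on with
    | empty => exact h0 _ 0 (hU.inter (hf.loc _)) (by simp)
    | insert a s ha ih =>
      have e : U ∩ {p | f p ∈ insert a s} = U ∩ {p | f p = a} ∪ U ∩ {p | f p ∈ s} := by
        ext p; simp [and_or_left]
      rw [e]
      refine hu _ _ (hU.inter (hf.loc (· = a))) (hU.inter (hf.loc (· ∈ s)))
        (Set.disjoint_left.2 fun p h1 h2 => ha (h1.2 ▸ h2.2))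
        (h0 _ (pt (par ρ) a.1 a.2) (hU.inter (hf.loc (· = a))) ?_) ih
      rintro p ⟨-, rfl⟩
      simp only [mem_sh, Vtx, Set.mem_ofPred_eq, mv_snd, Pi.add_apply, Pi.neg_apply, pt_same,
        pt_not, ← sub_eq_add_neg, f]
      exact ⟨Int.dvd_self_sub_emod, Int.dvd_self_sub_emod⟩
  have := key (Finset.Ico (0 : ℤ) (sg ρ) ×ˢ Finset.Ico (0 : ℤ) (sg (ρ + 1)))
  rwa [Set.inter_eq_left.2 fun p _ => ?_] at this
  simp only [Set.mem_ofPred_eq, Finset.mem_product, Finset.mem_Ico, f]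
  exact ⟨⟨Int.emod_nonneg _ (sg_pos' _).ne', Int.emod_lt_of_pos _ (sg_pos' _)⟩,
    Int.emod_nonneg _ (sg_pos' _).ne', Int.emod_lt_of_pos _ (sg_pos' _)⟩

theorem exists_half {s : ℤ} (hs : 0 < s) (x : ℤ) : ∃ y, s ∣ x - y ∧ 2 * |y| ≤ s := by
  have h0 := Int.emod_nonneg x hs.ne'
  have h1 := Int.emod_lt_of_pos x hs
  by_cases h : 2 * (x % s) ≤ s
  · exact ⟨x % s, Int.dvd_self_sub_emod, by rwa [abs_of_nonneg h0]⟩
  · refine ⟨x % s - s, ?_, by rw [abs_of_nonpos] <;> omega⟩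
    rw [← sub_add]
    exact (Int.dvd_self_sub_emod).add dvd_rfl

end MAux

/-- reduction to free pieces -/
theorem loc_free_induction (r : ℕ) {P : Set S0 → Prop}
    (hu : ∀ U V, Loc U → Loc V → Disjoint U V → P U → P V → P (U ∪ V))
    (h0 : ∀ U, Loc U → Free U {d | ∀ ε, |d ε| ≤ r} → P U) {U : Set S0} (hU : Loc U) : P U := by
  obtain ⟨ρ, hρ⟩ := sg_big (2 * r + 1)
  have h1 := hρ ρ le_rfl
  have h2 := hρ (ρ + 1) (by omega)
  refine part ρ hu (fun U u hU h => h0 U hU fun p hp q hq a ha b hb e => ?_) hU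
  refine free_vtx ρ (Q := {d | ∀ ε, |d ε| ≤ r}) (fun u hu v hv => ?_) _ (h hp) _ (h hq) a ha b hb ?_
  · have a1 := abs_le.1 (hu (par ρ))
    have a2 := abs_le.1 (hv (par ρ))
    have a3 := abs_le.1 (hu (!par ρ))
    have a4 := abs_le.1 (hv (!par ρ))
    constructor <;> rw [abs_lt] <;> omega
  · rw [mv_mv, mv_mv, add_comm, add_comm (-u), ← mv_mv, ← mv_mv, e]

/-- reduction to two pieces in a common block -/
theorem loc_pair_induction (r : ℕ) {P : Set S0 → Set S0 → Prop}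
    (hl : ∀ U U' V, Loc U → Loc U' → Loc V → Disjoint U U' → P U V → P U' V → P (U ∪ U') V)
    (hr : ∀ U V V', Loc U → Loc V → Loc V' → Disjoint V V' → P U V → P U V' → P U (V ∪ V'))
    (h0 : ∀ (O : Set S0) (Q : Set Pos) (u v : Pos) (U V : Set S0), Loc O → Q.Finite → Free O Q →
      Loc U → Loc V → U ⊆ sh u O → V ⊆ sh v O →
      (∀ d : Pos, (∀ ε, |d ε| ≤ r) → u + d ∈ Q ∧ v + d ∈ Q) → P U V)
    {U V : Set S0} (hU : Loc U) (hV : Loc V) : P U V := by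
  obtain ⟨ρ, hρ⟩ := sg_big (4 * r + 1)
  have h1 := hρ ρ le_rfl
  have h2 := hρ (ρ + 1) (by omega)
  refine part ρ (P := fun U => P U V) (fun U U' a b c => hl U U' V a b hV c)
    (fun U u hU h => part ρ (P := fun V => P U V) (fun V V' a b c => hr U V V' hU a b c)
      (fun V v hV h' => ?_) hV) hU
  obtain ⟨y, y1, y2⟩ := exists_half (sg_pos' ρ) (v (par ρ) - u (par ρ))
  obtain ⟨y', y3, y4⟩ := exists_half (sg_pos' (ρ + 1)) (v (!par ρ) - u (!par ρ))
  let v' := u + pt (par ρ) y y'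
  have e : sh v (Vtx ρ) = sh v' (Vtx ρ) := by
    conv_rhs => rw [← sh_vtx ρ (d := v - v') (by simpa [v', sub_add_eq_sub_sub] using y1)
      (by simpa [v', sub_add_eq_sub_sub] using y3), sh_sh, add_sub_cancel]
  refine h0 (Vtx ρ) ((u + ·) '' {d | ∀ ε, |d ε| ≤ r} ∪ (v' + ·) '' {d | ∀ ε, |d ε| ≤ r}) u v' U V
    (loc_vtx ρ) (((ball_finite r).image _).union ((ball_finite r).image _)) (free_vtx ρ ?_) hU hV h
    (e ▸ h') fun d hd => ⟨Or.inl ⟨d, hd, rfl⟩, Or.inr ⟨d, hd, rfl⟩⟩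
  have y5 := le_abs_self y
  have y6 := neg_abs_le y
  have y7 := le_abs_self y'
  have y8 := neg_abs_le y'
  rintro _ (⟨a, ha, rfl⟩ | ⟨a, ha, rfl⟩) _ (⟨b, hb, rfl⟩ | ⟨b, hb, rfl⟩) <;>
  · have a1 := abs_le.1 (ha (par ρ))
    have a2 := abs_le.1 (hb (par ρ))
    have a3 := abs_le.1 (ha (!par ρ))
    have a4 := abs_le.1 (hb (!par ρ))
    simp only [v', Pi.add_apply, pt_same, pt_not]
    constructor <;> rw [abs_lt] <;> omega

end Vale.Agent.P196
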