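import Vale.Agent.P196.Word
import Vale.Agent.P196.ModB
import Vale.Agent.P196.Hom0

/-! P196: local rules, and locally finite stabilisers. -/

namespace Vale.Agent.P196

open Equiv Pointwise

theorem LocP.mono {r r' : ℕ} {g : Perm SS} (h : LocP r g) (hr : r ≤ r') : LocP r' g := fun p i =>
  let ⟨d, j, a, b⟩ := h p i
  ⟨d, j, fun ε => (a ε).trans (by exact_mod_cast hr), fun q n => b q (n.mono hr)⟩

theorem LocP.mul {r r' : ℕ} {g g' : Perm SS} (h : LocP r g) (h' : LocP r' g') :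
    LocP (r + r') (g * g') := fun p i => by
  obtain ⟨d', j', a', b'⟩ := h' p i
  obtain ⟨d, j, a, b⟩ := h (mv p d') j'
  refine ⟨d' + d, j, fun ε => (abs_add_le _ _).trans ?_, fun q n => ?_⟩
  · have := a ε; have := a' ε; push_cast; linarith
  · rw [Perm.mul_apply, b' q (n.mono (by omega)), b _ (n.mv a'), mv_mv]

namespace AmC

theorem locP_one : LocP 0 1 := fun _ i => ⟨0, i, by simp, by simp⟩

theorem locP_vact {U : Set S0} {r : ℕ} (h : ∀ p q, Near r p q → p ∈ U → q ∈ U) (σ : Perm I) :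
    LocP r (vact U σ) := fun p i => by
  classical
  refine ⟨0, if p ∈ U then σ i else i, by simp, fun q n => ?_⟩
  rw [vact_apply, mv_zero]
  by_cases a : p ∈ U
  · rw [if_pos a, if_pos (h p q n a)]
  · rw [if_neg a, if_neg fun b => a (h q p n.symm b)]

theorem fin_locP (N : ℕ) : {g | LocP N g}.Finite := by
  let Bl := {d : Pos | ∀ ε, |d ε| ≤ N}
  have : Finite Bl := ball_finite N
  refine Set.Finite.of_injOn (f := fun g : Perm SS => {t : (Bl → Tile) × I × Bl × I | ∃ p : S0,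
    (∀ d : Bl, xx p.1 (p.2 + d) = t.1 d) ∧ g (p, t.2.1) = (mv p t.2.2.1, t.2.2.2)})
    (Set.mapsTo_univ _ _) (fun g hg g' hg' e => ?_) Set.finite_univ
  ext1 ⟨p, i⟩
  obtain ⟨d, j, a, b⟩ := hg p i
  obtain ⟨q, c, c'⟩ := e.le (show (fun d : Bl => xx p.1 (p.2 + d), i, ⟨d, a⟩, j) ∈ _ from
    ⟨p, fun _ => rfl, b p (.refl _ _)⟩)
  obtain ⟨d', j', -, b'⟩ := hg' q i
  have := (b' q (.refl _ _)).symm.trans c'
  rw [b p (.refl _ _), b' p fun d hd => c ⟨d, hd⟩, mv_inj (congrArg Prod.fst this),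
    show j' = j from congrArg Prod.snd this]

theorem exists_axis (ε : Bool) (R : ℕ) : ∃ S : ℤ, 0 < S ∧ ∀ p : S0, S ∣ p.2 ε →
    ∃ p' : S0, p'.2 ε = 0 ∧ Near R p p' := by
  obtain ⟨ρ0, h0⟩ := sg_big (2 * R + 1)
  obtain ⟨ρ, h1, h2⟩ := exists_par (!ε) (ρ0 + 3)
  obtain rfl : ε = !par ρ := by simp [h2]
  have s1 := h0 (ρ - 1) (by omega)
  have s2 := h0 ρ (by omega)
  have s3 := h0 (ρ + 1) (by omega)
  refine ⟨sg (ρ + 1), by omega, fun p hp => ?_⟩
  obtain ⟨u, a, b, -⟩ := Hom0.exists_off ρ R p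
  obtain ⟨k, -, e⟩ := near_vtx (by omega) (show mv p (pt (par ρ) (-u (par ρ)) 0) ∈ Vtx ρ from
    ⟨by simpa using a.1, by simpa using hp⟩)
  refine ⟨(k, pt (par ρ) (u (par ρ)) 0), by simp, fun d hd => ?_⟩
  have d1 := abs_le.1 (hd (par ρ))
  have d2 := abs_le.1 (hd (!par ρ))
  rw [← e _ (by rw [abs_lt]; simp; omega) (by rw [abs_lt]; simp; omega)]
  congr 1
  exact pos_ext (par ρ) (by simp) (by simp)

/-- bounded displacement in one coordinate -/
theorem disp {ε : Bool} {A : Set SS} (hA : Upper ε A) (r : ℕ) : ∃ M : ℕ,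
    ∀ g ∈ Subgroup.closure {g : Perm SS | (LocP r g ∧ LocP r g⁻¹) ∧ ∀ x, g x ∈ A ↔ x ∈ A},
      ∀ x, |(g x).1.2 ε - x.1.2 ε| ≤ M := by
  obtain ⟨R, h1, h2, h3⟩ := hA
  obtain ⟨S, hS, ax⟩ := exists_axis ε (r + (R + r))
  let C : ℤ → Set SS := fun c => {x | ∃ p', p'.2 ε = 0 ∧
    Near R (mv x.1 (pt ε (c - x.1.2 ε) 0)) p' ∧ (mv p' (pt ε (x.1.2 ε - c) 0), x.2) ∈ A}
  have up : ∀ c, S ∣ c → ∀ x : SS, R < x.1.2 ε - c → x ∈ C c := fun c hc x h => by
    obtain ⟨p', a, b⟩ := ax (mv x.1 (pt ε (c - x.1.2 ε) 0)) (by simpa using hc)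
    exact ⟨p', a, b.mono (by omega), h1 _ _ (by simpa [a] using h)⟩
  have dn : ∀ c, ∀ x ∈ C c, -R ≤ x.1.2 ε - c := fun c x ⟨p', a, _, b⟩ =>
    not_lt.1 fun h => h2 _ _ (by simpa [a] using h) b
  have cs : ∀ δ, δ = ε ∨ δ = !ε := fun δ => by cases δ <;> cases ε <;> simp
  have st : ∀ g : Perm SS, LocP r g → (∀ x ∈ A, g x ∈ A) → ∀ c, S ∣ c → ∀ x ∈ C c, g x ∈ C c := by
    rintro g hg hgA c hc ⟨q, i⟩ hx
    obtain ⟨d, j, a, b⟩ := hg q i
    have d1 := abs_le.1 (a ε)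
    have d2 := abs_le.1 (a (!ε))
    have l := dn c _ hx
    rw [b q (.refl _ _)]
    by_cases h : R + r < q.2 ε - c
    · exact up c hc _ (by simp; omega)
    obtain ⟨p0, a0, b0, c0⟩ := hx
    obtain ⟨p', a', b'⟩ := ax (mv q (pt ε (c - q.2 ε) 0)) (by simpa using hc)
    have n := b'.mv (d := pt ε (q.2 ε - c) 0) fun δ => by
      rcases cs δ with rfl | rfl <;> rw [abs_le] <;> simp at l ⊢ <;> omega
    rw [mv_mv, pt_add, show pt ε _ _ = 0 from pos_ext ε (by simp) (by simp), mv_zero] at n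
    have := hgA _ (h3 _ _ a0 a' (b0.symm.trans (b'.mono (by omega))) _ _ c0)
    rw [b _ n] at this
    refine ⟨mv p' (pt ε 0 (d (!ε))), by simpa using a', ?_, ?_⟩
    · have := (b'.mono (r := R + r) (by omega)).mv (d := pt ε 0 (d (!ε))) fun δ => by
        rcases cs δ with rfl | rfl <;> rw [abs_le] <;> simp <;> omega
      convert this using 1
      exact Prod.ext rfl (pos_ext ε (by simp; ring) (by simp))
    · convert this using 2
      exact Prod.ext rfl (pos_ext ε (by simp; ring) (by simp))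
  have low : ∀ g : Perm SS, (∀ c, S ∣ c → ∀ x ∈ C c, g x ∈ C c) →
      ∀ x, x.1.2 ε - (2 * R + S) ≤ (g x).1.2 ε := fun g hg x => by
    have e := Int.emod_nonneg (x.1.2 ε - R - 1) hS.ne'
    have e' := Int.emod_lt_of_pos (x.1.2 ε - R - 1) hS
    have d := Int.dvd_self_sub_emod (x := x.1.2 ε - R - 1) (m := S)
    have := dn _ _ (hg _ d x (up _ d x (by omega)))
    omega
  refine ⟨2 * R + S.toNat, fun g hg x => ?_⟩
  have : (∀ c, S ∣ c → ∀ x ∈ C c, g x ∈ C c) ∧ ∀ c, S ∣ c → ∀ x ∈ C c, g⁻¹ x ∈ C c := by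
    induction hg using Subgroup.closure_induction with
    | mem g hg => exact ⟨st g hg.1.1 fun x => (hg.2 x).2,
        st _ hg.1.2 fun x hx => (hg.2 _).1 (by simpa using hx)⟩
    | one => simp
    | mul g g' _ _ a b => exact ⟨fun c hc x hx => a.1 c hc _ (b.1 c hc x hx),
        fun c hc x hx => by simpa using b.2 c hc _ (a.2 c hc x hx)⟩
    | inv g _ a => exact ⟨a.2, by simpa using a.1⟩
  have a := low g this.1 x
  have b := low _ this.2 (g x)
  rw [show g⁻¹ (g x) = x by simp] at b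
  rw [abs_le]
  omega

end AmC

open AmC

theorem locP_of_mem {g : Perm SS} (hg : g ∈ AA) : ∃ r, LocP r g ∧ LocP r g⁻¹ := by
  induction hg using Subgroup.closure_induction with
  | mem g hg =>
    obtain ⟨U, h, ⟨r, hr⟩, rfl⟩ | ⟨z, -, rfl⟩ := hg
    · exact ⟨r, locP_vact hr _, map_inv (vact U) _ ▸ locP_vact hr _⟩
    · choose m hm using fun i => exists_bd (z i)
      have b : ∀ i ε, |z i ε| ≤ (Finset.univ.sup m : ℕ) := fun i ε =>
        (hm i ε).trans (by exact_mod_cast Finset.le_sup (Finset.mem_univ i))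
      exact ⟨_, fun p i => ⟨z i, i, b i, fun _ _ => rfl⟩,
        fun p i => ⟨-z i, i, by simpa using b i, fun _ _ => rfl⟩⟩
  | one => exact ⟨0, locP_one, locP_one⟩
  | mul g g' _ _ a b =>
    obtain ⟨r, a, a'⟩ := a
    obtain ⟨r', b, b'⟩ := b
    exact ⟨r + r', a.mul b, by rw [mul_inv_rev, add_comm]; exact b'.mul a'⟩
  | inv g _ a => exact a.imp fun _ a => ⟨a.2, a.1⟩

theorem stab_locFin {A B : Set SS} (hA : Upper false A) (hB : Upper true B) (s : Finset AA)
    (hs : ∀ g ∈ s, g • (A, B) = (A, B)) : Finite (Subgroup.closure (s : Set AA)) := by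
  choose m hm using fun g : AA => locP_of_mem g.2
  have hr : ∀ g ∈ s, LocP (s.sup m) g.1 ∧ LocP (s.sup m) g.1⁻¹ := fun g hg =>
    ⟨(hm g).1.mono (Finset.le_sup hg), (hm g).2.mono (Finset.le_sup hg)⟩
  generalize s.sup m = r at hr
  obtain ⟨M, hM⟩ := disp hA r
  obtain ⟨M', hM'⟩ := disp hB r
  have bd : ∀ g ∈ Subgroup.closure (s : Set AA), ∀ x ε,
      |(g.1 x).1.2 ε - x.1.2 ε| ≤ (M + M' : ℕ) := fun g hg x ε => by
    have key : ∀ T : Set SS, (∀ g ∈ s, g • T = T) → g.1 ∈ Subgroup.closure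
        {g : Perm SS | (LocP r g ∧ LocP r g⁻¹) ∧ ∀ x, g x ∈ T ↔ x ∈ T} := fun T hT => by
      refine Subgroup.mem_comap (f := AA.subtype).1 ((Subgroup.closure_le _).2
        (fun g hg => Subgroup.mem_comap.2 (Subgroup.subset_closure ?_)) hg)
      refine ⟨hr g hg, fun x => ?_⟩
      conv_lhs => rw [← hT g hg]
      exact Set.smul_mem_smul_set_iff (a := g)
    have a := hM _ (key A fun g hg => congrArg Prod.fst (hs g hg)) x
    have b := hM' _ (key B fun g hg => congrArg Prod.snd (hs g hg)) x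
    cases ε <;> omega
  have st : ∀ g w : AA, LocP r g.1 → w ∈ Subgroup.closure (s : Set AA) →
      LocP (r + (M + M')) w.1 → g * w ∈ Subgroup.closure (s : Set AA) →
      LocP (r + (M + M')) (g * w).1 := fun g w hg hw ih h p i => by
    obtain ⟨d', j', -, b'⟩ := ih p i
    obtain ⟨d, j, -, b⟩ := hg (mv p d') j'
    have a' : ∀ ε, |d' ε| ≤ (M + M' : ℕ) := fun ε => by
      simpa [b' p (.refl _ _)] using bd w hw (p, i) ε
    have e : ∀ q, Near (r + (M + M')) p q → (g * w).1 (q, i) = (mv q (d' + d), j) := fun q n => by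
      rw [Subgroup.coe_mul, Perm.mul_apply, b' q n, b _ (n.mv a'), mv_mv]
    refine ⟨d' + d, j, fun ε => ?_, e⟩
    have := bd _ h (p, i) ε
    rw [e p (.refl _ _), mv_snd, Pi.add_apply, add_sub_cancel_left] at this
    omega
  refine ((fin_locP (r + (M + M'))).preimage (f := Subtype.val)
    Subtype.val_injective.injOn).subset fun g hg => ?_
  induction hg using Subgroup.closure_induction_left with
  | one => exact locP_one.mono (by omega)
  | mul_left g hg w hw ih =>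
    exact st g w (hr g hg).1 hw ih (mul_mem (Subgroup.subset_closure hg) hw)
  | inv_mul_cancel g hg w hw ih =>
    exact st g⁻¹ w (hr g hg).2 hw ih (mul_mem (inv_mem (Subgroup.subset_closure hg)) hw)

end Vale.Agent.P196
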