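import Vale.Agent.P196.Word

/-! P196: lifting the alternating group of a block. -/

namespace Vale.Agent.P196.Calc

open Equiv

variable {G : Type} [Group G] (C : Calc G)

theorem disjoint_sh {W U : Set S0} {d : Pos} (h : Disjoint W (sh d U)) : Disjoint (sh (-d) W) U := by
  rw [Set.disjoint_left] at h ⊢
  intro p hp hU
  exact h hp (by simpa [mem_sh] using hU)

theorem msec_mul (U : Set S0) (z : I → Pos) (g h : Hat) :
    C.msec U z (g * h) = C.msec U z g * C.msec U z h := by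
  simp [msec, mul_assoc]

theorem msec_inv (U : Set S0) (z : I → Pos) (g : Hat) :
    C.msec U z g⁻¹ = (C.msec U z g)⁻¹ := by
  simp [msec, mul_assoc]

theorem msec_same {U : Set S0} (hU : Loc U) {z z' : I → Pos} (hz : ∑ i, z i = 0)
    (hz' : ∑ i, z' i = 0) {a b c : I} (ha : z a = z' a) (hb : z b = z' b) (hc : z c = z' c) :
    C.msec U z (X a b c) = C.msec U z' (X a b c) := by
  simpa using C.msec_congr hU hz hz' (d := 0) (by simpa) (by simpa) (by simpa)

theorem msec_commute {U V : Set S0} {z : I → Pos} {g h : Hat} (H : Commute (C.Φ U g) (C.Φ V h)) :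
    Commute (C.msec U z g) (C.msec V z h) := by
  have := H.eq
  show _ * _ = _ * _
  simp only [msec]
  calc C.t z * C.Φ U g * (C.t z)⁻¹ * (C.t z * C.Φ V h * (C.t z)⁻¹)
      = C.t z * (C.Φ U g * C.Φ V h) * (C.t z)⁻¹ := by group
    _ = _ := by rw [this]; group

/-- vertical elements commute with multisections placed elsewhere -/
theorem vert_comm {W U : Set S0} (hW : Loc W) (hU : Loc U) {z : I → Pos} (hz : ∑ i, z i = 0)
    {a b c : I} (g : Hat)
    (h : ∀ i, (i = a ∨ i = b ∨ i = c) → pH g i = i ∨ Disjoint W (sh (z i) U)) :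
    Commute (C.Φ W g) (C.msec U z (X a b c)) := by
  classical
  obtain ⟨k, hk⟩ := fresh_list [a, b, c] (by simp)
  obtain ⟨l, hl⟩ := fresh_list [k, a, b, c] (by simp)
  obtain ⟨m, hm⟩ := fresh_list [l, k, a, b, c] (by simp)
  simp only [List.mem_cons, List.not_mem_nil, or_false, not_or] at hk hl hm
  let S : Set I := {i | (i = a ∨ i = b ∨ i = c) → Disjoint W (sh (z i) U)}
  have key : ∀ e ∈ S, e ≠ k → e ≠ l → Commute (C.Φ W (X k l e)) (C.msec U z (X a b c)) := by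
    intro e he ek el
    obtain ⟨z', hz', H⟩ := exists_sum_zero {a, b, c, k, l, e}
      (Finset.card_le_six.trans (by norm_num))
      (fun i => if i = a ∨ i = b ∨ i = c then z i else z e)
    have e1 : C.msec U z (X a b c) = C.msec U z' (X a b c) :=
      C.msec_same hU hz hz' (by simpa using (H a (by simp)).symm)
        (by simpa using (H b (by simp)).symm) (by simpa using (H c (by simp)).symm)
    have e2 : C.Φ W (X k l e) = C.msec (sh (-z e) W) z' (X k l e) := by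
      rw [msec, C.equiv _ z' (z e) k l e (hW.sh _) hz' (by simpa [hk] using H k (by simp))
        (by simpa [hl] using H l (by simp)) (by simpa using H e (by simp)), sh_sh]
      simp
    rw [e1, e2]
    apply C.msec_commute
    by_cases hT : e = a ∨ e = b ∨ e = c
    · exact C.Φ_orth _ _ (hW.sh _) hU (disjoint_sh (he hT)) _ _
    · push Not at hT
      have d3 : D3 k l e := ⟨Ne.symm hl.1, ek.symm, el.symm⟩
      refine C.Φ_comm (hW.sh _) hU (comm_X ?_ ?_ ?_) <;> rw [pH_X d3, cyc_apply d3]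
      · rw [if_neg (Ne.symm hk.1), if_neg (Ne.symm hl.2.1), if_neg (Ne.symm hT.1)]
      · rw [if_neg (Ne.symm hk.2.1), if_neg (Ne.symm hl.2.2.1), if_neg (Ne.symm hT.2.1)]
      · rw [if_neg (Ne.symm hk.2.2), if_neg (Ne.symm hl.2.2.2), if_neg (Ne.symm hT.2.2)]
  have hg := mem_of_fix (S := S) (k := k) (l := l) (g := g) (fun e => by simp [hk] at e)
    (fun e => by simp [hl] at e) (Ne.symm hl.1) (fun i hi => by
      simp only [S, Set.mem_setOf_eq, Classical.not_imp] at hi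
      exact (h i hi.1).resolve_right hi.2)
  have : Subgroup.closure ({h | ∃ a ∈ S, a ≠ k ∧ a ≠ l ∧ h = X k l a} ∪ {zz}) ≤
      (Subgroup.centralizer {C.msec U z (X a b c)}).comap (C.Φ W) := by
    refine (Subgroup.closure_le _).2 ?_
    rintro _ (⟨e, he, ek, el, rfl⟩ | rfl)
    · exact Subgroup.mem_centralizer_singleton_iff.2 (key e he ek el)
    · rw [← X_cube (a := k) (b := l) (c := m) ⟨Ne.symm hl.1, Ne.symm hm.2.1, Ne.symm hm.1⟩]
      refine Subgroup.pow_mem _ ?_ 3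
      exact Subgroup.mem_centralizer_singleton_iff.2 (key m (fun e => by simp [hm] at e) hm.2.1 hm.1)
  exact Subgroup.mem_centralizer_singleton_iff.1 (this hg)

theorem exists_z3 {a b c : I} (h : D3 a b c) (u v w : Pos) :
    ∃ z : I → Pos, ∑ i, z i = 0 ∧ z a = u ∧ z b = v ∧ z c = w := by
  obtain ⟨z, hz, H⟩ := exists_sum_zero {a, b, c} (Finset.card_le_three.trans (by norm_num))
    (fun i => if i = a then u else if i = b then v else w)
  exact ⟨z, hz, by simpa using H a (by simp), by simpa [h.1.symm] using H b (by simp),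
    by simpa [h.2.1.symm, h.2.2.symm] using H c (by simp)⟩

theorem free_disjoint {O U U' : Set S0} {Q : Set Pos} (hF : Free O Q) (hU : U ⊆ O) (hU' : U' ⊆ O)
    {u v : Pos} (hu : u ∈ Q) (hv : v ∈ Q) (h : u ≠ v ∨ Disjoint U U') :
    Disjoint (sh u U) (sh v U') := by
  rw [Set.disjoint_left]
  intro p h1 h2
  have e : u = v := hF _ (hU h1) _ (hU' h2) u hu v hv (by simp)
  subst e
  rcases h with h | h
  · exact h rfl
  · exact Set.disjoint_left.1 h h1 h2

theorem exists_V {U : Set S0} {Q : Set Pos} (hU : Loc U) (hQ : Q.Finite) (hF : Free U Q) :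
    ∃ V : (Pos → Hat) →* G, (∀ u ∈ Q, ∀ g, V (Pi.mulSingle u g) = C.Φ (sh u U) g) ∧
      ∀ h m, (∀ u ∈ Q, Commute m (C.Φ (sh u U) (h u))) → Commute m (V h) := by
  classical
  haveI := hQ.fintype
  have hc : Pairwise fun u v : Q => ∀ x y, Commute (C.Φ (sh u.1 U) x) (C.Φ (sh v.1 U) y) :=
    fun u v e => C.Φ_orth _ _ (hU.sh _) (hU.sh _)
      (free_disjoint hF le_rfl le_rfl u.2 v.2 (Or.inl fun e' => e (Subtype.ext e')))
  let r : (Pos → Hat) →* (Q → Hat) := MonoidHom.mk' (fun h u => h u.1) fun _ _ => rfl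
  refine ⟨(MonoidHom.noncommPiCoprod (fun u : Q => C.Φ (sh u.1 U)) hc).comp r, ?_, ?_⟩
  · intro u hu g
    have : r (Pi.mulSingle u g) = Pi.mulSingle (⟨u, hu⟩ : Q) g := by
      funext v
      by_cases e : v = ⟨u, hu⟩
      · subst e; simp [r]
      · have : v.1 ≠ u := fun e' => e (Subtype.ext e')
        simp [r, e, this]
    rw [MonoidHom.comp_apply, this, MonoidHom.noncommPiCoprod_mulSingle]
  · intro h m H
    exact Finset.noncommProd_commute _ _ (fun _ _ _ _ e => hc e _ _) _ fun u _ => H u.1 u.2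

open Classical in
/-- the multisection through three given points on distinct tracks -/
noncomputable def m3 (U : Set S0) (u v w : Pos) (a b c : I) : G :=
  if h : D3 a b c then C.msec U (exists_z3 h u v w).choose (X a b c) else 1

theorem m3_eq {U : Set S0} (hU : Loc U) {z : I → Pos} (hz : ∑ i, z i = 0) {a b c : I}
    (h : D3 a b c) {u v w : Pos} (ha : z a = u) (hb : z b = v) (hc : z c = w) :
    C.m3 U u v w a b c = C.msec U z (X a b c) := by
  obtain ⟨h0, h1, h2, h3⟩ := (exists_z3 h u v w).choose_spec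
  rw [m3, dif_pos h]
  exact C.msec_same hU h0 hz (h1.trans ha.symm) (h2.trans hb.symm) (h3.trans hc.symm)

theorem m3_rot {U : Set S0} (hU : Loc U) {a b c : I} (h : D3 a b c) (u v w : Pos) :
    C.m3 U u v w a b c = C.m3 U v w u b c a := by
  obtain ⟨z, h0, h1, h2, h3⟩ := exists_z3 h u v w
  rw [C.m3_eq hU h0 h h1 h2 h3, C.m3_eq hU h0 ⟨h.2.2, h.1.symm, h.2.1.symm⟩ h2 h3 h1,
    X_sys.rot a trivial b trivial c trivial h]

/-- two transversal triples related by a vertical element -/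
def Rl (U : Set S0) (V : (Pos → Hat) →* G) (u v w : Pos) (a b c a' b' c' : I) : Prop :=
  ∃ h : Pos → Hat, pH (h u) a = a' ∧ pH (h v) b = b' ∧ pH (h w) c = c' ∧
    V h * C.m3 U u v w a b c * (V h)⁻¹ = C.m3 U u v w a' b' c'

theorem Rl.trans {U : Set S0} {V : (Pos → Hat) →* G} {u v w : Pos} {a b c a' b' c' a'' b'' c'' : I}
    (h : C.Rl U V u v w a b c a' b' c') (h' : C.Rl U V u v w a' b' c' a'' b'' c'') :
    C.Rl U V u v w a b c a'' b'' c'' := by
  obtain ⟨f, f1, f2, f3, f4⟩ := h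
  obtain ⟨g, g1, g2, g3, g4⟩ := h'
  refine ⟨g * f, by simp [f1, g1], by simp [f2, g2], by simp [f3, g3], ?_⟩
  rw [← g4, ← f4, map_mul]; group

theorem Rl.rot {U : Set S0} (hU : Loc U) {V : (Pos → Hat) →* G} {u v w : Pos} {a b c a' b' c' : I}
    (h : C.Rl U V u v w a b c a' b' c') (d : D3 a b c) (d' : D3 a' b' c') :
    C.Rl U V v w u b c a b' c' a' := by
  obtain ⟨f, f1, f2, f3, f4⟩ := h
  exact ⟨f, f2, f3, f1, by rw [← C.m3_rot hU d, ← C.m3_rot hU d', f4]⟩

theorem Rl_chg {U : Set S0} (hU : Loc U) {V : (Pos → Hat) →* G} {u : Pos}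
    (hV : ∀ g, V (Pi.mulSingle u g) = C.Φ (sh u U) g) (v w : Pos) {a b c a' : I} (d : D3 a b c)
    (d' : D3 a' b c) (e : a ≠ a') : C.Rl U V u v w a b c a' b c := by
  obtain ⟨m, hm⟩ := fresh_list [a, a', b, c] (by simp)
  simp only [List.mem_cons, List.not_mem_nil, or_false, not_or] at hm
  obtain ⟨m1, m2, m3, m4⟩ := hm
  have dm : D3 a a' m := ⟨e, Ne.symm m1, Ne.symm m2⟩
  have fb : cyc a a' m b = b := by
    rw [cyc_apply dm, if_neg d.1.symm, if_neg d'.1.symm, if_neg (Ne.symm m3)]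
  have fc : cyc a a' m c = c := by
    rw [cyc_apply dm, if_neg d.2.1.symm, if_neg d'.2.1.symm, if_neg (Ne.symm m4)]
  have fa : cyc a a' m a = a' := by rw [cyc_apply dm, if_pos rfl]
  obtain ⟨z, hz, H⟩ := exists_sum_zero {a, a', m, b, c} (Finset.card_le_five.trans (by norm_num))
    (fun i => if i = b then v else if i = c then w else u)
  have z1 : z a = u := by simpa [d.1, d.2.1] using H a (by simp)
  have z2 : z a' = u := by simpa [d'.1, d'.2.1] using H a' (by simp)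
  have z3 : z m = u := by simpa [m3, m4] using H m (by simp)
  have z4 : z b = v := by simpa using H b (by simp)
  have z5 : z c = w := by simpa [d.2.2.symm] using H c (by simp)
  refine ⟨Pi.mulSingle u (X a a' m), by simp [pH_X dm, fa], ?_, ?_, ?_⟩
  · by_cases e : v = u
    · subst e; simp [pH_X dm, fb]
    · simp [e]
  · by_cases e : w = u
    · subst e; simp [pH_X dm, fc]
    · simp [e]
  · rw [hV, ← C.equiv U z u a a' m hU hz z1 z2 z3, C.m3_eq hU hz d z1 z4 z5,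
      C.m3_eq hU hz d' z2 z4 z5, ← msec, ← msec_inv, ← msec_mul, ← msec_mul, conj_X, pH_X dm,
      fa, fb, fc]

theorem Rl_all {U : Set S0} (hU : Loc U) {V : (Pos → Hat) →* G} {u v w : Pos}
    (hu : ∀ g, V (Pi.mulSingle u g) = C.Φ (sh u U) g)
    (hv : ∀ g, V (Pi.mulSingle v g) = C.Φ (sh v U) g)
    (hw : ∀ g, V (Pi.mulSingle w g) = C.Φ (sh w U) g) {a b c a' b' c' : I} (d : D3 a b c)
    (d' : D3 a' b' c') : C.Rl U V u v w a b c a' b' c' := by
  have r : ∀ {a b c : I}, D3 a b c → D3 b c a := fun h => ⟨h.2.2, h.1.symm, h.2.1.symm⟩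
  have c1 : ∀ {a b c a' : I}, D3 a b c → D3 a' b c → a ≠ a' → C.Rl U V u v w a b c a' b c :=
    fun h h' e => C.Rl_chg hU hu v w h h' e
  have c2 : ∀ {a b c b' : I}, D3 a b c → D3 a b' c → b ≠ b' → C.Rl U V u v w a b c a b' c :=
    fun h h' e => ((C.Rl_chg hU hv w u (r h) (r h') e).rot C hU (r h) (r h')).rot C hU (r (r h))
      (r (r h'))
  have c3 : ∀ {a b c c' : I}, D3 a b c → D3 a b c' → c ≠ c' → C.Rl U V u v w a b c a b c' :=
    fun h h' e => (C.Rl_chg hU hw u v (r (r h)) (r (r h')) e).rot C hU (r (r h)) (r (r h'))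
  obtain ⟨x, hx⟩ := fresh_list [a, b, c, a', b', c'] (by simp)
  obtain ⟨y, hy⟩ := fresh_list [x, a, b, c, a', b', c'] (by simp)
  obtain ⟨t, ht⟩ := fresh_list [y, x, a, b, c, a', b', c'] (by simp)
  simp only [List.mem_cons, List.not_mem_nil, or_false, not_or] at hx hy ht
  obtain ⟨x1, x2, x3, x4, x5, x6⟩ := hx
  obtain ⟨y0, y1, y2, y3, y4, y5, y6⟩ := hy
  obtain ⟨t7, t0, t1, t2, t3, t4, t5, t6⟩ := ht
  have d1 : D3 x b c := ⟨x2, x3, d.2.2⟩
  have d2 : D3 x y c := ⟨Ne.symm y0, x3, y3⟩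
  have d3 : D3 x y t := ⟨Ne.symm y0, Ne.symm t0, Ne.symm t7⟩
  have d4 : D3 a' y t := ⟨Ne.symm y4, Ne.symm t4, Ne.symm t7⟩
  have d5 : D3 a' b' t := ⟨d'.1, Ne.symm t4, Ne.symm t5⟩
  exact (((((c1 d d1 (Ne.symm x1)).trans C (c2 d1 d2 (Ne.symm y2))).trans C
    (c3 d2 d3 (Ne.symm t3))).trans C (c1 d3 d4 x4)).trans C (c2 d4 d5 y5)).trans C (c3 d5 d' t6)

theorem V_conj {U : Set S0} {Q : Set Pos} (hU : Loc U) (hF : Free U Q) {V : (Pos → Hat) →* G}
    (hV : ∀ u ∈ Q, ∀ g, V (Pi.mulSingle u g) = C.Φ (sh u U) g)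
    (hV' : ∀ h m, (∀ u ∈ Q, Commute m (C.Φ (sh u U) (h u))) → Commute m (V h)) {u v w : Pos}
    (hu : u ∈ Q) (hv : v ∈ Q) (hw : w ∈ Q) {a b c a' b' c' : I} (d : D3 a b c) (d' : D3 a' b' c')
    {h : Pos → Hat} (ha : pH (h u) a = a') (hb : pH (h v) b = b') (hc : pH (h w) c = c') :
    V h * C.m3 U u v w a b c * (V h)⁻¹ = C.m3 U u v w a' b' c' := by
  obtain ⟨f, f1, f2, f3, f4⟩ := C.Rl_all hU (hV u hu) (hV v hv) (hV w hw) d d'
  obtain ⟨z, h0, h1, h2, h3⟩ := exists_z3 d u v w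
  have : Commute (C.m3 U u v w a b c) (V (f⁻¹ * h)) := by
    refine hV' _ _ fun x hx => ?_
    rw [C.m3_eq hU h0 d h1 h2 h3]
    refine (C.vert_comm (hU.sh x) hU h0 _ fun i hi => ?_).symm
    by_cases e : x = z i
    · left
      rw [Pi.mul_apply, Pi.inv_apply, map_mul, map_inv, Perm.mul_apply, Perm.inv_eq_iff_eq, e]
      rcases hi with rfl | rfl | rfl
      · rw [h1, ha, f1]
      · rw [h2, hb, f2]
      · rw [h3, hc, f3]
    · right
      refine free_disjoint hF le_rfl le_rfl hx ?_ (Or.inl e)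
      rcases hi with rfl | rfl | rfl
      · rwa [h1]
      · rwa [h2]
      · rwa [h3]
  rw [← f4]
  have e := this.eq
  rw [map_mul, map_inv] at e
  calc V h * C.m3 U u v w a b c * (V h)⁻¹
      = V f * ((V f)⁻¹ * V h * C.m3 U u v w a b c) * (V h)⁻¹ := by group
    _ = _ := by rw [← e]; group

theorem exists_vert {p q r s : Om} (h : D3 p q r) (h' : D3 q r s) (e : p ≠ s) :
    ∃ f : Pos → Hat, pH (f p.1) 0 = p.2 ∧ pH (f q.1) 1 = q.2 ∧ pH (f r.1) 2 = r.2 ∧
      pH (f s.1) 3 = s.2 := by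
  let P : I → Om := fun j => if j = 0 then p else if j = 1 then q else if j = 2 then r else s
  have inj : Set.InjOn P ({0, 1, 2, 3} : Finset I) := by
    obtain ⟨h1, h2, h3⟩ := h
    obtain ⟨-, h5, h6⟩ := h'
    intro x hx y hy e
    simp only [Finset.coe_insert, Finset.coe_singleton, Set.mem_insert_iff,
      Set.mem_singleton_iff] at hx hy
    rcases hx with rfl | rfl | rfl | rfl <;> rcases hy with rfl | rfl | rfl | rfl <;>
      simp_all [P]
  have : ∀ u : Pos, ∃ g : Hat, ∀ j ∈ ({0, 1, 2, 3} : Finset I), (P j).1 = u → pH g j = (P j).2 := by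
    intro u
    obtain ⟨g, hg⟩ := exists_pH (({0, 1, 2, 3} : Finset I).filter fun j => (P j).1 = u)
      ((Finset.card_filter_le _ _).trans (by decide)) (fun j => (P j).2) (by
        intro x hx y hy e
        rw [Finset.mem_coe, Finset.mem_filter] at hx hy
        exact inj hx.1 hy.1 (Prod.ext (hx.2.trans hy.2.symm) e))
    exact ⟨g, fun j hj e => hg j (Finset.mem_filter.2 ⟨hj, e⟩)⟩
  choose f hf using this
  exact ⟨f, hf _ 0 (by simp) rfl, hf _ 1 (by simp) rfl, hf _ 2 (by simp) rfl, hf _ 3 (by simp) rfl⟩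

theorem block_h4 (Q : Set Pos) : ∀ a ∈ Q ×ˢ (Set.univ : Set I), ∀ b ∈ Q ×ˢ (Set.univ : Set I),
    ∀ c ∈ Q ×ˢ (Set.univ : Set I), D3 a b c → ∃ d ∈ Q ×ˢ (Set.univ : Set I),
      d ≠ a ∧ d ≠ b ∧ d ≠ c := fun a ha b _ c _ _ => by
  obtain ⟨i, h1, h2, h3⟩ := fresh3 a.2 b.2 c.2
  exact ⟨(a.1, i), ⟨ha.1, trivial⟩, fun e => h1 (congrArg Prod.snd e),
    fun e => h2 (congrArg Prod.snd e), fun e => h3 (congrArg Prod.snd e)⟩

theorem exists_rho (hC : C.Cube) {U : Set S0} {Q : Set Pos} (hU : Loc U) (hQ : Q.Finite)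
    (hF : Free U Q) : ∃ ρ : AltOn (Q ×ˢ (Set.univ : Set I)) →* G, C.IsRho U Q ρ := by
  obtain ⟨V, hV, hV'⟩ := C.exists_V hU hQ hF
  have ex : ∀ p q r : Om, ∃ f : Pos → Hat, D3 p q r →
      pH (f p.1) 0 = p.2 ∧ pH (f q.1) 1 = q.2 ∧ pH (f r.1) 2 = r.2 := by
    intro p q r
    by_cases h : D3 p q r
    · obtain ⟨s, -, s1, s2, s3⟩ := block_h4 Set.univ p (by simp) q (by simp) r (by simp) h
      obtain ⟨f, f1, f2, f3, -⟩ := exists_vert h ⟨h.2.2, s2.symm, s3.symm⟩ s1.symm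
      exact ⟨f, fun _ => ⟨f1, f2, f3⟩⟩
    · exact ⟨1, fun h' => absurd h' h⟩
  choose γ hγ using ex
  have h012 : D3 (0 : I) 1 2 := ⟨by decide, by decide, by decide⟩
  have h023 : D3 (0 : I) 2 3 := ⟨by decide, by decide, by decide⟩
  have h123 : D3 (1 : I) 2 3 := ⟨by decide, by decide, by decide⟩
  let y : Om → Om → Om → G := fun p q r =>
    V (γ p q r) * C.m3 U p.1 q.1 r.1 0 1 2 * (V (γ p q r))⁻¹
  have key : ∀ p ∈ Q ×ˢ (Set.univ : Set I), ∀ q ∈ Q ×ˢ (Set.univ : Set I),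
      ∀ r ∈ Q ×ˢ (Set.univ : Set I), D3 p q r → ∀ (f : Pos → Hat) (a b c : I), D3 a b c →
      pH (f p.1) a = p.2 → pH (f q.1) b = q.2 → pH (f r.1) c = r.2 →
      y p q r = V f * C.m3 U p.1 q.1 r.1 a b c * (V f)⁻¹ := by
    intro p hp q hq r hr h f a b c d f1 f2 f3
    obtain ⟨g1, g2, g3⟩ := hγ p q r h
    rw [← C.V_conj hU hF hV hV' hp.1 hq.1 hr.1 h012 d (h := f⁻¹ * γ p q r)
      (by simp [g1, ← f1]) (by simp [g2, ← f2]) (by simp [g3, ← f3]), map_mul, map_inv]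
    simp only [y]; group
  have hs : AltSys (Q ×ˢ (Set.univ : Set I)) y := by
    constructor
    · intro p hp q hq r hr h
      obtain ⟨g1, g2, g3⟩ := hγ p q r h
      rw [key q hq r hr p hp ⟨h.2.2, h.1.symm, h.2.1.symm⟩ (γ p q r) 1 2 0
        ⟨by decide, by decide, by decide⟩ g2 g3 g1, ← C.m3_rot hU h012]
    · intro p hp q hq r hr s hs h h' e
      obtain ⟨f, f0, f1, f2, f3⟩ := exists_vert h h' e
      obtain ⟨z, hz, H⟩ := exists_sum_zero {0, 1, 2, 3} (by decide)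
        (fun i => if i = 0 then p.1 else if i = 1 then q.1 else if i = 2 then r.1 else s.1)
      have z0 : z 0 = p.1 := H 0 (by simp)
      have z1 : z 1 = q.1 := H 1 (by simp)
      have z2 : z 2 = r.1 := H 2 (by simp)
      have z3 : z 3 = s.1 := H 3 (by simp)
      rw [key p hp q hq r hr h f 0 1 2 h012 f0 f1 f2,
        key p hp r hr s hs ⟨h.2.1, e, h'.2.2⟩ f 0 2 3 h023 f0 f2 f3,
        key q hq r hr s hs h' f 1 2 3 h123 f1 f2 f3, C.m3_eq hU hz h012 z0 z1 z2,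
        C.m3_eq hU hz h023 z0 z2 z3, C.m3_eq hU hz h123 z1 z2 z3,
        ← X_sys.mul 0 trivial 1 trivial 2 trivial 3 trivial h012 h123 (by decide), msec_mul]
      group
  have h3 : ∀ p ∈ Q ×ˢ (Set.univ : Set I), ∀ q ∈ Q ×ˢ (Set.univ : Set I),
      ∀ r ∈ Q ×ˢ (Set.univ : Set I), D3 p q r → y p q r ^ 3 = 1 := by
    intro p hp q hq r hr h
    obtain ⟨z, h0, h1, h2, h3⟩ := exists_z3 h012 p.1 q.1 r.1
    simp only [y]
    rw [conj_pow, C.m3_eq hU h0 h012 h1 h2 h3, msec, conj_pow, ← map_pow, X_cube h012, hC U hU]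
    simp
  obtain ⟨ρ, hρ⟩ := car_hom (hQ.prod Set.finite_univ) (block_h4 Q) hs h3
  refine ⟨ρ, fun z a b c hz d hm ha hb hc => ?_⟩
  have d' : D3 (z a, a) (z b, b) (z c, c) := ⟨fun e => d.1 (congrArg Prod.snd e),
    fun e => d.2.1 (congrArg Prod.snd e), fun e => d.2.2 (congrArg Prod.snd e)⟩
  rw [hρ _ ⟨ha, trivial⟩ _ ⟨hb, trivial⟩ _ ⟨hc, trivial⟩ d',
    key _ ⟨ha, trivial⟩ _ ⟨hb, trivial⟩ _ ⟨hc, trivial⟩ d' 1 a b c d (by simp) (by simp) (by simp),
    C.m3_eq hU hz d rfl rfl rfl]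
  simp

theorem block_induction {Q : Set Pos} {P : AltOn (Q ×ˢ (Set.univ : Set I)) → Prop}
    (hg : ∀ (z : I → Pos) (a b c : I), ∑ i, z i = 0 → D3 a b c → z a ∈ Q → z b ∈ Q → z c ∈ Q →
      ∀ h, P ⟨cyc (z a, a) (z b, b) (z c, c), h⟩)
    (h1 : P 1) (hm : ∀ x y, P x → P y → P (x * y)) (hi : ∀ x, P x → P x⁻¹)
    (σ : AltOn (Q ×ˢ (Set.univ : Set I))) : P σ := by
  obtain ⟨σ, hσ⟩ := σ
  have hσ' := hσ
  rw [AltOn_transversal] at hσ'
  induction hσ' using Subgroup.closure_induction with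
  | mem g H =>
    obtain ⟨u, hu, v, hv, w, hw, a, b, c, d, rfl⟩ := H
    obtain ⟨z, h0, rfl, rfl, rfl⟩ := exists_z3 d u v w
    exact hg z a b c h0 d hu hv hw _
  | one => exact h1
  | mul x y hx hy ix iy =>
    rw [← AltOn_transversal] at hx hy
    exact hm ⟨x, hx⟩ ⟨y, hy⟩ (ix hx) (iy hy)
  | inv x hx ix =>
    rw [← AltOn_transversal] at hx
    exact hi ⟨x, hx⟩ (ix hx)

theorem IsRho.mem {U : Set S0} {Q : Set Pos} {ρ : AltOn (Q ×ˢ (Set.univ : Set I)) →* G}
    (h : C.IsRho U Q ρ) (hU : Loc U) (σ : AltOn (Q ×ˢ (Set.univ : Set I))) : ρ σ ∈ C.KK U Q := by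
  induction σ using block_induction with
  | hg z a b c hz d ha hb hc hm =>
    rw [h z a b c hz d hm ha hb hc]
    exact Subgroup.subset_closure ⟨U, z, a, b, c, hU, le_rfl, hz, d, ha, hb, hc, rfl⟩
  | h1 => rw [map_one]; exact one_mem _
  | hm x y hx hy => rw [map_mul]; exact mul_mem hx hy
  | hi x hx => rw [map_inv]; exact inv_mem hx

open Classical in
theorem IsRho.isAct {O U : Set S0} {Q : Set Pos} {ρ : AltOn (Q ×ˢ (Set.univ : Set I)) →* G}
    (h : C.IsRho U Q ρ) (hU : Loc U) (hF : Free O Q) (hO : U ⊆ O)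
    (σ : AltOn (Q ×ˢ (Set.univ : Set I))) :
    IsAct O Q (fun o => if o ∈ U then (σ : Perm Om) else 1) (C.π (ρ σ)) := by
  induction σ using block_induction with
  | hg z a b c hz d ha hb hc hm =>
    rw [h z a b c hz d hm ha hb hc, C.π_msec hU hz, pH_X d]
    exact isAct_msec hF hO d ha hb hc
  | h1 =>
    rw [map_one, map_one]
    exact (IsAct.one O Q).congr fun o _ => by simp
  | hm x y hx hy =>
    rw [map_mul, map_mul]
    refine (hx.mul hy fun o _ q hq => ?_).congr fun o _ => ?_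
    · by_cases e : o ∈ U
      · rw [if_pos e]; exact (AltOn_maps y.2 (x := q) ⟨hq, trivial⟩).1
      · rw [if_neg e]; exact hq
    · by_cases e : o ∈ U <;> simp [e]
  | hi x hx =>
    rw [map_inv, map_inv]
    refine (hx.inv fun o _ q hq => ?_).congr fun o _ => ?_
    · by_cases e : o ∈ U
      · rw [if_pos e]; exact (AltOn_maps (inv_mem x.2) (x := q) ⟨hq, trivial⟩).1
      · rw [if_neg e]; exact hq
    · by_cases e : o ∈ U <;> simp [e]

end Vale.Agent.P196.Calc
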