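import Vale.Agent.P196.BlockA
import Vale.Agent.P196.ModB

/-! P196: block subgroups. -/

namespace Vale.Agent.P196

open Equiv

namespace BlockB

theorem fresh (s : Finset I) (hs : s.card ≤ 9) : ∃ i, i ∉ s :=
  (Finset.exists_mem_notMem_of_card_lt_card (t := Finset.univ) (hs.trans_lt (by simp))).imp
    fun _ h => h.2

theorem free_mono {O U : Set S0} {Q : Set Pos} (h : Free O Q) (hU : U ⊆ O) : Free U Q :=
  fun p hp q hq => h p (hU hp) q (hU hq)

/-- patterns of radius `r` -/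
noncomputable def pat (r : ℕ) (p : S0) : {d : Pos | ∀ ε, |d ε| ≤ r} → Tile :=
  fun d => xx p.1 (p.2 + d.1)

theorem pat_eq {r : ℕ} {p q : S0} : pat r p = pat r q ↔ Near r p q :=
  ⟨fun h d hd => congrFun h ⟨d, hd⟩, fun h => funext fun d => h d.1 d.2⟩

theorem loc_pat (r : ℕ) (A : Set ({d : Pos | ∀ ε, |d ε| ≤ r} → Tile)) : Loc {p | pat r p ∈ A} :=
  ⟨r, fun _ _ n h => by rwa [Set.mem_ofPred_eq, ← pat_eq.2 n]⟩

instance (r : ℕ) : Finite {d : Pos | ∀ ε, |d ε| ≤ r} := (ball_finite r).to_subtype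

end BlockB

open BlockB

namespace Calc

variable {G : Type} [Group G] (C : Calc G)

theorem KK_le {O O' : Set S0} {Q Q' : Set Pos} (d : Pos) (hO : sh d O ⊆ O')
    (hQ : ∀ u ∈ Q, u - d ∈ Q') : C.KK O Q ≤ C.KK O' Q' := by
  refine Subgroup.closure_mono ?_
  rintro _ ⟨U, z, a, b, c, hU, h1, hz, h3, ha, hb, hc, rfl⟩
  obtain ⟨y, hy, h⟩ := exists_sum_zero {a, b, c} (Finset.card_le_three.trans (by omega)) fun _ => d
  have ya := h a (by simp)
  have yb := h b (by simp)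
  have yc := h c (by simp)
  have hs : ∑ i, (z - y) i = 0 := by simp [Finset.sum_sub_distrib, hz, hy]
  exact ⟨sh d U, z - y, a, b, c, hU.sh d, fun p hp => hO (h1 hp), hs, h3,
    by simpa [ya] using hQ _ ha, by simpa [yb] using hQ _ hb, by simpa [yc] using hQ _ hc,
    C.msec_congr hU hz hs (by simp [ya]) (by simp [yb]) (by simp [yc])⟩

theorem d3_prod {u v w : Pos} {a b c : I} (h : D3 a b c) : D3 (u, a) (v, b) (w, c) :=
  ⟨fun e => h.1 (Prod.mk.inj e).2, fun e => h.2.1 (Prod.mk.inj e).2,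
    fun e => h.2.2 (Prod.mk.inj e).2⟩

theorem KK_desc {O : Set S0} {Q : Set Pos} (hF : Free O Q) {g : G} (hg : g ∈ C.KK O Q) :
    ∃ f : S0 → Perm Om, Meas f ∧ (∀ o, f o ∈ AltOn (Q ×ˢ (Set.univ : Set I))) ∧
      IsAct O Q f (C.π g) := by
  classical
  induction hg using Subgroup.closure_induction with
  | mem g hg =>
    obtain ⟨U, z, a, b, c, hU, h1, hz, h3, ha, hb, hc, rfl⟩ := hg
    refine ⟨_, ?_, fun o => ?_, by
      rw [C.π_msec hU hz, pH_X h3]; exact isAct_msec hF h1 h3 ha hb hc⟩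
    · exact hU.meas.comp fun x => if x then cyc (z a, a) (z b, b) (z c, c) else 1
    · split_ifs
      · exact cyc_mem_AltOn ⟨ha, trivial⟩ ⟨hb, trivial⟩ ⟨hc, trivial⟩ (d3_prod h3)
      · exact one_mem _
  | one => exact ⟨_, Meas.const 1, fun _ => one_mem _, by rw [map_one]; exact IsAct.one O Q⟩
  | mul g g' _ _ h h' =>
    obtain ⟨f, a, b, c⟩ := h
    obtain ⟨f', a', b', c'⟩ := h'
    exact ⟨_, (a.pair a').comp fun x => x.1 * x.2, fun o => mul_mem (b o) (b' o), by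
      rw [map_mul]; exact c.mul c' fun o _ q hq => (AltOn_maps (b' o) ⟨hq, trivial⟩).1⟩
  | inv g _ h =>
    obtain ⟨f, a, b, c⟩ := h
    exact ⟨_, a.comp fun x => x⁻¹, fun o => inv_mem (b o), by
      rw [map_inv]; exact c.inv fun o _ q hq => (AltOn_maps (inv_mem (b o)) ⟨hq, trivial⟩).1⟩

theorem KK_surj (hC : C.Cube) {O : Set S0} {Q : Set Pos} (hO : Loc O) (hQ : Q.Finite)
    (hF : Free O Q) {f : S0 → Perm Om} (hf : Meas f)
    (hf' : ∀ o ∈ O, f o ∈ AltOn (Q ×ˢ (Set.univ : Set I))) :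
    ∃ g ∈ C.KK O Q, IsAct O Q f (C.π g) := by
  classical
  obtain ⟨r, hr⟩ := hf
  have : ∀ A : Set ({d : Pos | ∀ ε, |d ε| ≤ r} → Tile), ∃ g ∈ C.KK O Q,
      IsAct O Q (fun o => if pat r o ∈ A then f o else 1) (C.π g) := by
    intro A
    induction A, A.toFinite using Set.Finite.induction_on with
    | empty => exact ⟨1, one_mem _, by simpa using IsAct.one O Q⟩
    | @insert a A ha _ ih =>
      obtain ⟨g, h1, h2⟩ := ih
      by_cases e : ∃ o ∈ O, pat r o = a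
      · obtain ⟨o, ho, rfl⟩ := e
        have hU := hO.inter (loc_pat r {pat r o})
        obtain ⟨ρ, hρ⟩ := C.exists_rho hC hU hQ (free_mono hF Set.inter_subset_left)
        refine ⟨g * ρ ⟨f o, hf' o ho⟩, mul_mem h1 (C.KK_le 0 (by simp) (by simp) (hρ.mem C hU _)),
          ?_⟩
        rw [map_mul]
        refine (h2.mul (hρ.isAct C hU hF Set.inter_subset_left _) fun x _ q hq => ?_).congr
          fun x hx => ?_
        · split_ifs
          · exact (AltOn_maps (hf' o ho) ⟨hq, trivial⟩).1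
          · exact hq
        · by_cases e : pat r x = pat r o
          · simp [e, ha, hx, hr _ _ (pat_eq.1 e)]
          · simp [e]
      · exact ⟨g, h1, h2.congr fun o ho => by
          have : pat r o ≠ a := fun h => e ⟨o, ho, h⟩
          simp [this]⟩
  simpa using this Set.univ

theorem rho_comm {O U U' : Set S0} {Q : Set Pos} (hF : Free O Q) (hU : Loc U) (hU' : Loc U')
    (h1 : U ⊆ O) (h2 : U' ⊆ O) (hd : Disjoint U U') {ρ : AltOn (Q ×ˢ (Set.univ : Set I)) →* G}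
    (hρ : C.IsRho U Q ρ) {z : I → Pos} (hz : ∑ i, z i = 0) {a b c : I} (ha : z a ∈ Q)
    (hb : z b ∈ Q) (hc : z c ∈ Q) (σ : AltOn (Q ×ˢ (Set.univ : Set I))) :
    Commute (ρ σ) (C.msec U' z (X a b c)) := by
  have vert : ∀ v ∈ Q, ∀ i j k, D3 i j k → ∀ h, Commute (ρ ⟨cyc (v, i) (v, j) (v, k), h⟩)
      (C.msec U' z (X a b c)) := by
    intro v hv i j k h3 h
    obtain ⟨y, hy, e⟩ := exists_sum_zero {i, j, k} (Finset.card_le_three.trans (by omega))
      fun _ => v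
    have e1 := e i (by simp)
    have e2 := e j (by simp)
    have e3 := e k (by simp)
    have := hρ y i j k hy h3 (by rwa [e1, e2, e3]) (e1 ▸ hv) (e2 ▸ hv) (e3 ▸ hv)
    simp only [e1, e2, e3] at this
    rw [this, C.msec_congr hU hy (z' := 0) (d := v) (by simp) (by simp [e1]) (by simp [e2])
      (by simp [e3]), msec, C.t_zero, one_mul, inv_one, mul_one]
    refine C.vert_comm (hU.sh v) hU' hz _ fun l hl => Or.inr (Set.disjoint_left.2 fun p p1 p2 => ?_)
    have hl' : z l ∈ Q := by rcases hl with rfl | rfl | rfl <;> assumption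
    have := hF _ (h1 p1) _ (h2 p2) v hv _ hl' (by simp)
    rw [← this] at p2
    exact Set.disjoint_left.1 hd p1 p2
  obtain ⟨k, hk⟩ := fresh {a, b, c} (Finset.card_le_three.trans (by omega))
  obtain ⟨l, hl⟩ := fresh {k, a, b, c} (Finset.card_le_four.trans (by omega))
  simp only [Finset.mem_insert, Finset.mem_singleton, not_or] at hk hl
  obtain ⟨σ, hσ⟩ := σ
  have hσ' := hσ
  have base := AltOn_base (E := Q ×ˢ (Set.univ : Set I)) (k := (z a, k)) (l := (z a, l))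
    ⟨ha, trivial⟩ ⟨ha, trivial⟩ fun e => hl.1 (Prod.mk.inj e).2.symm
  rw [base] at hσ'
  induction hσ' using Subgroup.closure_induction with
  | one => exact (map_one ρ).symm ▸ Commute.one_left _
  | mul x y hx hy h h' =>
    rw [← base] at hx hy
    exact (map_mul ρ ⟨x, hx⟩ ⟨y, hy⟩).symm ▸ (h hx).mul_left (h' hy)
  | inv x hx h =>
    rw [← base] at hx
    exact (map_inv ρ ⟨x, hx⟩).symm ▸ (h hx).inv_left
  | mem x hx =>
    obtain ⟨⟨v, i⟩, ⟨hv, -⟩, n1, n2, rfl⟩ := hx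
    obtain ⟨j, hj⟩ := fresh {i, l, k, a, b, c} (Finset.card_le_six.trans (by omega))
    obtain ⟨m, hm⟩ := fresh {j, i, l, k} (Finset.card_le_four.trans (by omega))
    simp only [Finset.mem_insert, Finset.mem_singleton, not_or] at hj hm
    have d1 : D3 j i m := ⟨hj.1, Ne.symm hm.1, Ne.symm hm.2.1⟩
    have d2 : D3 k l j := ⟨Ne.symm hl.1, Ne.symm hj.2.2.1, Ne.symm hj.2.1⟩
    have m1 : cyc (v, j) (v, i) (v, m) ∈ AltOn (Q ×ˢ (Set.univ : Set I)) :=
      cyc_mem_AltOn ⟨hv, trivial⟩ ⟨hv, trivial⟩ ⟨hv, trivial⟩ (d3_prod d1)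
    have m2 : cyc (z a, k) (z a, l) (v, j) ∈ AltOn (Q ×ˢ (Set.univ : Set I)) :=
      cyc_mem_AltOn ⟨ha, trivial⟩ ⟨ha, trivial⟩ ⟨hv, trivial⟩ (d3_prod d2)
    have e : (⟨cyc (z a, k) (z a, l) (v, i), hσ⟩ : AltOn (Q ×ˢ (Set.univ : Set I))) =
        ⟨_, m1⟩ * ⟨_, m2⟩ * ⟨_, m1⟩⁻¹ := Subtype.ext (by
      simp only [Subgroup.coe_mul, Subgroup.coe_inv, cyc_conj, cyc_apply (d3_prod d1)]
      rw [if_neg (fun e => hj.2.2.1 (Prod.mk.inj e).2.symm), if_neg n1.symm,
        if_neg (fun e => hm.2.2.2 (Prod.mk.inj e).2.symm),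
        if_neg (fun e => hj.2.1 (Prod.mk.inj e).2.symm), if_neg n2.symm,
        if_neg (fun e => hm.2.2.1 (Prod.mk.inj e).2.symm), if_pos trivial])
    rw [e, map_mul, map_mul, map_inv]
    refine ((vert v hv _ _ _ d1 m1).mul_left ?_).mul_left (vert v hv _ _ _ d1 m1).inv_left
    obtain ⟨y, hy, e⟩ := exists_sum_zero {k, l, j, a, b, c} (Finset.card_le_six.trans (by omega))
      fun x => if x = k ∨ x = l then z a else if x = j then v else z x
    have e1 : y k = z a := by rw [e k (by simp)]; simp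
    have e2 : y l = z a := by rw [e l (by simp)]; simp
    have e3 : y j = v := by rw [e j (by simp)]; simp [hj]
    have := hρ y k l j hy d2 (by rwa [e1, e2, e3]) (e1 ▸ ha) (e2 ▸ ha) (e3 ▸ hv)
    simp only [e1, e2, e3] at this
    rw [this, C.msec_congr hU' hz hy (d := 0)
      (by rw [e a (by simp)]; simp [Ne.symm hk.1, Ne.symm hl.2.1, Ne.symm hj.2.2.2.1])
      (by rw [e b (by simp)]; simp [Ne.symm hk.2.1, Ne.symm hl.2.2.1, Ne.symm hj.2.2.2.2.1])
      (by rw [e c (by simp)]; simp [Ne.symm hk.2.2, Ne.symm hl.2.2.2, Ne.symm hj.2.2.2.2.2]),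
      sh_zero]
    exact (C.Φ_orth U U' hU hU' hd _ _).map (MulAut.conj (C.t y))

theorem IsRho.msec_mem {U : Set S0} {Q : Set Pos} {ρ : AltOn (Q ×ˢ (Set.univ : Set I)) →* G}
    (hρ : C.IsRho U Q ρ) {z : I → Pos} (hz : ∑ i, z i = 0) {a b c : I} (h : D3 a b c)
    (ha : z a ∈ Q) (hb : z b ∈ Q) (hc : z c ∈ Q) : C.msec U z (X a b c) ∈ ρ.range :=
  ⟨_, hρ z a b c hz h (cyc_mem_AltOn ⟨ha, trivial⟩ ⟨hb, trivial⟩ ⟨hc, trivial⟩ (d3_prod h)) ha hb hc⟩

theorem KK_comm (hC : C.Cube) {O V V' : Set S0} {Q : Set Pos} (hQ : Q.Finite) (hF : Free O Q)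
    (h1 : V ⊆ O) (h2 : V' ⊆ O) (hd : Disjoint V V') {g g' : G} (hg : g ∈ C.KK V Q)
    (hg' : g' ∈ C.KK V' Q) : Commute g g' := by
  have : C.KK V Q ≤ Subgroup.centralizer (C.KK V' Q) := by
    rw [KK, Subgroup.closure_le]
    rintro _ ⟨U, z, a, b, c, hU, l, hz, h3, ha, hb, hc, rfl⟩
    suffices C.KK V' Q ≤ Subgroup.centralizer {C.msec U z (X a b c)} from
      fun y hy => (this hy _ rfl).symm
    rw [KK, Subgroup.closure_le]
    rintro _ ⟨U', z', a', b', c', hU', l', hz', -, ha', hb', hc', rfl⟩ _ rfl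
    obtain ⟨ρ, hρ⟩ := C.exists_rho hC hU hQ (free_mono hF (l.trans h1))
    obtain ⟨σ, e⟩ := hρ.msec_mem C hz h3 ha hb hc
    rw [← e]
    exact C.rho_comm hF hU hU' (l.trans h1) (l'.trans h2) (hd.mono l l') hρ hz' ha' hb' hc' σ
  exact (this hg g' hg').symm

/-- block elements of bounded radius over `V` -/
def KR (r : ℕ) (V : Set S0) (Q : Set Pos) : Subgroup G :=
  Subgroup.closure {g | ∃ U z a b c, (∀ p q, Near r p q → p ∈ U → q ∈ U) ∧ ∑ i, z i = 0 ∧
    D3 a b c ∧ z a ∈ Q ∧ z b ∈ Q ∧ z c ∈ Q ∧ g = C.msec (U ∩ V) z (X a b c)}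

theorem KR_le {r : ℕ} {V : Set S0} {Q : Set Pos} (hV : Loc V) : C.KR r V Q ≤ C.KK V Q :=
  Subgroup.closure_mono (by
    rintro _ ⟨U, z, a, b, c, hU, hz, h3, ha, hb, hc, rfl⟩
    exact ⟨_, z, a, b, c, Loc.inter ⟨r, hU⟩ hV, Set.inter_subset_right, hz, h3, ha, hb, hc, rfl⟩)

theorem KR_split (hC : C.Cube) {r : ℕ} {O V V' : Set S0} {Q : Set Pos} (hQ : Q.Finite)
    (hF : Free O Q) (hV : Loc V) (hV' : Loc V') (h1 : V ⊆ O) (h2 : V' ⊆ O) (hd : Disjoint V V')
    {g : G} (hg : g ∈ C.KR r (V ∪ V') Q) : ∃ x ∈ C.KR r V Q, ∃ y ∈ C.KR r V' Q, g = x * y := by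
  have cm := fun x y (hx : x ∈ C.KR r V Q) (hy : y ∈ C.KR r V' Q) =>
    C.KK_comm hC hQ hF h1 h2 hd (C.KR_le hV hx) (C.KR_le hV' hy)
  induction hg using Subgroup.closure_induction with
  | mem g hg =>
    obtain ⟨U, z, a, b, c, hU, hz, h3, ha, hb, hc, rfl⟩ := hg
    exact ⟨_, Subgroup.subset_closure ⟨U, z, a, b, c, hU, hz, h3, ha, hb, hc, rfl⟩, _,
      Subgroup.subset_closure ⟨U, z, a, b, c, hU, hz, h3, ha, hb, hc, rfl⟩, by
        rw [Set.inter_union_distrib_left]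
        exact C.msec_union (Loc.inter ⟨r, hU⟩ hV) (Loc.inter ⟨r, hU⟩ hV')
          (hd.mono Set.inter_subset_right Set.inter_subset_right) _ _⟩
  | one => exact ⟨1, one_mem _, 1, one_mem _, (mul_one _).symm⟩
  | mul _ _ _ _ h h' =>
    obtain ⟨x, hx, y, hy, rfl⟩ := h
    obtain ⟨x', hx', y', hy', rfl⟩ := h'
    exact ⟨_, mul_mem hx hx', _, mul_mem hy hy', (cm x' y hx' hy).symm.mul_mul_mul_comm _ _⟩
  | inv _ _ h =>
    obtain ⟨x, hx, y, hy, rfl⟩ := h
    exact ⟨_, inv_mem hx, _, inv_mem hy, by rw [(cm x y hx hy).eq, mul_inv_rev]⟩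

theorem KR_inj (hC : C.Cube) {r : ℕ} {O : Set S0} {Q : Set Pos} (hQ : Q.Finite) (hF : Free O Q)
    (hO : Loc O) (A : Set ({d : Pos | ∀ ε, |d ε| ≤ r} → Tile)) :
    ∀ g ∈ C.KR r (O ∩ {p | pat r p ∈ A}) Q, C.π g = 1 → g = 1 := by
  have emp : ∀ g ∈ C.KR r ∅ Q, g = 1 := fun g hg => by
    have : C.KR r ∅ Q ≤ ⊥ := by
      rw [KR, Subgroup.closure_le]
      rintro _ ⟨U, z, a, b, c, -, -, -, -, -, -, rfl⟩
      simp [msec, C.Φ_empty]
    exact this hg
  induction A, A.toFinite using Set.Finite.induction_on with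
  | empty => intro g hg _; exact emp g (by simpa using hg)
  | @insert a A ha _ ih =>
    intro g hg e
    have hV := hO.inter (loc_pat r {a})
    have hV' := hO.inter (loc_pat r A)
    have hd : Disjoint (O ∩ {p | pat r p ∈ ({a} : Set _)}) (O ∩ {p | pat r p ∈ A}) :=
      Set.disjoint_left.2 fun p x y => ha (by have := y.2; rwa [Set.mem_ofPred_eq, x.2] at this)
    obtain ⟨x, hx, y, hy, rfl⟩ := C.KR_split hC hQ hF hV hV' Set.inter_subset_left
      Set.inter_subset_left hd (g := g) (by rw [← Set.inter_union_distrib_left]; exact hg)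
    suffices x = 1 by
      subst this
      rw [one_mul] at e ⊢
      exact ih y hy e
    rcases (O ∩ {p | pat r p ∈ ({a} : Set _)}).eq_empty_or_nonempty with h0 | ⟨o, ho⟩
    · exact emp x (h0 ▸ hx)
    obtain ⟨ρ, hρ⟩ := C.exists_rho hC hV hQ (free_mono hF Set.inter_subset_left)
    obtain ⟨σ, rfl⟩ : x ∈ ρ.range := by
      refine (Subgroup.closure_le _).2 ?_ hx
      rintro _ ⟨U, z, a, b, c, hU, hz, h3, ha, hb, hc, rfl⟩
      by_cases h : o ∈ U
      · rw [Set.inter_eq_right.2 fun p hp => hU o p (pat_eq.1 (ho.2.trans hp.2.symm)) h]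
        exact hρ.msec_mem C hz h3 ha hb hc
      · rw [Set.eq_empty_of_forall_notMem (s := U ∩ _) fun p hp =>
          h (hU p o (pat_eq.1 (hp.2.2.trans ho.2.symm)) hp.1), msec, C.Φ_empty, mul_one,
          mul_inv_cancel]
        exact one_mem _
    obtain ⟨f, -, -, f2⟩ := C.KK_desc (free_mono hF Set.inter_subset_left) (C.KR_le hV' hy)
    have act := hρ.isAct C hV hF Set.inter_subset_left σ
    rw [show σ = 1 from Subtype.ext (Equiv.ext fun q => ?_), map_one]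
    by_cases hq : q.1 ∈ Q
    · have h1 := f2.2 (mv o q.1) q.2 fun o' ho' u hu e' => by
        have := hF o ho.1 o' ho'.1 _ hq u hu e'
        rw [← this] at e'
        exact Set.disjoint_left.1 hd ho ((show o = o' by simpa using congrArg (mv · (-q.1)) e') ▸ ho')
      have h2 := act.1 o ho.1 q.1 hq q.2
      dsimp only at h2
      rw [← h1, ← Perm.mul_apply, ← map_mul, e, if_pos ho, Perm.one_apply, Prod.ext_iff] at h2
      exact Prod.ext (mv_inj h2.1).symm h2.2.symm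
    · exact AltOn_fix σ.2 fun h => hq h.1

theorem KK_inj (hC : C.Cube) {O : Set S0} {Q : Set Pos} (hQ : Q.Finite) (hF : Free O Q) {g g' : G}
    (hg : g ∈ C.KK O Q) (hg' : g' ∈ C.KK O Q) (h : C.π g = C.π g') : g = g' := by
  have : ∀ g ∈ C.KK O Q, ∃ O' r, Loc O' ∧ O' ⊆ O ∧ ∀ O'' r', O' ⊆ O'' → r ≤ r' →
      g ∈ C.KR r' O'' Q := by
    intro g hg
    induction hg using Subgroup.closure_induction with
    | mem g hg =>
      obtain ⟨U, z, a, b, c, ⟨r, hU⟩, h1, hz, h3, ha, hb, hc, rfl⟩ := hg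
      exact ⟨U, r, ⟨r, hU⟩, h1, fun O'' r' h hr => Subgroup.subset_closure ⟨U, z, a, b, c,
        fun p q n => hU p q (n.mono hr), hz, h3, ha, hb, hc, by rw [Set.inter_eq_left.2 h]⟩⟩
    | one => exact ⟨∅, 0, Loc.empty, Set.empty_subset _, fun _ _ _ _ => one_mem _⟩
    | mul _ _ _ _ h h' =>
      obtain ⟨U, r, a, b, c⟩ := h
      obtain ⟨U', r', a', b', c'⟩ := h'
      exact ⟨U ∪ U', r + r', a.union a', Set.union_subset b b', fun O'' r'' h hr =>
        mul_mem (c _ _ (Set.subset_union_left.trans h) (by omega))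
          (c' _ _ (Set.subset_union_right.trans h) (by omega))⟩
    | inv _ _ h =>
      obtain ⟨U, r, a, b, c⟩ := h
      exact ⟨U, r, a, b, fun O'' r'' h hr => inv_mem (c _ _ h hr)⟩
  obtain ⟨O', r, a, b, c⟩ := this _ (mul_mem hg (inv_mem hg'))
  exact mul_inv_eq_one.1 (C.KR_inj hC hQ (free_mono hF b) a Set.univ _ (c _ r (by simp) le_rfl)
    (by rw [map_mul, map_inv, h, mul_inv_cancel]))

/-- multisections with disjoint supports commute -/
theorem val_comm (hC : C.Cube) (s s' : Sym)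
    (h : ∀ p ∈ s.U, ∀ p' ∈ s'.U, ∀ i i', (i = s.a ∨ i = s.b ∨ i = s.c) →
      (i' = s'.a ∨ i' = s'.b ∨ i' = s'.c) → mv p (s.z i) ≠ mv p' (s'.z i')) :
    Commute (C.val s) (C.val s') := by
  obtain ⟨r, hr, hr'⟩ : ∃ r, s.Rad r ∧ s'.Rad r := by simpa using exists_rad_list [s, s']
  have mem : ∀ (s : Sym), s.Rad r → ∀ {O Q u U}, Loc U → U ⊆ sh u O →
      (∀ d : Pos, (∀ ε, |d ε| ≤ r) → u + d ∈ Q) → C.msec U s.z (X s.a s.b s.c) ∈ C.KK O Q :=
    fun s hs O Q u U hU h1 h2 => C.KK_le (O := U) (Q := {d | ∀ ε, |d ε| ≤ r}) (-u)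
      (fun p hp => by simpa [mem_sh] using h1 hp) (fun d hd => by simpa [add_comm] using h2 d hd)
      (Subgroup.subset_closure ⟨U, _, _, _, _, hU, le_rfl, s.sum, s.d3, fun ε => (hs ε).1,
        fun ε => (hs ε).2.1, fun ε => (hs ε).2.2, rfl⟩)
  have bar : ∀ (s : Sym) {U}, Loc U → U ⊆ s.U → C.π (C.msec U s.z (X s.a s.b s.c)) = s.bar U :=
    fun s U hU h1 => by rw [C.π_msec hU s.sum, pH_X s.d3, Sym.bar, Set.inter_eq_right.2 h1]
  refine loc_pair_induction r (P := fun U V => U ⊆ s.U → V ⊆ s'.U →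
    Commute (C.msec U s.z (X s.a s.b s.c)) (C.msec V s'.z (X s'.a s'.b s'.c)))
    (fun U U' V a b _ c e f h1 h2 => ?_) (fun U V V' _ a b c e f h1 h2 => ?_)
    (fun O Q u v U V _ hQ hF hU hV h1 h2 h3 h4 h5 => ?_) s.loc s'.loc le_rfl le_rfl
  · rw [C.msec_union a b c]
    exact (e (Set.subset_union_left.trans h1) h2).mul_left (f (Set.subset_union_right.trans h1) h2)
  · rw [C.msec_union a b c]
    exact (e h1 (Set.subset_union_left.trans h2)).mul_right (f h1 (Set.subset_union_right.trans h2))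
  · have m1 := mem s hr hU h1 fun d hd => (h3 d hd).1
    have m2 := mem s' hr' hV h2 fun d hd => (h3 d hd).2
    refine C.KK_inj hC hQ hF (mul_mem m1 m2) (mul_mem m2 m1) ?_
    rw [map_mul, map_mul, bar s hU h4, bar s' hV h5]
    refine Perm.Disjoint.commute fun ⟨p, i⟩ => ?_
    by_contra hn
    rw [not_or] at hn
    have a := not_not.1 (mt (s.bar_fix U p i) hn.1)
    have b := not_not.1 (mt (s'.bar_fix V p i) hn.2)
    exact h _ a.2.1 _ b.2.1 i i a.1 b.1 (by simp)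

end Calc

end Vale.Agent.P196
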