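import Vale.Agent.P196.Defs

/-! P196: elementary facts on positions, local sets and the concrete generators. -/

namespace Vale.Agent.P196

open Equiv

@[simp] theorem ee_same (ε : Bool) : ee ε ε = 1 := by simp [ee]
@[simp] theorem ee_not (ε : Bool) : ee ε (!ε) = 0 := by cases ε <;> simp [ee]
@[simp] theorem ee_not' (ε : Bool) : ee (!ε) ε = 0 := by cases ε <;> simp [ee]
@[simp] theorem pt_same (ε : Bool) (u b : ℤ) : pt ε u b ε = u := by simp [pt]
@[simp] theorem pt_not (ε : Bool) (u b : ℤ) : pt ε u b (!ε) = b := by cases ε <;> simp [pt]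
@[simp] theorem pt_not' (ε : Bool) (u b : ℤ) : pt (!ε) u b ε = b := by cases ε <;> simp [pt]
theorem pos_ext (ε : Bool) {z z' : Pos} (h : z ε = z' ε) (h' : z (!ε) = z' (!ε)) : z = z' := by
  funext δ; cases ε <;> cases δ <;> simp_all
theorem pt_self (ε : Bool) (z : Pos) : pt ε (z ε) (z (!ε)) = z := pos_ext ε (by simp) (by simp)
theorem pt_swap (ε : Bool) (u b : ℤ) : pt (!ε) u b = pt ε b u := pos_ext ε (by simp) (by simp)
theorem pt_add (ε : Bool) (u b u' b' : ℤ) : pt ε u b + pt ε u' b' = pt ε (u + u') (b + b') :=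
  pos_ext ε (by simp) (by simp)
theorem par_succ (ρ : ℕ) : par (ρ + 1) = !par ρ := by
  rcases Nat.mod_two_eq_zero_or_one ρ with h | h <;> simp [par, Nat.add_mod, h]
theorem par_add_two (ρ : ℕ) : par (ρ + 2) = par ρ := by simp [par]

@[simp] theorem mv_zero (p : S0) : mv p 0 = p := by simp [mv]
@[simp] theorem mv_mv (p : S0) (d d' : Pos) : mv (mv p d) d' = mv p (d + d') := by
  simp [mv, add_assoc]
@[simp] theorem mv_fst (p : S0) (d : Pos) : (mv p d).1 = p.1 := rfl
@[simp] theorem mv_snd (p : S0) (d : Pos) : (mv p d).2 = p.2 + d := rfl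
theorem mv_inj {p : S0} {d d' : Pos} (h : mv p d = mv p d') : d = d' := by
  simpa using congrArg Prod.snd h
theorem mem_sh {d : Pos} {U : Set S0} {p : S0} : p ∈ sh d U ↔ mv p (-d) ∈ U := Iff.rfl
@[simp] theorem mv_mem_sh {d : Pos} {U : Set S0} {p : S0} : mv p d ∈ sh d U ↔ p ∈ U := by
  simp [mem_sh]
@[simp] theorem sh_zero (U : Set S0) : sh 0 U = U := by ext p; simp [mem_sh]
theorem sh_sh (d d' : Pos) (U : Set S0) : sh d (sh d' U) = sh (d + d') U := by
  ext p; simp [mem_sh, add_comm]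

theorem Near.refl (r : ℕ) (p : S0) : Near r p p := fun _ _ => rfl
theorem Near.symm {r : ℕ} {p q : S0} (h : Near r p q) : Near r q p := fun d hd => (h d hd).symm
theorem Near.trans {r : ℕ} {p q s : S0} (h : Near r p q) (h' : Near r q s) : Near r p s :=
  fun d hd => (h d hd).trans (h' d hd)
theorem Near.mono {r r' : ℕ} {p q : S0} (h : Near r' p q) (hr : r ≤ r') : Near r p q :=
  fun d hd => h d fun ε => (hd ε).trans (by exact_mod_cast hr)
theorem Near.mv {r m : ℕ} {p q : S0} (h : Near (r + m) p q) {d : Pos} (hd : ∀ ε, |d ε| ≤ m) :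
    Near r (mv p d) (mv q d) := fun d' hd' => by
  simp only [mv_fst, mv_snd, add_assoc]
  refine h _ fun ε => (abs_add_le _ _).trans ?_
  have := hd ε; have := hd' ε; push_cast; linarith

theorem exists_bd (d : Pos) : ∃ m : ℕ, ∀ ε, |d ε| ≤ m :=
  ⟨(d false).natAbs + (d true).natAbs, fun ε => by
    have h1 := abs_nonneg (d false)
    have h2 := abs_nonneg (d true)
    cases ε <;> push_cast <;> linarith⟩

theorem Loc.univ : Loc Set.univ := ⟨0, fun _ _ _ h => h⟩
theorem Loc.empty : Loc ∅ := ⟨0, fun _ _ _ h => h⟩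
theorem Loc.compl {U : Set S0} (h : Loc U) : Loc Uᶜ :=
  let ⟨r, h⟩ := h; ⟨r, fun p q n hp hq => hp (h q p n.symm hq)⟩
theorem Loc.inter {U V : Set S0} (h : Loc U) (h' : Loc V) : Loc (U ∩ V) :=
  let ⟨r, h⟩ := h; let ⟨r', h'⟩ := h'
  ⟨r + r', fun p q n hp => ⟨h p q (n.mono (by omega)) hp.1, h' p q (n.mono (by omega)) hp.2⟩⟩
theorem Loc.union {U V : Set S0} (h : Loc U) (h' : Loc V) : Loc (U ∪ V) := by
  simpa [Set.compl_inter] using (h.compl.inter h'.compl).compl
theorem Loc.diff {U V : Set S0} (h : Loc U) (h' : Loc V) : Loc (U \ V) := h.inter h'.compl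
theorem Loc.symmDiff {U V : Set S0} (h : Loc U) (h' : Loc V) : Loc (symmDiff U V) :=
  (h.diff h').union (h'.diff h)
theorem Loc.sh {U : Set S0} (h : Loc U) (d : Pos) : Loc (sh d U) := by
  obtain ⟨r, h⟩ := h
  obtain ⟨m, hm⟩ := exists_bd (-d)
  exact ⟨r + m, fun p q n hp => h _ _ (n.mv hm) hp⟩
theorem Loc.ev (z : Pos) (P : Tile → Prop) : Loc {p : S0 | P (xx p.1 (p.2 + z))} := by
  obtain ⟨m, hm⟩ := exists_bd z
  exact ⟨m, fun p q n hp => by simpa only [Set.mem_setOf_eq, ← n z hm] using hp⟩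
theorem Loc.biUnion {ι : Type} {s : Set ι} (hs : s.Finite) {U : ι → Set S0}
    (h : ∀ i ∈ s, Loc (U i)) : Loc (⋃ i ∈ s, U i) := by
  induction s, hs using Set.Finite.induction_on with
  | empty => simpa using Loc.empty
  | insert _ _ ih =>
    rw [Set.biUnion_insert]
    exact (h _ (Set.mem_insert _ _)).union (ih fun i hi => h i (Set.mem_insert_of_mem _ hi))
theorem Loc.biInter {ι : Type} {s : Set ι} (hs : s.Finite) {U : ι → Set S0}
    (h : ∀ i ∈ s, Loc (U i)) : Loc (⋂ i ∈ s, U i) := by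
  simpa [Set.compl_iUnion] using (Loc.biUnion hs fun i hi => (h i hi).compl).compl
theorem Meas.loc {α : Type} {f : S0 → α} (h : Meas f) (P : α → Prop) : Loc {p | P (f p)} :=
  let ⟨r, h⟩ := h; ⟨r, fun p q n hp => by simpa only [Set.mem_setOf_eq, ← h p q n] using hp⟩
theorem Meas.comp {α β : Type} {f : S0 → α} (h : Meas f) (g : α → β) : Meas fun p => g (f p) :=
  let ⟨r, h⟩ := h; ⟨r, fun p q n => congrArg g (h p q n)⟩
theorem Meas.pair {α β : Type} {f : S0 → α} {g : S0 → β} (h : Meas f) (h' : Meas g) :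
    Meas fun p => (f p, g p) :=
  let ⟨r, h⟩ := h; let ⟨r', h'⟩ := h'
  ⟨r + r', fun p q n => Prod.ext (h p q (n.mono (by omega))) (h' p q (n.mono (by omega)))⟩
theorem Meas.mv {α : Type} {f : S0 → α} (h : Meas f) (d : Pos) : Meas fun p => f (mv p d) := by
  obtain ⟨r, h⟩ := h
  obtain ⟨m, hm⟩ := exists_bd d
  exact ⟨r + m, fun p q n => h _ _ (n.mv hm)⟩
theorem Meas.const {α : Type} (a : α) : Meas fun _ => a := ⟨0, fun _ _ _ => rfl⟩
theorem Loc.meas {U : Set S0} (h : Loc U) : Meas fun p => p ∈ U :=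
  let ⟨r, h⟩ := h; ⟨r, fun p q n => propext ⟨h p q n, h q p n.symm⟩⟩

/-- a property of local sets that holds for cylinders and is stable under complements and
intersections holds for all local sets -/
theorem Loc.induction {P : Set S0 → Prop}
    (hev : ∀ z (R : Tile → Prop), P {p : S0 | R (xx p.1 (p.2 + z))})
    (hc : ∀ U, Loc U → P U → P Uᶜ) (hi : ∀ U V, Loc U → Loc V → P U → P V → P (U ∩ V))
    {U : Set S0} (hU : Loc U) : P U := by
  classical
  have hu : ∀ U V, Loc U → Loc V → P U → P V → P (U ∪ V) := fun U V a b c d => by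
    simpa [Set.compl_inter] using hc _ (a.compl.inter b.compl) (hi _ _ a.compl b.compl (hc _ a c)
      (hc _ b d))
  have h1 : P Set.univ := by simpa using hev 0 fun _ => True
  have h0 : P ∅ := by simpa using hev 0 fun _ => False
  obtain ⟨r, hr⟩ := hU
  have fin : {d : Pos | ∀ ε, |d ε| ≤ r}.Finite := by
    refine (Set.Finite.pi' fun _ : Bool => Set.finite_Icc (-(r : ℤ)) r).subset fun d hd ε => ?_
    exact abs_le.1 (hd ε)
  have cyl : ∀ (s : Set Pos), s.Finite → ∀ f : Pos → Tile,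
      Loc {q : S0 | ∀ d ∈ s, xx q.1 (q.2 + d) = f d} ∧
        P {q : S0 | ∀ d ∈ s, xx q.1 (q.2 + d) = f d} := by
    intro s hs f
    induction s, hs using Set.Finite.induction_on with
    | empty => simpa using ⟨Loc.univ, h1⟩
    | @insert a s _ _ ih =>
      have e : {q : S0 | ∀ d ∈ insert a s, xx q.1 (q.2 + d) = f d} =
          {q : S0 | xx q.1 (q.2 + a) = f a} ∩ {q : S0 | ∀ d ∈ s, xx q.1 (q.2 + d) = f d} := by
        ext q; simp
      rw [e]
      exact ⟨(Loc.ev a (· = f a)).inter ih.1, hi _ _ (Loc.ev a (· = f a)) ih.1 (hev a (· = f a)) ih.2⟩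
  let B := {d : Pos | ∀ ε, |d ε| ≤ r}
  let C : S0 → Set S0 := fun p => {q : S0 | ∀ d ∈ B, xx q.1 (q.2 + d) = xx p.1 (p.2 + d)}
  have finC : (C '' U).Finite := by
    haveI : Finite B := fin
    refine (Set.finite_range fun f : B → Tile =>
      {q : S0 | ∀ d : B, xx q.1 (q.2 + d.1) = f d}).subset ?_
    rintro _ ⟨p, -, rfl⟩
    exact ⟨fun d => xx p.1 (p.2 + d.1), by ext q; simp [C]⟩
  have e : U = ⋃₀ (C '' U) := by
    ext q
    simp only [Set.sUnion_image, Set.mem_iUnion]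
    exact ⟨fun h => ⟨q, h, fun _ _ => rfl⟩, fun ⟨p, hp, h⟩ => hr p q (fun d hd => (h d hd).symm) hp⟩
  have : ∀ s : Set (Set S0), s.Finite → (∀ V ∈ s, Loc V ∧ P V) → Loc (⋃₀ s) ∧ P (⋃₀ s) := by
    intro s hs h
    induction s, hs using Set.Finite.induction_on with
    | empty => simpa using ⟨Loc.empty, h0⟩
    | insert _ _ ih =>
      rw [Set.sUnion_insert]
      have a := h _ (Set.mem_insert _ _)
      have b := ih fun V hV => h V (Set.mem_insert_of_mem _ hV)
      exact ⟨a.1.union b.1, hu _ _ a.1 b.1 a.2 b.2⟩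
  rw [e]
  exact (this _ finC (by rintro _ ⟨p, -, rfl⟩; exact cyl B fin _)).2

open Classical in
theorem vact_apply (U : Set S0) (σ : Perm I) (p : S0) (i : I) :
    vact U σ (p, i) = (p, if p ∈ U then σ i else i) := by
  by_cases h : p ∈ U <;> simp [vact, h]

@[simp] theorem tr_apply (z : I → Pos) (p : S0) (i : I) : tr z (p, i) = (mv p (z i), i) := rfl
@[simp] theorem tr_inv_apply (z : I → Pos) (p : S0) (i : I) :
    (tr z)⁻¹ (p, i) = (mv p (-z i), i) := rfl
@[simp] theorem tr_symm_apply (z : I → Pos) (p : S0) (i : I) :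
    (tr z).symm (p, i) = (mv p (-z i), i) := rfl
theorem tr_add (z z' : I → Pos) : tr (z + z') = tr z * tr z' := by
  ext1 ⟨p, i⟩; simp [add_comm]
theorem tr_zero : tr 0 = 1 := by ext1 ⟨p, i⟩; simp

theorem vact_union {U V : Set S0} (h : Disjoint U V) (σ : Perm I) :
    vact (U ∪ V) σ = vact U σ * vact V σ := by
  ext1 ⟨p, i⟩
  have : p ∈ U → p ∉ V := fun a => Set.disjoint_left.1 h a
  by_cases a : p ∈ U <;> by_cases b : p ∈ V <;> simp_all [vact_apply]

theorem vact_comm {U V : Set S0} (h : Disjoint U V) (σ σ' : Perm I) :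
    Commute (vact U σ) (vact V σ') := by
  ext1 ⟨p, i⟩
  have : p ∈ U → p ∉ V := fun a => Set.disjoint_left.1 h a
  by_cases a : p ∈ U <;> by_cases b : p ∈ V <;> simp_all [vact_apply]

theorem cyc_apply {α : Type} [DecidableEq α] {a b c : α} (h : D3 a b c) (x : α) :
    cyc a b c x = if x = a then b else if x = b then c else if x = c then a else x := by
  obtain ⟨h1, h2, h3⟩ := h
  simp only [cyc, Perm.mul_apply, swap_apply_def]
  grind

theorem cyc_inv {α : Type} [DecidableEq α] {a b c : α} (h : D3 a b c) :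
    (cyc a b c)⁻¹ = cyc b a c := by
  rw [inv_eq_iff_mul_eq_one]
  obtain ⟨h1, h2, h3⟩ := h
  ext x
  simp only [cyc, Perm.mul_apply, swap_apply_def, Perm.one_apply]
  grind

theorem cyc_conj {α : Type} [DecidableEq α] (g : Perm α) (a b c : α) :
    g * cyc a b c * g⁻¹ = cyc (g a) (g b) (g c) := by
  simp only [cyc, swap_apply_apply, mul_assoc, inv_mul_cancel_left]

theorem tr_vact (U : Set S0) (z : I → Pos) (d : Pos) (σ : Perm I) (h : ∀ i, σ i ≠ i → z i = d) :
    tr z * vact U σ * (tr z)⁻¹ = vact (sh d U) σ := by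
  ext1 ⟨p, i⟩
  by_cases e : σ i = i
  · simp [vact_apply, e]
  · have e' : z (σ i) = d := h _ fun h' => e (σ.injective h')
    by_cases a : mv p (-d) ∈ U <;> simp [vact_apply, h i e, mem_sh, a, e']

theorem tr_eq (d : Pos) {i k l m : I} (h : D3 i k l) (h' : D3 i k m) (hlm : l ≠ m) :
    tr (Pi.single i d - Pi.single k d) =
      tr (Pi.single i d - Pi.single l d) * vact Set.univ (cyc i k m) *
        (tr (Pi.single i d - Pi.single l d))⁻¹ * (vact Set.univ (cyc i k m))⁻¹ := by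
  have h'' : D3 k i m := ⟨h'.1.symm, h'.2.2, h'.2.1⟩
  rw [← map_inv, cyc_inv h']
  obtain ⟨a1, a2, a3⟩ := h
  ext1 ⟨p, j⟩
  simp only [Perm.mul_apply, vact_apply, Set.mem_univ, if_true, tr_apply, tr_inv_apply, mv_mv,
    cyc_apply h', cyc_apply h'', Pi.sub_apply, Pi.single_apply]
  obtain ⟨b1, b2, b3⟩ := h'
  by_cases j1 : j = i
  · subst j1; simp [a1, a2, b2.symm, b3.symm, hlm.symm]
  by_cases j2 : j = k
  · subst j2; simp [a1.symm, a2, a3, a1]
  by_cases j3 : j = m
  · subst j3; simp [a1.symm, a3, b2.symm, b3.symm, hlm.symm]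
  simp [j1, j2, j3]

end Vale.Agent.P196
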