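import Mathlib

/-! P196: the index of a permutation across a set. -/

namespace Vale.Agent.P196.CutI

open Equiv

variable {α : Type}

open Classical in
/-- indicator -/
noncomputable def chi (A : Set α) (x : α) : ℤ := if x ∈ A then 1 else 0

/-- index across a set -/
noncomputable def ind (g : Perm α) (A : Set α) : ℤ := ∑ᶠ x, (chi A x - chi A (g x))

/-- finitely many crossings -/
def Cr (g : Perm α) (A : Set α) : Prop := {x | ¬ (x ∈ A ↔ g x ∈ A)}.Finite

theorem Cr.supp {g : Perm α} {A : Set α} (h : Cr g A) :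
    (Function.support fun x => chi A x - chi A (g x)).Finite := by
  refine h.subset fun x hx hh => hx ?_
  by_cases a : x ∈ A
  · simp [chi, a, hh.1 a]
  · have : g x ∉ A := fun b => a (hh.2 b)
    simp [chi, a, this]

theorem sum_chi {S : Set α} (h : S.Finite) : ∑ᶠ x, chi S x = S.ncard := by
  classical
  rw [finsum_eq_sum_of_support_subset (s := h.toFinset), Set.ncard_eq_toFinset_card _ h]
  · rw [Finset.sum_congr rfl (g := fun _ => (1 : ℤ))]
    · simp
    · intro x hx
      simp only [Set.Finite.mem_toFinset] at hx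
      simp [chi, hx]
  · intro x hx
    by_contra hh
    simp only [Set.Finite.coe_toFinset] at hh
    simp [chi, hh] at hx

theorem chi_supp {S : Set α} (h : S.Finite) : (Function.support (chi S)).Finite :=
  h.subset fun x hx => by by_contra hh; simp [chi, hh] at hx

theorem ind_eq {g : Perm α} {A : Set α} (h : Cr g A) :
    ind g A = ({x | x ∈ A ∧ g x ∉ A}.ncard : ℤ) - ({x | x ∉ A ∧ g x ∈ A}.ncard : ℤ) := by
  have h1 : {x | x ∈ A ∧ g x ∉ A}.Finite := h.subset fun x hx hh => hx.2 (hh.1 hx.1)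
  have h2 : {x | x ∉ A ∧ g x ∈ A}.Finite := h.subset fun x hx hh => hx.1 (hh.2 hx.2)
  rw [← sum_chi h1, ← sum_chi h2, ← finsum_sub_distrib (chi_supp h1) (chi_supp h2)]
  refine finsum_congr fun x => ?_
  by_cases a : x ∈ A <;> by_cases b : g x ∈ A <;> simp [chi, a, b]

theorem Cr.mul {g h : Perm α} {A : Set α} (hg : Cr g A) (hh : Cr h A) : Cr (g * h) A := by
  refine (hh.union (hg.preimage h.injective.injOn)).subset fun x hx => ?_
  by_contra hc
  simp only [Set.mem_union, Set.mem_ofPred_eq, Set.mem_preimage, not_or, not_not] at hc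
  exact hx (hc.1.trans hc.2)

theorem Cr.inv {g : Perm α} {A : Set α} (hg : Cr g A) : Cr g⁻¹ A := by
  refine (hg.preimage g⁻¹.injective.injOn).subset fun x hx hh => hx ?_
  simpa using hh.symm

theorem ind_one (A : Set α) : ind 1 A = 0 := by simp [ind]

theorem ind_mul {g h : Perm α} {A : Set α} (hg : Cr g A) (hh : Cr h A) :
    ind (g * h) A = ind g A + ind h A := by
  have e : ind g A = ∑ᶠ x, (chi A (h x) - chi A (g (h x))) :=
    (finsum_comp_equiv h (f := fun x => chi A x - chi A (g x))).symm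
  rw [e, ind, ind, ← finsum_add_distrib _ hh.supp]
  · refine finsum_congr fun x => ?_
    simp
  · exact (hg.supp.preimage h.injective.injOn).subset fun x hx => hx

theorem ind_inv {g : Perm α} {A : Set α} (hg : Cr g A) : ind g⁻¹ A = -ind g A := by
  have := ind_mul hg.inv hg
  rw [inv_mul_cancel, ind_one] at this
  omega

theorem ind_cube {g : Perm α} {A : Set α} (hg : Cr g A) (h : g ^ 3 = 1) : ind g A = 0 := by
  have e : g ^ 3 = g * g * g := by rw [pow_succ, pow_two]
  have := ind_mul (hg.mul hg) hg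
  rw [← e, h, ind_one, ind_mul hg hg] at this
  omega

theorem ind_congr {g : Perm α} {A A' : Set α} (hg : Cr g A) (hg' : Cr g A')
    (h : {x | g x ≠ x ∧ ¬ (x ∈ A ↔ x ∈ A')}.Finite) : ind g A = ind g A' := by
  classical
  let F : α → ℤ := fun x => if g x = x then 0 else chi A x - chi A' x
  have hF : (Function.support F).Finite := by
    refine h.subset fun x hx => ?_
    by_cases a : g x = x
    · simp [F, a] at hx
    · refine ⟨a, fun hh => hx ?_⟩
      simp [F, chi, hh]
  have hF' : (Function.support fun x => F (g x)).Finite :=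
    (hF.preimage g.injective.injOn).subset fun x hx => hx
  have e : ∑ᶠ x, (F x - F (g x)) = 0 := by
    rw [finsum_sub_distrib hF hF', finsum_comp_equiv g (f := F), sub_self]
  rw [← sub_eq_zero, ← e, ind, ind, ← finsum_sub_distrib hg.supp hg'.supp]
  refine finsum_congr fun x => ?_
  by_cases a : g x = x
  · simp [F, a]
  · have : g (g x) ≠ g x := fun hh => a (g.injective hh)
    simp only [F, if_neg a, if_neg this]
    ring

theorem cr_of_finite {g : Perm α} (h : {x | g x ≠ x}.Finite) (A : Set α) : Cr g A :=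
  h.subset fun x hx hh => hx (by rw [hh])

theorem ind_finite {g : Perm α} (h : {x | g x ≠ x}.Finite) (A : Set α) : ind g A = 0 := by
  rw [ind_congr (cr_of_finite h A) (cr_of_finite h ∅) (h.subset fun x hx => hx.1)]
  simp [ind, chi]

theorem ncard_finite {g : Perm α} (h : {x | g x ≠ x}.Finite) (A : Set α) :
    {x | x ∈ A ∧ g x ∉ A}.ncard = {x | x ∉ A ∧ g x ∈ A}.ncard := by
  have := ind_eq (cr_of_finite h A)
  rw [ind_finite h] at this
  omega

/-- restriction of a permutation to an invariant set -/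
theorem exists_restr (f : Perm α) (S : Set α) (h : ∀ x, f x ∈ S ↔ x ∈ S) :
    ∃ g : Perm α, (∀ x ∈ S, g x = f x) ∧ ∀ x, x ∉ S → g x = x := by
  classical
  exact ⟨Perm.ofSubtype (f.subtypePerm (p := (· ∈ S)) h),
    fun x hx => Perm.ofSubtype_subtypePerm_of_mem (p := (· ∈ S)) h hx,
    fun x hx => Perm.ofSubtype_subtypePerm_of_not_mem (p := (· ∈ S)) h hx⟩

/-- exchange of two finite sets of the same size -/
theorem exists_exch {X Y : Set α} (hX : X.Finite) (hY : Y.Finite) (hd : Disjoint X Y)
    (h : X.ncard = Y.ncard) :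
    ∃ s : Perm α, (∀ x ∈ X, s x ∈ Y) ∧ (∀ x ∈ Y, s x ∈ X) ∧ ∀ x, x ∉ X → x ∉ Y → s x = x := by
  classical
  have : Finite X := hX
  have : Finite Y := hY
  obtain ⟨e⟩ : Nonempty (X ≃ Y) := Finite.card_eq.1 h
  have hd' : ∀ x, x ∈ Y → x ∉ X := fun x a b => Set.disjoint_left.1 hd b a
  let s : α → α := fun x => if h : x ∈ X then e ⟨x, h⟩ else if h : x ∈ Y then e.symm ⟨x, h⟩ else x
  have s1 : ∀ x : X, s x = e x := fun x => by simp [s]
  have s2 : ∀ x : Y, s x = e.symm x := fun x => by simp [s, hd' x x.2]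
  have s3 : ∀ x, x ∉ X → x ∉ Y → s x = x := fun x a b => by simp [s, a, b]
  have inv : Function.Involutive s := by
    intro x
    by_cases a : x ∈ X
    · rw [s1 ⟨x, a⟩, s2]; simp
    by_cases b : x ∈ Y
    · rw [s2 ⟨x, b⟩, s1]; simp
    · rw [s3 x a b, s3 x a b]
  refine ⟨inv.toPerm s, fun x a => ?_, fun x b => ?_, s3⟩
  · show s x ∈ Y
    rw [s1 ⟨x, a⟩]; exact (e _).2
  · show s x ∈ X
    rw [s2 ⟨x, b⟩]; exact (e.symm _).2

end Vale.Agent.P196.CutI
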