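import Vale.Agent.P196.Word
import Vale.Agent.P196.CutI

/-! P196: the area invariant. -/

namespace Vale.Agent.P196

open Equiv CutI

namespace CutA

theorem tprod_cons (s : Sym × Set S0) (w : List (Sym × Set S0)) :
    tprod (s :: w) = s.1.bar s.2 * tprod w := by simp [tprod]

theorem rad_of {s : Sym} {r : ℕ} (hr : s.Rad r) {i : I} (hi : i = s.a ∨ i = s.b ∨ i = s.c)
    (ε : Bool) : |s.z i ε| ≤ r := by
  rcases hi with rfl | rfl | rfl
  exacts [(hr ε).1, (hr ε).2.1, (hr ε).2.2]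

theorem bar_disp {s : Sym} {r : ℕ} (hr : s.Rad r) (D : Set S0) (q : SS) :
    (s.bar D q).1.1 = q.1.1 ∧ ∀ ε, |(s.bar D q).1.2 ε - q.1.2 ε| ≤ 2 * r := by
  obtain ⟨p, i⟩ := q
  by_cases h : (i = s.a ∨ i = s.b ∨ i = s.c) ∧ mv p (-s.z i) ∈ s.U ∩ D
  · obtain ⟨h1, h2⟩ := s.bar_move D p i h
    rw [h1]
    refine ⟨rfl, fun ε => ?_⟩
    have a := abs_le.1 (rad_of hr h.1 ε)
    have b := abs_le.1 (rad_of hr h2 ε)
    simp only [mv_snd, Pi.add_apply, Pi.sub_apply]
    rw [abs_le]; omega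
  · rw [s.bar_fix D p i h]
    simp

theorem bar_congr {s : Sym} {r : ℕ} (hr : s.Rad r) {D D' : Set S0} (q : SS)
    (h : ∀ u : Pos, (∀ ε, |u ε - q.1.2 ε| ≤ r) → ((q.1.1, u) ∈ D ↔ (q.1.1, u) ∈ D')) :
    s.bar D q = s.bar D' q := by
  obtain ⟨p, i⟩ := q
  by_cases hi : i = s.a ∨ i = s.b ∨ i = s.c
  · have e : mv p (-s.z i) ∈ D ↔ mv p (-s.z i) ∈ D' := h _ fun ε => by simpa using rad_of hr hi ε
    by_cases a : mv p (-s.z i) ∈ s.U ∩ D
    · rw [(s.bar_move D p i ⟨hi, a⟩).1, (s.bar_move D' p i ⟨hi, a.1, e.1 a.2⟩).1]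
    · rw [s.bar_fix D p i fun b => a b.2, s.bar_fix D' p i fun b => a ⟨b.2.1, e.2 b.2.2⟩]
  · rw [s.bar_fix D p i fun b => hi b.1, s.bar_fix D' p i fun b => hi b.1]

theorem disp {w : List (Sym × Set S0)} {r : ℕ} (hr : ∀ s ∈ w, s.1.Rad r) (q : SS) :
    (tprod w q).1.1 = q.1.1 ∧ ∀ ε, |(tprod w q).1.2 ε - q.1.2 ε| ≤ 2 * ((w.length : ℤ) * r) := by
  induction w with
  | nil => simp [tprod]
  | cons s w ih =>
    obtain ⟨a, b⟩ := ih fun t ht => hr t (List.mem_cons_of_mem _ ht)
    obtain ⟨c, d⟩ := bar_disp (hr s List.mem_cons_self) s.2 (tprod w q)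
    rw [tprod_cons, Perm.mul_apply]
    refine ⟨c.trans a, fun ε => ?_⟩
    have b := abs_le.1 (b ε)
    have d := abs_le.1 (d ε)
    rw [abs_le, List.length_cons]
    push_cast
    rw [add_mul]
    omega

theorem tprod_congr {w : List (Sym × Set S0)} {r : ℕ} (hr : ∀ s ∈ w, s.1.Rad r)
    (F : Sym × Set S0 → Set S0) (q : SS)
    (h : ∀ s ∈ w, ∀ u : Pos, (∀ ε, |u ε - q.1.2 ε| ≤ 2 * ((w.length : ℤ) * r) + r) →
      ((q.1.1, u) ∈ F s ↔ (q.1.1, u) ∈ s.2)) :
    tprod (w.map fun s => (s.1, F s)) q = tprod w q := by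
  induction w with
  | nil => rfl
  | cons s w ih =>
    have hr' : ∀ t ∈ w, t.1.Rad r := fun t ht => hr t (List.mem_cons_of_mem _ ht)
    have len : ((s :: w).length : ℤ) * r = w.length * r + r := by
      rw [List.length_cons]; push_cast; ring
    rw [len] at h
    rw [List.map_cons, tprod_cons, tprod_cons, Perm.mul_apply, Perm.mul_apply,
      ih hr' fun t ht u hu => h t (List.mem_cons_of_mem _ ht) u fun ε => by
        have := hu ε; omega]
    obtain ⟨a, b⟩ := disp hr' q
    refine bar_congr (hr s List.mem_cons_self) _ fun u hu => ?_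
    rw [a]
    refine h s List.mem_cons_self u fun ε => ?_
    have b := abs_le.1 (b ε)
    have d := abs_le.1 (hu ε)
    rw [abs_le]; omega

/-- bounded displacement -/
def BD (g : Perm SS) : Prop :=
  ∃ M : ℤ, ∀ q, (g q).1.1 = q.1.1 ∧ ∀ ε, |(g q).1.2 ε - q.1.2 ε| ≤ M

/-- support in a vertical strip -/
def St (g : Perm SS) : Prop := BD g ∧ ∃ M : ℤ, ∀ q : SS, M < |q.1.2 false| → g q = q

/-- points below a level -/
def lev (k : Vx) (y : ℤ) : Set SS := {q | q.1.1 = k ∧ q.1.2 true ≤ y}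

theorem BD.mul {g h : Perm SS} (hg : BD g) (hh : BD h) : BD (g * h) := by
  obtain ⟨M, hg⟩ := hg
  obtain ⟨M', hh⟩ := hh
  refine ⟨M + M', fun q => ⟨(hg _).1.trans (hh q).1, fun ε => ?_⟩⟩
  have a := abs_le.1 ((hg (h q)).2 ε)
  have b := abs_le.1 ((hh q).2 ε)
  rw [Perm.mul_apply, abs_le]; omega

theorem BD.inv {g : Perm SS} (hg : BD g) : BD g⁻¹ := by
  obtain ⟨M, hg⟩ := hg
  refine ⟨M, fun q => ?_⟩
  have := hg (g⁻¹ q)
  rw [show g (g⁻¹ q) = q by simp] at this
  exact ⟨this.1.symm, fun ε => by rw [abs_sub_comm]; exact this.2 ε⟩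

theorem St.mul {g h : Perm SS} (hg : St g) (hh : St h) : St (g * h) := by
  obtain ⟨M, a⟩ := hg.2
  obtain ⟨M', b⟩ := hh.2
  refine ⟨hg.1.mul hh.1, max M M', fun q hq => ?_⟩
  rw [Perm.mul_apply, b q (by omega), a q (by omega)]

theorem St.conj {g h : Perm SS} (hg : St g) (hh : BD h) : St (h * g * h⁻¹) := by
  obtain ⟨M, a⟩ := hg.2
  obtain ⟨M', b⟩ := hh.inv
  refine ⟨(hh.mul hg.1).mul hh.inv, M + M', fun q hq => ?_⟩
  have c := abs_le.1 ((b q).2 false)
  rw [Perm.mul_apply, Perm.mul_apply, a]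
  · simp
  rw [lt_abs] at hq ⊢
  omega

theorem fin_box (k : Vx) (M y M' : ℤ) :
    {q : SS | q.1.1 = k ∧ |q.1.2 false| ≤ M ∧ |q.1.2 true - y| ≤ M'}.Finite := by
  have : {u : Pos | ∀ ε, u ε ∈ Set.Icc (-(M + |y| + M')) (M + |y| + M')}.Finite :=
    Set.Finite.pi' fun _ => Set.finite_Icc _ _
  refine (((Set.finite_singleton k).prod this).prod (Set.finite_univ (α := I))).subset ?_
  rintro ⟨⟨k', u⟩, i⟩ ⟨h1, h2, h3⟩
  refine ⟨⟨h1, fun ε => ?_⟩, trivial⟩
  have := abs_nonneg (u false)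
  have := abs_nonneg (u true - y)
  have := abs_nonneg y
  have := le_abs_self y
  have := neg_abs_le y
  simp only [abs_le] at h2 h3
  cases ε <;> simp only [Set.mem_Icc] <;> omega

theorem St.cr {g : Perm SS} (hg : St g) (k : Vx) (y : ℤ) : Cr g (lev k y) := by
  obtain ⟨⟨M', b⟩, M, a⟩ := hg
  refine (fin_box k M y M').subset fun q hq => ?_
  have c := abs_le.1 ((b q).2 true)
  simp only [lev, Set.mem_ofPred_eq, (b q).1] at hq
  refine ⟨by tauto, ?_, ?_⟩
  · by_contra h
    rw [a q (not_le.1 h)] at hq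
    tauto
  · have : ¬ (q.1.2 true ≤ y ↔ (g q).1.2 true ≤ y) := by tauto
    rw [abs_le]; omega

theorem St.lev {g : Perm SS} (hg : St g) (k : Vx) (y y' : ℤ) :
    ind g (lev k y) = ind g (lev k y') := by
  refine ind_congr (hg.cr k y) (hg.cr k y') ?_
  obtain ⟨M, a⟩ := hg.2
  refine (fin_box k M y |y - y'|).subset fun q hq => ?_
  simp only [CutA.lev, Set.mem_ofPred_eq] at hq
  refine ⟨by tauto, not_lt.1 fun h => hq.1 (a q h), ?_⟩
  have : ¬ (q.1.2 true ≤ y ↔ q.1.2 true ≤ y') := by tauto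
  have := le_abs_self (y - y')
  have := neg_abs_le (y - y')
  rw [abs_le]; omega

theorem flux_eq {g : Perm SS} (hg : St g) (k : Vx) (y : ℤ) :
    flux g k Set.univ y = ind g (lev k y) := by
  obtain ⟨M, b⟩ := hg.1
  have inj : Function.Injective fun q : Om => (((k, q.1), q.2) : SS) := by
    rintro ⟨u, i⟩ ⟨u', i'⟩ h
    simpa using h
  rw [ind_eq (hg.cr k y), flux, ← Set.ncard_image_of_injective _ inj,
    ← Set.ncard_image_of_injective _ inj]
  congr 3
  · ext ⟨⟨k', u⟩, i⟩
    simp only [lev, Set.mem_image, Set.mem_ofPred_eq, (b _).1, Set.mem_univ, true_and]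
    constructor
    · rintro ⟨⟨u', i'⟩, h, e⟩
      cases e
      exact ⟨⟨rfl, h.1⟩, fun a => absurd h.2 (not_lt.2 a.2)⟩
    · rintro ⟨⟨rfl, h⟩, h'⟩
      exact ⟨(u, i), ⟨h, not_le.1 fun a => h' ⟨rfl, a⟩⟩, rfl⟩
  · ext ⟨⟨k', u⟩, i⟩
    simp only [lev, Set.mem_image, Set.mem_ofPred_eq, (b _).1, Set.mem_univ, true_and]
    constructor
    · rintro ⟨⟨u', i'⟩, h, e⟩
      cases e
      exact ⟨fun a => absurd h.1 (not_lt.2 a.2), rfl, h.2⟩
    · rintro ⟨h', rfl, h⟩
      exact ⟨(u, i), ⟨not_le.1 fun a => h' ⟨rfl, a⟩, h⟩, rfl⟩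

/-- elements all of whose conjugates have index zero -/
def Zi (A : Set SS) (g : Perm SS) : Prop := St g ∧ ∀ h, BD h → ind (h * g * h⁻¹) A = 0

theorem bd_one : BD 1 := ⟨0, fun q => by simp⟩

theorem bd_tprod (w : List (Sym × Set S0)) : BD (tprod w) := by
  obtain ⟨r, hr⟩ := exists_rad_list (w.map Prod.fst)
  exact ⟨_, disp fun s hs => hr _ (List.mem_map_of_mem hs)⟩

theorem bd_bar (s : Sym) (D : Set S0) : BD (s.bar D) :=
  let ⟨_, hr⟩ := s.exists_rad; ⟨_, bar_disp hr D⟩

theorem bar_split (s : Sym) {D K : Set S0} (h : K ⊆ D) : s.bar D = s.bar (D \ K) * s.bar K := by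
  have e : s.U ∩ D = s.U ∩ (D \ K) ∪ s.U ∩ K := by
    rw [← Set.inter_union_distrib_left, Set.sdiff_union_of_subset h]
  have d : Disjoint (s.U ∩ (D \ K)) (s.U ∩ K) :=
    Set.disjoint_left.2 fun p a b => a.2.2 b.2
  rw [Sym.bar, e, vact_union d, Sym.bar, Sym.bar]
  group

theorem st_bar (s : Sym) {D : Set S0} {M : ℤ} (h : ∀ p ∈ D, |p.2 false| ≤ M) : St (s.bar D) := by
  obtain ⟨r, hr⟩ := s.exists_rad
  refine ⟨bd_bar s D, M + r, fun ⟨p, i⟩ hq => s.bar_fix D p i fun a => ?_⟩
  have b := abs_le.1 (h _ a.2.2)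
  have c := abs_le.1 (rad_of hr a.1 false)
  simp only [mv_snd, Pi.add_apply, Pi.neg_apply] at b
  simp only [lt_abs] at hq
  omega

theorem compare (k : Vx) (y : ℤ) {K : Set S0} {M : ℤ} {w : List (Sym × Set S0)}
    (h : ∀ s ∈ w, K ⊆ s.2 ∧ ∀ p ∈ s.2 \ K, |p.2 false| ≤ M) :
    Zi (lev k y) (tprod w * (tprod (w.map fun s => (s.1, K)))⁻¹) := by
  induction w with
  | nil => exact ⟨⟨by simpa [tprod] using bd_one, 0, fun q _ => by simp [tprod]⟩,
      fun h _ => by simp [tprod, ind_one]⟩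
  | cons s w ih =>
    obtain ⟨a, b⟩ := ih fun t ht => h t (List.mem_cons_of_mem _ ht)
    obtain ⟨c, d⟩ := h s List.mem_cons_self
    have e : tprod (s :: w) * (tprod ((s :: w).map fun s => (s.1, K)))⁻¹ = s.1.bar (s.2 \ K) *
        (s.1.bar K * (tprod w * (tprod (w.map fun s => (s.1, K)))⁻¹) * (s.1.bar K)⁻¹) := by
      rw [List.map_cons, tprod_cons, tprod_cons, bar_split s.1 c]
      group
    rw [e]
    have s1 := st_bar s.1 d
    have s2 := a.conj (bd_bar s.1 K)
    refine ⟨s1.mul s2, fun g hg => ?_⟩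
    have e' : ∀ x y : Perm SS, g * (x * y) * g⁻¹ = (g * x * g⁻¹) * (g * y * g⁻¹) := fun x y => by
      group
    rw [e', ind_mul ((s1.conj hg).cr k y) ((s2.conj hg).cr k y),
      ind_cube ((s1.conj hg).cr k y) (by rw [conj_pow, Sym.bar_cube]; simp)]
    have := b _ (hg.mul (bd_bar s.1 K))
    rw [zero_add, ← this]
    simp only [mul_inv_rev, mul_assoc]

theorem tprod_empty (w : List (Sym × Set S0)) : tprod (w.map fun s => (s.1, ∅)) = 1 := by
  induction w with
  | nil => rfl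
  | cons s w ih =>
    rw [List.map_cons, tprod_cons, ih, mul_one]
    ext1 ⟨p, i⟩
    exact s.1.bar_fix ∅ p i fun h => h.2.2

theorem tprod_univ {w : List (Sym × Set S0)} (ht : Triv (w.map Prod.fst)) :
    tprod (w.map fun s => (s.1, Set.univ)) = 1 := by
  simpa [Triv, tprod, List.map_map, Function.comp_def] using ht

theorem st_tprod {w : List (Sym × Set S0)} (ht : Triv (w.map Prod.fst)) {M : ℤ}
    (h : ∀ s ∈ w, ∀ p : S0, (M < p.2 false → p ∈ s.2) ∧ (p.2 false < -M → p ∉ s.2)) :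
    St (tprod w) := by
  obtain ⟨r, hr⟩ := exists_rad_list (w.map Prod.fst)
  have hr' : ∀ s ∈ w, s.1.Rad r := fun s hs => hr _ (List.mem_map_of_mem hs)
  refine ⟨bd_tprod w, M + (2 * ((w.length : ℤ) * r) + r), fun q hq => ?_⟩
  rcases lt_abs.1 hq with hq | hq
  · rw [← tprod_congr hr' (fun _ => Set.univ) q, tprod_univ ht, Perm.one_apply]
    intro s hs u hu
    have := abs_le.1 (hu false)
    exact iff_of_true trivial ((h s hs _).1 (by simp only; omega))
  · rw [← tprod_congr hr' (fun _ => ∅) q, tprod_empty, Perm.one_apply]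
    intro s hs u hu
    have := abs_le.1 (hu false)
    exact iff_of_false (fun a => a) ((h s hs _).2 (by simp only; omega))

theorem ind_trunc {w : List (Sym × Set S0)} (ht : Triv (w.map Prod.fst)) {M : ℤ} (hM : 0 ≤ M)
    (h : ∀ s ∈ w, ∀ p : S0, (M < p.2 false → p ∈ s.2) ∧ (p.2 false < -M → p ∉ s.2))
    (k : Vx) (y : ℤ) : ind (tprod w) (lev k y) =
      ind (tprod (w.map fun s => (s.1, {p : S0 | M < p.2 false}))) (lev k 0) := by
  have c := compare k y (K := {p : S0 | M < p.2 false}) (M := M) (w := w) fun s hs =>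
    ⟨fun p hp => (h s hs p).1 hp, fun p hp => abs_le.2
      ⟨not_lt.1 fun a => (h s hs p).2 a hp.1, not_lt.1 hp.2⟩⟩
  have s2 : St (tprod (w.map fun s => (s.1, {p : S0 | M < p.2 false}))) := by
    refine st_tprod (M := M) (by simpa [List.map_map, Function.comp_def] using ht) fun s hs p => ?_
    obtain ⟨t, -, rfl⟩ := List.mem_map.1 hs
    exact ⟨fun a => a, fun a b => by simp only [Set.mem_ofPred_eq] at b; omega⟩
  have := ind_mul (c.1.cr k y) (s2.cr k y)
  have c2 := c.2 1 bd_one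
  rw [one_mul, inv_one, mul_one] at c2
  rw [inv_mul_cancel_right, c2, zero_add] at this
  rw [this, s2.lev k y 0]

theorem half_eq (w : List Sym) (H : Set S0) :
    (w.map fun s => s.bar H).prod = tprod (w.map fun s => (s, H)) := by
  simp [tprod, List.map_map, Function.comp_def]

theorem st_half {w : List Sym} (h : Triv w) :
    St (w.map fun s => s.bar {p | 0 ≤ p.2 false}).prod := by
  rw [half_eq]
  refine st_tprod (M := 0) (by simpa [List.map_map, Function.comp_def] using h) fun s hs p => ?_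
  obtain ⟨t, -, rfl⟩ := List.mem_map.1 hs
  simp only [Set.mem_ofPred_eq]
  omega

theorem area_eq {w : List Sym} (h : Triv w) (k : Vx) :
    area w k = ind (w.map fun s => s.bar {p | 0 ≤ p.2 false}).prod (lev k 0) :=
  flux_eq (st_half h) k 0

theorem prod_inv (w : List Sym) (H : Set S0) :
    ((w.reverse.map Sym.inv).map fun s => s.bar H).prod = (w.map fun s => s.bar H).prod⁻¹ := by
  induction w with
  | nil => simp
  | cons s w ih =>
    rw [List.reverse_cons, List.map_append, List.map_append, List.prod_append, ih]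
    simp [Sym.bar_inv]

end CutA

open CutA

theorem area_append {w w' : List Sym} (h : Triv w) (h' : Triv w') (k : Vx) :
    area (w ++ w') k = area w k + area w' k := by
  have h'' : Triv (w ++ w') := by
    rw [Triv] at h h' ⊢
    rw [List.map_append, List.prod_append, h, h', mul_one]
  rw [area_eq h, area_eq h', area_eq h'', List.map_append, List.prod_append,
    ind_mul ((st_half h).cr k 0) ((st_half h').cr k 0)]

theorem area_inv {w : List Sym} (h : Triv w) (k : Vx) :
    area (w.reverse.map Sym.inv) k = -area w k := by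
  have h'' : Triv (w.reverse.map Sym.inv) := by
    rw [Triv] at h ⊢
    rw [prod_inv, h, inv_one]
  rw [area_eq h, area_eq h'', prod_inv, ind_inv ((st_half h).cr k 0)]

theorem tprod_disp {w : List (Sym × Set S0)} {r : ℕ} (hr : ∀ s ∈ w, s.1.Rad r) (q : SS) :
    (tprod w q).1.1 = q.1.1 ∧ ∀ ε, |(tprod w q).1.2 ε - q.1.2 ε| ≤ (2 * w.length * r : ℕ) := by
  have := disp hr q
  push_cast
  rwa [mul_assoc]

/-- the flux of a truncated trivial word through the left side vanishes with the area -/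
theorem flux_zero {w : List (Sym × Set S0)} {r R : ℕ} (hr : ∀ s ∈ w, s.1.Rad r)
    (ht : Triv (w.map Prod.fst)) {k : Vx} (h0 : area (w.map Prod.fst) k = 0) {a b y : ℤ}
    (hR : (4 * w.length + 1) * r ≤ R) (hab : a ≤ b)
    (hl : ∀ s ∈ w, ∀ u : Pos, |u true - y| ≤ R → |u false - a| ≤ R → (k, u) ∉ s.2)
    (hg : ∀ s ∈ w, ∀ u : Pos, |u true - y| ≤ R → |u false - b| ≤ R → (k, u) ∈ s.2) :
    flux (tprod w) k (Set.Icc a b) y = 0 := by
  have hR' : 4 * ((w.length : ℤ) * r) + r ≤ R := by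
    have : (((4 * w.length + 1) * r : ℕ) : ℤ) ≤ R := by exact_mod_cast hR
    push_cast at this
    linarith
  have hN : 0 ≤ (w.length : ℤ) * r := by positivity
  let F : Sym × Set S0 → Set S0 := fun s => {p | (a ≤ p.2 false ∧ p ∈ s.2) ∨ b < p.2 false}
  let w' := w.map fun s => (s.1, F s)
  have hr' : ∀ s ∈ w', s.1.Rad r := fun s hs => by
    obtain ⟨t, ht, rfl⟩ := List.mem_map.1 hs
    exact hr t ht
  have e1 : w'.map Prod.fst = w.map Prod.fst := by simp [w', List.map_map, Function.comp_def]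
  have len : w'.length = w.length := List.length_map _
  have hM : 0 ≤ |a| + |b| := by positivity
  have b1 := le_abs_self b
  have b2 := neg_abs_le a
  have b3 := abs_nonneg a
  have b4 := abs_nonneg b
  have hw' : ∀ s ∈ w', ∀ p : S0, (|a| + |b| < p.2 false → p ∈ s.2) ∧
      (p.2 false < -(|a| + |b|) → p ∉ s.2) := fun s hs p => by
    obtain ⟨t, ht, rfl⟩ := List.mem_map.1 hs
    refine ⟨fun h => Or.inr (by omega), fun h h' => ?_⟩
    rcases h' with h' | h' <;> omega
  have i1 := ind_trunc (e1 ▸ ht) hM hw' k y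
  have i2 := ind_trunc (w := (w.map Prod.fst).map fun s => (s, {p : S0 | 0 ≤ p.2 false}))
    (by simpa [List.map_map, Function.comp_def] using ht) hM (fun s hs p => by
      obtain ⟨t, -, rfl⟩ := List.mem_map.1 hs
      simp only [Set.mem_ofPred_eq]
      omega) k 0
  rw [← half_eq, ← area_eq ht, h0] at i2
  have e2 : (((w.map Prod.fst).map fun s => (s, {p : S0 | 0 ≤ p.2 false})).map
      fun s => (s.1, {p : S0 | |a| + |b| < p.2 false})) =
      w'.map fun s => (s.1, {p : S0 | |a| + |b| < p.2 false}) := by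
    simp [w', List.map_map, Function.comp_def]
  rw [e2, ← i1, ← flux_eq (st_tprod (e1 ▸ ht) hw')] at i2
  have key : ∀ q : Om, |q.1 true - y| ≤ 2 * ((w.length : ℤ) * r) →
      (q.1 false ∈ Set.Icc a b → tprod w' ((k, q.1), q.2) = tprod w ((k, q.1), q.2)) ∧
      (q.1 false ∉ Set.Icc a b → tprod w' ((k, q.1), q.2) = ((k, q.1), q.2)) := by
    intro q hq
    rw [abs_le] at hq
    refine ⟨fun h => tprod_congr hr F _ fun s hs u hu => ?_, fun h => ?_⟩
    · have c1 := abs_le.1 (hu false)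
      have c2 := abs_le.1 (hu true)
      have c3 := hl s hs u (by rw [abs_le]; simp only at c2; omega)
      have c4 := hg s hs u (by rw [abs_le]; simp only at c2; omega)
      simp only [abs_le, Set.mem_Icc] at c1 c3 c4 h
      refine ⟨fun h' => h'.elim (fun x => x.2) fun x => c4 (by simp only at x; omega),
        fun h' => Or.inl ⟨not_lt.1 fun x => c3 (by simp only at x; omega) h', h'⟩⟩
    rcases lt_or_ge (q.1 false) a with h' | h'
    · rw [← tprod_congr hr' (fun _ => ∅), tprod_empty, Perm.one_apply]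
      intro s hs u hu
      obtain ⟨t, ht, rfl⟩ := List.mem_map.1 hs
      rw [len] at hu
      have c1 := abs_le.1 (hu false)
      have c2 := abs_le.1 (hu true)
      have c3 := hl t ht u (by rw [abs_le]; simp only at c2; omega)
      have c4 := hg t ht u (by rw [abs_le]; simp only at c2; omega)
      simp only [abs_le] at c1 c3 c4
      refine iff_of_false (fun x => x) fun x => x.elim (fun x => c3 ?_ x.2) fun x => c3 ?_ (c4 ?_)
      all_goals simp only at x; omega
    · have h'' : b < q.1 false := not_le.1 fun x => h ⟨h', x⟩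
      rw [← tprod_congr hr' (fun _ => Set.univ), tprod_univ (e1 ▸ ht), Perm.one_apply]
      intro s hs u hu
      obtain ⟨t, ht, rfl⟩ := List.mem_map.1 hs
      rw [len] at hu
      have c1 := abs_le.1 (hu false)
      have c2 := abs_le.1 (hu true)
      have c3 := hl t ht u (by rw [abs_le]; simp only at c2; omega)
      have c4 := hg t ht u (by rw [abs_le]; simp only at c2; omega)
      simp only [abs_le] at c1 c3 c4
      refine iff_of_true trivial ?_
      by_cases x : b < u false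
      · exact Or.inr x
      · have c5 := c4 (by omega)
        exact Or.inl ⟨not_lt.1 fun x => c3 (by simp only at x; omega) c5, c5⟩
  have d1 := fun q : Om => abs_le.1 ((disp hr ((k, q.1), q.2)).2 true)
  have d2 := fun q : Om => abs_le.1 ((disp hr' ((k, q.1), q.2)).2 true)
  rw [len] at d2
  rw [i2, flux, flux]
  congr 3
  · ext q
    have d1 := d1 q
    have d2 := d2 q
    simp only [Set.mem_ofPred_eq, Set.mem_univ, true_and] at d1 d2 ⊢
    refine ⟨fun h => ?_, fun h => ?_⟩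
    · rw [(key q (by rw [abs_le]; omega)).1 h.1]; exact h.2
    · have c := key q (by rw [abs_le]; omega)
      by_cases x : q.1 false ∈ Set.Icc a b
      · rw [c.1 x] at h; exact ⟨x, h⟩
      · rw [c.2 x] at h; simp only at h; omega
  · ext q
    have d1 := d1 q
    have d2 := d2 q
    simp only [Set.mem_ofPred_eq, Set.mem_univ, true_and] at d1 d2 ⊢
    refine ⟨fun h => ?_, fun h => ?_⟩
    · rw [(key q (by rw [abs_le]; omega)).1 h.1]; exact h.2
    · have c := key q (by rw [abs_le]; omega)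
      by_cases x : q.1 false ∈ Set.Icc a b
      · rw [c.1 x] at h; exact ⟨x, h⟩
      · rw [c.2 x] at h; simp only at h; omega

end Vale.Agent.P196
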