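import Vale.Agent.P196.HatB

/-! P196: words in multisections, block actions, and the concrete calculus. -/

namespace Vale.Agent.P196

open Equiv

theorem exists_sum_zero (S : Finset I) (hS : S.card ≤ 9) (f : I → Pos) :
    ∃ z : I → Pos, ∑ i, z i = 0 ∧ ∀ a ∈ S, z a = f a := by
  obtain ⟨m, hm⟩ := exists_fresh S (by omega)
  refine ⟨f - Pi.single m (∑ i, f i), ?_, fun a ha => ?_⟩
  · simp [Finset.sum_sub_distrib]
  · have : a ≠ m := fun h => hm (h ▸ ha)
    simp [this]

theorem Word_sum_single (i k : I) (d : Pos) :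
    ∑ j, (Pi.single i d - Pi.single k d : I → Pos) j = 0 := by
  simp [Finset.sum_sub_distrib]

/-- a translation vector vanishing on `S` is a sum of elementary vectors vanishing on `S` -/
theorem sum_zero_induction {S : Set I} {P : (I → Pos) → Prop} (h0 : P 0)
    (h1 : ∀ (i k : I) (ε : Bool), i ∉ S → k ∉ S → i ≠ k →
      P (Pi.single i (ee ε) - Pi.single k (ee ε)))
    (h2 : ∀ z z', ∑ i, z i = 0 → ∑ i, z' i = 0 → P z → P z' → P (z + z'))
    {z : I → Pos} (hz : ∑ i, z i = 0) (hS : ∀ a ∈ S, z a = 0) : P z := by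
  let M : AddSubmonoid (I → Pos) :=
    { carrier := {z | ∑ i, z i = 0 ∧ P z}
      zero_mem' := ⟨by simp, h0⟩
      add_mem' := fun {a b} ha hb =>
        ⟨by simp [Finset.sum_add_distrib, ha.1, hb.1], h2 a b ha.1 hb.1 ha.2 hb.2⟩ }
  have e1 : ∀ (i k : I) (ε : Bool), i ∉ S → k ∉ S →
      (Pi.single i (ee ε) - Pi.single k (ee ε) : I → Pos) ∈ M := by
    intro i k ε hi hk
    by_cases h : i = k
    · subst h; simp
    · exact ⟨Word_sum_single i k _, h1 i k ε hi hk h⟩
  have e2 : ∀ (i k : I) (ε : Bool) (n : ℤ), i ∉ S → k ∉ S →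
      n • (Pi.single i (ee ε) - Pi.single k (ee ε) : I → Pos) ∈ M := by
    intro i k ε n hi hk
    obtain ⟨m, rfl | rfl⟩ := n.eq_nat_or_neg
    · rw [natCast_zsmul]; exact M.nsmul_mem (e1 i k ε hi hk) m
    · rw [neg_smul, ← smul_neg, neg_sub, natCast_zsmul]; exact M.nsmul_mem (e1 k i ε hk hi) m
  have e3 : ∀ (i k : I) (d : Pos), i ∉ S → k ∉ S →
      (Pi.single i d - Pi.single k d : I → Pos) ∈ M := by
    intro i k d hi hk
    have hd : d = d false • ee false + d true • ee true := by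
      funext ε; cases ε <;> simp [ee]
    have := M.add_mem (e2 i k false (d false) hi hk) (e2 i k true (d true) hi hk)
    convert this using 1
    rw [smul_sub, smul_sub, ← Pi.single_smul, ← Pi.single_smul, ← Pi.single_smul,
      ← Pi.single_smul, sub_add_sub_comm, ← Pi.single_add, ← Pi.single_add, ← hd]
  by_cases hk : ∃ k, k ∉ S
  · obtain ⟨k, hk⟩ := hk
    have e : z = ∑ i, (Pi.single i (z i) - Pi.single k (z i) : I → Pos) := by
      rw [Finset.sum_sub_distrib, Finset.univ_sum_single]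
      have : ∑ i, (Pi.single k (z i) : I → Pos) = 0 := by
        funext j
        by_cases hj : j = k
        · subst hj; simpa [Finset.sum_apply] using hz
        · simp [Finset.sum_apply, hj]
      rw [this, sub_zero]
    have : ∑ i, (Pi.single i (z i) - Pi.single k (z i) : I → Pos) ∈ M := by
      refine M.sum_mem fun i _ => ?_
      by_cases hi : i ∈ S
      · simp [hS i hi]
      · exact e3 i k _ hi hk
    rw [← e] at this
    exact this.2
  · push Not at hk
    have : z = 0 := funext fun a => hS a (hk a)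
    rw [this]; exact h0

theorem IsAct.unique {O : Set S0} {Q : Set Pos} {f : S0 → Perm Om} {g g' : Perm SS}
    (h : IsAct O Q f g) (h' : IsAct O Q f g') : g = g' := by
  ext1 ⟨p, i⟩
  by_cases hp : ∃ o ∈ O, ∃ u ∈ Q, p = mv o u
  · obtain ⟨o, ho, u, hu, rfl⟩ := hp
    rw [h.1 o ho u hu, h'.1 o ho u hu]
  · push Not at hp
    rw [h.2 p i hp, h'.2 p i hp]

theorem IsAct.one (O : Set S0) (Q : Set Pos) : IsAct O Q (fun _ => 1) 1 :=
  ⟨fun _ _ _ _ _ => rfl, fun _ _ _ => rfl⟩

theorem IsAct.congr {O : Set S0} {Q : Set Pos} {f f' : S0 → Perm Om} {g : Perm SS}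
    (h : IsAct O Q f g) (h' : ∀ o ∈ O, f o = f' o) : IsAct O Q f' g :=
  ⟨fun o ho u hu i => by rw [← h' o ho]; exact h.1 o ho u hu i, h.2⟩

theorem IsAct.mul {O : Set S0} {Q : Set Pos} {f f' : S0 → Perm Om} {g g' : Perm SS}
    (h : IsAct O Q f g) (h' : IsAct O Q f' g')
    (hf : ∀ o ∈ O, ∀ q : Om, q.1 ∈ Q → (f' o q).1 ∈ Q) :
    IsAct O Q (fun o => f o * f' o) (g * g') := by
  refine ⟨fun o ho u hu i => ?_, fun p i hp => ?_⟩
  · rw [Perm.mul_apply, h'.1 o ho u hu, h.1 o ho _ (hf o ho (u, i) hu)]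
    rfl
  · rw [Perm.mul_apply, h'.2 p i hp, h.2 p i hp]

theorem IsAct.inv {O : Set S0} {Q : Set Pos} {f : S0 → Perm Om} {g : Perm SS}
    (h : IsAct O Q f g) (hf : ∀ o ∈ O, ∀ q : Om, q.1 ∈ Q → ((f o)⁻¹ q).1 ∈ Q) :
    IsAct O Q (fun o => (f o)⁻¹) g⁻¹ := by
  refine ⟨fun o ho u hu i => ?_, fun p i hp => ?_⟩
  · rw [Perm.inv_eq_iff_eq, h.1 o ho _ (hf o ho (u, i) hu)]
    simp
  · rw [Perm.inv_eq_iff_eq, h.2 p i hp]

theorem IsAct.isSw {O : Set S0} {Q : Set Pos} {f : S0 → Perm Om} {g : Perm SS}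
    (h : IsAct O Q f g) (hf : ∀ o ∈ O, IsSw (f o)) : IsSw g := by
  intro p
  by_cases hp : ∃ o ∈ O, ∃ u ∈ Q, p = mv o u
  · obtain ⟨o, ho, u, hu, rfl⟩ := hp
    rcases hf o ho u with e | e
    · exact Or.inl fun i => by rw [h.1 o ho u hu, e]
    · exact Or.inr fun i => by rw [h.1 o ho u hu, e]
  · push Not at hp
    exact Or.inl fun i => h.2 p i hp

theorem IsSw.one {α : Type} : IsSw (1 : Perm (α × I)) := fun _ => Or.inl fun _ => rfl

theorem IsSw.mul {α : Type} {g g' : Perm (α × I)} (h : IsSw g) (h' : IsSw g') : IsSw (g * g') := by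
  intro p
  rcases h p with e | e <;> rcases h' p with e' | e'
  · exact Or.inl fun i => by rw [Perm.mul_apply, e', e]
  · exact Or.inr fun i => by rw [Perm.mul_apply, e', e]
  · exact Or.inr fun i => by rw [Perm.mul_apply, e', e]
  · exact Or.inl fun i => by rw [Perm.mul_apply, e', e, swap_apply_self]

theorem IsSw.inv {α : Type} {g : Perm (α × I)} (h : IsSw g) : IsSw g⁻¹ := by
  intro p
  rcases h p with e | e
  · exact Or.inl fun i => by rw [Perm.inv_eq_iff_eq, e]
  · exact Or.inr fun i => by rw [Perm.inv_eq_iff_eq, e, swap_apply_self]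

open Classical in
theorem Word_conj_apply (z : I → Pos) (U : Set S0) (σ : Perm I) (p : S0) (i : I) :
    (tr z * vact U σ * (tr z)⁻¹) (p, i) =
      if mv p (-z i) ∈ U then (mv p (z (σ i) - z i), σ i) else (p, i) := by
  by_cases h : mv p (-z i) ∈ U
  · simp [vact_apply, h, sub_eq_neg_add]
  · simp [vact_apply, h]

theorem Word_cyc_fix {α : Type} [DecidableEq α] {a b c x : α} (h : D3 a b c) (ha : x ≠ a)
    (hb : x ≠ b) (hc : x ≠ c) : cyc a b c x = x := by
  rw [cyc_apply h, if_neg ha, if_neg hb, if_neg hc]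

theorem Word_cyc_a {α : Type} [DecidableEq α] {a b c : α} (h : D3 a b c) : cyc a b c a = b := by
  rw [cyc_apply h, if_pos rfl]

theorem Word_cyc_b {α : Type} [DecidableEq α] {a b c : α} (h : D3 a b c) : cyc a b c b = c := by
  rw [cyc_apply h, if_neg h.1.symm, if_pos rfl]

theorem Word_cyc_c {α : Type} [DecidableEq α] {a b c : α} (h : D3 a b c) : cyc a b c c = a := by
  rw [cyc_apply h, if_neg h.2.1.symm, if_neg h.2.2.symm, if_pos rfl]

open Classical in
/-- the action of a transversal multisection -/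
theorem isAct_msec {O U : Set S0} {Q : Set Pos} (hF : Free O Q) (hU : U ⊆ O) {z : I → Pos}
    {a b c : I} (h : D3 a b c) (ha : z a ∈ Q) (hb : z b ∈ Q) (hc : z c ∈ Q) :
    IsAct O Q (fun o => if o ∈ U then cyc (z a, a) (z b, b) (z c, c) else 1)
      (tr z * vact U (cyc a b c) * (tr z)⁻¹) := by
  have h' : D3 (z a, a) (z b, b) (z c, c) :=
    ⟨fun e => h.1 (congrArg Prod.snd e), fun e => h.2.1 (congrArg Prod.snd e),
      fun e => h.2.2 (congrArg Prod.snd e)⟩
  have hz : ∀ i, i = a ∨ i = b ∨ i = c → z i ∈ Q := by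
    rintro i (rfl | rfl | rfl) <;> assumption
  refine ⟨fun o ho u hu i => ?_, fun p i hp => ?_⟩
  · rw [Word_conj_apply]
    by_cases hi : i = a ∨ i = b ∨ i = c
    · by_cases hui : u = z i
      · subst hui
        by_cases hoU : o ∈ U
        · rcases hi with rfl | rfl | rfl
          · simp [hoU, Word_cyc_a h, Word_cyc_a h']
          · simp [hoU, Word_cyc_b h, Word_cyc_b h']
          · simp [hoU, Word_cyc_c h, Word_cyc_c h']
        · simp [hoU]
      · have hn : mv (mv o u) (-z i) ∉ U := fun hm =>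
          hui (hF o ho _ (hU hm) u hu _ (hz i hi) (by simp))
        have hfix : cyc (z a, a) (z b, b) (z c, c) (u, i) = (u, i) := by
          refine Word_cyc_fix h' ?_ ?_ ?_ <;>
          · intro e
            obtain ⟨e1, e2⟩ := Prod.ext_iff.1 e
            dsimp only at e1 e2
            exact hui (e1.trans (by rw [e2]))
        rw [if_neg hn]
        by_cases hoU : o ∈ U <;> simp [hoU, hfix]
    · push Not at hi
      have hfix : cyc (z a, a) (z b, b) (z c, c) (u, i) = (u, i) :=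
        Word_cyc_fix h' (fun e => hi.1 (congrArg Prod.snd e))
          (fun e => hi.2.1 (congrArg Prod.snd e)) (fun e => hi.2.2 (congrArg Prod.snd e))
      rw [Word_cyc_fix h hi.1 hi.2.1 hi.2.2]
      by_cases hoU : o ∈ U <;> simp [hoU, hfix]
  · rw [Word_conj_apply]
    by_cases hi : i = a ∨ i = b ∨ i = c
    · rw [if_neg fun hm => hp _ (hU hm) _ (hz i hi) (by simp)]
    · push Not at hi
      rw [Word_cyc_fix h hi.1 hi.2.1 hi.2.2]
      simp

theorem Sym.exists_rad (s : Sym) : ∃ r, s.Rad r := by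
  obtain ⟨m1, h1⟩ := exists_bd (s.z s.a)
  obtain ⟨m2, h2⟩ := exists_bd (s.z s.b)
  obtain ⟨m3, h3⟩ := exists_bd (s.z s.c)
  refine ⟨m1 + m2 + m3, fun ε => ?_⟩
  have := h1 ε; have := h2 ε; have := h3 ε
  push_cast
  refine ⟨?_, ?_, ?_⟩ <;> omega

theorem Sym.Rad.mono {s : Sym} {r r' : ℕ} (h : s.Rad r) (hr : r ≤ r') : s.Rad r' := by
  intro ε
  have := h ε
  refine ⟨?_, ?_, ?_⟩ <;> omega

theorem exists_rad_list (w : List Sym) : ∃ r, ∀ s ∈ w, s.Rad r := by
  induction w with
  | nil => exact ⟨0, by simp⟩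
  | cons s w ih =>
    obtain ⟨r, hr⟩ := ih
    obtain ⟨r', hr'⟩ := s.exists_rad
    refine ⟨r + r', fun t ht => ?_⟩
    rcases List.mem_cons.1 ht with rfl | ht
    · exact hr'.mono (by omega)
    · exact (hr t ht).mono (by omega)

theorem Sym.bar_inv (s : Sym) (D : Set S0) : s.inv.bar D = (s.bar D)⁻¹ := by
  simp only [Sym.bar, Sym.inv, mul_inv_rev, inv_inv, ← map_inv, cyc_inv s.d3, mul_assoc]

theorem Word_cyc_cube {α : Type} [DecidableEq α] {a b c : α} (h : D3 a b c) :
    cyc a b c ^ 3 = 1 := by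
  ext x
  obtain ⟨h1, h2, h3⟩ := h
  simp only [pow_succ, pow_zero, one_mul, cyc, Perm.mul_apply, swap_apply_def, Perm.one_apply]
  grind

theorem Sym.bar_cube (s : Sym) (D : Set S0) : s.bar D ^ 3 = 1 := by
  rw [Sym.bar, conj_pow, ← map_pow, Word_cyc_cube s.d3, map_one, mul_one, mul_inv_cancel]

/-- points away from the symbol are fixed -/
theorem Sym.bar_fix (s : Sym) (D : Set S0) (p : S0) (i : I)
    (h : ¬ ((i = s.a ∨ i = s.b ∨ i = s.c) ∧ mv p (-s.z i) ∈ s.U ∩ D)) : s.bar D (p, i) = (p, i) := by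
  rw [Sym.bar, Word_conj_apply]
  by_cases hi : i = s.a ∨ i = s.b ∨ i = s.c
  · rw [if_neg fun hm => h ⟨hi, hm⟩]
  · push Not at hi
    rw [Word_cyc_fix s.d3 hi.1 hi.2.1 hi.2.2]
    simp

theorem Sym.bar_move (s : Sym) (D : Set S0) (p : S0) (i : I)
    (h : (i = s.a ∨ i = s.b ∨ i = s.c) ∧ mv p (-s.z i) ∈ s.U ∩ D) :
    s.bar D (p, i) = (mv p (s.z (cyc s.a s.b s.c i) - s.z i), cyc s.a s.b s.c i) ∧
      (cyc s.a s.b s.c i = s.a ∨ cyc s.a s.b s.c i = s.b ∨ cyc s.a s.b s.c i = s.c) := by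
  refine ⟨by rw [Sym.bar, Word_conj_apply, if_pos h.2], ?_⟩
  rcases h.1 with e | e | e <;> rw [e]
  · exact Or.inr (Or.inl (Word_cyc_a s.d3))
  · exact Or.inr (Or.inr (Word_cyc_b s.d3))
  · exact Or.inl (Word_cyc_c s.d3)

namespace Calc

variable {G : Type} [Group G] (C : Calc G)

theorem t_zero : C.t 0 = 1 := by
  have := C.t_add 0 0 (by simp) (by simp)
  rw [add_zero] at this
  exact (mul_eq_left.1 this.symm)

theorem t_neg {z : I → Pos} (hz : ∑ i, z i = 0) : C.t (-z) = (C.t z)⁻¹ := by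
  have := C.t_add (-z) z (by simp [hz]) hz
  rw [neg_add_cancel, C.t_zero] at this
  exact eq_inv_of_mul_eq_one_left this.symm

theorem Φ_empty (g : Hat) : C.Φ ∅ g = 1 := by
  have := C.Φ_union ∅ ∅ Loc.empty Loc.empty (by simp) g
  rw [Set.union_empty] at this
  exact (mul_eq_left.1 this.symm)

theorem Φ_comm {U V : Set S0} (hU : Loc U) (hV : Loc V) {g h : Hat} (hgh : Commute g h) :
    Commute (C.Φ U g) (C.Φ V h) := by
  have a := hU.inter hV
  have b := hU.diff hV
  have c := hV.diff hU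
  have dab : Disjoint (U ∩ V) (U \ V) := Set.disjoint_left.2 fun _ h h' => h'.2 h.2
  have dac : Disjoint (U ∩ V) (V \ U) := Set.disjoint_left.2 fun _ h h' => h'.2 h.1
  have dbc : Disjoint (U \ V) (V \ U) := Set.disjoint_left.2 fun _ h h' => h'.2 h.1
  have e1 := C.Φ_union _ _ a b dab g
  have e2 := C.Φ_union _ _ a c dac h
  rw [Set.inter_union_sdiff] at e1
  rw [Set.inter_comm, Set.inter_union_sdiff, Set.inter_comm] at e2
  rw [e1, e2]
  refine Commute.mul_left (Commute.mul_right (hgh.map _) (C.Φ_orth _ _ a c dac g h))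
    (Commute.mul_right (C.Φ_orth _ _ b a dab.symm g h) (C.Φ_orth _ _ b c dbc g h))

theorem msec_congr {U : Set S0} (hU : Loc U) {z z' : I → Pos} (hz : ∑ i, z i = 0)
    (hz' : ∑ i, z' i = 0) {a b c : I} {d : Pos} (ha : z a = z' a + d) (hb : z b = z' b + d)
    (hc : z c = z' c + d) : C.msec U z (X a b c) = C.msec (sh d U) z' (X a b c) := by
  have hw : ∑ i, (z - z') i = 0 := by simp [Finset.sum_sub_distrib, hz, hz']
  have e := C.t_add z' (z - z') hz' hw
  rw [add_sub_cancel] at e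
  have e' := C.equiv U (z - z') d a b c hU hw (by simp [ha]) (by simp [hb]) (by simp [hc])
  rw [msec, msec, ← e', e]
  group

theorem msec_union {U V : Set S0} (hU : Loc U) (hV : Loc V) (h : Disjoint U V) (z : I → Pos)
    (g : Hat) : C.msec (U ∪ V) z g = C.msec U z g * C.msec V z g := by
  rw [msec, msec, msec, C.Φ_union U V hU hV h]
  group

theorem π_msec {U : Set S0} (hU : Loc U) {z : I → Pos} (hz : ∑ i, z i = 0) (g : Hat) :
    C.π (C.msec U z g) = tr z * vact U (pH g) * (tr z)⁻¹ := by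
  rw [msec, map_mul, map_mul, map_inv, C.π_t z hz, C.π_Φ U g hU]

theorem π_val (s : Sym) : C.π (C.val s) = s.bar Set.univ := by
  rw [val, C.π_msec s.loc s.sum, pH_X s.d3, Sym.bar, Set.inter_univ]

theorem π_word (w : List Sym) :
    C.π (w.map C.val).prod = (w.map fun s => s.bar Set.univ).prod := by
  induction w with
  | nil => simp
  | cons s w ih => simp only [List.map_cons, List.prod_cons, map_mul, ih, C.π_val]

theorem val_inv (s : Sym) : C.val s.inv = (C.val s)⁻¹ := by
  simp only [val, msec, Sym.inv, mul_inv_rev, inv_inv, ← map_inv, X_inv, mul_assoc]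

/-- the elements given by words -/
def Word_words : Subgroup G where
  carrier := {g | ∃ w : List Sym, (w.map C.val).prod = g}
  one_mem' := ⟨[], rfl⟩
  mul_mem' := by
    rintro _ _ ⟨w, rfl⟩ ⟨w', rfl⟩
    exact ⟨w ++ w', by simp⟩
  inv_mem' := by
    rintro _ ⟨w, rfl⟩
    induction w with
    | nil => exact ⟨[], by simp⟩
    | cons s w ih =>
      obtain ⟨w', h⟩ := ih
      exact ⟨w' ++ [s.inv], by simp [h, C.val_inv]⟩

theorem Word_val_mem (s : Sym) : C.val s ∈ C.Word_words := ⟨[s], by simp⟩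

theorem Word_msec_mem {U : Set S0} (hU : Loc U) {z : I → Pos} (hz : ∑ i, z i = 0) (h : Hat) :
    C.msec U z h ∈ C.Word_words := by
  have hh : h ∈ HatOn Set.univ := by rw [hatOn_univ]; trivial
  induction hh using Subgroup.closure_induction with
  | mem g hg =>
    obtain ⟨a, -, b, -, c, -, rfl⟩ := hg
    by_cases h3 : D3 a b c
    · exact C.Word_val_mem ⟨U, z, a, b, c, hU, hz, h3⟩
    · rw [X_degen h3]; simp [msec]
  | one => simp [msec]
  | mul g g' _ _ h1 h2 =>
    have := C.Word_words.mul_mem h1 h2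
    convert this using 1
    simp only [msec, map_mul]; group
  | inv g _ h1 =>
    have := C.Word_words.inv_mem h1
    convert this using 1
    simp only [msec, map_inv]; group

theorem Word_Φ_mem {U : Set S0} (hU : Loc U) (h : Hat) : C.Φ U h ∈ C.Word_words := by
  simpa [msec, C.t_zero] using C.Word_msec_mem hU (z := 0) (by simp) h

theorem Word_t_mem {z : I → Pos} (hz : ∑ i, z i = 0) : C.t z ∈ C.Word_words := by
  refine sum_zero_induction (S := ∅) (P := fun z => C.t z ∈ C.Word_words) ?_ ?_ ?_ hz (by simp)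
  · rw [C.t_zero]; exact C.Word_words.one_mem
  · intro i k ε _ _ hik
    obtain ⟨l, hl⟩ := exists_fresh {i, k} (Finset.card_le_two.trans_lt (by norm_num))
    obtain ⟨m, hm⟩ := exists_fresh {i, k, l} (Finset.card_le_three.trans_lt (by norm_num))
    simp only [Finset.mem_insert, Finset.mem_singleton, not_or] at hl hm
    rw [C.t_eq ε i k l m ⟨hik, Ne.symm hl.1, Ne.symm hl.2⟩ ⟨hik, Ne.symm hm.1, Ne.symm hm.2.1⟩
      (Ne.symm hm.2.2)]
    exact C.Word_words.mul_mem (C.Word_msec_mem Loc.univ (Word_sum_single i l _) _)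
      (C.Word_words.inv_mem (C.Word_Φ_mem Loc.univ _))
  · intro z z' h h' a b
    rw [C.t_add z z' h h']
    exact C.Word_words.mul_mem a b

theorem exists_word (g : G) : ∃ w : List Sym, (w.map C.val).prod = g := by
  have : ⊤ ≤ C.Word_words := by
    rw [← C.gen, Subgroup.closure_le]
    rintro _ (⟨U, h, hU, rfl⟩ | ⟨z, hz, rfl⟩)
    · exact C.Word_Φ_mem hU h
    · exact C.Word_t_mem hz
  exact this (Subgroup.mem_top g)

theorem range_π : C.π.range = AA := by
  apply le_antisymm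
  · rw [MonoidHom.range_eq_map, ← C.gen, MonoidHom.map_closure, Subgroup.closure_le]
    rintro _ ⟨_, ⟨U, h, hU, rfl⟩ | ⟨z, hz, rfl⟩, rfl⟩
    · exact Subgroup.subset_closure (Or.inl ⟨U, h, hU, C.π_Φ U h hU⟩)
    · exact Subgroup.subset_closure (Or.inr ⟨z, hz, C.π_t z hz⟩)
  · rw [AA, Subgroup.closure_le]
    rintro _ (⟨U, h, hU, rfl⟩ | ⟨z, hz, rfl⟩)
    · exact ⟨_, C.π_Φ U h hU⟩
    · exact ⟨_, C.π_t z hz⟩

end Calc

open Classical in
/-- the vertical generators inside the concrete group -/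
noncomputable def Word_Φ (U : Set S0) : Hat →* AA :=
  if h : Loc U then ((vact U).comp pH).codRestrict AA fun g =>
    Subgroup.subset_closure (Or.inl ⟨U, g, h, rfl⟩) else 1

theorem Word_Φ_coe {U : Set S0} (h : Loc U) (g : Hat) :
    (Word_Φ U g : Perm SS) = vact U (pH g) := by
  rw [Word_Φ, dif_pos h]; rfl

/-- the translations inside the concrete group -/
noncomputable def Word_t (z : I → Pos) : AA :=
  if h : ∑ i, z i = 0 then ⟨tr z, Subgroup.subset_closure (Or.inr ⟨z, h, rfl⟩)⟩ else 1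

theorem Word_t_coe {z : I → Pos} (h : ∑ i, z i = 0) : (Word_t z : Perm SS) = tr z := by
  rw [Word_t, dif_pos h]

/-- the concrete calculus -/
noncomputable def Word_conc : Calc AA where
  Φ := Word_Φ
  t := Word_t
  π := AA.subtype
  t_add z z' h h' := Subtype.ext (by
    rw [Subgroup.coe_mul, Word_t_coe h, Word_t_coe h',
      Word_t_coe (by simp [Finset.sum_add_distrib, h, h']), tr_add])
  Φ_union U V hU hV h g := Subtype.ext (by
    rw [Subgroup.coe_mul, Word_Φ_coe hU, Word_Φ_coe hV, Word_Φ_coe (hU.union hV), vact_union h])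
  Φ_orth U V hU hV h g g' := Subtype.ext (by
    rw [Subgroup.coe_mul, Subgroup.coe_mul, Word_Φ_coe hU, Word_Φ_coe hV]
    exact vact_comm h _ _)
  equiv U z d a b c hU hz ha hb hc := Subtype.ext (by
    rw [Subgroup.coe_mul, Subgroup.coe_mul, Subgroup.coe_inv, Word_t_coe hz, Word_Φ_coe hU,
      Word_Φ_coe (hU.sh d)]
    refine tr_vact U z d _ fun i hi => ?_
    by_cases h3 : D3 a b c
    · rw [pH_X h3] at hi
      by_contra hn
      exact hi (Word_cyc_fix h3 (fun e => hn (e ▸ ha)) (fun e => hn (e ▸ hb))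
        (fun e => hn (e ▸ hc)))
    · rw [X_degen h3, map_one] at hi
      exact absurd rfl hi)
  t_eq ε i k l m h h' hlm := Subtype.ext (by
    rw [Subgroup.coe_mul, Subgroup.coe_mul, Subgroup.coe_mul, Subgroup.coe_inv, Subgroup.coe_inv,
      Word_t_coe (Word_sum_single i k _), Word_t_coe (Word_sum_single i l _),
      Word_Φ_coe Loc.univ, pH_X h']
    exact tr_eq _ h h' hlm)
  gen := by
    refine eq_top_iff.2 (Subgroup.closure_closure_coe_preimage.ge.trans
      (Subgroup.closure_mono ?_))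
    rintro ⟨g, hg⟩ (⟨U, h, hU, e⟩ | ⟨z, hz, e⟩)
    · exact Or.inl ⟨U, h, hU, Subtype.ext (e.trans (Word_Φ_coe hU h).symm)⟩
    · exact Or.inr ⟨z, hz, Subtype.ext (e.trans (Word_t_coe hz).symm)⟩
  π_Φ U h hU := Word_Φ_coe hU h
  π_t z hz := Word_t_coe hz

/-- the concrete calculus -/
theorem exists_conc : ∃ C : Calc AA, C.Cube ∧ C.π = AA.subtype :=
  ⟨Word_conc, fun U hU => Subtype.ext (by
    change (Word_Φ U zz : Perm SS) = 1
    rw [Word_Φ_coe hU, pH_zz, map_one]), rfl⟩

theorem AA_gen : AA = Subgroup.closure {g | ∃ s : Sym, g = s.bar Set.univ} := by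
  apply le_antisymm
  · intro g hg
    obtain ⟨w, hw⟩ := Word_conc.exists_word ⟨g, hg⟩
    have := Word_conc.π_word w
    rw [hw] at this
    change g = _ at this
    rw [this]
    refine Subgroup.list_prod_mem _ fun x hx => ?_
    obtain ⟨s, -, rfl⟩ := List.mem_map.1 hx
    exact Subgroup.subset_closure ⟨s, rfl⟩
  · rw [Subgroup.closure_le]
    rintro _ ⟨s, rfl⟩
    rw [← Word_conc.π_val s]
    exact (Word_conc.val s).2

end Vale.Agent.P196
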