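import Vale.Agent.P196.AltF
import Vale.Agent.P196.Word
import Vale.Agent.P196.CutI

/-! P196: factorisation of permutations supported in a frame. -/

namespace Vale.Agent.P196

open Equiv CutI

namespace CutB

theorem fin_prod {E : Set Pos} (h : E.Finite) : (E ×ˢ (Set.univ : Set I)).Finite :=
  h.prod Set.finite_univ

theorem alt_fix {E : Set Pos} {g : Perm Om} (hg : g ∈ AltOn (E ×ˢ (Set.univ : Set I))) {q : Om}
    (hq : q.1 ∉ E) : g q = q := AltOn_fix hg fun h => hq h.1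

theorem comm_of {g h : Perm Om} (e : ∀ q, g q = q ∨ h q = q) : g * h = h * g :=
  (Perm.Disjoint.commute e).eq

theorem inv_fix {α : Type} {g : Perm α} {q : α} (h : g q = q) : g⁻¹ q = q :=
  Perm.inv_eq_iff_eq.2 h.symm

theorem isSw_swap (c : Pos) : IsSw (swap ((c, 0) : Om) (c, 1)) := by
  intro p
  by_cases h : p = c
  · subst h
    refine Or.inr fun i => ?_
    simp only [swap_apply_def, Prod.mk.injEq, true_and]
    split_ifs <;> rfl
  · refine Or.inl fun i => swap_apply_of_ne_of_ne ?_ ?_ <;> simp [h]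

theorem split_sw {E : Set Pos} (hE : E.Finite) {c : Pos} (hc : c ∈ E) {g : Perm Om}
    (hg : ∀ q : Om, q.1 ∉ E → g q = q) : ∃ α θ : Perm Om, α ∈ AltOn (E ×ˢ (Set.univ : Set I)) ∧
      IsSw θ ∧ (∀ q : Om, q.1 ≠ c → θ q = q) ∧ g = α * θ := by
  rcases AltOn_dichotomy (fin_prod hE) (g := g) (fun x hx => hg x fun h => hx ⟨h, trivial⟩)
    (a := (c, 0)) (b := (c, 1)) ⟨hc, trivial⟩ ⟨hc, trivial⟩ (by simp) with h | h
  · exact ⟨g, 1, h, IsSw.one, fun _ _ => rfl, (mul_one g).symm⟩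
  · refine ⟨_, swap (c, 0) (c, 1), h, isSw_swap c, fun q hq => ?_, by simp [mul_assoc]⟩
    refine swap_apply_of_ne_of_ne ?_ ?_ <;> rintro rfl <;> exact hq rfl

theorem split_sw' {E : Set Pos} (hE : E.Finite) {c : Pos} (hc : c ∈ E) {g : Perm Om}
    (hg : ∀ q : Om, q.1 ∉ E → g q = q) : ∃ α θ : Perm Om, α ∈ AltOn (E ×ˢ (Set.univ : Set I)) ∧
      IsSw θ ∧ (∀ q : Om, q.1 ≠ c → θ q = q) ∧ g = θ * α := by
  obtain ⟨α, θ, h1, h2, h3, h4⟩ := split_sw hE hc (g := g⁻¹) fun q hq => inv_fix (hg q hq)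
  refine ⟨α⁻¹, θ⁻¹, inv_mem h1, h2.inv, fun q hq => inv_fix (h3 q hq), ?_⟩
  rw [← mul_inv_rev, ← h4, inv_inv]

theorem maps_iff {α : Type} {S : Set α} (hS : S.Finite) {f : Perm α} (h : ∀ q ∈ S, f q ∈ S)
    (q : α) : f q ∈ S ↔ q ∈ S := by
  refine ⟨fun hq => ?_, h q⟩
  have := (Set.Finite.injOn_iff_bijOn_of_mapsTo hS h).1 f.injective.injOn
  obtain ⟨x, hx, e⟩ := this.surjOn hq
  rwa [← f.injective e]

theorem decomp {f g h : Perm Om} {S : Set Om} (hS : ∀ q, f q ∈ S ↔ q ∈ S)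
    (h1 : ∀ q ∈ S, g q = f q) (h2 : ∀ q, q ∉ S → g q = q) (h3 : ∀ q ∈ S, h q = q)
    (h4 : ∀ q, q ∉ S → h q = f q) : f = g * h := by
  ext1 q
  by_cases a : q ∈ S
  · rw [Perm.mul_apply, h3 q a, h1 q a]
  · rw [Perm.mul_apply, h4 q a, h2 _ fun b => a ((hS q).1 b)]

/-- splitting along an invariant set -/
theorem exists_split (f : Perm Om) (S : Set Om) (hS : ∀ q, f q ∈ S ↔ q ∈ S) :
    ∃ g h : Perm Om, f = g * h ∧ (∀ q ∈ S, g q = f q) ∧ (∀ q, q ∉ S → g q = q) ∧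
      (∀ q ∈ S, h q = q) ∧ ∀ q, q ∉ S → h q = f q := by
  obtain ⟨g, h1, h2⟩ := exists_restr f S hS
  obtain ⟨h, h3, h4⟩ := exists_restr f Sᶜ fun q => not_congr (hS q)
  exact ⟨g, h, decomp hS h1 h2 (fun q a => h4 q fun b => b a) h3, h1, h2,
    fun q a => h4 q fun b => b a, h3⟩

theorem bx_fin (a b c d : ℤ) : (box a b c d).Finite := by
  have : {u : Pos | ∀ ε, u ε ∈ Set.Icc (min a c) (max b d)}.Finite :=
    Set.Finite.pi' fun _ => Set.finite_Icc _ _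
  refine this.subset fun u hu ε => ?_
  obtain ⟨h1, h2, h3, h4⟩ := hu
  cases ε <;> simp only [Set.mem_Icc] <;> omega

/-- exchange across a level -/
theorem level {xl xr yb yt c M : ℤ} {f : Perm Om} (hf : {q | f q ≠ q}.Finite)
    (hM : ∀ (q : Om) ε, |(f q).1 ε - q.1 ε| ≤ M)
    (hin : ∀ q : Om, xl < q.1 false → q.1 false < xr → yb < q.1 true → q.1 true < yt → f q = q)
    (hx : xl + M < xr) (h1 : yb + M ≤ c) (h2 : c + M < yt)
    (hfl : {q : Om | q.1 false ≤ xl ∧ q.1 true ≤ c ∧ c < (f q).1 true}.ncard =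
        {q : Om | q.1 false ≤ xl ∧ c < q.1 true ∧ (f q).1 true ≤ c}.ncard) :
    ∃ s : Perm Om, (∀ q : Om, f q = q ∨ q.1 true ≤ c - M ∨ c + M < q.1 true → s q = q) ∧
      (∀ q : Om, (s q).1 false ≤ xl ↔ q.1 false ≤ xl) ∧
      ∀ q : Om, (s (f q)).1 true ≤ c ↔ q.1 true ≤ c := by
  have side : ∀ q : Om, ¬ (q.1 true ≤ c ↔ (f q).1 true ≤ c) →
      ((f q).1 false ≤ xl ↔ q.1 false ≤ xl) ∧ f (f q) ≠ f q ∧ c - M < (f q).1 true ∧
        (f q).1 true ≤ c + M := by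
    intro q hq
    have a : f q ≠ q := fun e => hq (by rw [e])
    have a' : f (f q) ≠ f q := fun e => a (f.injective e)
    have b := mt (fun x : _ ∧ _ ∧ _ ∧ _ => hin q x.1 x.2.1 x.2.2.1 x.2.2.2) a
    have b' := mt (fun x : _ ∧ _ ∧ _ ∧ _ => hin (f q) x.1 x.2.1 x.2.2.1 x.2.2.2) a'
    have c1 := abs_le.1 (hM q false)
    have c2 := abs_le.1 (hM q true)
    refine ⟨?_, a', ?_, ?_⟩ <;> omega
  let Up : Prop → Set Om := fun P => {q | (q.1 false ≤ xl ↔ P) ∧ q.1 true ≤ c ∧ c < (f q).1 true}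
  let Dn : Prop → Set Om := fun P => {q | (q.1 false ≤ xl ↔ P) ∧ c < q.1 true ∧ (f q).1 true ≤ c}
  have fU : ∀ P, (Up P).Finite := fun P => hf.subset fun q hq e => by
    have := hq.2; rw [e] at this; omega
  have fD : ∀ P, (Dn P).Finite := fun P => hf.subset fun q hq e => by
    have := hq.2; rw [e] at this; omega
  have e1 : (Up True).ncard = (Dn True).ncard := by simpa [Up, Dn] using hfl
  have e2 : (Up False).ncard = (Dn False).ncard := by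
    have t := ncard_finite hf {q : Om | q.1 true ≤ c}
    have u1 : {x | x ∈ {q : Om | q.1 true ≤ c} ∧ f x ∉ {q : Om | q.1 true ≤ c}} =
        Up True ∪ Up False := by
      ext q; simp only [Up, Set.mem_ofPred_eq, Set.mem_union, iff_true, iff_false]; omega
    have u2 : {x | x ∉ {q : Om | q.1 true ≤ c} ∧ f x ∈ {q : Om | q.1 true ≤ c}} =
        Dn True ∪ Dn False := by
      ext q; simp only [Dn, Set.mem_ofPred_eq, Set.mem_union, iff_true, iff_false]; omega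
    rw [u1, u2, Set.ncard_union_eq _ (fU _) (fU _), Set.ncard_union_eq _ (fD _) (fD _)] at t
    · omega
    · exact Set.disjoint_left.2 fun q a b => b.1.1 (a.1.2 trivial)
    · exact Set.disjoint_left.2 fun q a b => b.1.1 (a.1.2 trivial)
  have ex : ∀ P, (Up P).ncard = (Dn P).ncard → ∃ s : Perm Om,
      (∀ q : Om, f q = q ∨ q.1 true ≤ c - M ∨ c + M < q.1 true ∨ ¬ (q.1 false ≤ xl ↔ P) →
        s q = q) ∧ (∀ q : Om, (s q).1 false ≤ xl ↔ q.1 false ≤ xl) ∧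
      ∀ q : Om, ((f q).1 false ≤ xl ↔ P) → ((s (f q)).1 true ≤ c ↔ q.1 true ≤ c) := by
    intro P hP
    have pU : ∀ x ∈ f '' Up P, (x.1 false ≤ xl ↔ P) ∧ f x ≠ x ∧ c < x.1 true ∧ x.1 true ≤ c + M := by
      rintro _ ⟨q, ⟨a, b⟩, rfl⟩
      obtain ⟨s1, s2, s3, s4⟩ := side q (by omega)
      exact ⟨s1.trans a, s2, b.2, s4⟩
    have pD : ∀ x ∈ f '' Dn P, (x.1 false ≤ xl ↔ P) ∧ f x ≠ x ∧ c - M < x.1 true ∧ x.1 true ≤ c := by
      rintro _ ⟨q, ⟨a, b⟩, rfl⟩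
      obtain ⟨s1, s2, s3, s4⟩ := side q (by omega)
      exact ⟨s1.trans a, s2, s3, b.2⟩
    obtain ⟨s, t1, t2, t3⟩ := exists_exch ((fU P).image f) ((fD P).image f)
      (Set.disjoint_left.2 fun x a b => by have := pU x a; have := pD x b; omega)
      (by rw [Set.ncard_image_of_injective _ f.injective,
        Set.ncard_image_of_injective _ f.injective, hP])
    have M0 : 0 ≤ M := (abs_nonneg _).trans (hM (0, 0) true)
    refine ⟨s, fun q hq => t3 q (fun a => ?_) fun a => ?_, fun q => ?_, fun q hq => ?_⟩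
    · obtain ⟨a1, a2, a3⟩ := pU q a
      rcases hq with h | h | h | h
      exacts [a2 h, by omega, by omega, h a1]
    · obtain ⟨a1, a2, a3⟩ := pD q a
      rcases hq with h | h | h | h
      exacts [a2 h, by omega, by omega, h a1]
    · by_cases a : q ∈ f '' Up P
      · exact (pD _ (t1 q a)).1.trans (pU q a).1.symm
      by_cases b : q ∈ f '' Dn P
      · exact (pU _ (t2 q b)).1.trans (pD q b).1.symm
      · rw [t3 q a b]
    · by_cases a : q ∈ Up P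
      · have := (pD _ (t1 _ ⟨q, a, rfl⟩)).2.2
        have := a.2
        omega
      by_cases b : q ∈ Dn P
      · have := (pU _ (t2 _ ⟨q, b, rfl⟩)).2.2
        have := b.2
        omega
      rw [t3 _ (fun ⟨x, hx, e⟩ => a (f.injective e ▸ hx)) fun ⟨x, hx, e⟩ => b (f.injective e ▸ hx)]
      by_contra hc
      have s1 := (side q fun e => hc e.symm).1
      by_cases d : q.1 true ≤ c
      · exact a ⟨s1.symm.trans hq, d, by omega⟩
      · exact b ⟨s1.symm.trans hq, by omega, by omega⟩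
  obtain ⟨s, a1, a2, a3⟩ := ex True e1
  obtain ⟨s', b1, b2, b3⟩ := ex False e2
  refine ⟨s * s', fun q hq => ?_, fun q => (a2 _).trans (b2 q), fun q => ?_⟩
  · rw [Perm.mul_apply, b1 q (by tauto), a1 q (by tauto)]
  · rw [Perm.mul_apply]
    by_cases d : (f q).1 false ≤ xl
    · rw [b1 (f q) (by tauto)]
      exact a3 q (by tauto)
    · have := (b2 (f q)).not.2 d
      rw [a1 _ (by tauto)]
      exact b3 q (by tauto)

end CutB

open CutB

theorem two_part {E E₁ E₂ : Set Pos} (hE : E.Finite) (h1 : E₁ ⊆ E) (h2 : E₂ ⊆ E)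
    (hd : Disjoint E₁ E₂) {c₁ c₂ : Pos} (hc₁ : c₁ ∈ E₁) (hc₂ : c₂ ∈ E₂) {f : Perm Om}
    (hf : f ∈ AltOn (E ×ˢ (Set.univ : Set I))) (hfix : ∀ q : Om, q.1 ∉ E₁ → q.1 ∉ E₂ → f q = q)
    (hmap : ∀ q : Om, q.1 ∈ E₁ → (f q).1 ∈ E₁) :
    ∃ α₁ α₂ θ θ' : Perm Om, α₁ ∈ AltOn (E₁ ×ˢ (Set.univ : Set I)) ∧
      α₂ ∈ AltOn (E₂ ×ˢ (Set.univ : Set I)) ∧ θ ∈ AltOn (E ×ˢ (Set.univ : Set I)) ∧ IsSw θ ∧
      (∀ q : Om, q.1 ≠ c₁ → q.1 ≠ c₂ → θ q = q) ∧ f = α₁ * α₂ * θ ∧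
      θ' ∈ AltOn (E ×ˢ (Set.univ : Set I)) ∧ IsSw θ' ∧
      ∃ β₁ ∈ AltOn (E₁ ×ˢ (Set.univ : Set I)), ∃ β₂ ∈ AltOn (E₂ ×ˢ (Set.univ : Set I)),
        f = θ' * β₁ * β₂ := by
  have d1 : ∀ u ∈ E₁, u ∉ E₂ := fun u a => Set.disjoint_left.1 hd a
  have hS := maps_iff (fin_prod (hE.subset h1)) (f := f) fun q hq => ⟨hmap q hq.1, trivial⟩
  obtain ⟨g₁, g₂, e, -, a2, a3, a4⟩ := exists_split f _ hS
  have b1 : ∀ q : Om, q.1 ∉ E₁ → g₁ q = q := fun q hq => a2 q fun h => hq h.1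
  have b2 : ∀ q : Om, q.1 ∉ E₂ → g₂ q = q := fun q hq => by
    by_cases h : q.1 ∈ E₁
    · exact a3 q ⟨h, trivial⟩
    · rw [a4 q fun x => h x.1, hfix q h hq]
  have m1 : AltOn (E₁ ×ˢ (Set.univ : Set I)) ≤ AltOn (E ×ˢ Set.univ) :=
    AltOn_mono (Set.prod_mono_left h1)
  have m2 : AltOn (E₂ ×ˢ (Set.univ : Set I)) ≤ AltOn (E ×ˢ Set.univ) :=
    AltOn_mono (Set.prod_mono_left h2)
  obtain ⟨α₁, θ₁, p1, p2, p3, p4⟩ := split_sw (hE.subset h1) hc₁ b1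
  obtain ⟨α₂, θ₂, q1, q2, q3, q4⟩ := split_sw (hE.subset h2) hc₂ b2
  obtain ⟨β₁, η₁, r1, r2, r3, r4⟩ := split_sw' (hE.subset h1) hc₁ b1
  obtain ⟨β₂, η₂, s1, s2, s3, s4⟩ := split_sw' (hE.subset h2) hc₂ b2
  have c1 : θ₁ * α₂ = α₂ * θ₁ := comm_of fun q => by
    by_cases h : q.1 = c₁
    · exact Or.inr (alt_fix q1 (d1 _ (h ▸ hc₁)))
    · exact Or.inl (p3 q h)
  have c2 : β₁ * η₂ = η₂ * β₁ := comm_of fun q => by
    by_cases h : q.1 = c₂
    · exact Or.inl (alt_fix r1 fun x => d1 _ x (h ▸ hc₂))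
    · exact Or.inr (s3 q h)
  have e1 : f = α₁ * α₂ * (θ₁ * θ₂) := by
    rw [e, p4, q4, mul_assoc, ← mul_assoc θ₁, c1]; simp only [mul_assoc]
  have e2 : f = η₁ * η₂ * β₁ * β₂ := by
    rw [e, r4, s4, mul_assoc, ← mul_assoc β₁, c2]; simp only [mul_assoc]
  refine ⟨α₁, α₂, θ₁ * θ₂, η₁ * η₂, p1, q1, ?_, p2.mul q2, fun q a b => ?_, e1, ?_, r2.mul s2,
    β₁, r1, β₂, s1, e2⟩
  · exact (mul_mem_cancel_left (mul_mem (m1 p1) (m2 q1))).1 (e1 ▸ hf)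
  · rw [Perm.mul_apply, q3 q b, p3 q a]
  · exact (mul_mem_cancel_right (m1 r1)).1 ((mul_mem_cancel_right (m2 s1)).1 (e2 ▸ hf))

theorem frame_factor {x₀ xl xr x₁ y₀ yb yt y₁ c₁ c₂ M : ℤ} {f : Perm Om}
    (hf : f ∈ AltOn (box x₀ x₁ y₀ y₁ ×ˢ (Set.univ : Set I)))
    (hM : ∀ (q : Om) ε, |(f q).1 ε - q.1 ε| ≤ M)
    (hin : ∀ q : Om, xl < q.1 false → q.1 false < xr → yb < q.1 true → q.1 true < yt → f q = q)
    (hx₀ : x₀ ≤ xl) (hx : xl + M < xr) (hx₁ : xr ≤ x₁) (hy₀ : y₀ ≤ yb) (hc₁ : yb + M ≤ c₁)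
    (hc : c₁ + M ≤ c₂ - M) (hc₂ : c₂ + M < yt) (hy₁ : yt ≤ y₁)
    (hfl : ∀ y, y = c₁ ∨ y = c₂ →
      {q : Om | q.1 false ≤ xl ∧ q.1 true ≤ y ∧ y < (f q).1 true}.ncard =
        {q : Om | q.1 false ≤ xl ∧ y < q.1 true ∧ (f q).1 true ≤ y}.ncard) :
    ∃ b₁ b₂ θ l₁ l₂ : Perm Om, f = b₁ * b₂ * θ * l₁ * l₂ ∧
      b₁ ∈ AltOn (box x₀ x₁ y₀ (c₁ + M) ×ˢ (Set.univ : Set I)) ∧
      b₂ ∈ AltOn (box x₀ x₁ (c₂ - M) y₁ ×ˢ (Set.univ : Set I)) ∧
      l₁ ∈ AltOn (box x₀ xl y₀ y₁ ×ˢ (Set.univ : Set I)) ∧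
      l₂ ∈ AltOn (box xr x₁ y₀ y₁ ×ˢ (Set.univ : Set I)) ∧
      θ ∈ AltOn (box x₀ x₁ y₀ y₁ ×ˢ (Set.univ : Set I)) ∧ IsSw θ ∧
      ∀ q : Om, ¬ ((q.1 false = x₀ ∨ q.1 false = x₁) ∧ (q.1 true = y₀ ∨ q.1 true = y₁)) →
        θ q = q := by
  have M0 : 0 ≤ M := (abs_nonneg _).trans (hM (0, 0) true)
  have out : ∀ q : Om, ¬ (x₀ ≤ q.1 false ∧ q.1 false ≤ x₁ ∧ y₀ ≤ q.1 true ∧ q.1 true ≤ y₁) →
      f q = q := fun q hq => alt_fix hf hq
  have fin : {q | f q ≠ q}.Finite :=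
    (fin_prod (bx_fin x₀ x₁ y₀ y₁)).subset fun q hq => ⟨by_contra fun h => hq (out q h), trivial⟩
  obtain ⟨s₁, a1, a2, a3⟩ := level fin hM hin hx hc₁ (by omega) (hfl c₁ (Or.inl rfl))
  obtain ⟨s₂, b1, b2, b3⟩ := level fin hM hin hx (by omega) hc₂ (hfl c₂ (Or.inr rfl))
  have cs : s₁ * s₂ = s₂ * s₁ := comm_of fun q => by
    by_cases h : c₁ + M < q.1 true
    · exact Or.inl (a1 q (Or.inr (Or.inr h)))
    · exact Or.inr (b1 q (Or.inr (Or.inl (by omega))))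
  have mv1 : ∀ q, s₁ q = q ∨ ((s₁ q).1 true ≤ c₁ + M ∧ q.1 true ≤ c₁ + M) := fun q => by
    by_contra hh
    push Not at hh
    have := mt (a1 q) hh.1
    have := mt (a1 (s₁ q)) fun e => hh.1 (s₁.injective e)
    omega
  have mv2 : ∀ q, s₂ q = q ∨ (c₂ - M < (s₂ q).1 true ∧ c₂ - M < q.1 true) := fun q => by
    by_contra hh
    push Not at hh
    have := mt (b1 q) hh.1
    have := mt (b1 (s₂ q)) fun e => hh.1 (s₂.injective e)
    omega
  set h := s₁ * s₂ * f with hh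
  have k1 : ∀ q : Om, (h q).1 true ≤ c₁ ↔ q.1 true ≤ c₁ := fun q => by
    rw [hh, cs, ← a3 q, Perm.mul_apply, Perm.mul_apply]
    rcases mv2 (s₁ (f q)) with e | e
    · rw [e]
    · omega
  have k2 : ∀ q : Om, (h q).1 true ≤ c₂ ↔ q.1 true ≤ c₂ := fun q => by
    rw [hh, ← b3 q, Perm.mul_apply, Perm.mul_apply]
    rcases mv1 (s₂ (f q)) with e | e
    · rw [e]
    · omega
  have k3 : ∀ q : Om, c₁ < q.1 true → q.1 true ≤ c₂ → ((h q).1 false ≤ xl ↔ q.1 false ≤ xl) := by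
    intro q u1 u2
    rw [hh, Perm.mul_apply, Perm.mul_apply, a2, b2]
    by_cases a : f q = q
    · rw [a]
    have a' : f (f q) ≠ f q := fun e => a (f.injective e)
    have b := mt (fun x : _ ∧ _ ∧ _ ∧ _ => hin q x.1 x.2.1 x.2.2.1 x.2.2.2) a
    have b' := mt (fun x : _ ∧ _ ∧ _ ∧ _ => hin (f q) x.1 x.2.1 x.2.2.1 x.2.2.2) a'
    have c1 := abs_le.1 (hM q false)
    have c2 := abs_le.1 (hM q true)
    omega
  have k4 : ∀ q, f q = q → h q = q := fun q e => by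
    rw [hh, Perm.mul_apply, Perm.mul_apply, e, b1 q (Or.inl e), a1 q (Or.inl e)]
  obtain ⟨gb, h₁, e1, p1, p2, p3, p4⟩ := exists_split h {q | q.1 true ≤ c₁} k1
  obtain ⟨gt, h₂, e2, q1, q2, q3, q4⟩ := exists_split h₁ {q | c₂ < q.1 true} fun q => by
    simp only [Set.mem_ofPred_eq]
    by_cases a : q.1 true ≤ c₁
    · rw [p3 q a]
    · rw [p4 q a]; have := k2 q; omega
  have r0 : ∀ q : Om, h₂ q = q ∨ (c₁ < q.1 true ∧ q.1 true ≤ c₂ ∧ h₂ q = h q) := fun q => by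
    by_cases b : c₂ < q.1 true
    · exact Or.inl (q3 q b)
    by_cases a : q.1 true ≤ c₁
    · exact Or.inl ((q4 q b).trans (p3 q a))
    · exact Or.inr ⟨not_le.1 a, not_lt.1 b, (q4 q b).trans (p4 q a)⟩
  obtain ⟨gl, gr, e3, r1, r2, r3, r4⟩ := exists_split h₂ {q | q.1 false ≤ xl} fun q => by
    simp only [Set.mem_ofPred_eq]
    rcases r0 q with e | ⟨u1, u2, e⟩
    · rw [e]
    · rw [e]; exact k3 q u1 u2
  simp only [Set.mem_ofPred_eq] at p1 p2 p3 p4 q1 q2 q3 q4 r1 r2 r3 r4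
  obtain ⟨b₁, θ₁, t1, t2, t3, t4⟩ := split_sw (bx_fin x₀ x₁ y₀ (c₁ + M)) (c := pt false x₀ y₀)
    (by simp only [box, pt, Set.mem_ofPred_eq]; simp; omega) (g := s₁⁻¹ * gb) fun q hq => by
      simp only [box, Set.mem_ofPred_eq] at hq
      by_cases a : q.1 true ≤ c₁ + M
      · have := out q (by omega)
        by_cases b : q.1 true ≤ c₁
        · rw [Perm.mul_apply, p1 q b, k4 q this, inv_fix (a1 q (Or.inl this))]
        · rw [Perm.mul_apply, p2 q b, inv_fix (a1 q (Or.inl this))]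
      · rw [Perm.mul_apply, p2 q (by omega), inv_fix (a1 q (Or.inr (Or.inr (by omega))))]
  obtain ⟨b₂, θ₂, u1, u2, u3, u4⟩ := split_sw (bx_fin x₀ x₁ (c₂ - M + 1) y₁) (c := pt false x₀ y₁)
    (by simp only [box, pt, Set.mem_ofPred_eq]; simp; omega) (g := s₂⁻¹ * gt) fun q hq => by
      simp only [box, Set.mem_ofPred_eq] at hq
      by_cases a : c₂ - M < q.1 true
      · have := out q (by omega)
        by_cases b : c₂ < q.1 true
        · rw [Perm.mul_apply, q1 q b, p4 q (by omega), k4 q this, inv_fix (b1 q (Or.inl this))]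
        · rw [Perm.mul_apply, q2 q b, inv_fix (b1 q (Or.inl this))]
      · rw [Perm.mul_apply, q2 q (by omega), inv_fix (b1 q (Or.inr (Or.inl (by omega))))]
  obtain ⟨l₁, θ₃, v1, v2, v3, v4⟩ := split_sw' (bx_fin x₀ xl y₀ y₁) (c := pt false x₀ y₀)
    (by simp only [box, pt, Set.mem_ofPred_eq]; simp; omega) (g := gl) fun q hq => by
      simp only [box, Set.mem_ofPred_eq] at hq
      by_cases a : q.1 false ≤ xl
      · rw [r1 q a]
        exact (r0 q).elim id fun x => x.2.2.trans (k4 q (out q (by omega)))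
      · exact r2 q a
  obtain ⟨l₂, θ₄, w1, w2, w3, w4⟩ := split_sw' (bx_fin xr x₁ y₀ y₁) (c := pt false x₁ y₀)
    (by simp only [box, pt, Set.mem_ofPred_eq]; simp; omega) (g := gr) fun q hq => by
      simp only [box, Set.mem_ofPred_eq] at hq
      by_cases a : q.1 false ≤ xl
      · exact r3 q a
      · rw [r4 q a]
        refine (r0 q).elim id fun x => x.2.2.trans (k4 q ?_)
        by_cases b : q.1 false < xr
        · exact hin q (by omega) b (by omega) (by omega)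
        · exact out q (by omega)
  have c1 : s₂⁻¹ * gb = gb * s₂⁻¹ := comm_of fun q => by
    by_cases a : q.1 true ≤ c₁
    · exact Or.inl (inv_fix (b1 q (Or.inr (Or.inl (by omega)))))
    · exact Or.inr (p2 q a)
  have c2 : θ₁ * b₂ = b₂ * θ₁ := comm_of fun q => by
    by_cases a : q.1 = pt false x₀ y₀
    · refine Or.inr (alt_fix u1 ?_)
      simp only [a, box, pt, Set.mem_ofPred_eq]; simp; omega
    · exact Or.inl (t3 q a)
  have c3 : l₁ * θ₄ = θ₄ * l₁ := comm_of fun q => by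
    by_cases a : q.1 = pt false x₁ y₀
    · refine Or.inl (alt_fix v1 ?_)
      simp only [a, box, pt, Set.mem_ofPred_eq]; simp; omega
    · exact Or.inr (w3 q a)
  have e : f = b₁ * b₂ * (θ₁ * θ₂ * θ₃ * θ₄) * l₁ * l₂ := by
    have : f = s₁⁻¹ * s₂⁻¹ * h := by rw [hh, cs]; group
    rw [this, e1, e2, e3, v4, w4]
    calc _ = s₁⁻¹ * (s₂⁻¹ * gb) * gt * θ₃ * (l₁ * θ₄) * l₂ := by simp only [mul_assoc]
      _ = (s₁⁻¹ * gb) * (s₂⁻¹ * gt) * θ₃ * θ₄ * l₁ * l₂ := by rw [c1, c3]; simp only [mul_assoc]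
      _ = b₁ * (θ₁ * b₂) * θ₂ * θ₃ * θ₄ * l₁ * l₂ := by rw [t4, u4]; simp only [mul_assoc]
      _ = _ := by rw [c2]; simp only [mul_assoc]
  have mono : ∀ {a b c d a' b' c' d' : ℤ}, a' ≤ a → b ≤ b' → c' ≤ c → d ≤ d' →
      AltOn (box a b c d ×ˢ (Set.univ : Set I)) ≤ AltOn (box a' b' c' d' ×ˢ Set.univ) :=
    fun i1 i2 i3 i4 => AltOn_mono (Set.prod_mono_left fun u hu =>
      ⟨i1.trans hu.1, hu.2.1.trans i2, i3.trans hu.2.2.1, hu.2.2.2.trans i4⟩)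
  refine ⟨b₁, b₂, _, l₁, l₂, e, t1, mono le_rfl le_rfl (by omega) le_rfl u1, v1, w1, ?_,
    ((t2.mul u2).mul v2).mul w2, fun q hq => ?_⟩
  · exact (mul_mem_cancel_left (mul_mem (mono le_rfl le_rfl le_rfl (by omega) t1)
      (mono le_rfl le_rfl (by omega) le_rfl u1))).1
      ((mul_mem_cancel_right (mono le_rfl (by omega) le_rfl le_rfl v1)).1
        ((mul_mem_cancel_right (mono (by omega) le_rfl le_rfl le_rfl w1)).1 (e ▸ hf)))
  · rw [Perm.mul_apply, Perm.mul_apply, Perm.mul_apply, w3 q, v3 q, u3 q, t3 q] <;>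
      intro a <;> simp [a, pt] at hq

end Vale.Agent.P196
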