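import Vale.Agent.P196.BlockB

/-! P196: the trapezoid decomposition of a word. -/

namespace Vale.Agent.P196

open Equiv

namespace CutT

/-- distance to the multiples of `A` -/
def dl (A x : ℤ) : ℤ := min (x % A) (A - x % A)

theorem dl_le {A c : ℤ} (hA : 0 < A) (hc : A ∣ c) (x : ℤ) : dl A x ≤ |x - c| := by
  have h0 := Int.emod_nonneg x hA.ne'
  have h1 := Int.emod_lt_of_pos x hA
  have d : A ∣ x - x % A - c := dvd_sub (Int.dvd_self_sub_emod) hc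
  rw [dl]
  rcases le_or_gt 0 (x - x % A - c) with h | h
  · have := le_abs_self (x - c)
    omega
  · have := Int.le_of_dvd (by omega) ((dvd_neg).2 d)
    have := neg_abs_le (x - c)
    omega

theorem dl_hi {A t x : ℤ} (h : t ≤ dl A x) : ∃ c, A ∣ c ∧ t ≤ x - c ∧ x - c ≤ A - t :=
  ⟨x - x % A, Int.dvd_self_sub_emod, by rw [dl] at h; omega, by rw [dl] at h; omega⟩

theorem dl_lo {A t x : ℤ} (hA : 0 < A) (h : dl A x ≤ t) : ∃ c, A ∣ c ∧ -t ≤ x - c ∧ x - c ≤ t := by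
  have h0 := Int.emod_nonneg x hA.ne'
  have h1 := Int.emod_lt_of_pos x hA
  rw [dl] at h
  rcases le_total (x % A) (A - x % A) with a | a
  · exact ⟨x - x % A, Int.dvd_self_sub_emod, by omega, by omega⟩
  · exact ⟨x - x % A + A, dvd_add Int.dvd_self_sub_emod dvd_rfl, by omega, by omega⟩

theorem dl_in {A c u t : ℤ} (hc : A ∣ c) (ht : 0 < t) (h1 : t ≤ u) (h2 : u ≤ A - t) :
    t ≤ dl A (c + u) := by
  have : (c + u) % A = u := by
    obtain ⟨j, rfl⟩ := hc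
    rw [add_comm, Int.add_mul_emod_self_left, Int.emod_eq_of_lt (by omega) (by omega)]
  rw [dl, this]
  omega

theorem dl_lip {A : ℤ} (hA : 0 < A) (x d : ℤ) : |dl A (x + d) - dl A x| ≤ |d| := by
  obtain ⟨c, hc, h1⟩ := dl_lo hA (le_refl (dl A x))
  obtain ⟨c', hc', h2⟩ := dl_lo hA (le_refl (dl A (x + d)))
  have a := dl_le hA hc (x + d)
  have b := dl_le hA hc' x
  have := le_abs_self d
  have := neg_abs_le d
  rw [le_abs] at a b
  rw [abs_le]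
  omega

theorem rad_of {s : Sym} {r : ℕ} (hr : s.Rad r) {i : I} (hi : i = s.a ∨ i = s.b ∨ i = s.c)
    (ε : Bool) : |s.z i ε| ≤ r := by
  rcases hi with rfl | rfl | rfl
  exacts [(hr ε).1, (hr ε).2.1, (hr ε).2.2]

variable {G : Type} [Group G] (C : Calc G)

/-- value of a truncated symbol -/
def vD (s : Sym × Set S0) : G := C.msec (s.1.U ∩ s.2) s.1.z (X s.1.a s.1.b s.1.c)

theorem pi_prod {W : List (Sym × Set S0)} (h : ∀ s ∈ W, Loc s.2) :
    C.π (W.map (vD C)).prod = tprod W := by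
  rw [map_list_prod, List.map_map, tprod]
  congr 1
  refine List.map_congr_left fun s hs => ?_
  simp only [Function.comp, vD]
  rw [C.π_msec (s.1.loc.inter (h s hs)) s.1.sum, pH_X s.1.d3, Sym.bar]

theorem cut_split (hC : C.Cube) {δ : S0 → ℤ} (hδ : Meas δ) {r : ℕ}
    (lip : ∀ (p : S0) (d : Pos), (∀ ε, |d ε| ≤ r) → |δ (mv p d) - δ p| ≤ r) (W : List (Sym × Set S0))
    (hW : ∀ s ∈ W, Loc s.2 ∧ s.1.Rad r) (τ : ℤ) :
    ∃ Wh Wl : List (Sym × Set S0), Wh.map Prod.fst = W.map Prod.fst ∧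
      Wl.map Prod.fst = W.map Prod.fst ∧
      (W.map (vD C)).prod = (Wh.map (vD C)).prod * (Wl.map (vD C)).prod ∧
      (∀ s' ∈ Wh, (Loc s'.2 ∧ s'.1.Rad r) ∧ ∃ s ∈ W, ∃ τ', τ ≤ τ' ∧
        τ' + (2 * r + 1) ≤ τ + (2 * r + 1) * W.length ∧ s'.2 = s.2 ∩ {p | τ' ≤ δ p}) ∧
      ∀ s' ∈ Wl, (Loc s'.2 ∧ s'.1.Rad r) ∧ ∃ s ∈ W, ∃ τ', τ ≤ τ' ∧
        τ' + (2 * r + 1) ≤ τ + (2 * r + 1) * W.length ∧ s'.2 = s.2 ∩ {p | δ p < τ'} := by
  induction W generalizing τ with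
  | nil => exact ⟨[], [], rfl, rfl, by simp, by simp, by simp⟩
  | cons s W ih =>
    obtain ⟨Wh, Wl, e1, e2, e3, h1, h2⟩ :=
      ih (fun t ht => hW t (List.mem_cons_of_mem _ ht)) (τ + (2 * r + 1))
    obtain ⟨sl, sr⟩ := hW s List.mem_cons_self
    have lh : Loc (s.2 ∩ {p | τ ≤ δ p}) := sl.inter (hδ.loc (τ ≤ ·))
    have ll : Loc (s.2 ∩ {p | δ p < τ}) := sl.inter (hδ.loc (· < τ))
    have len : (2 * (r : ℤ) + 1) * ((s :: W).length : ℤ) = (2 * r + 1) * W.length + (2 * r + 1) := by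
      rw [List.length_cons]; push_cast; ring
    have nn : 0 ≤ (2 * (r : ℤ) + 1) * (W.length : ℤ) := by positivity
    refine ⟨(s.1, s.2 ∩ {p | τ ≤ δ p}) :: Wh, (s.1, s.2 ∩ {p | δ p < τ}) :: Wl, by simp [e1],
      by simp [e2], ?_, fun t ht => ?_, fun t ht => ?_⟩
    · have a : vD C s = vD C (s.1, s.2 ∩ {p | τ ≤ δ p}) * vD C (s.1, s.2 ∩ {p | δ p < τ}) := by
        simp only [vD]
        rw [← C.msec_union (s.1.loc.inter lh) (s.1.loc.inter ll)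
          (Set.disjoint_left.2 fun p a b =>
            (not_le.2 (show δ p < τ from b.2.2)) (show τ ≤ δ p from a.2.2))]
        congr 1
        ext p
        simp only [Set.mem_inter_iff, Set.mem_union, Set.mem_ofPred_eq]
        have := le_or_gt τ (δ p)
        tauto
      have b : Commute (vD C (s.1, s.2 ∩ {p | δ p < τ})) (Wh.map (vD C)).prod := by
        refine Commute.list_prod_right _ _ fun g hg => ?_
        obtain ⟨t, ht, rfl⟩ := List.mem_map.1 hg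
        obtain ⟨⟨tl, tr⟩, t', -, τ', c1, -, c3⟩ := h1 t ht
        refine C.val_comm hC ⟨_, s.1.z, s.1.a, s.1.b, s.1.c, s.1.loc.inter ll, s.1.sum, s.1.d3⟩
          ⟨_, t.1.z, t.1.a, t.1.b, t.1.c, t.1.loc.inter tl, t.1.sum, t.1.d3⟩
          fun p hp p' hp' i i' hi hi' e => ?_
        have d1 := abs_le.1 (lip p _ (rad_of sr hi))
        have d2 := abs_le.1 (lip p' _ (rad_of tr hi'))
        have d3 : δ p < τ := hp.2.2
        have d4 : τ' ≤ δ p' := (c3 ▸ hp'.2 : p' ∈ t'.2 ∩ _).2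
        simp only at e
        rw [e] at d1
        omega
      simp only [List.map_cons, List.prod_cons]
      rw [e3, a, mul_assoc, ← mul_assoc (vD C (s.1, s.2 ∩ {p | δ p < τ})), b.eq]
      simp only [mul_assoc]
    · rcases List.mem_cons.1 ht with rfl | ht
      · exact ⟨⟨lh, sr⟩, s, List.mem_cons_self, τ, le_rfl, by omega, rfl⟩
      · obtain ⟨c0, t', c, τ', c1, c2, c3⟩ := h1 t ht
        exact ⟨c0, t', List.mem_cons_of_mem _ c, τ', by omega, by omega, c3⟩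
    · rcases List.mem_cons.1 ht with rfl | ht
      · exact ⟨⟨ll, sr⟩, s, List.mem_cons_self, τ, le_rfl, by omega, rfl⟩
      · obtain ⟨c0, t', c, τ', c1, c2, c3⟩ := h2 t ht
        exact ⟨c0, t', List.mem_cons_of_mem _ c, τ', by omega, by omega, c3⟩

theorem mem_KK {O : Set S0} (hO : Loc O) {Q Q₀ : Set Pos} (h0 : Q₀.Finite) {z : I → Pos}
    (hz : ∑ i, z i = 0) {a b c : I} (h3 : D3 a b c)
    (hQ : ∀ u ∈ Q₀, z a + u ∈ Q ∧ z b + u ∈ Q ∧ z c + u ∈ Q) {U : Set S0} (hU : Loc U)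
    (h : ∀ p ∈ U, ∃ u ∈ Q₀, p ∈ sh u O) : C.msec U z (X a b c) ∈ C.KK O Q := by
  induction Q₀, h0 using Set.Finite.induction_on generalizing U with
  | empty =>
    have : U = ∅ := Set.eq_empty_of_forall_notMem fun p hp => by simpa using h p hp
    rw [this, Calc.msec, C.Φ_empty, mul_one, mul_inv_cancel]
    exact one_mem _
  | @insert u Q₀ _ _ ih =>
    have l1 : Loc (U ∩ sh u O) := hU.inter (hO.sh u)
    have l2 : Loc (U \ sh u O) := hU.diff (hO.sh u)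
    rw [← Set.inter_union_sdiff U (sh u O), C.msec_union l1 l2
      (Set.disjoint_left.2 fun p a b => b.2 a.2)]
    refine mul_mem ?_ (ih (fun v hv => hQ v (Set.mem_insert_of_mem _ hv)) l2 fun p hp => ?_)
    · obtain ⟨z', hz', e⟩ := exists_sum_zero {a, b, c}
        (Finset.card_le_three.trans (by norm_num)) fun i => z i + u
      have ea := e a (by simp)
      have eb := e b (by simp)
      have ec := e c (by simp)
      have := C.msec_congr (l1.sh (-u)) hz' hz ea eb ec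
      rw [sh_sh, add_neg_cancel, sh_zero] at this
      obtain ⟨q1, q2, q3⟩ := hQ u (Set.mem_insert _ _)
      refine Subgroup.subset_closure ⟨_, z', a, b, c, l1.sh (-u), fun p hp => ?_, hz', h3,
        ea ▸ q1, eb ▸ q2, ec ▸ q3, this.symm⟩
      simpa [mem_sh] using hp.2
    · obtain ⟨v, hv, e⟩ := h p hp.1
      rcases hv with rfl | hv
      · exact absurd e hp.2
      · exact ⟨v, hv, e⟩

theorem prod_mem {ρ r : ℕ} (hρ : par ρ = false) {a b c d : ℤ} {W : List (Sym × Set S0)}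
    (hW : ∀ s ∈ W, (Loc s.2 ∧ s.1.Rad r) ∧ ∀ p ∈ s.2,
      (∃ x, (sg ρ : ℤ) ∣ x ∧ a + r ≤ p.2 false - x ∧ p.2 false - x ≤ b - r) ∧
      ∃ y, (sg (ρ + 1) : ℤ) ∣ y ∧ c + r ≤ p.2 true - y ∧ p.2 true - y ≤ d - r) :
    (W.map (vD C)).prod ∈ C.KK (Vtx ρ) (box a b c d) := by
  refine Subgroup.list_prod_mem _ fun g hg => ?_
  obtain ⟨s, hs, rfl⟩ := List.mem_map.1 hg
  obtain ⟨⟨sl, sr⟩, h⟩ := hW s hs
  have k : ∀ i, i = s.1.a ∨ i = s.1.b ∨ i = s.1.c → ∀ u ∈ box (a + r) (b - r) (c + r) (d - r),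
      s.1.z i + u ∈ box a b c d := fun i hi u hu => by
    have d1 := abs_le.1 (rad_of sr hi false)
    have d2 := abs_le.1 (rad_of sr hi true)
    simp only [box, Set.mem_ofPred_eq, Pi.add_apply] at hu ⊢
    omega
  refine mem_KK C (loc_vtx ρ) (box_finite (a + r) (b - r) (c + r) (d - r)) s.1.sum s.1.d3
    (fun u hu => ⟨k _ (by simp) u hu, k _ (by simp) u hu, k _ (by simp) u hu⟩)
    (s.1.loc.inter sl) fun p hp => ?_
  obtain ⟨⟨x, x1, x2⟩, y, y1, y2⟩ := h p hp.2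
  refine ⟨pt false (p.2 false - x) (p.2 true - y), ⟨x2.1, x2.2, y2.1, y2.2⟩, ?_⟩
  simp [mem_sh, Vtx, hρ, pt, x1, y1]

end CutT

namespace Calc

open CutT

variable {G : Type} [Group G] (C : Calc G)

theorem trap (hC : C.Cube) (w : List Sym) {r R m ρ : ℕ} {A B n : ℤ} (hr : ∀ s ∈ w, s.Rad r)
    (hρ : par ρ = false) (hA : A = sg ρ) (hB : B = sg (ρ + 1)) (hn : n = m + r) (hR : r ≤ R)
    (hm : R + 1 + (2 * r + 1) * w.length ≤ m) (hA' : 2 * n < A) (hB' : 2 * n < B) :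
    ∃ (k₀₁ k₀₀ k₁₀ k₁₁ : G) (D : List (Sym × Set S0)),
      (w.map C.val).prod = k₀₁ * k₀₀ * k₁₀ * k₁₁ ∧
      k₀₁ ∈ C.KK (Vtx ρ) (box 1 (A - 1) (-n) n) ∧ k₀₀ ∈ C.KK (Vtx ρ) (box 1 (A - 1) 1 (B - 1)) ∧
      k₁₀ ∈ C.KK (Vtx ρ) (box (-n) n 1 (B - 1)) ∧ k₁₁ ∈ C.KK (Vtx ρ) (box (-n) n (-n) n) ∧
      D.map Prod.fst = w ∧ C.π k₀₀ = tprod D ∧
      (∀ s ∈ D, ∀ o ∈ Vtx ρ, ∀ u : Pos, |u false| ≤ R → mv o u ∉ s.2) ∧
      ∀ s ∈ D, ∀ o ∈ Vtx ρ, ∀ u : Pos, (m : ℤ) ≤ u false → u false ≤ A - m → (m : ℤ) ≤ u true →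
        u true ≤ B - m → mv o u ∈ s.2 := by
  have hm' : (R : ℤ) + 1 + (2 * r + 1) * w.length ≤ m := by exact_mod_cast hm
  have hR' : (r : ℤ) ≤ R := by exact_mod_cast hR
  have nn : 0 ≤ (2 * (r : ℤ) + 1) * (w.length : ℤ) := by positivity
  have A0 : 0 < A := by omega
  have B0 : 0 < B := by omega
  have mx : Meas fun p : S0 => dl A (p.2 false) := by
    have := (meas_phase ρ).comp fun t => min t (A - t)
    rwa [hρ, ← hA] at this
  have my : Meas fun p : S0 => dl B (p.2 true) := by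
    have := (meas_phase (ρ + 1)).comp fun t => min t (B - t)
    rwa [par_succ, hρ, ← hB] at this
  have lx : ∀ (p : S0) (d : Pos), (∀ ε, |d ε| ≤ r) →
      |dl A ((mv p d).2 false) - dl A (p.2 false)| ≤ r := fun p d h => (dl_lip A0 _ _).trans (h _)
  have ly : ∀ (p : S0) (d : Pos), (∀ ε, |d ε| ≤ r) →
      |dl B ((mv p d).2 true) - dl B (p.2 true)| ≤ r := fun p d h => (dl_lip B0 _ _).trans (h _)
  obtain ⟨W0, W1, a1, a2, a3, a4, a5⟩ := cut_split C hC mx lx (w.map fun s => (s, Set.univ))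
    (fun s hs => by
      obtain ⟨t, ht, rfl⟩ := List.mem_map.1 hs
      exact ⟨Loc.univ, hr t ht⟩) (R + 1)
  have e0 : (w.map fun s => (s, (Set.univ : Set S0))).map Prod.fst = w := by
    simp [List.map_map, Function.comp_def]
  rw [e0] at a1 a2
  rw [List.length_map] at a4 a5
  have l0 : W0.length = w.length := by rw [← a1, List.length_map]
  have l1 : W1.length = w.length := by rw [← a2, List.length_map]
  obtain ⟨W01, W00, b1, b2, b3, b4, b5⟩ := cut_split C hC (my.comp Neg.neg)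
    (fun p d h => by rw [neg_sub_neg, abs_sub_comm]; exact ly p d h) W0 (fun s hs => (a4 s hs).1)
    (-R - (2 * r + 1) * w.length)
  obtain ⟨W10, W11, c1, c2, c3, c4, c5⟩ := cut_split C hC my ly W1 (fun s hs => (a5 s hs).1) (R + 1)
  rw [l0] at b4 b5
  rw [l1] at c4 c5
  have f0 : ∀ s ∈ W0, ∃ τ : ℤ, R + 1 ≤ τ ∧ τ ≤ m ∧ ∀ p, p ∈ s.2 ↔ τ ≤ dl A (p.2 false) := by
    intro s hs
    obtain ⟨-, t, ht, τ, i1, i2, i3⟩ := a4 s hs
    obtain ⟨t, -, rfl⟩ := List.mem_map.1 ht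
    exact ⟨τ, i1, by omega, fun p => by simp [i3]⟩
  have f1 : ∀ s ∈ W1, ∀ p ∈ s.2, dl A (p.2 false) ≤ m := by
    intro s hs p hp
    obtain ⟨-, t, ht, τ, i1, i2, i3⟩ := a5 s hs
    have : dl A (p.2 false) < τ := (i3 ▸ hp : p ∈ t.2 ∩ _).2
    omega
  have hi : ∀ {Z x : ℤ}, R + 1 ≤ dl Z x → ∃ c, Z ∣ c ∧ 1 + r ≤ x - c ∧ x - c ≤ Z - 1 - r := fun h =>
    let ⟨c, i1, i2, i3⟩ := dl_hi h; ⟨c, i1, by omega, by omega⟩
  have lo : ∀ {Z x : ℤ}, 0 < Z → dl Z x ≤ m → ∃ c, Z ∣ c ∧ -n + r ≤ x - c ∧ x - c ≤ n - r :=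
    fun h0 h => let ⟨c, i1, i2, i3⟩ := dl_lo h0 h; ⟨c, i1, by omega, by omega⟩
  refine ⟨(W01.map (vD C)).prod, (W00.map (vD C)).prod, (W10.map (vD C)).prod,
    (W11.map (vD C)).prod, W00, ?_, prod_mem C hρ fun s hs => ⟨(b4 s hs).1, fun p hp => ?_⟩,
    prod_mem C hρ fun s hs => ⟨(b5 s hs).1, fun p hp => ?_⟩,
    prod_mem C hρ fun s hs => ⟨(c4 s hs).1, fun p hp => ?_⟩,
    prod_mem C hρ fun s hs => ⟨(c5 s hs).1, fun p hp => ?_⟩, b2.trans a1,
    pi_prod C fun s hs => (b5 s hs).1.1, fun s hs o ho u hu hp => ?_,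
    fun s hs o ho u u1 u2 u3 u4 => ?_⟩
  · rw [← b3, mul_assoc, ← c3, ← a3, List.map_map]
    congr 1
    refine List.map_congr_left fun s _ => ?_
    simp [vD, Calc.val]
  · obtain ⟨-, t, ht, τ, i1, i2, i3⟩ := b4 s hs
    rw [i3] at hp
    obtain ⟨τ', j1, j2, j3⟩ := f0 t ht
    have j4 := (j3 p).1 hp.1
    have j5 : τ ≤ -dl B (p.2 true) := hp.2
    exact ⟨hA ▸ hi (by omega), hB ▸ lo B0 (by omega)⟩
  · obtain ⟨-, t, ht, τ, i1, i2, i3⟩ := b5 s hs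
    rw [i3] at hp
    obtain ⟨τ', j1, j2, j3⟩ := f0 t ht
    have j4 := (j3 p).1 hp.1
    have j5 : -dl B (p.2 true) < τ := hp.2
    exact ⟨hA ▸ hi (by omega), hB ▸ hi (by omega)⟩
  · obtain ⟨-, t, ht, τ, i1, i2, i3⟩ := c4 s hs
    rw [i3] at hp
    have j5 : τ ≤ dl B (p.2 true) := hp.2
    exact ⟨hA ▸ lo A0 (f1 t ht p hp.1), hB ▸ hi (by omega)⟩
  · obtain ⟨-, t, ht, τ, i1, i2, i3⟩ := c5 s hs
    rw [i3] at hp
    have j5 : dl B (p.2 true) < τ := hp.2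
    exact ⟨hA ▸ lo A0 (f1 t ht p hp.1), hB ▸ lo B0 (by omega)⟩
  · obtain ⟨-, t, ht, τ, i1, i2, i3⟩ := b5 s hs
    rw [i3] at hp
    obtain ⟨τ', j1, j2, j3⟩ := f0 t ht
    have j4 := (j3 _).1 hp.1
    have j5 := dl_le A0 (c := o.2 false) (by rw [hA, ← hρ]; exact ho.1) ((mv o u).2 false)
    simp only [mv_snd, Pi.add_apply, add_sub_cancel_left] at j4 j5
    omega
  · obtain ⟨-, t, ht, τ, i1, i2, i3⟩ := b5 s hs
    rw [i3]
    obtain ⟨τ', j1, j2, j3⟩ := f0 t ht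
    have o1 : A ∣ o.2 false := by rw [hA, ← hρ]; exact ho.1
    have o2 : B ∣ o.2 true := by have := ho.2; rwa [hρ, ← hB] at this
    have k1 := dl_in o1 (by omega) u1 u2
    have k2 := dl_in o2 (by omega) u3 u4
    refine ⟨(j3 _).2 (j2.trans k1), ?_⟩
    show -dl B (o.2 true + u true) < τ
    omega

end Calc

end Vale.Agent.P196
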