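import Vale.Agent.P196.CutA
import Vale.Agent.P196.CutB
import Vale.Agent.P196.CutT

/-! P196: a trivial word of area zero is conjugate into the subgroup of transposition lifts. -/

namespace Vale.Agent.P196

open Equiv

namespace CutC

theorem free_mono {O : Set S0} {Q Q' : Set Pos} (h : Free O Q) (hQ : Q' ⊆ Q) : Free O Q' :=
  fun p hp q hq u hu v hv => h p hp q hq u (hQ hu) v (hQ hv)

theorem act_mono {O : Set S0} {Q Q' : Set Pos} {f : S0 → Perm Om} {g : Perm SS}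
    (h : IsAct O Q' f g) (hF : Free O Q) (hQ : Q' ⊆ Q)
    (hf : ∀ o ∈ O, f o ∈ AltOn (Q' ×ˢ (Set.univ : Set I))) : IsAct O Q f g := by
  refine ⟨fun o ho u hu i => ?_, fun p i hp => h.2 p i fun o ho u hu => hp o ho u (hQ hu)⟩
  by_cases a : u ∈ Q'
  · exact h.1 o ho u a i
  · rw [CutB.alt_fix (hf o ho) (q := (u, i)) a]
    exact h.2 _ i fun o' ho' v hv e => a (hF o ho o' ho' u hu v (hQ hv) e ▸ hv)

theorem act_fix {O : Set S0} {Q : Set Pos} {f : S0 → Perm Om} {g : Perm SS}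
    (h : IsAct O Q f g) {o : S0} (ho : o ∈ O) {q : Om} (hq : q.1 ∈ Q)
    (e : g (mv o q.1, q.2) = (mv o q.1, q.2)) : f o q = q := by
  rw [h.1 o ho q.1 hq q.2, Prod.mk.injEq] at e
  exact Prod.ext (mv_inj e.1) e.2

theorem exists_meas {ι : Type} [Nonempty ι] {f : S0 → Perm Om} (hf : Meas f) {O : Set S0}
    {P : Perm Om → ι → Prop} (h : ∀ o ∈ O, ∃ t, P (f o) t) :
    ∃ F : S0 → ι, Meas F ∧ ∀ o ∈ O, P (f o) (F o) :=
  ⟨fun o => Classical.epsilon (P (f o)), hf.comp fun φ => Classical.epsilon (P φ),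
    fun o ho => Classical.epsilon_spec (h o ho)⟩

/-- the strips around the multiples of `Z` are preserved and the other points are fixed -/
def Pv (ε : Bool) (Z n : ℤ) (g : Perm SS) : Prop :=
  ∀ q : SS, (∀ c, Z ∣ c → |q.1.2 ε - c| ≤ n → |(g q).1.2 ε - c| ≤ n) ∧
    ((∀ c, Z ∣ c → n < |q.1.2 ε - c|) → g q = q)

theorem same {Z n c c' x : ℤ} (hn : 2 * n < Z) (h : Z ∣ c) (h' : Z ∣ c') (a : |x - c| ≤ n)
    (b : |x - c'| ≤ n) : c = c' := by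
  rw [abs_le] at a b
  exact sub_eq_zero.1 (Int.eq_zero_of_abs_lt_dvd (dvd_sub h h') (by rw [abs_lt]; omega))

theorem far {Z n c u : ℤ} (h : Z ∣ c) (a : n < u) (b : u < Z - n) : n < |u - c| := by
  rw [lt_abs]
  rcases le_or_gt c 0 with d | d
  · omega
  · have := Int.le_of_dvd d h
    omega

theorem Pv.mul {ε : Bool} {Z n : ℤ} {g h : Perm SS} (hg : Pv ε Z n g) (hh : Pv ε Z n h) :
    Pv ε Z n (g * h) := fun q =>
  ⟨fun c hc a => (hg _).1 c hc ((hh q).1 c hc a), fun a => by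
    rw [Perm.mul_apply, (hh q).2 a, (hg q).2 a]⟩

theorem Pv.inv {ε : Bool} {Z n : ℤ} {g : Perm SS} (hn : 2 * n < Z) (hg : Pv ε Z n g) :
    Pv ε Z n g⁻¹ := fun q => by
  refine ⟨fun c hc a => ?_, fun a => CutB.inv_fix ((hg q).2 a)⟩
  have e : g (g⁻¹ q) = q := by simp
  by_cases b : ∀ c, Z ∣ c → n < |(g⁻¹ q).1.2 ε - c|
  · rw [← (hg _).2 b, e]; exact a
  · push Not at b
    obtain ⟨c', b1, b2⟩ := b
    have := (hg _).1 c' b1 b2
    rw [e] at this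
    rwa [same hn hc b1 a this]

theorem pv_sw {ε : Bool} {Z n : ℤ} {O : Set S0} {Q : Set Pos} {f : S0 → Perm Om} {g : Perm SS}
    (h : IsAct O Q f g) (hO : ∀ o ∈ O, Z ∣ o.2 ε) (hs : ∀ o ∈ O, IsSw (f o))
    (hf : ∀ o ∈ O, ∀ q : Om, f o q = q ∨ ∃ c, Z ∣ c ∧ |q.1 ε - c| ≤ n) : Pv ε Z n g := by
  rintro ⟨p, i⟩
  refine ⟨fun c _ a => ?_, fun a => ?_⟩
  · rcases h.isSw hs p with e | e <;> rwa [e]
  · by_cases b : ∀ o ∈ O, ∀ u ∈ Q, p ≠ mv o u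
    · exact h.2 p i b
    push Not at b
    obtain ⟨o, ho, u, hu, rfl⟩ := b
    rcases hf o ho (u, i) with e | ⟨c, c1, c2⟩
    · rw [h.1 o ho u hu, e]
    · have := a _ (dvd_add (hO o ho) c1)
      simp only [mv_snd, Pi.add_apply, add_sub_add_left_eq_sub] at this c2
      omega

variable {G : Type} [Group G] (C : Calc G)

theorem pv_KK {ε : Bool} {Z n : ℤ} {O : Set S0} {Q : Set Pos} (hn : 2 * n < Z) (hF : Free O Q)
    (hO : ∀ o ∈ O, Z ∣ o.2 ε) (hQ : ∀ u ∈ Q, |u ε| ≤ n) {k : G} (hk : k ∈ C.KK O Q) :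
    Pv ε Z n (C.π k) := by
  obtain ⟨f, -, h1, h⟩ := C.KK_desc hF hk
  rintro ⟨p, i⟩
  by_cases b : ∀ o ∈ O, ∀ u ∈ Q, p ≠ mv o u
  · rw [h.2 p i b]
    exact ⟨fun _ _ a => a, fun _ => rfl⟩
  push Not at b
  obtain ⟨o, ho, u, hu, rfl⟩ := b
  have a1 : |(mv o u).2 ε - o.2 ε| ≤ n := by simpa using hQ u hu
  refine ⟨fun c hc a => ?_, fun a => absurd a1 (not_le.2 (a _ (hO o ho)))⟩
  rw [h.1 o ho u hu, same hn hc (hO o ho) a a1]
  simpa using hQ _ (AltOn_maps (h1 o) (x := (u, i)) ⟨hu, trivial⟩).1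

/-- a block element together with its action -/
structure Rep (O : Set S0) (Q : Set Pos) (f : S0 → Perm Om) (g : G) : Prop where
  mem : g ∈ C.KK O Q
  act : IsAct O Q f (C.π g)
  alt : ∀ o ∈ O, f o ∈ AltOn (Q ×ˢ (Set.univ : Set I))

variable {C}

theorem Rep.mul {O : Set S0} {Q : Set Pos} {f f' : S0 → Perm Om} {g g' : G} (h : Rep C O Q f g)
    (h' : Rep C O Q f' g') : Rep C O Q (fun o => f o * f' o) (g * g') :=
  ⟨mul_mem h.mem h'.mem, by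
    rw [map_mul]
    exact h.act.mul h'.act fun o ho q hq => (AltOn_maps (h'.alt o ho) ⟨hq, trivial⟩).1,
    fun o ho => mul_mem (h.alt o ho) (h'.alt o ho)⟩

theorem Rep.unique (hC : C.Cube) {O : Set S0} {Q : Set Pos} (hQ : Q.Finite) (hF : Free O Q)
    {f f' : S0 → Perm Om} {g g' : G} (h : Rep C O Q f g) (h' : Rep C O Q f' g')
    (e : ∀ o ∈ O, f o = f' o) : g = g' :=
  C.KK_inj hC hQ hF h.mem h'.mem ((h.act.congr e).unique h'.act)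

theorem lift (hC : C.Cube) {O : Set S0} {Q Q' : Set Pos} (hO : Loc O) (hQ : Q.Finite)
    (hF : Free O Q) (hs : Q' ⊆ Q) {f : S0 → Perm Om} (hf : Meas f)
    (ha : ∀ o ∈ O, f o ∈ AltOn (Q' ×ˢ (Set.univ : Set I))) :
    ∃ g ∈ C.KK O Q', Rep C O Q f g := by
  obtain ⟨g, h1, h2⟩ := C.KK_surj hC hO (hQ.subset hs) (free_mono hF hs) hf ha
  exact ⟨g, h1, C.KK_le 0 (by simp) (fun u hu => by simpa using hs hu) h1, act_mono h2 hF hs ha,
    fun o ho => AltOn_mono (Set.prod_mono_left hs) (ha o ho)⟩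

theorem mem_Th {O : Set S0} {Q : Set Pos} (hO : Loc O) (hQ : Q.Finite) (hF : Free O Q) {g : G}
    (h : g ∈ C.KK O Q) (hs : IsSw (C.π g)) : g ∈ C.Th :=
  Subgroup.subset_closure ⟨O, Q, hO, hQ, hF, h, hs⟩

theorem two_strip (hC : C.Cube) {ε : Bool} {Z n : ℤ} {O : Set S0} {Q : Set Pos} (hn : 2 * n < Z)
    (hL : Loc O) (hQ : Q.Finite) (hF : Free O Q) (hO : ∀ o ∈ O, Z ∣ o.2 ε)
    (hQ' : ∀ u ∈ Q, 0 ≤ u ε ∧ u ε ≤ Z) {c₁ c₂ : Pos} (h1 : c₁ ∈ Q) (h1' : c₁ ε ≤ n) (h2 : c₂ ∈ Q)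
    (h2' : Z - n ≤ c₂ ε) {k : G} (hk : k ∈ C.KK O Q) (hp : Pv ε Z n (C.π k)) :
    ∃ α₁ α₂ θ θ' β₁ β₂ : G, k = α₁ * α₂ * θ ∧ k = θ' * β₁ * β₂ ∧
      α₁ ∈ C.KK O {u ∈ Q | u ε ≤ n} ∧ β₁ ∈ C.KK O {u ∈ Q | u ε ≤ n} ∧
      α₂ ∈ C.KK O {u ∈ Q | Z - n ≤ u ε} ∧ β₂ ∈ C.KK O {u ∈ Q | Z - n ≤ u ε} ∧
      θ ∈ C.Th ∧ θ' ∈ C.Th ∧ IsSw (C.π θ) ∧ IsSw (C.π θ') ∧
      ∀ ε' Z' n', (∀ o ∈ O, Z' ∣ o.2 ε') → |c₁ ε'| ≤ n' → |c₂ ε'| ≤ n' → Pv ε' Z' n' (C.π θ) := by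
  obtain ⟨f, f1, f2, f3⟩ := C.KK_desc hF hk
  have s1 : {u ∈ Q | u ε ≤ n} ⊆ Q := fun u hu => hu.1
  have s2 : {u ∈ Q | Z - n ≤ u ε} ⊆ Q := fun u hu => hu.1
  obtain ⟨F, F1, F2⟩ := exists_meas f1 (O := O)
    (P := fun φ (t : Perm Om × Perm Om × Perm Om × Perm Om × Perm Om × Perm Om) =>
      t.1 ∈ AltOn ({u ∈ Q | u ε ≤ n} ×ˢ (Set.univ : Set I)) ∧
      t.2.1 ∈ AltOn ({u ∈ Q | Z - n ≤ u ε} ×ˢ (Set.univ : Set I)) ∧
      t.2.2.1 ∈ AltOn (Q ×ˢ (Set.univ : Set I)) ∧ IsSw t.2.2.1 ∧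
      (∀ q : Om, q.1 ≠ c₁ → q.1 ≠ c₂ → t.2.2.1 q = q) ∧ φ = t.1 * t.2.1 * t.2.2.1 ∧
      t.2.2.2.1 ∈ AltOn (Q ×ˢ (Set.univ : Set I)) ∧ IsSw t.2.2.2.1 ∧
      t.2.2.2.2.1 ∈ AltOn ({u ∈ Q | u ε ≤ n} ×ˢ (Set.univ : Set I)) ∧
      t.2.2.2.2.2 ∈ AltOn ({u ∈ Q | Z - n ≤ u ε} ×ˢ (Set.univ : Set I)) ∧
      φ = t.2.2.2.1 * t.2.2.2.2.1 * t.2.2.2.2.2) fun o ho => by
    obtain ⟨a1, a2, a3, a4, b1, b2, b3, b4, b5, b6, b7, b8, a5, b9, a6, b10, b11⟩ :=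
      two_part hQ s1 s2 (Set.disjoint_left.2 fun u a b => by have := a.2; have := b.2; omega)
        (c₁ := c₁) (c₂ := c₂) ⟨h1, h1'⟩ ⟨h2, h2'⟩ (f2 o) (fun q q1 q2 => by
          by_cases a : q.1 ∈ Q
          · refine act_fix f3 ho a ((hp _).2 fun c hc => ?_)
            have := far (u := q.1 ε) (n := n) (dvd_sub hc (hO o ho))
              (not_le.1 fun x => q1 ⟨a, x⟩) (not_le.1 fun x => q2 ⟨a, x⟩)
            simp only [mv_snd, Pi.add_apply]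
            rwa [← sub_add, sub_add_eq_add_sub, add_comm] at this
          · exact CutB.alt_fix (f2 o) a) fun q hq => by
          refine ⟨(AltOn_maps (f2 o) ⟨hq.1, trivial⟩).1, ?_⟩
          have := (hp (mv o q.1, q.2)).1 _ (hO o ho) (by
            have := hQ' _ hq.1
            have := hq.2
            simp only [mv_snd, Pi.add_apply, add_sub_cancel_left, abs_le]
            omega)
          rw [f3.1 o ho q.1 hq.1] at this
          simp only [mv_snd, Pi.add_apply, add_sub_cancel_left] at this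
          exact (abs_le.1 this).2
    exact ⟨(a1, a2, a3, a4, a5, a6), b1, b2, b3, b4, b5, b6, b7, b8, b9, b10, b11⟩
  obtain ⟨α₁, m1, r1⟩ := lift hC hL hQ hF s1 (F1.comp fun t => t.1) fun o ho => (F2 o ho).1
  obtain ⟨α₂, m2, r2⟩ := lift hC hL hQ hF s2 (F1.comp fun t => t.2.1) fun o ho => (F2 o ho).2.1
  obtain ⟨θ, m3, r3⟩ := lift hC hL hQ hF le_rfl (F1.comp fun t => t.2.2.1)
    fun o ho => (F2 o ho).2.2.1
  obtain ⟨θ', m4, r4⟩ := lift hC hL hQ hF le_rfl (F1.comp fun t => t.2.2.2.1)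
    fun o ho => (F2 o ho).2.2.2.2.2.2.1
  obtain ⟨β₁, m5, r5⟩ := lift hC hL hQ hF s1 (F1.comp fun t => t.2.2.2.2.1)
    fun o ho => (F2 o ho).2.2.2.2.2.2.2.2.1
  obtain ⟨β₂, m6, r6⟩ := lift hC hL hQ hF s2 (F1.comp fun t => t.2.2.2.2.2)
    fun o ho => (F2 o ho).2.2.2.2.2.2.2.2.2.1
  have rk : Rep C O Q f k := ⟨hk, f3, fun o _ => f2 o⟩
  have w3 := r3.act.isSw fun o ho => (F2 o ho).2.2.2.1
  have w4 := r4.act.isSw fun o ho => (F2 o ho).2.2.2.2.2.2.2.1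
  refine ⟨α₁, α₂, θ, θ', β₁, β₂,
    rk.unique hC hQ hF ((r1.mul r2).mul r3) fun o ho => (F2 o ho).2.2.2.2.2.1,
    rk.unique hC hQ hF ((r4.mul r5).mul r6) fun o ho => (F2 o ho).2.2.2.2.2.2.2.2.2.2,
    m1, m5, m2, m6, mem_Th hL hQ hF m3 w3, mem_Th hL hQ hF m4 w4, w3, w4,
    fun ε' Z' n' d e1 e2 => pv_sw r3.act d (fun o ho => (F2 o ho).2.2.2.1) fun o ho q => ?_⟩
  by_cases a : q.1 = c₁
  · exact Or.inr ⟨0, dvd_zero _, by rwa [a, sub_zero]⟩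
  by_cases b : q.1 = c₂
  · exact Or.inr ⟨0, dvd_zero _, by rwa [b, sub_zero]⟩
  · exact Or.inl ((F2 o ho).2.2.2.2.1 q a b)

theorem free_box {ρ : ℕ} (hρ : par ρ = false) {a b c d : ℤ} (h : b - a < sg ρ)
    (h' : d - c < sg (ρ + 1)) : Free (Vtx ρ) (box a b c d) :=
  free_vtx ρ fun u hu v hv => by
    simp only [box, Set.mem_ofPred_eq] at hu hv
    simp only [hρ, Bool.not_false, abs_lt]
    omega

theorem kk_sh {ρ : ℕ} (hρ : par ρ = false) {Q : Set Pos} {a b c d : ℤ} (x y : ℤ)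
    (hx : (sg ρ : ℤ) ∣ x) (hy : (sg (ρ + 1) : ℤ) ∣ y) {g : G} (hg : g ∈ C.KK (Vtx ρ) Q)
    (h : ∀ u ∈ Q, a ≤ u false - x ∧ u false - x ≤ b ∧ c ≤ u true - y ∧ u true - y ≤ d) :
    g ∈ C.KK (Vtx ρ) (box a b c d) :=
  C.KK_le (pt false x y) (sh_vtx ρ (by simpa [hρ] using hx) (by simpa [hρ, pt] using hy)).le
    (fun u hu => by simpa [box, pt] using h u hu) hg

theorem ncard_shift (v : Pos) {S T : Set Om} (h : ∀ q : Om, q ∈ T ↔ (v + q.1, q.2) ∈ S) :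
    T.ncard = S.ncard := by
  have inj : Function.Injective fun q : Om => ((v + q.1, q.2) : Om) := by
    rintro ⟨u, i⟩ ⟨u', i'⟩ h
    simpa using h
  rw [← Set.ncard_image_of_injective T inj]
  congr 1
  ext ⟨u, i⟩
  exact ⟨fun ⟨q, a, e⟩ => e ▸ (h q).1 a, fun a => ⟨(u - v, i), (h _).2 (by simpa using a), by simp⟩⟩

theorem frame (hC : C.Cube) {ρ : ℕ} (hρ : par ρ = false) {A B n c₁ M : ℤ} (hA : A = sg ρ)
    (hB : B = sg (ρ + 1)) {k : G} (hk : k ∈ C.KK (Vtx ρ) (box 1 (A - 1) 1 (B - 1)))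
    (hM : ∀ (q : SS) ε, |(C.π k q).1.2 ε - q.1.2 ε| ≤ M) (b₀ : ℤ)
    (hin : ∀ q : SS, (∀ c, A ∣ c → n < |q.1.2 false - c|) → (∀ c, B ∣ c → n < |q.1.2 true - c|) →
      C.π k q = q)
    (hfl : ∀ o ∈ Vtx ρ, ∀ y, y = c₁ ∨ y = B - c₁ - 1 →
      flux (C.π k) o.1 (Set.Icc (o.2 false) (o.2 false + b₀)) (o.2 true + y) = 0)
    (h1 : 1 ≤ n) (h2 : 2 * n + M < A) (h3 : n + M ≤ c₁) (h4 : 2 * (c₁ + M) < B) (h5 : n ≤ b₀)
    (h6 : b₀ < A - n) (M0 : 0 ≤ M) :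
    ∃ b₁ b₂ θ l₁ l₂ : G, k = b₁ * b₂ * θ * l₁ * l₂ ∧
      b₁ ∈ C.KK (Vtx ρ) (box 1 (A - 1) 1 (c₁ + M)) ∧
      b₂ ∈ C.KK (Vtx ρ) (box 1 (A - 1) (B - c₁ - 1 - M) (B - 1)) ∧
      l₁ ∈ C.KK (Vtx ρ) (box 1 n 1 (B - 1)) ∧ l₂ ∈ C.KK (Vtx ρ) (box (A - n) (A - 1) 1 (B - 1)) ∧
      θ ∈ C.Th ∧ IsSw (C.π θ) ∧
      ∀ n', 1 ≤ n' → Pv false A n' (C.π θ) ∧ Pv true B n' (C.π θ) := by
  have hF : Free (Vtx ρ) (box 1 (A - 1) 1 (B - 1)) := free_box hρ (by omega) (by omega)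
  have hQ := box_finite 1 (A - 1) 1 (B - 1)
  have hL := loc_vtx ρ
  have o1 : ∀ o ∈ Vtx ρ, A ∣ o.2 false := fun o ho => by rw [hA, ← hρ]; exact ho.1
  have o2 : ∀ o ∈ Vtx ρ, B ∣ o.2 true := fun o ho => by have := ho.2; rwa [hρ, ← hB] at this
  obtain ⟨f, f1, f2, f3⟩ := C.KK_desc hF hk
  obtain ⟨F, F1, F2⟩ := exists_meas f1 (O := Vtx ρ)
    (P := fun φ (t : Perm Om × Perm Om × Perm Om × Perm Om × Perm Om) =>
      φ = t.1 * t.2.1 * t.2.2.1 * t.2.2.2.1 * t.2.2.2.2 ∧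
      t.1 ∈ AltOn (box 1 (A - 1) 1 (c₁ + M) ×ˢ (Set.univ : Set I)) ∧
      t.2.1 ∈ AltOn (box 1 (A - 1) (B - c₁ - 1 - M) (B - 1) ×ˢ (Set.univ : Set I)) ∧
      t.2.2.2.1 ∈ AltOn (box 1 n 1 (B - 1) ×ˢ (Set.univ : Set I)) ∧
      t.2.2.2.2 ∈ AltOn (box (A - n) (A - 1) 1 (B - 1) ×ˢ (Set.univ : Set I)) ∧
      t.2.2.1 ∈ AltOn (box 1 (A - 1) 1 (B - 1) ×ˢ (Set.univ : Set I)) ∧ IsSw t.2.2.1 ∧
      ∀ q : Om, ¬ ((q.1 false = 1 ∨ q.1 false = A - 1) ∧ (q.1 true = 1 ∨ q.1 true = B - 1)) →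
        t.2.2.1 q = q) fun o ho => by
    have out : ∀ q : Om, f o q = q ∨ q.1 ∈ box 1 (A - 1) 1 (B - 1) := fun q =>
      or_iff_not_imp_right.2 fun a => CutB.alt_fix (f2 o) a
    have dM : ∀ (q : Om) ε, |(f o q).1 ε - q.1 ε| ≤ M := fun q ε => by
      rcases out q with e | e
      · simpa [e] using M0
      · have := hM (mv o q.1, q.2) ε
        rw [f3.1 o ho q.1 e] at this
        simpa using this
    have inn : ∀ q : Om, n < q.1 false → q.1 false < A - n → n < q.1 true → q.1 true < B - n →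
        f o q = q := fun q a1 a2 a3 a4 => by
      refine act_fix f3 ho ⟨by omega, by omega, by omega, by omega⟩ (hin _ (fun c hc => ?_)
        fun c hc => ?_)
      · have := far (dvd_sub hc (o1 o ho)) a1 a2
        simp only [mv_snd, Pi.add_apply]
        rwa [← sub_add, sub_add_eq_add_sub, add_comm] at this
      · have := far (dvd_sub hc (o2 o ho)) a3 a4
        simp only [mv_snd, Pi.add_apply]
        rwa [← sub_add, sub_add_eq_add_sub, add_comm] at this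
    have key : ∀ q : Om, (0 ≤ q.1 false ∧ q.1 false ≤ A - 1 ∧ 1 ≤ q.1 true ∧ q.1 true ≤ B - 1) →
        (C.π k ((o.1, o.2 + q.1), q.2)).1.2 true = o.2 true + (f o q).1 true := fun q a => by
      by_cases b : q.1 false = 0
      · have e : f o q = q := (out q).resolve_right fun x => by have := x.1; omega
        have := f3.2 (mv o q.1) q.2 fun o' ho' u hu e => by
          have e' := congrArg (fun p : S0 => p.2 false) e
          have := far (n := 0) (dvd_sub (o1 o ho) (o1 o' ho')) (u := u false)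
            (by have := hu.1; omega) (by have := hu.2.1; omega)
          simp only [mv_snd, Pi.add_apply, b] at e'
          rw [lt_abs] at this
          omega
        rw [e]
        exact congrArg (fun p : SS => p.1.2 true) this
      · exact congrArg (fun p : SS => p.1.2 true) (f3.1 o ho q.1 ⟨by omega, a.2⟩ q.2)
    obtain ⟨a1, a2, a3, a4, a5, b⟩ := frame_factor (xl := n) (xr := A - n) (yb := n) (yt := B - n)
      (c₁ := c₁) (c₂ := B - c₁ - 1) (f2 o) dM inn h1 (by omega) (by omega) h1 h3 (by omega)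
      (by omega) (by omega) fun y hy => by
        have := hfl o ho y hy
        rw [flux, sub_eq_zero, Nat.cast_inj] at this
        refine (ncard_shift o.2 fun q => ?_).trans (this.trans (ncard_shift o.2 fun q => ?_).symm)
        all_goals
          have i1 := abs_le.1 (hM ((o.1, o.2 + q.1), q.2) true)
          have i2 := key q
          have i3 : (f o q).1 true = q.1 true ∨
              (1 ≤ q.1 false ∧ q.1 false ≤ A - 1 ∧ 1 ≤ q.1 true ∧ q.1 true ≤ B - 1) :=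
            (out q).imp (fun e => by rw [e]) id
          have i4 : (n < q.1 false ∧ q.1 false < A - n ∧ n < q.1 true ∧ q.1 true < B - n) →
              (f o q).1 true = q.1 true := fun x => by rw [inn q x.1 x.2.1 x.2.2.1 x.2.2.2]
          simp only [Set.mem_ofPred_eq, Set.mem_Icc, Pi.add_apply] at i1 ⊢
          omega
    exact ⟨(a1, a2, a3, a4, a5), b⟩
  have sub : ∀ {a b c d : ℤ}, 1 ≤ a → b ≤ A - 1 → 1 ≤ c → d ≤ B - 1 →
      box a b c d ⊆ box 1 (A - 1) 1 (B - 1) := fun i1 i2 i3 i4 u hu =>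
    ⟨i1.trans hu.1, hu.2.1.trans i2, i3.trans hu.2.2.1, hu.2.2.2.trans i4⟩
  obtain ⟨b₁, m1, r1⟩ := lift hC hL hQ hF (sub le_rfl le_rfl le_rfl (by omega))
    (F1.comp fun t => t.1) fun o ho => (F2 o ho).2.1
  obtain ⟨b₂, m2, r2⟩ := lift hC hL hQ hF (sub le_rfl le_rfl (by omega) le_rfl)
    (F1.comp fun t => t.2.1) fun o ho => (F2 o ho).2.2.1
  obtain ⟨θ, m3, r3⟩ := lift hC hL hQ hF le_rfl (F1.comp fun t => t.2.2.1)
    fun o ho => (F2 o ho).2.2.2.2.2.1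
  obtain ⟨l₁, m4, r4⟩ := lift hC hL hQ hF (sub le_rfl (by omega) le_rfl le_rfl)
    (F1.comp fun t => t.2.2.2.1) fun o ho => (F2 o ho).2.2.2.1
  obtain ⟨l₂, m5, r5⟩ := lift hC hL hQ hF (sub (by omega) le_rfl le_rfl le_rfl)
    (F1.comp fun t => t.2.2.2.2) fun o ho => (F2 o ho).2.2.2.2.1
  have rk : Rep C _ _ f k := ⟨hk, f3, fun o _ => f2 o⟩
  have sw := fun o ho => (F2 o ho).2.2.2.2.2.2.1
  have w3 := r3.act.isSw sw
  refine ⟨b₁, b₂, θ, l₁, l₂, rk.unique hC hQ hF ((((r1.mul r2).mul r3).mul r4).mul r5)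
    fun o ho => (F2 o ho).1, m1, m2, m4, m5, mem_Th hL hQ hF m3 w3, w3, fun n' hn' =>
    ⟨pv_sw r3.act o1 sw fun o ho q => ?_, pv_sw r3.act o2 sw fun o ho q => ?_⟩⟩
  · refine or_iff_not_imp_left.2 fun a => ?_
    rcases (not_not.1 (mt ((F2 o ho).2.2.2.2.2.2.2 q) a)).1 with e | e
    · exact ⟨0, dvd_zero _, by rw [e, abs_le]; omega⟩
    · exact ⟨A, dvd_rfl, by rw [e, abs_le]; omega⟩
  · refine or_iff_not_imp_left.2 fun a => ?_
    rcases (not_not.1 (mt ((F2 o ho).2.2.2.2.2.2.2 q) a)).2 with e | e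
    · exact ⟨0, dvd_zero _, by rw [e, abs_le]; omega⟩
    · exact ⟨B, dvd_rfl, by rw [e, abs_le]; omega⟩

end CutC

namespace Calc

open CutC

variable {G : Type} [Group G] (C : Calc G)

theorem cut_conj (hC : C.Cube) {w : List Sym} (ht : Triv w) (h0 : ∀ k, area w k = 0) :
    ∃ g : G, g * (w.map C.val).prod * g⁻¹ ∈ C.Th := by
  obtain ⟨r, hr⟩ := exists_rad_list w
  obtain ⟨R, hR⟩ : ∃ R, R = (4 * w.length + 1) * r := ⟨_, rfl⟩
  obtain ⟨m, hm⟩ : ∃ m, m = R + 1 + (2 * r + 1) * w.length := ⟨_, rfl⟩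
  obtain ⟨M, hM⟩ : ∃ M, M = 2 * w.length * r := ⟨_, rfl⟩
  obtain ⟨ρ₀, hρ₀⟩ := sg_big (4 * (m + r + 2 * M + R + 1))
  obtain ⟨ρ, hρ₁, hρ⟩ := exists_par false ρ₀
  obtain ⟨A, hA⟩ : ∃ A : ℤ, A = sg ρ := ⟨_, rfl⟩
  obtain ⟨B, hB⟩ : ∃ B : ℤ, B = sg (ρ + 1) := ⟨_, rfl⟩
  obtain ⟨n, hn⟩ : ∃ n : ℤ, n = m + r := ⟨_, rfl⟩
  obtain ⟨n₂, hn₂⟩ : ∃ n₂ : ℤ, n₂ = n + M + R + M + 1 := ⟨_, rfl⟩
  have bA := hρ₀ ρ hρ₁
  have bB := hρ₀ (ρ + 1) (by omega)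
  have rR : r ≤ R := by rw [hR, add_mul]; omega
  have Rm : R + 1 ≤ m := by omega
  obtain ⟨k₀₁, k₀₀, k₁₀, k₁₁, D, e, m01, m00, m10, m11, d1, d2, d3, d4⟩ :=
    C.trap hC w hr hρ hA hB hn rR hm.ge (by omega) (by omega)
  have hL := loc_vtx ρ
  have o1 : ∀ o ∈ Vtx ρ, A ∣ o.2 false := fun o ho => by rw [hA, ← hρ]; exact ho.1
  have o2 : ∀ o ∈ Vtx ρ, B ∣ o.2 true := fun o ho => by have := ho.2; rwa [hρ, ← hB] at this
  have one : C.π (w.map C.val).prod = 1 := (C.π_word w).trans ht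
  have hrD : ∀ s ∈ D, s.1.Rad r := fun s hs => hr _ (d1 ▸ List.mem_map_of_mem hs)
  have len : D.length = w.length := by rw [← d1, List.length_map]
  have px : ∀ {c d : ℤ} {g : G}, d - c < B → g ∈ C.KK (Vtx ρ) (box (-n) n c d) →
      Pv false A n (C.π g) := fun h hg =>
    pv_KK C (by omega) (free_box hρ (by omega) (by omega)) o1
      (fun u hu => abs_le.2 ⟨hu.1, hu.2.1⟩) hg
  have py : ∀ {a b n' : ℤ} {g : G}, b - a < A → 2 * n' < B →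
      g ∈ C.KK (Vtx ρ) (box a b (-n') n') → Pv true B n' (C.π g) := fun h h' hg =>
    pv_KK C h' (free_box hρ (by omega) (by omega)) o2
      (fun u hu => abs_le.2 ⟨hu.2.2.1, hu.2.2.2⟩) hg
  obtain ⟨b₁, b₂, θ, l₁, l₂, e1, mb1, mb2, ml1, ml2, t1, t2, t3⟩ := frame hC hρ hA hB m00
    (n := n) (c₁ := n + M + R) (M := M)
    (fun q ε => by rw [d2, hM, ← len]; exact (tprod_disp hrD q).2 ε) (m + R)
    (fun q a b => by
      have : C.π k₀₀ = C.π k₀₁⁻¹ * C.π k₁₁⁻¹ * C.π k₁₀⁻¹ := by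
        rw [← mul_one (C.π k₀₁⁻¹), ← one, e]
        simp [mul_assoc]
      rw [this, Perm.mul_apply, Perm.mul_apply, (px (by omega) (inv_mem m10) q).2 a,
        (px (by omega) (inv_mem m11) q).2 a, (py (by omega) (by omega) (inv_mem m01) q).2 b])
    (fun o ho y hy => by
      rw [d2]
      refine flux_zero hrD (d1 ▸ ht) (d1 ▸ h0 o.1) (R := R) (by rw [len]; exact hR.ge) (by omega)
        (fun s hs u _ a => ?_) fun s hs u a b => ?_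
      · simpa [mv] using d3 s hs o ho (u - o.2) a
      · rw [abs_le] at a b
        simpa [mv] using d4 s hs o ho (u - o.2) (by simp only [Pi.sub_apply]; omega)
          (by simp only [Pi.sub_apply]; omega) (by simp only [Pi.sub_apply]; omega)
          (by simp only [Pi.sub_apply]; omega))
    (by omega) (by omega) (by omega) (by omega) (by omega) (by omega) (by omega)
  have z0 : (sg ρ : ℤ) ∣ 0 := dvd_zero _
  have z1 : (sg (ρ + 1) : ℤ) ∣ 0 := dvd_zero _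
  have zA : (sg ρ : ℤ) ∣ A := hA ▸ dvd_rfl
  have zB : (sg (ρ + 1) : ℤ) ∣ B := hB ▸ dvd_rfl
  have mh : k₀₁ * b₁ * b₂ ∈ C.KK (Vtx ρ) (box 1 (A - 1) (-n₂) n₂) :=
    mul_mem (mul_mem (kk_sh hρ 0 0 z0 z1 m01 (fun u ⟨_, _, _, _⟩ => by omega))
      (kk_sh hρ 0 0 z0 z1 mb1 (fun u ⟨_, _, _, _⟩ => by omega)))
      (kk_sh hρ 0 B z0 zB mb2 (fun u ⟨_, _, _, _⟩ => by omega))
  have mv' : l₁ * l₂ * k₁₀ ∈ C.KK (Vtx ρ) (box (-n) n 1 (B - 1)) :=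
    mul_mem (mul_mem (kk_sh hρ 0 0 z0 z1 ml1 (fun u ⟨_, _, _, _⟩ => by omega))
      (kk_sh hρ A 0 zA z1 ml2 (fun u ⟨_, _, _, _⟩ => by omega))) m10
  have e2 : (w.map C.val).prod = (k₀₁ * b₁ * b₂) * θ * (l₁ * l₂ * k₁₀) * k₁₁ := by
    rw [e, e1]; simp only [mul_assoc]
  generalize k₀₁ * b₁ * b₂ = kh at mh e2
  generalize l₁ * l₂ * k₁₀ = kv at mv' e2
  obtain ⟨α₁, α₂, θ', -, -, -, e3, -, ma1, -, ma2, -, u1, -, u2, -, u3⟩ := two_strip hC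
    (ε := false) (Z := A) (n := n) (by omega) hL (box_finite _ _ _ _)
    (free_box hρ (by omega) (by omega)) o1 (fun u ⟨_, _, _, _⟩ => by omega)
    (c₁ := pt false 1 0) (c₂ := pt false (A - 1) 0)
    (by simp only [box, pt, Set.mem_ofPred_eq]; simp; omega) (by simp; omega)
    (by simp only [box, pt, Set.mem_ofPred_eq]; simp; omega) (by simp; omega) mh (by
      have : C.π kh = C.π k₁₁⁻¹ * C.π kv⁻¹ * (C.π θ)⁻¹ := by
        rw [← one_mul (C.π k₁₁⁻¹), ← one, e2]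
        simp [mul_assoc]
      rw [this]
      exact ((px (by omega) (inv_mem m11)).mul (px (by omega) (inv_mem mv'))).mul
        ((t3 n (by omega)).1.inv (by omega)))
  have mc : k₁₁ * (α₁ * α₂) ∈ C.KK (Vtx ρ) (box (-n) n (-n₂) n₂) :=
    mul_mem (kk_sh hρ 0 0 z0 z1 m11 (fun u ⟨_, _, _, _⟩ => by omega))
      (mul_mem (kk_sh hρ 0 0 z0 z1 ma1 (fun u ⟨⟨_, _, _, _⟩, _⟩ => by omega))
        (kk_sh hρ A 0 zA z1 ma2 (fun u ⟨⟨_, _, _, _⟩, _⟩ => by omega)))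
  have e4 : (α₁ * α₂)⁻¹ * (w.map C.val).prod * (α₁ * α₂)⁻¹⁻¹ =
      θ' * θ * kv * (k₁₁ * (α₁ * α₂)) := by
    rw [e2, e3]; group
  have one' : C.π (θ' * θ * kv * (k₁₁ * (α₁ * α₂))) = 1 := by
    rw [← e4, map_mul, map_mul, one]; simp
  generalize k₁₁ * (α₁ * α₂) = kc at mc e4 one'
  obtain ⟨-, -, -, θ'', β₁, β₂, -, e5, -, mb1', -, mb2', -, v1, -, v2, -⟩ := two_strip hC
    (ε := true) (Z := B) (n := n₂) (by omega) hL (box_finite _ _ _ _)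
    (free_box hρ (by omega) (by omega)) o2 (fun u ⟨_, _, _, _⟩ => by omega)
    (c₁ := pt false 0 1) (c₂ := pt false 0 (B - 1))
    (by simp only [box, pt, Set.mem_ofPred_eq]; simp; omega) (by simp [pt]; omega)
    (by simp only [box, pt, Set.mem_ofPred_eq]; simp; omega) (by simp [pt]; omega) mv' (by
      have : C.π kv = (C.π θ)⁻¹ * (C.π θ')⁻¹ * C.π kc⁻¹ := by
        rw [← mul_one (C.π θ')⁻¹, ← one']
        simp [mul_assoc]
      rw [this]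
      exact (((t3 n₂ (by omega)).2.inv (by omega)).mul
        ((u3 true B n₂ o2 (by simp [pt]; omega) (by simp [pt]; omega)).inv (by omega))).mul
        (py (by omega) (by omega) (inv_mem mc)))
  have md : β₁ * β₂ * kc ∈ C.KK (Vtx ρ) (box (-n) n (-n₂) n₂) :=
    mul_mem (mul_mem (kk_sh hρ 0 0 z0 z1 mb1' (fun u ⟨⟨_, _, _, _⟩, _⟩ => by omega))
      (kk_sh hρ 0 B z0 zB mb2' (fun u ⟨⟨_, _, _, _⟩, _⟩ => by omega))) mc
  have e6 : θ' * θ * kv * kc = θ' * θ * θ'' * (β₁ * β₂ * kc) := by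
    rw [e5]; simp only [mul_assoc]
  refine ⟨(α₁ * α₂)⁻¹, ?_⟩
  rw [e4, e6]
  refine mul_mem (mul_mem (mul_mem u1 t1) v1) (mem_Th hL (box_finite _ _ _ _)
    (free_box hρ (by omega) (by omega)) md ?_)
  rw [e6, map_mul, mul_eq_one_iff_inv_eq] at one'
  rw [← one', map_mul, map_mul]
  exact ((u2.mul t2).mul v2).inv

end Calc

end Vale.Agent.P196
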