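import Mathlib

/-!
P196: definitions.  Tiles and the model configurations, the abstract logic, the covering group of
the alternating group, and the multisection calculus.
-/

namespace Vale.Agent.P196

open Equiv

/-! ### Sizes -/

/-- positions: coordinate `false` indexes columns, coordinate `true` indexes rows -/
abbrev Pos := Bool → ℤ

/-- unit vectors -/
def ee (ε : Bool) : Pos := Pi.single ε 1

/-- the position with coordinate `u` at `ε` and `b` at the other index -/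
def pt (ε : Bool) (u b : ℤ) : Pos := fun δ => if δ = ε then u else b

/-- number of carriers of rank `ρ` in a period -/
def cc (ρ : ℕ) : ℕ := 2 ^ ρ

/-- number of blocks separated by lines of rank `ρ` -/
def nn : ℕ → ℕ
  | 0 => 2
  | ρ + 1 => 4 * cc ρ + 2

/-- index of the first carrier of rank `ρ` -/
def oo : ℕ → ℕ
  | 0 => 1
  | ρ + 1 => cc ρ + 1

/-- spacing of the lines of rank at least `ρ` (and of the parity of `ρ`) -/
def sg : ℕ → ℕ
  | 0 => 1
  | 1 => 1
  | ρ + 2 => nn ρ * sg ρ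

/-- lines of rank `ρ` are indexed by the coordinate `par ρ` -/
def par (ρ : ℕ) : Bool := decide (ρ % 2 = 1)

/-- the digit of rank `ρ` -/
def idx (ρ : ℕ) (u : ℤ) : ℕ := ((u / (sg ρ : ℤ)) % (nn ρ : ℤ)).toNat

/-- the line with coordinate `u` has exact rank `ρ` -/
def IsRk (ρ : ℕ) (u : ℤ) : Prop := (sg ρ : ℤ) ∣ u ∧ ¬ (sg (ρ + 2) : ℤ) ∣ u

/-! ### Tiles -/

/-- the label of a line (constant along the line) -/
structure Lab where
  star : Bool
  ph : Fin 5
  fst : Bool
  lst : Bool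
  deriving DecidableEq, Fintype

/-- the state of a line on an edge -/
structure Core where
  lab : Lab
  fl : Bool
  val : Fin 6
  deriving DecidableEq, Fintype

/-- a tile: incoming and outgoing states of the two lines crossing at a cell -/
structure Tile where
  ci : Bool → Core
  co : Bool → Core
  deriving DecidableEq, Fintype

def Lab.car (l : Lab) : Prop := l.star = true ∨ l.ph.val = 1 ∨ l.ph.val = 2
def Lab.isF (l : Lab) : Prop := l.star = true ∨ (l.ph.val = 1 ∧ l.fst = true)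
def Lab.isL (l : Lab) : Prop := l.star = true ∨ (l.ph.val = 2 ∧ l.lst = true)

/-- passive crossing: the line `D` passes over the line `C` -/
def Pas (Di Do Ci Co : Core) : Prop :=
  Di.fl = Do.fl ∧ (Ci.lab.car → Ci.val.val = 5 ∧ Co.val.val = 0) ∧
    (Ci.lab.star = true → ¬ (Di.lab.fst = true ∧ Di.lab.lst = true))

/-- active crossing: the line `D` updates the carrier `C` -/
def Act (Di Do Ci Co : Core) : Prop :=
  Ci.lab.car ∧
    ((Di.fl = false ∧ Do.fl = false ∧ Di.lab.ph.val ≤ 3 ∧ Di.lab.fst = false ∧ ¬ Ci.lab.isL ∧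
        Ci.val.val = Di.lab.ph.val + 1 ∧ Co.val.val = Di.lab.ph.val + 1) ∨
      (Di.fl = false ∧ Do.fl = true ∧ (Di.lab.fst = true ↔ Ci.lab.isF) ∧
        (Di.lab.lst = true ↔ Ci.lab.isL) ∧
        Ci.val.val = Di.lab.ph.val ∧ Co.val.val = Di.lab.ph.val + 1) ∨
      (Di.fl = true ∧ Do.fl = true ∧ Di.lab.lst = false ∧ ¬ Ci.lab.isF ∧
        Ci.val.val = Di.lab.ph.val ∧
        Co.val.val = if Di.lab.ph.val = 4 then 5 else Di.lab.ph.val))

/-- the line `D` dominates the line `C` -/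
def Dom (Di Do Ci Co : Core) : Prop :=
  Di.lab.star = false ∧ Di.val = Do.val ∧
    (Ci.lab.star = true ∨ (Ci.fl = true ∧ Co.fl = false)) ∧ (Pas Di Do Ci Co ∨ Act Di Do Ci Co)

def Ok (c : Core) : Prop :=
  (c.lab.star = true → c.fl = false ∧ c.lab = ⟨true, 1, true, true⟩) ∧
    (¬ c.lab.car → c.val.val = 0) ∧ (c.lab.ph.val = 4 → c.lab.fst = true)

def Legal (τ : Tile) : Prop :=
  (∀ ε, (τ.ci ε).lab = (τ.co ε).lab ∧ Ok (τ.ci ε) ∧ Ok (τ.co ε)) ∧
    (τ.ci true).lab.star = false ∧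
    ((τ.ci false).lab.star = false →
      ¬ ((τ.ci false).lab.fst = true ∧ (τ.ci false).lab.lst = true)) ∧
    ∃ ε, Dom (τ.ci ε) (τ.co ε) (τ.ci (!ε)) (τ.co (!ε))

/-- tiles seen at crossings of two lines of high rank -/
def High (τ : Tile) : Prop :=
  Legal τ ∧ (τ.ci false).lab.star = false ∧
    ¬ ((τ.ci true).lab.fst = true ∧ (τ.ci true).lab.lst = true)

/-- colour of the outgoing edge of the line `ε` -/
def outE (ε : Bool) (τ : Tile) : Core × Bool := (τ.co ε, ε && (τ.co false).lab.star)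

/-- colour of the incoming edge of the line `ε` -/
def inE (ε : Bool) (τ : Tile) : Core × Bool := (τ.ci ε, ε && !(τ.ci false).lab.star)

/-- the model configurations are indexed by the high tiles -/
def Vx : Type := {τ : Tile // High τ}

instance : Finite Vx := Subtype.finite

noncomputable instance : Fintype Vx := Fintype.ofFinite _

noncomputable instance : DecidableEq Vx := Classical.decEq _

/-! ### The model configurations -/

def labF : ℕ → ℕ → Lab
  | 0, _ => ⟨true, 1, true, true⟩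
  | ρ + 1, k => ⟨false, Fin.ofNat 5 ((k - 1) / cc ρ), decide ((k - 1) % cc ρ = 0),
      decide ((k - 1) % cc ρ = cc ρ - 1)⟩

def flF : ℕ → ℕ → ℕ → Bool
  | 0, _, _ => false
  | ρ + 1, k, l => decide (oo ρ + (k - 1) % cc ρ ≤ l)

def valF (c t s : ℕ) : ℕ := if t = 4 * c + 1 then 5 else (t + c - 1 - s) / c

/-- state of a line of rank `ρ` and index `k`, at sub-digit `l` and time `t` -/
def coreF (ρ k l t : ℕ) : Core :=
  ⟨labF ρ k, flF ρ k l,
    if oo ρ ≤ k ∧ k < oo ρ + cc ρ then Fin.ofNat 6 (valF (cc ρ) t (k - oo ρ)) else 0⟩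

open Classical in
/-- the rank of a nonzero coordinate -/
noncomputable def rk (ε : Bool) (u : ℤ) : ℕ :=
  if h : ∃ ρ, par ρ = ε ∧ IsRk ρ u then h.choose else 0

/-- state of the line `(ε, u)`, `u ≠ 0`, on the edge from `b` to `b + 1` -/
noncomputable def ms (ε : Bool) (u b : ℤ) : Core :=
  coreF (rk ε u) (idx (rk ε u) u) (idx (rk ε u - 1) b) (idx (rk ε u + 1) b)

/-- outgoing state of the line `ε` at `z` in the configuration `k` -/
noncomputable def st (k : Vx) (ε : Bool) (z : Pos) : Core :=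
  if z ε = 0 then (if 0 ≤ z (!ε) then k.1.co ε else k.1.ci ε) else ms ε (z ε) (z (!ε))

/-- the model configuration with the tile `k` at the origin -/
noncomputable def xx (k : Vx) (z : Pos) : Tile :=
  ⟨fun ε => st k ε (z - ee (!ε)), fun ε => st k ε z⟩

/-- pointed configurations -/
abbrev S0 := Vx × Pos

/-- translation of a pointed configuration -/
def mv (p : S0) (d : Pos) : S0 := (p.1, p.2 + d)

/-- translate of a set -/
def sh (d : Pos) (U : Set S0) : Set S0 := {p | mv p (-d) ∈ U}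

/-- equal patterns of radius `r` -/
def Near (r : ℕ) (p q : S0) : Prop :=
  ∀ d : Pos, (∀ ε, |d ε| ≤ r) → xx p.1 (p.2 + d) = xx q.1 (q.2 + d)

/-- locally determined functions -/
def Meas {α : Type} (f : S0 → α) : Prop := ∃ r, ∀ p q, Near r p q → f p = f q

/-- locally determined sets -/
def Loc (U : Set S0) : Prop := ∃ r, ∀ p q, Near r p q → p ∈ U → q ∈ U

/-- vertices of level `ρ` -/
def Vtx (ρ : ℕ) : Set S0 :=
  {p | (sg ρ : ℤ) ∣ p.2 (par ρ) ∧ (sg (ρ + 1) : ℤ) ∣ p.2 (!par ρ)}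

/-- the translates of `U` by the elements of `Q` are pairwise disjoint -/
def Free (U : Set S0) (Q : Set Pos) : Prop :=
  ∀ p ∈ U, ∀ q ∈ U, ∀ u ∈ Q, ∀ v ∈ Q, mv p u = mv q v → u = v

/-! ### The abstract logic -/

/-- an orthomodular poset in which pairwise compatible events are jointly compatible -/
structure QL (L : Type) where
  orth : L → L → Prop
  cpl : L → L
  top : L
  symm : ∀ {u v}, orth u v → orth v u
  cpl_cpl : ∀ u, cpl (cpl u) = u
  orth_cpl : ∀ u, orth u (cpl u)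
  trans : ∀ {u v c}, orth u (cpl c) → orth v c → orth u v
  antisymm : ∀ {u v}, orth u (cpl v) → orth v (cpl u) → u = v
  zero : ∀ {u}, orth u u → ∀ t, orth t u
  le_top : ∀ u, orth u (cpl top)
  join : ∀ {u v}, orth u v → ∃ s, ∀ t, orth t s ↔ orth t u ∧ orth t v
  diff : ∀ {u v}, orth u (cpl v) → ∃ d, orth u d ∧ ∀ t, orth t v ↔ orth t u ∧ orth t d
  coh : ∀ {e f g w w' v v' s s'},
    orth w (cpl e) → orth w' e → (∀ t, orth t f ↔ orth t w ∧ orth t w') →
    orth v (cpl e) → orth v' e → (∀ t, orth t g ↔ orth t v ∧ orth t v') →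
    orth s (cpl f) → orth s' f → (∀ t, orth t g ↔ orth t s ∧ orth t s') →
    ∃ y y', orth y (cpl w) ∧ orth y' w ∧ ∀ t, orth t g ↔ orth t y ∧ orth t y'

namespace QL

variable {L : Type} (Q : QL L)

/-- the order -/
def le (u v : L) : Prop := Q.orth u (Q.cpl v)

/-- `w` is the meet of the compatible events `u` and `v` -/
def IsMeet (w u v : L) : Prop :=
  Q.le w u ∧ ∃ w', Q.orth w' u ∧ ∀ t, Q.orth t v ↔ Q.orth t w ∧ Q.orth t w'

/-- compatibility -/
def Cpt (u v : L) : Prop := ∃ w, Q.IsMeet w u v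

/-- `s` is a finite partition of `c` -/
def Cov (c : L) (s : Set L) : Prop :=
  s.Finite ∧ (∀ w ∈ s, Q.le w c) ∧ (∀ w ∈ s, ∀ w' ∈ s, w ≠ w' → Q.orth w w') ∧
    ∀ t, Q.le t c → (∀ w ∈ s, Q.orth t w) → Q.orth t t

end QL

/-- a tiling with values in a logic -/
structure TSys {L : Type} (Q : QL L) where
  ev : Pos → (Tile → Prop) → L
  disj : ∀ z P P', (∀ τ, Legal τ → P τ → ¬ P' τ) → Q.orth (ev z P) (ev z P')
  cpl_ev : ∀ z P, Q.cpl (ev z P) = ev z fun τ => ¬ P τ
  or_ev : ∀ z P P' t, Q.orth t (ev z P) → Q.orth t (ev z P') → Q.orth t (ev z fun τ => P τ ∨ P' τ)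
  mat : ∀ ε z (R : Core × Bool → Prop),
    ev z (fun τ => R (outE ε τ)) = ev (z + ee (!ε)) fun τ => R (inE ε τ)

namespace TSys

variable {L : Type} {Q : QL L} (T : TSys Q)

/-- re-centred system -/
def shift (a : Pos) : TSys Q where
  ev z := T.ev (a + z)
  disj z := T.disj (a + z)
  cpl_ev z := T.cpl_ev (a + z)
  or_ev z := T.or_ev (a + z)
  mat ε z R := by rw [← add_assoc]; exact T.mat ε (a + z) R

/-- `c` is compatible with all events -/
def Cen (c : L) : Prop := ∀ z P, Q.Cpt c (T.ev z P)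

/-- under `c` the lines of rank below `ρ` are as in the model (phase zero) -/
def Det (ρ : ℕ) (c : L) : Prop :=
  (∀ z ρ', ρ' < ρ → IsRk ρ' (z (par ρ')) → Q.le c (T.ev z fun τ =>
    (τ.co (par ρ')).lab = (ms (par ρ') (z (par ρ')) (z (!par ρ'))).lab ∧
    (τ.co (par ρ')).fl = (ms (par ρ') (z (par ρ')) (z (!par ρ'))).fl ∧
    (ρ' + 1 < ρ → (τ.co (par ρ')).val = (ms (par ρ') (z (par ρ')) (z (!par ρ'))).val))) ∧
  ∀ z : Pos, 2 ∣ z false → Q.le c (T.ev z fun τ => (τ.co false).lab.star = false)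

/-- `w` forces the pattern of radius `r` around the origin to be that of the point `p` -/
def Forces (r : ℕ) (w : L) (p : S0) : Prop :=
  ∀ d : Pos, (∀ ε, |d ε| ≤ r) → Q.le w (T.ev d fun τ => τ = xx p.1 (p.2 + d))

/-- the cell where the row number `t` of rank at least `ρ + 1` meets the carrier `s` of rank `ρ`
in the band `β` -/
def cell (ρ : ℕ) (t β : ℤ) (s : ℕ) : Pos :=
  pt (par ρ) (β * sg (ρ + 2) + (oo ρ + s : ℕ) * sg ρ) (t * sg (ρ + 1))

/-- the digit partition for the lines of rank `ρ + 1` -/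
structure Atoms (ρ : ℕ) (c : L) (p : ℤ → L) : Prop where
  per : ∀ t, p (t + nn (ρ + 1)) = p t
  orth : ∀ t t' : ℤ, ¬ (nn (ρ + 1) : ℤ) ∣ t - t' → Q.orth (p t) (p t')
  cov : Q.Cov c (Set.range p)
  pas : ∀ t β s, s < cc ρ →
    Q.IsMeet (p t) c (T.ev (cell ρ t β s) fun τ => (τ.ci (par ρ)).val.val = 5)
  act : ∀ (t β : ℤ) (k : ℕ), 0 < k → k < nn (ρ + 1) →
    Q.IsMeet (p (t - k)) c (T.ev (cell ρ t β ((k - 1) % cc ρ)) fun τ =>
      (τ.ci (par ρ)).val.val ≠ 5 ∧ (τ.ci (!par ρ)).lab.ph.val = (k - 1) / cc ρ ∧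
        (τ.ci (!par ρ)).fl = false ∧ (τ.co (!par ρ)).fl = true)

end TSys

/-! ### Alternating groups and their cover -/

/-- the three-cycle `a ↦ b ↦ c ↦ a` -/
def cyc {α : Type} [DecidableEq α] (a b c : α) : Perm α := swap a b * swap b c

/-- three distinct elements -/
def D3 {α : Type} (a b c : α) : Prop := a ≠ b ∧ a ≠ c ∧ b ≠ c

/-- the alternating group of a set, inside the permutations of the ambient type -/
def AltOn {α : Type} [DecidableEq α] (E : Set α) : Subgroup (Perm α) :=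
  Subgroup.closure {g | ∃ a ∈ E, ∃ b ∈ E, ∃ c ∈ E, D3 a b c ∧ g = cyc a b c}

/-- a system of lifts of the three-cycles of `E` -/
structure AltSys {α G : Type} [Group G] (E : Set α) (y : α → α → α → G) : Prop where
  rot : ∀ a ∈ E, ∀ b ∈ E, ∀ c ∈ E, D3 a b c → y a b c = y b c a
  mul : ∀ k ∈ E, ∀ i ∈ E, ∀ l ∈ E, ∀ m ∈ E, D3 k i l → D3 i l m → k ≠ m →
    y k i l * y k l m = y i l m

/-- tracks -/
abbrev I := Fin 10

/-- relators of the cover -/
def hatRel : Set (FreeGroup (I × I × I)) :=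
  {w | (∃ a b c, ¬ D3 a b c ∧ w = FreeGroup.of (a, b, c)) ∨
    (∃ a b c, D3 a b c ∧ w = FreeGroup.of (a, b, c) * (FreeGroup.of (b, c, a))⁻¹) ∨
    ∃ k i l m, D3 k i l ∧ D3 i l m ∧ k ≠ m ∧
      w = FreeGroup.of (k, i, l) * FreeGroup.of (k, l, m) * (FreeGroup.of (i, l, m))⁻¹}

/-- the cover of the alternating group of the tracks -/
abbrev Hat := PresentedGroup hatRel

/-- generators of the cover -/
def X (a b c : I) : Hat := PresentedGroup.of (a, b, c)

/-- the central element -/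
def zz : Hat := X 0 1 2 ^ 3

/-- the subgroup of the cover over a set of tracks -/
def HatOn (S : Set I) : Subgroup Hat :=
  Subgroup.closure {g | ∃ a ∈ S, ∃ b ∈ S, ∃ c ∈ S, g = X a b c}

open Classical in
/-- the three-cycle, or the identity for a degenerate triple -/
noncomputable def cyc' (a b c : I) : Perm I := if D3 a b c then cyc a b c else 1

theorem cyc_rot {α : Type} [DecidableEq α] {a b c : α} (h : D3 a b c) : cyc a b c = cyc b c a := by
  obtain ⟨h1, h2, h3⟩ := h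
  ext x
  simp only [cyc, Perm.mul_apply, swap_apply_def]
  grind

theorem cyc_mul {α : Type} [DecidableEq α] {k i l m : α} (h : D3 k i l) (h' : D3 i l m)
    (_hkm : k ≠ m) : cyc k i l * cyc k l m = cyc i l m := by
  obtain ⟨h1, h2, h3⟩ := h
  obtain ⟨h4, h5, h6⟩ := h'
  ext x
  simp only [cyc, Perm.mul_apply, swap_apply_def]
  grind

/-- a normalised system over the tracks gives a homomorphism from the cover -/
def hatLift {G : Type} [Group G] (y : I → I → I → G) (h : AltSys Set.univ y)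
    (h0 : ∀ a b c, ¬ D3 a b c → y a b c = 1) : Hat →* G :=
  PresentedGroup.toGroup (f := fun T : I × I × I => y T.1 T.2.1 T.2.2) (by
    rintro r (⟨a, b, c, h1, rfl⟩ | ⟨a, b, c, h1, rfl⟩ | ⟨k, i, l, m, h1, h2, h3, rfl⟩)
    · simpa using h0 a b c h1
    · simp [h.rot a trivial b trivial c trivial h1]
    · simp [h.mul k trivial i trivial l trivial m trivial h1 h2 h3])

theorem hatLift_X {G : Type} [Group G] (y : I → I → I → G) (h : AltSys Set.univ y)
    (h0 : ∀ a b c, ¬ D3 a b c → y a b c = 1) (a b c : I) : hatLift y h h0 (X a b c) = y a b c :=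
  PresentedGroup.toGroup.of _

/-- projection of the cover -/
noncomputable def pH : Hat →* Perm I :=
  hatLift cyc' ⟨fun a _ b _ c _ h => by
      have : D3 b c a := ⟨h.2.2, h.1.symm, h.2.1.symm⟩
      simp only [cyc', if_pos h, if_pos this, cyc_rot h],
    fun k _ i _ l _ m _ h h' hkm => by
      have : D3 k l m := ⟨h.2.1, hkm, h'.2.2⟩
      simp only [cyc', if_pos h, if_pos h', if_pos this, cyc_mul h h' hkm]⟩
    fun a b c h => if_neg h

theorem pH_X {a b c : I} (h : D3 a b c) : pH (X a b c) = cyc a b c := by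
  exact (hatLift_X _ _ _ a b c).trans (if_pos h)

/-! ### The logic of commuting decompositions -/

/-- two homomorphisms with commuting images -/
def HOrth {G : Type} [Group G] (u v : Hat →* G) : Prop := ∀ g h, Commute (u g) (v h)

/-- a total homomorphism with a family of track subgroups -/
structure Frame (G : Type) [Group G] where
  κ : Hat →* G
  Γ : Set I → Subgroup G
  comm : ∀ S S', Disjoint S S' → ∀ g ∈ Γ S, ∀ h ∈ Γ S', Commute g h
  mem : ∀ S : Set I, 5 ≤ S.ncard → ∀ g ∈ HatOn S, κ g ∈ Γ S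

/-- idempotents of a frame -/
structure Idem {G : Type} [Group G] (F : Frame G) where
  e : Hat →* G
  e' : Hat →* G
  orth : HOrth e e'
  tot : ∀ g, F.κ g = e g * e' g
  mem : ∀ S : Set I, 5 ≤ S.ncard → ∀ g ∈ HatOn S, e g ∈ F.Γ S
  mem' : ∀ S : Set I, 5 ≤ S.ncard → ∀ g ∈ HatOn S, e' g ∈ F.Γ S

/-! ### The concrete group -/

/-- the set on which the group acts -/
abbrev SS := S0 × I

/-- points of a block -/
abbrev Om := Pos × I

open Classical in
/-- the permutation `σ` of the tracks over the set `U` -/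
noncomputable def vact (U : Set S0) : Perm I →* Perm SS where
  toFun σ := Equiv.prodCongrRight fun p => if p ∈ U then σ else 1
  map_one' := by ext1 ⟨p, i⟩; simp
  map_mul' σ σ' := by ext1 ⟨p, i⟩; by_cases h : p ∈ U <;> simp [h]

/-- translation of the tracks -/
def tr (z : I → Pos) : Perm SS where
  toFun q := (mv q.1 (z q.2), q.2)
  invFun q := (mv q.1 (-z q.2), q.2)
  left_inv q := by simp [mv]
  right_inv q := by simp [mv]

/-- the group -/
def AA : Subgroup (Perm SS) :=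
  Subgroup.closure ({g | ∃ U h, Loc U ∧ g = vact U (pH h)} ∪ {g | ∃ z, ∑ i, z i = 0 ∧ g = tr z})

/-- `g` acts on the block `o + Q` by `f o` for `o ∈ O` and trivially elsewhere -/
def IsAct (O : Set S0) (Q : Set Pos) (f : S0 → Perm Om) (g : Perm SS) : Prop :=
  (∀ o ∈ O, ∀ u ∈ Q, ∀ i, g (mv o u, i) = (mv o (f o (u, i)).1, (f o (u, i)).2)) ∧
    ∀ p i, (∀ o ∈ O, ∀ u ∈ Q, p ≠ mv o u) → g (p, i) = (p, i)

/-- products of vertical transpositions of the tracks `0, 1` -/
def IsSw {α : Type} (g : Perm (α × I)) : Prop :=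
  ∀ p, (∀ i, g (p, i) = (p, i)) ∨ ∀ i, g (p, i) = (p, swap (0 : I) 1 i)

/-- `g` is given by a local rule of radius `r` -/
def LocP (r : ℕ) (g : Perm SS) : Prop :=
  ∀ p i, ∃ (d : Pos) (j : I), (∀ ε, |d ε| ≤ r) ∧ ∀ q, Near r p q → g (q, i) = (mv q d, j)

/-- locally defined upper sets along the axis of the line `ε` -/
def Upper (ε : Bool) (A : Set SS) : Prop :=
  ∃ R : ℕ, (∀ p i, (R : ℤ) < p.2 ε → (p, i) ∈ A) ∧ (∀ p i, p.2 ε < -(R : ℤ) → (p, i) ∉ A) ∧
    ∀ p q : S0, p.2 ε = 0 → q.2 ε = 0 → Near R p q → ∀ (b : ℤ) i,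
      (mv p (pt ε b 0), i) ∈ A → (mv q (pt ε b 0), i) ∈ A

/-! ### The calculus of multisections -/

/-- an abstract group with lifts of the generators of the concrete group -/
structure Calc (G : Type) [Group G] where
  Φ : Set S0 → Hat →* G
  t : (I → Pos) → G
  π : G →* Perm SS
  t_add : ∀ z z', ∑ i, z i = 0 → ∑ i, z' i = 0 → t (z + z') = t z * t z'
  Φ_union : ∀ U V, Loc U → Loc V → Disjoint U V → ∀ g, Φ (U ∪ V) g = Φ U g * Φ V g
  Φ_orth : ∀ U V, Loc U → Loc V → Disjoint U V → HOrth (Φ U) (Φ V)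
  equiv : ∀ U z d a b c, Loc U → ∑ i, z i = 0 → z a = d → z b = d → z c = d →
    t z * Φ U (X a b c) * (t z)⁻¹ = Φ (sh d U) (X a b c)
  t_eq : ∀ ε (i k l m : I), D3 i k l → D3 i k m → l ≠ m →
    t (Pi.single i (ee ε) - Pi.single k (ee ε)) =
      t (Pi.single i (ee ε) - Pi.single l (ee ε)) * Φ Set.univ (X i k m) *
        (t (Pi.single i (ee ε) - Pi.single l (ee ε)))⁻¹ * (Φ Set.univ (X i k m))⁻¹
  gen : Subgroup.closure ({g | ∃ U h, Loc U ∧ g = Φ U h} ∪ {g | ∃ z, ∑ i, z i = 0 ∧ g = t z}) = ⊤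
  π_Φ : ∀ U h, Loc U → π (Φ U h) = vact U (pH h)
  π_t : ∀ z, ∑ i, z i = 0 → π (t z) = tr z

namespace Calc

variable {G : Type} [Group G] (C : Calc G)

/-- the central elements vanish -/
def Cube : Prop := ∀ U, Loc U → C.Φ U zz = 1

/-- transversal multisection -/
def msec (U : Set S0) (z : I → Pos) (h : Hat) : G := C.t z * C.Φ U h * (C.t z)⁻¹

/-- `ρ` lifts the alternating group of the block `Q` over `U` -/
def IsRho (U : Set S0) (Q : Set Pos) (ρ : AltOn (Q ×ˢ (Set.univ : Set I)) →* G) : Prop :=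
  ∀ (z : I → Pos) (a b c : I), ∑ i, z i = 0 → D3 a b c →
    ∀ h : cyc (z a, a) (z b, b) (z c, c) ∈ AltOn (Q ×ˢ (Set.univ : Set I)),
      z a ∈ Q → z b ∈ Q → z c ∈ Q → ρ ⟨_, h⟩ = C.msec U z (X a b c)

/-- the block subgroup -/
def KK (O : Set S0) (Q : Set Pos) : Subgroup G :=
  Subgroup.closure {g | ∃ U z a b c, Loc U ∧ U ⊆ O ∧ ∑ i, z i = 0 ∧ D3 a b c ∧
    z a ∈ Q ∧ z b ∈ Q ∧ z c ∈ Q ∧ g = C.msec U z (X a b c)}

/-- block elements acting by vertical transpositions -/
def Th : Subgroup G :=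
  Subgroup.closure {g | ∃ O Q, Loc O ∧ Q.Finite ∧ Free O Q ∧ g ∈ C.KK O Q ∧ IsSw (C.π g)}

end Calc

/-- a transversal multisection symbol -/
structure Sym where
  U : Set S0
  z : I → Pos
  a : I
  b : I
  c : I
  loc : Loc U
  sum : ∑ i, z i = 0
  d3 : D3 a b c

/-- the part of a symbol with base point in `D`, as a permutation -/
noncomputable def Sym.bar (s : Sym) (D : Set S0) : Perm SS :=
  tr s.z * vact (s.U ∩ D) (cyc s.a s.b s.c) * (tr s.z)⁻¹

/-- the three points of the symbol are within `r` of the base point -/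
def Sym.Rad (s : Sym) (r : ℕ) : Prop := ∀ ε, |s.z s.a ε| ≤ r ∧ |s.z s.b ε| ≤ r ∧ |s.z s.c ε| ≤ r

/-- flux of `g` through the level `y` of the configuration `k`, counted on columns in `J` -/
noncomputable def flux (g : Perm SS) (k : Vx) (J : Set ℤ) (y : ℤ) : ℤ :=
  ({q : Om | q.1 false ∈ J ∧ q.1 true ≤ y ∧ y < (g ((k, q.1), q.2)).1.2 true}.ncard : ℤ) -
    ({q : Om | q.1 false ∈ J ∧ y < q.1 true ∧ (g ((k, q.1), q.2)).1.2 true ≤ y}.ncard : ℤ)

/-- the area invariant of a word -/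
noncomputable def area (w : List Sym) (k : Vx) : ℤ :=
  flux (w.map fun s => s.bar {p | 0 ≤ p.2 false}).prod k Set.univ 0

/-- the inverse symbol -/
def Sym.inv (s : Sym) : Sym :=
  ⟨s.U, s.z, s.b, s.a, s.c, s.loc, s.sum, ⟨s.d3.1.symm, s.d3.2.2, s.d3.2.1⟩⟩

/-- the value of a symbol in a calculus -/
def Calc.val {G : Type} [Group G] (C : Calc G) (s : Sym) : G := C.msec s.U s.z (X s.a s.b s.c)

/-- almost invariant finite sets -/
def Fol {G Ω : Type} [Group G] [MulAction G Ω] (K : Finset G) (e : ℝ) (D : Set Ω) : Prop :=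
  D.Finite ∧ D.Nonempty ∧
    ∀ g ∈ K, ((symmDiff ((fun ω => g • ω) '' D) D).ncard : ℝ) ≤ e * D.ncard

/-- product amplitude -/
noncomputable def amp {J : Type} [Fintype J] (θ : J → ℝ) (ω : J → Bool) : ℝ :=
  ∏ j, if ω j then Real.sin (θ j) else Real.cos (θ j)

/-- permutation of the bits followed by flips -/
def flipE {J : Type} (γ : Perm J) (c : J → Bool) : (J → Bool) ≃ (J → Bool) where
  toFun ω j := xor (ω (γ.symm j)) (c (γ.symm j))
  invFun ω j := xor (ω (γ j)) (c j)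
  left_inv ω := by ext j; simp
  right_inv ω := by ext j; simp

/-- a box -/
def box (a b c d : ℤ) : Set Pos := {u | a ≤ u false ∧ u false ≤ b ∧ c ≤ u true ∧ u true ≤ d}

/-- a word acting trivially -/
def Triv (w : List Sym) : Prop := (w.map fun s => s.bar Set.univ).prod = 1

/-- product of truncated symbols -/
noncomputable def tprod (w : List (Sym × Set S0)) : Perm SS := (w.map fun s => s.1.bar s.2).prod

/-- a group with lifts of the one-cell generators -/
structure Pre (G : Type) [Group G] where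
  E : (Tile → Prop) → Hat →* G
  t : (I → Pos) → G
  π : G →* Perm SS
  t_add : ∀ z z', ∑ i, z i = 0 → ∑ i, z' i = 0 → t (z + z') = t z * t z'
  E_orth : ∀ P P', (∀ τ, Legal τ → P τ → ¬ P' τ) → HOrth (E P) (E P')
  E_or : ∀ P P', (∀ τ, Legal τ → P τ → ¬ P' τ) → ∀ g, E (fun τ => P τ ∨ P' τ) g = E P g * E P' g
  t_comm : ∀ P z a b c, ∑ i, z i = 0 → z a = 0 → z b = 0 → z c = 0 →
    Commute (t z) (E P (X a b c))
  mat : ∀ ε (R : Core × Bool → Prop) z a b c, ∑ i, z i = 0 → z a = -ee (!ε) → z b = -ee (!ε) →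
    z c = -ee (!ε) → E (fun τ => R (outE ε τ)) (X a b c) =
      t z * E (fun τ => R (inE ε τ)) (X a b c) * (t z)⁻¹
  t_eq : ∀ ε (i k l m : I), D3 i k l → D3 i k m → l ≠ m →
    t (Pi.single i (ee ε) - Pi.single k (ee ε)) =
      t (Pi.single i (ee ε) - Pi.single l (ee ε)) * E (fun _ => True) (X i k m) *
        (t (Pi.single i (ee ε) - Pi.single l (ee ε)))⁻¹ * (E (fun _ => True) (X i k m))⁻¹
  gen : Subgroup.closure ({g | ∃ P h, g = E P h} ∪ {g | ∃ z, ∑ i, z i = 0 ∧ g = t z}) = ⊤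
  π_E : ∀ P h, π (E P h) = vact {p | P (xx p.1 p.2)} (pH h)
  π_t : ∀ z, ∑ i, z i = 0 → π (t z) = tr z

/-- the structure of a strip of half-width `t` along the axis of the line `ε`: period `p` away
from the centres, finitely many types of segments and of centres -/
structure Strip (ε : Bool) (r p D t : ℕ) (ctr : ℤ → Prop) (sty : Vx → ℤ → Core × Fin 4)
    (cty : Vx → ℤ → Tile × Fin 4) : Prop where
  pos : 0 < p
  sep : ∀ m m', ctr m → ctr m' → m ≠ m' → 2 * (t : ℤ) < |m - m'|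
  sty_const : ∀ k b, (∀ m, ctr m → (D : ℤ) < |b - m|) → ∀ δ : ℤ, |δ| ≤ r →
    sty k (b + δ) = sty k b
  per : ∀ k b k' b', (∀ m, ctr m → (D : ℤ) < |b - m|) → (∀ m, ctr m → (D : ℤ) < |b' - m|) →
    sty k b = sty k' b' → (p : ℤ) ∣ b - b' → ∀ a : ℤ, |a| ≤ t →
      Near r (k, pt ε a b) (k', pt ε a b')
  cen : ∀ k m k' m', ctr m → ctr m' → cty k m = cty k' m' → (p : ℤ) ∣ m - m' ∧
    ∀ a δ : ℤ, |a| ≤ t → |δ| ≤ t → Near r (k, pt ε a (m + δ)) (k', pt ε a (m' + δ)) ∧
      sty k (m + δ) = sty k' (m' + δ)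
  deep : ∀ k b (β : ℤ), ∃ b', (∀ m, ctr m → (t : ℤ) < |b' - m|) ∧ sty k b' = sty k b ∧
    (p : ℤ) ∣ b' - β
  loc : ∃ R : ℕ, ∀ k b k' b', Near R (k, pt ε 0 b) (k', pt ε 0 b') →
    sty k b = sty k' b' ∧ (p : ℤ) ∣ b - b' ∧
      ∀ δ : ℤ, |δ| ≤ t → ctr (b + δ) → ctr (b' + δ) ∧ cty k (b + δ) = cty k' (b' + δ)

end Vale.Agent.P196
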