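import Vale.Agent.P196.AltF

/-! P196: the Carmichael presentation of the alternating groups. -/

namespace Vale.Agent.P196

open Equiv

theorem AltSys.inv {α G : Type} [Group G] {E : Set α} {y : α → α → α → G} (h : AltSys E y)
    {a b c d : α} (ha : a ∈ E) (hb : b ∈ E) (hc : c ∈ E) (hd : d ∈ E) (h3 : D3 a b c)
    (hda : d ≠ a) (hdb : d ≠ b) (hdc : d ≠ c) : y b a c = (y a b c)⁻¹ := by
  obtain ⟨h1, h2, h4⟩ := h3
  have e1 := h.mul a ha b hb c hc d hd ⟨h1, h2, h4⟩ ⟨h4, hdb.symm, hdc.symm⟩ hda.symm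
  have e2 := h.mul b hb a ha c hc d hd ⟨h1.symm, h4, h2⟩ ⟨h2, hda.symm, hdc.symm⟩ hdb.symm
  rw [← e1, ← mul_assoc] at e2
  exact eq_inv_of_mul_eq_one_left (by simpa using e2)

theorem AltSys.rot' {α G : Type} [Group G] {E : Set α} {y : α → α → α → G} (h : AltSys E y)
    {a b c : α} (ha : a ∈ E) (hb : b ∈ E) (hc : c ∈ E) (h3 : D3 a b c) : y a b c = y c a b :=
  (h.rot c hc a ha b hb ⟨h3.2.1.symm, h3.2.2.symm, h3.1⟩).symm

theorem AltSys.rel {α G : Type} [Group G] {E : Set α} {y : α → α → α → G} (h : AltSys E y)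
    {a b i j : α} (ha : a ∈ E) (hb : b ∈ E) (hi : i ∈ E) (hj : j ∈ E) (h3 : D3 a b i)
    (h3' : D3 a b j) (hij : i ≠ j) : y a b j * y a b i * y a b j = y a b i * y a b i := by
  obtain ⟨h1, h2, h4⟩ := h3
  obtain ⟨-, h5, h6⟩ := h3'
  have e0 := h.mul a ha b hb i hi j hj ⟨h1, h2, h4⟩ ⟨h4, h6, hij⟩ h5
  have e1 := h.mul a ha i hi b hb j hj ⟨h2, h1, h4.symm⟩ ⟨h4.symm, hij, h6⟩ h5
  have e2 := h.mul b hb i hi a ha j hj ⟨h4, h1.symm, h2.symm⟩ ⟨h2.symm, hij, h5⟩ h6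
  have r1 : y a i b = (y a b i)⁻¹ := by
    rw [h.rot' ha hi hb ⟨h2, h1, h4.symm⟩]
    exact h.inv ha hb hi hj ⟨h1, h2, h4⟩ h5.symm h6.symm hij.symm
  have r2 : y b i a = y a b i := h.rot' hb hi ha ⟨h4, h1.symm, h2.symm⟩
  have r3 : y b a j = (y a b j)⁻¹ := h.inv ha hb hj hi ⟨h1, h5, h6⟩ h2.symm h4.symm hij
  have r4 : y a i j = (y i a j)⁻¹ := h.inv hi ha hj hb ⟨h2.symm, hij, h5⟩ h4 h1.symm h6
  have r5 : y b i j = (y i b j)⁻¹ := h.inv hi hb hj ha ⟨h4.symm, hij, h6⟩ h2 h1 h5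
  rw [r4, r5, ← e1, ← e2, r1, r2, r3] at e0
  generalize y a b i = x at e0
  generalize y a b j = w at e0
  calc w * x * w = w * (x * (x * w⁻¹)⁻¹) * x := by group
    _ = x * x := by rw [e0]; group

/-- the lifts through two fixed points generate -/
theorem AltSys.gen {α G : Type} [Group G] {E : Set α} {y : α → α → α → G} (h : AltSys E y)
    (h4 : ∀ a ∈ E, ∀ b ∈ E, ∀ c ∈ E, D3 a b c → ∃ d ∈ E, d ≠ a ∧ d ≠ b ∧ d ≠ c)
    {k l : α} (hk : k ∈ E) (hl : l ∈ E) (hkl : k ≠ l) {K : Subgroup G}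
    (hK : ∀ a ∈ E, a ≠ k → a ≠ l → y k l a ∈ K) {a b c : α} (ha : a ∈ E) (hb : b ∈ E)
    (hc : c ∈ E) (h3 : D3 a b c) : y a b c ∈ K := by
  have hK' : ∀ a ∈ E, a ≠ k → a ≠ l → y l k a ∈ K := fun a ha h1 h2 => by
    obtain ⟨d, hd, d1, d2, d3⟩ := h4 k hk l hl a ha ⟨hkl, h1.symm, h2.symm⟩
    rw [h.inv hk hl ha hd ⟨hkl, h1.symm, h2.symm⟩ d1 d2 d3]
    exact inv_mem (hK a ha h1 h2)
  have mid : ∀ k ∈ E, ∀ l ∈ E, k ≠ l → (∀ a ∈ E, a ≠ k → a ≠ l → y k l a ∈ K) →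
      (∀ a ∈ E, a ≠ k → a ≠ l → y l k a ∈ K) → ∀ i ∈ E, ∀ m ∈ E, D3 i l m → y i l m ∈ K := by
    intro k hk l hl hkl H H' i hi m hm h3
    by_cases e1 : i = k
    · subst e1; exact H m hm h3.2.1.symm h3.2.2.symm
    by_cases e2 : m = k
    · subst e2
      rw [h.rot i hi l hl m hm h3]
      exact H' i hi e1 h3.1
    rw [← h.mul k hk i hi l hl m hm ⟨fun e => e1 e.symm, hkl, h3.1⟩ h3 fun e => e2 e.symm]
    refine mul_mem ?_ (H m hm e2 h3.2.2.symm)
    rw [h.rot' hk hi hl ⟨fun e => e1 e.symm, hkl, h3.1⟩]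
    exact H' i hi e1 h3.1
  have A := mid l hl k hk hkl.symm (fun a ha h1 h2 => hK' a ha h2 h1)
    fun a ha h1 h2 => hK a ha h2 h1
  have B : ∀ i ∈ E, ∀ m ∈ E, D3 k i m → y k i m ∈ K := fun i hi m hm h3 => by
    rw [h.rot' hk hi hm h3]
    exact A m hm i hi ⟨h3.2.1.symm, h3.2.2.symm, h3.1⟩
  by_cases e1 : a = k
  · subst e1; exact B b hb c hc h3
  by_cases e2 : b = k
  · subst e2; exact A a ha c hc h3
  by_cases e3 : c = k
  · subst e3
    rw [h.rot' ha hb hc h3]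
    exact B a ha b hb ⟨h3.2.1.symm, h3.2.2.symm, h3.1⟩
  rw [← h.mul k hk a ha b hb c hc ⟨fun e => e1 e.symm, fun e => e2 e.symm, h3.1⟩ h3
    fun e => e3 e.symm]
  exact mul_mem (B a ha b hb ⟨fun e => e1 e.symm, fun e => e2 e.symm, h3.1⟩)
    (B b hb c hc ⟨fun e => e2 e.symm, fun e => e3 e.symm, h3.2.2⟩)

theorem cyc_sys {α : Type} [DecidableEq α] (E : Set α) : AltSys E (cyc : α → α → α → Perm α) :=
  ⟨fun _ _ _ _ _ _ h => cyc_rot h, fun _ _ _ _ _ _ _ _ h h' e => cyc_mul h h' e⟩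

theorem cyc_cube {α : Type} [DecidableEq α] {a b c : α} (h : D3 a b c) : cyc a b c ^ 3 = 1 := by
  obtain ⟨h1, h2, h3⟩ := h
  ext x
  simp only [pow_succ, pow_zero, one_mul, cyc, Perm.mul_apply, swap_apply_def, Perm.one_apply]
  grind

/-- coset enumeration -/
theorem HatA_coset {α H : Type} [Group H] {x : α → H} {F : Set α} {m : α}
    (h3 : ∀ i ∈ insert m F, x i * x i = (x i)⁻¹)
    (h2 : ∀ i ∈ insert m F, ∀ j ∈ insert m F, i ≠ j → x i * x j = (x j)⁻¹ * (x i)⁻¹)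
    (hm : m ∉ F) {p : H} (hp : p ∈ Subgroup.closure (x '' insert m F)) :
    ∃ d ∈ Subgroup.closure (x '' F), p = d ∨ p = x m * d ∨ p = (x m)⁻¹ * d ∨
      ∃ i ∈ F, p = x i * (x m)⁻¹ * d := by
  set D := Subgroup.closure (x '' F) with hD
  have hx : ∀ i ∈ F, x i ∈ D := fun i hi => Subgroup.subset_closure ⟨i, hi, rfl⟩
  have hmm : m ∈ insert m F := Set.mem_insert _ _
  have key : ∀ i ∈ F, (x i)⁻¹ * x m = x i * (x m)⁻¹ * (x i)⁻¹ := fun i hi => by
    have hi' : i ∈ insert m F := Set.mem_insert_of_mem _ hi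
    rw [← h3 i hi', mul_assoc, h2 i hi' m hmm fun e => hm (e ▸ hi), h3 i hi', mul_assoc]
  have step : ∀ j ∈ insert m F, ∀ p : H,
      (∃ d ∈ D, p = d ∨ p = x m * d ∨ p = (x m)⁻¹ * d ∨ ∃ i ∈ F, p = x i * (x m)⁻¹ * d) →
      ∃ d ∈ D, x j * p = d ∨ x j * p = x m * d ∨ x j * p = (x m)⁻¹ * d ∨
        ∃ i ∈ F, x j * p = x i * (x m)⁻¹ * d := by
    rintro j hj p ⟨d, hd, hp⟩
    rcases hj with rfl | hj
    · rcases hp with rfl | rfl | rfl | ⟨i, hi, rfl⟩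
      · exact ⟨p, hd, Or.inr (Or.inl rfl)⟩
      · exact ⟨d, hd, Or.inr (Or.inr (Or.inl (by rw [← mul_assoc, h3 j hmm])))⟩
      · exact ⟨d, hd, Or.inl (by group)⟩
      · have hi' : i ∈ insert j F := Set.mem_insert_of_mem _ hi
        refine ⟨(x i)⁻¹ * d, mul_mem (inv_mem (hx i hi)) hd, Or.inr (Or.inr (Or.inr ⟨i, hi, ?_⟩))⟩
        have e1 := h2 j hmm i hi' fun e => hm (e ▸ hi)
        have e2 : (x j)⁻¹ * (x j)⁻¹ = x j := by rw [← mul_inv_rev, h3 j hmm, inv_inv]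
        calc x j * (x i * (x j)⁻¹ * d) = (x j * x i) * (x j)⁻¹ * d := by group
          _ = (x i)⁻¹ * ((x j)⁻¹ * (x j)⁻¹) * d := by rw [e1]; group
          _ = _ := by rw [e2, key i hi]; group
    · have hj' : j ∈ insert m F := Set.mem_insert_of_mem _ hj
      have hjm : j ≠ m := fun e => hm (e ▸ hj)
      rcases hp with rfl | rfl | rfl | ⟨i, hi, rfl⟩
      · exact ⟨_, mul_mem (hx j hj) hd, Or.inl rfl⟩
      · refine ⟨(x j)⁻¹ * d, mul_mem (inv_mem (hx j hj)) hd, Or.inr (Or.inr (Or.inl ?_))⟩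
        rw [← mul_assoc, h2 j hj' m hmm hjm, mul_assoc]
      · exact ⟨d, hd, Or.inr (Or.inr (Or.inr ⟨j, hj, by group⟩))⟩
      · have hi' : i ∈ insert m F := Set.mem_insert_of_mem _ hi
        by_cases e : j = i
        · subst e
          refine ⟨x j * d, mul_mem (hx j hj) hd, Or.inr (Or.inl ?_)⟩
          calc x j * (x j * (x m)⁻¹ * d) = (x j * x j) * (x m)⁻¹ * d := by group
            _ = _ := by rw [h3 j hj', ← h2 m hmm j hj' hjm.symm]; group
        · refine ⟨(x i)⁻¹ * x j * d, mul_mem (mul_mem (inv_mem (hx i hi)) (hx j hj)) hd,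
            Or.inr (Or.inr (Or.inr ⟨i, hi, ?_⟩))⟩
          calc x j * (x i * (x m)⁻¹ * d) = (x j * x i) * (x m)⁻¹ * d := by group
            _ = (x i)⁻¹ * ((x j)⁻¹ * (x m)⁻¹) * d := by rw [h2 j hj' i hi' e]; group
            _ = ((x i)⁻¹ * x m) * x j * d := by rw [← h2 m hmm j hj' hjm.symm]; group
            _ = _ := by rw [key i hi]; group
  induction hp using Subgroup.closure_induction_left with
  | one => exact ⟨1, one_mem _, Or.inl rfl⟩
  | mul_left g hg p _ ih =>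
    obtain ⟨j, hj, rfl⟩ := hg
    exact step j hj p ih
  | inv_mul_cancel g hg p _ ih =>
    obtain ⟨j, hj, rfl⟩ := hg
    rw [← h3 j hj, mul_assoc]
    exact step j hj _ (step j hj p ih)

theorem HatA_inj {α G : Type} [DecidableEq α] [Group G] {a b : α} (hab : a ≠ b) {x : α → G}
    {F : Set α} (hF : F.Finite) (hF' : ∀ i ∈ F, i ≠ a ∧ i ≠ b)
    (h3 : ∀ i ∈ F, x i * x i = (x i)⁻¹)
    (h2 : ∀ i ∈ F, ∀ j ∈ F, i ≠ j → x i * x j = (x j)⁻¹ * (x i)⁻¹) :
    ∀ p ∈ Subgroup.closure ((fun i => (x i, cyc a b i)) '' F), p.2 = 1 → p.1 = 1 := by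
  induction F, hF using Set.Finite.induction_on with
  | empty =>
    intro p hp _
    rw [Set.image_empty, Subgroup.closure_empty, Subgroup.mem_bot] at hp
    rw [hp]; rfl
  | @insert m F hm _ ih =>
    intro p hp h1
    have d3 : ∀ i ∈ insert m F, D3 a b i := fun i hi => ⟨hab, (hF' i hi).1.symm, (hF' i hi).2.symm⟩
    have c3 : ∀ i ∈ insert m F, cyc a b i * cyc a b i = (cyc a b i)⁻¹ := fun i hi => by
      rw [eq_inv_iff_mul_eq_one, ← cyc_cube (d3 i hi)]; simp [pow_succ]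
    obtain ⟨d, hd, H⟩ := HatA_coset (x := fun i => (x i, cyc a b i)) (fun i hi =>
      Prod.ext (h3 i hi) (c3 i hi)) (fun i hi j hj e => Prod.ext (h2 i hi j hj e) (by
        have := (cyc_sys Set.univ).rel trivial trivial trivial trivial (d3 j hj) (d3 i hi) e.symm
        rw [c3 j hj] at this
        show cyc a b i * cyc a b j = (cyc a b j)⁻¹ * (cyc a b i)⁻¹
        rw [← this]; group)) hm hp
    have hmm : m ∈ insert m F := Set.mem_insert _ _
    have dm : d.2 m = m := by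
      have : d.2 ∈ AltOn (insert a (insert b F)) := by
        have : Subgroup.closure ((fun i => (x i, cyc a b i)) '' F) ≤
            (AltOn (insert a (insert b F))).comap (MonoidHom.snd G (Perm α)) := by
          refine (Subgroup.closure_le _).2 ?_
          rintro _ ⟨i, hi, rfl⟩
          exact cyc_mem_AltOn (by simp) (by simp) (by simp [hi]) (d3 i (Set.mem_insert_of_mem _ hi))
        exact this hd
      exact AltOn_fix this (by simp [hm, (hF' m hmm).1, (hF' m hmm).2])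
    have pm : p.2 m = m := by rw [h1]; rfl
    obtain ⟨m1, m2, m3⟩ := d3 m hmm
    rcases H with rfl | rfl | rfl | ⟨i, hi, rfl⟩
    · exact ih (fun i hi => hF' i (Set.mem_insert_of_mem _ hi))
        (fun i hi => h3 i (Set.mem_insert_of_mem _ hi))
        (fun i hi j hj => h2 i (Set.mem_insert_of_mem _ hi) j (Set.mem_insert_of_mem _ hj)) p hd h1
    · exfalso
      simp [dm, cyc_apply (d3 m hmm), m2.symm, m3.symm] at pm
      exact m2 pm
    · exfalso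
      have : D3 b a m := ⟨m1.symm, m3, m2⟩
      simp [dm, cyc_inv (d3 m hmm), cyc_apply this, m2.symm, m3.symm] at pm
      exact m3 pm
    · exfalso
      have : D3 b a m := ⟨m1.symm, m3, m2⟩
      simp [dm, cyc_inv (d3 m hmm), cyc_apply this, m2.symm, m3.symm,
        cyc_apply (d3 i (Set.mem_insert_of_mem _ hi)), m1.symm] at pm
      exact hm (pm ▸ hi)

/-- a system of lifts of order three extends to a homomorphism -/
theorem car_hom {α G : Type} [DecidableEq α] [Group G] {E : Set α} (hE : E.Finite)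
    (h4 : ∀ a ∈ E, ∀ b ∈ E, ∀ c ∈ E, D3 a b c → ∃ d ∈ E, d ≠ a ∧ d ≠ b ∧ d ≠ c)
    {y : α → α → α → G} (hy : AltSys E y)
    (h3 : ∀ a ∈ E, ∀ b ∈ E, ∀ c ∈ E, D3 a b c → y a b c ^ 3 = 1) :
    ∃ ρ : AltOn E →* G, ∀ a ∈ E, ∀ b ∈ E, ∀ c ∈ E, D3 a b c →
      ∀ hm : cyc a b c ∈ AltOn E, ρ ⟨cyc a b c, hm⟩ = y a b c := by
  by_cases h0 : ∃ a ∈ E, ∃ b ∈ E, a ≠ b
  swap
  · exact ⟨1, fun a ha b hb c _ h _ => absurd ⟨a, ha, b, hb, h.1⟩ h0⟩
  obtain ⟨a, ha, b, hb, hab⟩ := h0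
  set F : Set α := {i | i ∈ E ∧ i ≠ a ∧ i ≠ b} with hF
  have c3 : ∀ i ∈ F, y a b i * y a b i = (y a b i)⁻¹ := fun i hi => by
    rw [eq_inv_iff_mul_eq_one, ← h3 a ha b hb i hi.1 ⟨hab, hi.2.1.symm, hi.2.2.symm⟩]
    simp [pow_succ]
  have inj := HatA_inj hab (x := y a b) (F := F) (hE.subset fun i hi => hi.1) (fun i hi => hi.2) c3
    (fun i hi j hj e => by
      have := hy.rel ha hb hj.1 hi.1 ⟨hab, hj.2.1.symm, hj.2.2.symm⟩
        ⟨hab, hi.2.1.symm, hi.2.2.symm⟩ e.symm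
      rw [c3 j hj] at this
      rw [← this]; group)
  set D := Subgroup.closure ((fun i => (y a b i, cyc a b i)) '' F) with hD
  have sys : AltSys E fun p q r => (y p q r, cyc p q r) :=
    ⟨fun p hp q hq r hr h => Prod.ext (hy.rot p hp q hq r hr h) (cyc_rot h),
      fun k hk i hi l hl m hm h h' e => Prod.ext (hy.mul k hk i hi l hl m hm h h' e)
        (cyc_mul h h' e)⟩
  have all : ∀ p ∈ E, ∀ q ∈ E, ∀ r ∈ E, D3 p q r → (y p q r, cyc p q r) ∈ D :=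
    fun p hp q hq r hr h => sys.gen h4 ha hb hab (K := D)
      (fun i hi h1 h2 => Subgroup.subset_closure ⟨i, ⟨hi, h1, h2⟩, rfl⟩) hp hq hr h
  have hle : ∀ p : D, p.1.2 ∈ AltOn E := fun p => by
    have : D ≤ (AltOn E).comap (MonoidHom.snd G (Perm α)) := by
      refine (Subgroup.closure_le _).2 ?_
      rintro _ ⟨i, hi, rfl⟩
      exact cyc_mem_AltOn ha hb hi.1 ⟨hab, hi.2.1.symm, hi.2.2.symm⟩
    exact this p.2
  let s : D →* AltOn E := ((MonoidHom.snd G (Perm α)).comp D.subtype).codRestrict _ hle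
  have bij : Function.Bijective s := by
    constructor
    · rw [injective_iff_map_eq_one]
      intro p hp
      have h1 : p.1.2 = 1 := congrArg Subtype.val hp
      exact Subtype.ext (Prod.ext (inj p.1 p.2 h1) h1)
    · rintro ⟨σ, hσ⟩
      have : AltOn E ≤ D.map (MonoidHom.snd G (Perm α)) := by
        refine (Subgroup.closure_le _).2 ?_
        rintro _ ⟨p, hp, q, hq, r, hr, h, rfl⟩
        exact ⟨_, all p hp q hq r hr h, rfl⟩
      obtain ⟨p, hp, e⟩ := this hσ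
      exact ⟨⟨p, hp⟩, Subtype.ext e⟩
  let e : D ≃* AltOn E := MulEquiv.ofBijective s bij
  refine ⟨((MonoidHom.fst G (Perm α)).comp D.subtype).comp e.symm.toMonoidHom, ?_⟩
  intro p hp q hq r hr h hm
  have : e.symm ⟨cyc p q r, hm⟩ = ⟨_, all p hp q hq r hr h⟩ := by
    rw [MulEquiv.symm_apply_eq]; rfl
  simp [this]

end Vale.Agent.P196
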