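import Vale.Agent.P196.HatA

/-! P196: the cover of the alternating group of the tracks. -/

namespace Vale.Agent.P196

open Equiv

theorem X_degen {a b c : I} (h : ¬ D3 a b c) : X a b c = 1 := by
  exact PresentedGroup.one_of_mem (rels := hatRel) (Or.inl ⟨a, b, c, h, rfl⟩)

theorem X_sys : AltSys Set.univ X := by
  constructor
  · intro a _ b _ c _ h
    exact PresentedGroup.mk_eq_mk_of_mul_inv_mem (rels := hatRel) (Or.inr (Or.inl ⟨a, b, c, h, rfl⟩))
  · intro k _ i _ l _ m _ h h' e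
    exact PresentedGroup.mk_eq_mk_of_mul_inv_mem (rels := hatRel)
      (Or.inr (Or.inr ⟨k, i, l, m, h, h', e, rfl⟩))

theorem fresh3 (a b c : I) : ∃ d, d ≠ a ∧ d ≠ b ∧ d ≠ c := by
  obtain ⟨i, hi⟩ := exists_fresh {a, b, c} (lt_of_le_of_lt Finset.card_le_three (by norm_num))
  exact ⟨i, by simpa [not_or] using hi⟩

theorem fresh_list (L : List I) (h : L.length < 10) : ∃ d, d ∉ L := by
  obtain ⟨i, hi⟩ := exists_fresh L.toFinset (lt_of_le_of_lt (List.toFinset_card_le L) h)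
  exact ⟨i, by simpa using hi⟩

theorem X_inv (a b c : I) : (X a b c)⁻¹ = X b a c := by
  by_cases h : D3 a b c
  · obtain ⟨d, h1, h2, h3⟩ := fresh3 a b c
    exact (X_sys.inv trivial trivial trivial trivial h h1 h2 h3).symm
  · rw [X_degen h, X_degen fun h' : D3 b a c => h ⟨h'.1.symm, h'.2.2, h'.2.1⟩, inv_one]

theorem hat_ext {G : Type} [Group G] {u v : Hat →* G}
    (h : ∀ a b c, D3 a b c → u (X a b c) = v (X a b c)) : u = v := by
  refine PresentedGroup.ext fun ⟨a, b, c⟩ => ?_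
  by_cases e : D3 a b c
  · exact h a b c e
  · show u (X a b c) = v (X a b c)
    rw [X_degen e, map_one, map_one]

theorem hatOn_univ : HatOn Set.univ = ⊤ := by
  rw [eq_top_iff, ← PresentedGroup.closure_range_of hatRel]
  refine Subgroup.closure_mono ?_
  rintro _ ⟨⟨a, b, c⟩, rfl⟩
  exact ⟨a, trivial, b, trivial, c, trivial, rfl⟩

theorem hat_le {K : Subgroup Hat} (h : ∀ a b c, D3 a b c → X a b c ∈ K) (g : Hat) : g ∈ K := by
  have : HatOn Set.univ ≤ K := by
    refine (Subgroup.closure_le _).2 ?_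
    rintro _ ⟨a, -, b, -, c, -, rfl⟩
    by_cases e : D3 a b c
    · exact h a b c e
    · rw [X_degen e]; exact one_mem _
  exact this (hatOn_univ ▸ Subgroup.mem_top g)

theorem univ_h4 : ∀ a ∈ (Set.univ : Set I), ∀ b ∈ (Set.univ : Set I), ∀ c ∈ (Set.univ : Set I),
    D3 a b c → ∃ d ∈ (Set.univ : Set I), d ≠ a ∧ d ≠ b ∧ d ≠ c := fun a _ b _ c _ _ =>
  let ⟨d, hd⟩ := fresh3 a b c; ⟨d, trivial, hd⟩

theorem HatB_cube1 {a b i j : I} (h : D3 a b i) (h' : D3 a b j) : X a b i ^ 3 = X a b j ^ 3 := by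
  by_cases e : i = j
  · rw [e]
  have e1 := X_sys.rel trivial trivial trivial trivial h h' e
  have e2 := X_sys.rel trivial trivial trivial trivial h' h fun e' => e e'.symm
  generalize X a b i = x at e1 e2
  generalize X a b j = w at e1 e2
  calc x ^ 3 = (w * x * w) * x := by rw [e1]; simp [pow_succ]
    _ = w * (x * w * x) := by group
    _ = w ^ 3 := by rw [e2]; simp [pow_succ, mul_assoc]

theorem HatB_cube2 {a b c d : I} (h : D3 a b c) (h' : D3 b c d) : X a b c ^ 3 = X b c d ^ 3 := by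
  rw [X_sys.rot a trivial b trivial c trivial h]
  exact HatB_cube1 ⟨h.2.2, h.1.symm, h.2.1.symm⟩ h'

theorem HatB_cube {a b c : I} (h : D3 a b c) : X a b c ^ 3 = zz := by
  obtain ⟨d, hd⟩ := fresh_list [a, b, c, 0, 1, 2] (by simp)
  obtain ⟨e, he⟩ := fresh_list [a, b, c, 0, 1, 2, d] (by simp)
  simp only [List.mem_cons, List.not_mem_nil, or_false, not_or] at hd he
  obtain ⟨d1, d2, d3, d4, d5, d6⟩ := hd
  obtain ⟨e1, e2, e3, e4, e5, e6, e7⟩ := he
  have s1 : D3 a b d := ⟨h.1, Ne.symm d1, Ne.symm d2⟩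
  have s2 : D3 b d e := ⟨Ne.symm d2, Ne.symm e2, Ne.symm e7⟩
  have s3 : D3 d e 0 := ⟨Ne.symm e7, d4, e4⟩
  have s4 : D3 e 0 1 := ⟨e4, e5, by decide⟩
  have s5 : D3 (0 : I) 1 2 := ⟨by decide, by decide, by decide⟩
  rw [HatB_cube1 h s1, HatB_cube2 s1 s2, HatB_cube2 s2 s3, HatB_cube2 s3 s4, HatB_cube2 s4 s5, zz]

theorem HatB_comm (g : Hat) : Commute zz g := by
  have : g ∈ Subgroup.centralizer {zz} := hat_le (fun a b c h => by
    rw [Subgroup.mem_centralizer_singleton_iff, ← HatB_cube h]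
    group) g
  exact (Subgroup.mem_centralizer_singleton_iff.1 this).symm

theorem HatB_sq : zz * zz = 1 := by
  have h : D3 (0 : I) 1 2 := ⟨by decide, by decide, by decide⟩
  have h' : D3 (1 : I) 0 2 := ⟨by decide, by decide, by decide⟩
  have := HatB_cube h'
  rw [← X_inv, inv_pow, HatB_cube h] at this
  calc zz * zz = zz * zz⁻¹ := by rw [this]
    _ = 1 := mul_inv_cancel _

theorem HatB_pH : pH zz = 1 := by
  have h : D3 (0 : I) 1 2 := ⟨by decide, by decide, by decide⟩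
  rw [zz, map_pow, pH_X h, cyc_cube h]

theorem HatB_mem (g : Hat) : pH g ∈ AltOn (Set.univ : Set I) :=
  hat_le (K := (AltOn (Set.univ : Set I)).comap pH) (fun a b c h => by
    rw [Subgroup.mem_comap, pH_X h]; exact cyc_mem_AltOn trivial trivial trivial h) g

theorem HatB_ker {g : Hat} (h : pH g = 1) : g = 1 ∨ g = zz := by
  let N : Subgroup Hat :=
    { carrier := {g | g = 1 ∨ g = zz}
      one_mem' := Or.inl rfl
      mul_mem' := by
        rintro a b (rfl | rfl) (rfl | rfl)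
        · left; simp
        · right; simp
        · right; simp
        · left; exact HatB_sq
      inv_mem' := by
        rintro a (rfl | rfl)
        · left; simp
        · right; exact inv_eq_of_mul_eq_one_right HatB_sq }
  haveI : N.Normal := ⟨by
    rintro a (rfl | rfl) g
    · left; simp
    · right; rw [← (HatB_comm g).eq]; simp⟩
  obtain ⟨ρ, hρ⟩ := car_hom (E := (Set.univ : Set I)) Set.finite_univ univ_h4
    (y := fun a b c => QuotientGroup.mk' N (X a b c))
    ⟨fun a _ b _ c _ h => by rw [X_sys.rot a trivial b trivial c trivial h],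
      fun k _ i _ l _ m _ h h' e => by
        rw [← map_mul, X_sys.mul k trivial i trivial l trivial m trivial h h' e]⟩
    (fun a _ b _ c _ h => by
      rw [← map_pow, HatB_cube h]
      exact (QuotientGroup.eq_one_iff _).2 (Or.inr rfl))
  have e : ρ.comp (pH.codRestrict _ HatB_mem) = QuotientGroup.mk' N := hat_ext fun a b c h => by
    rw [← hρ a trivial b trivial c trivial h (cyc_mem_AltOn trivial trivial trivial h)]
    exact congrArg ρ (Subtype.ext (pH_X h))
  have : QuotientGroup.mk' N g = 1 := by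
    rw [← e]
    show ρ _ = 1
    rw [← map_one ρ]
    exact congrArg ρ (Subtype.ext h)
  exact (QuotientGroup.eq_one_iff _).1 this

theorem D3.map {α β : Type} {f : α → β} (hf : Function.Injective f) {a b c : α} (h : D3 a b c) :
    D3 (f a) (f b) (f c) := ⟨hf.ne h.1, hf.ne h.2.1, hf.ne h.2.2⟩

theorem conj_X (g : Hat) (a b c : I) :
    g * X a b c * g⁻¹ = X (pH g a) (pH g b) (pH g c) := by
  by_cases h : D3 a b c
  · have h' := h.map (pH g).injective
    have e : pH (g * X a b c * g⁻¹ * (X (pH g a) (pH g b) (pH g c))⁻¹) = 1 := by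
      rw [map_mul, map_mul, map_mul, map_inv, map_inv, pH_X h, pH_X h', cyc_conj, mul_inv_cancel]
    rcases HatB_ker e with e | e
    · exact mul_inv_eq_one.1 e
    · rw [mul_inv_eq_iff_eq_mul] at e
      have e1 : (g * X a b c * g⁻¹) ^ 3 = zz := by
        rw [conj_pow, HatB_cube h, ← (HatB_comm g).eq]; simp
      rw [e, (HatB_comm _).mul_pow, HatB_cube h', mul_eq_right, pow_succ, pow_two, HatB_sq,
        one_mul] at e1
      rw [e, e1, one_mul]
  · rw [X_degen h, X_degen fun h' : D3 (pH g a) (pH g b) (pH g c) =>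
      h ⟨fun e => h'.1 (e ▸ rfl), fun e => h'.2.1 (e ▸ rfl), fun e => h'.2.2 (e ▸ rfl)⟩]
    simp

theorem X_comm {k i l j m : I} (h : D3 k i l) (h1 : D3 k i j) (h2 : D3 k l m) (hjl : j ≠ l)
    (him : i ≠ m) (hjm : j ≠ m) :
    X k i l = X k i j * X k l m * (X k i j)⁻¹ * (X k l m)⁻¹ := by
  rw [conj_X, pH_X h1, cyc_apply h1, cyc_apply h1, cyc_apply h1, if_pos rfl, if_neg h.2.1.symm,
    if_neg h.2.2.symm, if_neg hjl.symm, if_neg h2.2.1.symm, if_neg him.symm, if_neg hjm.symm,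
    ← X_sys.mul k trivial i trivial l trivial m trivial h ⟨h.2.2, him, h2.2.2⟩ h2.2.1]
  simp

theorem X_cube {a b c : I} (h : D3 a b c) : X a b c ^ 3 = zz := by
  exact HatB_cube h

theorem zz_comm (g : Hat) : Commute zz g := by
  exact HatB_comm g

theorem zz_sq : zz * zz = 1 := by
  exact HatB_sq

theorem pH_zz : pH zz = 1 := by
  exact HatB_pH

theorem ker_pH {g : Hat} (h : pH g = 1) : g = 1 ∨ g = zz := by
  exact HatB_ker h

theorem pH_mem (g : Hat) : pH g ∈ AltOn (Set.univ : Set I) := by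
  exact HatB_mem g

theorem pH_surj {S : Set I} {σ : Perm I} (h : σ ∈ AltOn S) : ∃ g ∈ HatOn S, pH g = σ := by
  have : AltOn S ≤ (HatOn S).map pH := by
    refine (Subgroup.closure_le _).2 ?_
    rintro _ ⟨a, ha, b, hb, c, hc, h3, rfl⟩
    exact ⟨X a b c, Subgroup.subset_closure ⟨a, ha, b, hb, c, hc, rfl⟩, pH_X h3⟩
  exact this h

theorem exists_pH (S : Finset I) (hS : S.card ≤ 8) (f : I → I) (hf : Set.InjOn f S) :
    ∃ g : Hat, ∀ a ∈ S, pH g a = f a := by
  obtain ⟨σ, hσ⟩ := Perm.exists_extending_pair (fun x : S => (x : I)) (fun x : S => f x)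
    Subtype.val_injective fun x y e => Subtype.ext (hf x.2 y.2 e)
  obtain ⟨a, ha⟩ := exists_fresh S (by omega)
  obtain ⟨b, hb⟩ := exists_fresh (insert a S) (lt_of_le_of_lt (Finset.card_insert_le _ _) (by omega))
  rw [Finset.mem_insert, not_or] at hb
  rcases AltOn_dichotomy (E := Set.univ) (g := σ) Set.finite_univ (fun x hx => absurd trivial hx)
    (a := b) (b := a) trivial trivial hb.1 with h | h
  · obtain ⟨g, -, e⟩ := pH_surj h
    exact ⟨g, fun x hx => by rw [e]; exact hσ ⟨x, hx⟩⟩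
  · obtain ⟨g, -, e⟩ := pH_surj h
    refine ⟨g, fun x hx => ?_⟩
    rw [e, Perm.mul_apply, swap_apply_of_ne_of_ne (fun e : x = b => hb.2 (e ▸ hx))
      fun e : x = a => ha (e ▸ hx)]
    exact hσ ⟨x, hx⟩

theorem exists_pH4 {k i l m k' i' l' m' : I} (h : D3 k i l) (h' : D3 i l m) (e : k ≠ m)
    (g : D3 k' i' l') (g' : D3 i' l' m') (e' : k' ≠ m') :
    ∃ γ : Hat, pH γ k = k' ∧ pH γ i = i' ∧ pH γ l = l' ∧ pH γ m = m' := by
  obtain ⟨h1, h2, h3⟩ := h
  obtain ⟨-, h5, h6⟩ := h'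
  obtain ⟨g1, g2, g3⟩ := g
  obtain ⟨-, g5, g6⟩ := g'
  obtain ⟨γ, hγ⟩ := exists_pH {k, i, l, m} (Finset.card_le_four.trans (by norm_num))
    (fun j => if j = k then k' else if j = i then i' else if j = l then l' else m') (by
      intro x hx y hy e
      simp only [Finset.coe_insert, Finset.coe_singleton, Set.mem_insert_iff,
        Set.mem_singleton_iff] at hx hy
      grind)
  exact ⟨γ, by simpa using hγ k (by simp), by simpa [h1.symm] using hγ i (by simp),
    by simpa [h2.symm, h3.symm] using hγ l (by simp),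
    by simpa [e.symm, h5.symm, h6.symm] using hγ m (by simp)⟩

theorem exists_pH3 {k i l k' i' l' : I} (h : D3 k i l) (g : D3 k' i' l') :
    ∃ γ : Hat, pH γ k = k' ∧ pH γ i = i' ∧ pH γ l = l' := by
  obtain ⟨m, m1, m2, m3⟩ := fresh3 k i l
  obtain ⟨n, n1, n2, n3⟩ := fresh3 k' i' l'
  obtain ⟨γ, a, b, c, -⟩ := exists_pH4 h ⟨h.2.2, m2.symm, m3.symm⟩ m1.symm g
    ⟨g.2.2, n2.symm, n3.symm⟩ n1.symm
  exact ⟨γ, a, b, c⟩

theorem pH_altOn {S : Set I} {g : Hat} (hg : ∀ a, a ∉ S → pH g a = a) : pH g ∈ AltOn S :=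
  AltOn_of_fix Set.finite_univ (Set.subset_univ S) (pH_mem g) hg

theorem mem_of_pH_eq {K : Subgroup Hat} (hz : zz ∈ K) {g g' : Hat} (h : g' ∈ K)
    (e : pH g' = pH g) : g ∈ K := by
  have : pH (g'⁻¹ * g) = 1 := by rw [map_mul, map_inv, e, inv_mul_cancel]
  have h1 : g'⁻¹ * g ∈ K := by
    rcases ker_pH this with e | e <;> rw [e]
    · exact one_mem _
    · exact hz
  simpa using mul_mem h h1

/-- an element fixing the tracks outside `S` is a product of the generators through two fixed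
tracks of `S`, up to the central element -/
theorem mem_of_fix {S : Set I} {k l : I} (hk : k ∈ S) (hl : l ∈ S) (hkl : k ≠ l) {g : Hat}
    (hg : ∀ a, a ∉ S → pH g a = a) :
    g ∈ Subgroup.closure ({h | ∃ a ∈ S, a ≠ k ∧ a ≠ l ∧ h = X k l a} ∪ {zz}) := by
  have h1 := pH_altOn hg
  rw [AltOn_base hk hl hkl] at h1
  set K := Subgroup.closure ({h | ∃ a ∈ S, a ≠ k ∧ a ≠ l ∧ h = X k l a} ∪ {zz}) with hK
  have : Subgroup.closure {g | ∃ a ∈ S, a ≠ k ∧ a ≠ l ∧ g = cyc k l a} ≤ K.map pH := by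
    refine (Subgroup.closure_le _).2 ?_
    rintro _ ⟨a, ha, a1, a2, rfl⟩
    exact ⟨X k l a, Subgroup.subset_closure (Or.inl ⟨a, ha, a1, a2, rfl⟩),
      pH_X ⟨hkl, a1.symm, a2.symm⟩⟩
  obtain ⟨g', hg', e⟩ := this h1
  exact mem_of_pH_eq (Subgroup.subset_closure (Or.inr rfl)) hg' e

theorem mem_hatOn_of_fix {S : Set I} (hS : 3 ≤ S.ncard) {g : Hat}
    (hg : ∀ a, a ∉ S → pH g a = a) : g ∈ HatOn S := by
  obtain ⟨g', hg', e⟩ := pH_surj (pH_altOn hg)
  refine mem_of_pH_eq ?_ hg' e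
  obtain ⟨a, b, c, ha, hb, hc, h1, h2, h3⟩ := (Set.two_lt_ncard_iff (Set.toFinite S)).1 hS
  rw [← X_cube (a := a) (b := b) (c := c) ⟨h1, h2, h3⟩]
  have : X a b c ∈ HatOn S := Subgroup.subset_closure ⟨a, ha, b, hb, c, hc, rfl⟩
  exact pow_mem this 3

theorem hatOn_pH {S : Set I} {g : Hat} (hg : g ∈ HatOn S) : pH g ∈ AltOn S := by
  have : HatOn S ≤ (AltOn S).comap pH := by
    refine (Subgroup.closure_le _).2 ?_
    rintro _ ⟨a, ha, b, hb, c, hc, rfl⟩
    by_cases h : D3 a b c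
    · show pH _ ∈ AltOn S
      rw [pH_X h]; exact cyc_mem_AltOn ha hb hc h
    · rw [X_degen h]; exact one_mem _
  exact this hg

theorem comm_X {g : Hat} {a b c : I} (ha : pH g a = a) (hb : pH g b = b) (hc : pH g c = c) :
    Commute g (X a b c) := by
  have := conj_X g a b c
  rw [ha, hb, hc] at this
  exact mul_inv_eq_iff_eq_mul.1 this

theorem hatOn_comm {S S' : Set I} (h : Disjoint S S') {g g' : Hat} (hg : g ∈ HatOn S)
    (hg' : g' ∈ HatOn S') : Commute g g' := by
  have f : ∀ a ∈ S', pH g a = a := fun a ha =>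
    AltOn_fix (hatOn_pH hg) fun e => Set.disjoint_left.1 h e ha
  have : HatOn S' ≤ Subgroup.centralizer {g} := by
    refine (Subgroup.closure_le _).2 ?_
    rintro _ ⟨a, ha, b, hb, c, hc, rfl⟩
    exact Subgroup.mem_centralizer_singleton_iff.2 (comm_X (f a ha) (f b hb) (f c hc)).symm
  exact (Subgroup.mem_centralizer_singleton_iff.1 (this hg')).symm

/-- perfectness -/
theorem hat_perfect {G : Type} [Group G] {S : Set I} (hS : 5 ≤ S.ncard) (χ : HatOn S →* G)
    (hχ : ∀ g h, Commute (χ g) (χ h)) (g : HatOn S) : χ g = 1 := by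
  obtain ⟨g, hg⟩ := g
  induction hg using Subgroup.closure_induction with
  | mem g hg =>
    obtain ⟨k, hk, i, hi, l, hl, rfl⟩ := hg
    by_cases h : D3 k i l
    · have fr : ∀ T : Finset I, T.card < 5 → ∃ j ∈ S, j ∉ T := fun T hT => by
        by_contra hc
        push Not at hc
        have := Set.ncard_le_ncard (show S ⊆ (T : Set I) from hc) (Set.toFinite _)
        rw [Set.ncard_coe_finset] at this
        omega
      obtain ⟨j, hj, j1⟩ := fr {k, i, l} (lt_of_le_of_lt Finset.card_le_three (by norm_num))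
      obtain ⟨m, hm, m1⟩ := fr {j, k, i, l} (lt_of_le_of_lt Finset.card_le_four (by norm_num))
      simp only [Finset.mem_insert, Finset.mem_singleton, not_or] at j1 m1
      have e := X_comm h (j := j) (m := m) ⟨h.1, Ne.symm j1.1, Ne.symm j1.2.1⟩
        ⟨h.2.1, Ne.symm m1.2.1, Ne.symm m1.2.2.2⟩ j1.2.2 (Ne.symm m1.2.2.1) (Ne.symm m1.1)
      let A : HatOn S := ⟨X k i j, Subgroup.subset_closure ⟨k, hk, i, hi, j, hj, rfl⟩⟩
      let B : HatOn S := ⟨X k l m, Subgroup.subset_closure ⟨k, hk, l, hl, m, hm, rfl⟩⟩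
      have : χ (A * B * A⁻¹ * B⁻¹) = 1 := by
        rw [map_mul, map_mul, map_mul, map_inv, map_inv, (hχ A B).eq]; simp
      rw [← this]
      exact congrArg χ (Subtype.ext e)
    · rw [← map_one χ]
      exact congrArg χ (Subtype.ext (X_degen h))
  | one => exact map_one χ
  | mul g g' hg hg' h1 h2 =>
    have := map_mul χ ⟨g, hg⟩ ⟨g', hg'⟩
    rw [h1, h2, one_mul] at this
    exact this
  | inv g hg h1 =>
    have := map_inv χ ⟨g, hg⟩
    rw [h1, inv_one] at this
    exact this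

theorem horth_self {G : Type} [Group G] {u : Hat →* G} (h : HOrth u u) (g : Hat) : u g = 1 := by
  exact hat_perfect (S := Set.univ) (by simp [Set.ncard_univ]) (u.comp (HatOn Set.univ).subtype)
    (fun a b => h a b) ⟨g, hatOn_univ ▸ Subgroup.mem_top g⟩

theorem lift_unique {H G : Type} [Group H] [Group G] (μ : H →* G)
    (hμ : ∀ x, μ x = 1 → ∀ y, Commute x y) {u v : Hat →* H} (h : ∀ g, μ (u g) = μ (v g)) :
    u = v := by
  have c : ∀ g y, Commute ((v g)⁻¹ * u g) y := fun g =>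
    hμ _ (by rw [map_mul, map_inv, h, inv_mul_cancel])
  let d : Hat →* H := MonoidHom.mk' (fun g => (v g)⁻¹ * u g) fun g g' => by
    rw [map_mul, map_mul, mul_inv_rev]
    calc (v g')⁻¹ * (v g)⁻¹ * (u g * u g') = (v g')⁻¹ * ((v g)⁻¹ * u g) * u g' := by group
      _ = _ := by rw [← (c g (v g')⁻¹).eq]; group
  refine MonoidHom.ext fun g => ?_
  exact (inv_mul_eq_one.1 (horth_self (u := d) (fun g g' => c g _) g)).symm

theorem lift_exists {H G : Type} [Group H] [Group G] (μ : H →* G)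
    (hμ : ∀ x, μ x = 1 → ∀ y, Commute x y) (φ : Hat →* G) (h : ∀ g, ∃ x, μ x = φ g) :
    ∃ u : Hat →* H, ∀ g, μ (u g) = φ g := by
  classical
  choose s hs using h
  have sm : ∀ g g' y, s (g * g') * y * (s (g * g'))⁻¹ = s g * (s g' * y * (s g')⁻¹) * (s g)⁻¹ := by
    intro g g' y
    have c := hμ (s (g * g') * (s g * s g')⁻¹) (by
      rw [map_mul, map_inv, map_mul, hs, hs, hs, map_mul, mul_inv_cancel])
    have e := (c (s g * s g' * y * (s g * s g')⁻¹)).eq
    calc s (g * g') * y * (s (g * g'))⁻¹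
        = (s (g * g') * (s g * s g')⁻¹ * (s g * s g' * y * (s g * s g')⁻¹)) *
          (s (g * g') * (s g * s g')⁻¹)⁻¹ := by group
      _ = _ := by rw [e]; group
  have s1 : ∀ y, s 1 * y * (s 1)⁻¹ = y := fun y => by
    rw [(hμ (s 1) (by rw [hs, map_one]) y).eq]; simp
  set y0 := s (X 0 1 2) with hy0
  have h012 : D3 (0 : I) 1 2 := ⟨by decide, by decide, by decide⟩
  have stab : ∀ g, pH g 0 = 0 → pH g 1 = 1 → pH g 2 = 2 → s g * y0 * (s g)⁻¹ = y0 := by
    intro g g0 g1 g2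
    let S : Set I := {0, 1, 2}ᶜ
    have hS : S.ncard = 7 := by
      have : S = ((({0, 1, 2} : Finset I)ᶜ : Finset I) : Set I) := by
        rw [Finset.coe_compl, Finset.coe_insert, Finset.coe_insert, Finset.coe_singleton]
      rw [this, Set.ncard_coe_finset]; decide
    have k : ∀ g : HatOn S, μ (s g * y0 * (s g)⁻¹ * y0⁻¹) = 1 := fun g => by
      have f : ∀ a, a ∉ S → pH g a = a := fun a ha => AltOn_fix (hatOn_pH g.2) ha
      have := (comm_X (f 0 (by simp [S])) (f 1 (by simp [S])) (f 2 (by simp [S]))).eq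
      simp only [map_mul, map_inv, hs, hy0]
      rw [← map_mul, this]; simp
    let χ : HatOn S →* H := MonoidHom.mk' (fun g => s g * y0 * (s g)⁻¹ * y0⁻¹) fun g g' => by
      have e := (hμ _ (k g') (s g)).eq
      have e' := (hμ _ (k g') (s g * y0 * (s g)⁻¹ * y0⁻¹)).eq
      rw [Subgroup.coe_mul, sm, ← e']
      calc s g * (s g' * y0 * (s g')⁻¹) * (s g)⁻¹ * y0⁻¹
          = (s g * (s g' * y0 * (s g')⁻¹ * y0⁻¹)) * y0 * (s g)⁻¹ * y0⁻¹ := by group
        _ = _ := by rw [← e]; group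
    have hg : g ∈ HatOn S := mem_hatOn_of_fix (by omega) fun a ha => by
      simp only [S, Set.mem_compl_iff, not_not, Set.mem_insert_iff, Set.mem_singleton_iff] at ha
      rcases ha with rfl | rfl | rfl <;> assumption
    exact mul_inv_eq_one.1 (hat_perfect (by omega) χ (fun a b => hμ _ (k a) _) ⟨g, hg⟩)
  have ex : ∀ a b c : I, ∃ g : Hat, D3 a b c → pH g 0 = a ∧ pH g 1 = b ∧ pH g 2 = c := by
    intro a b c
    by_cases h : D3 a b c
    · obtain ⟨g, hg⟩ := exists_pH3 h012 h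
      exact ⟨g, fun _ => hg⟩
    · exact ⟨1, fun h' => absurd h' h⟩
  choose γ hγ using ex
  let y : I → I → I → H := fun a b c => s (γ a b c) * y0 * (s (γ a b c))⁻¹
  have eqv : ∀ g a b c, D3 a b c →
      s g * y a b c * (s g)⁻¹ = y (pH g a) (pH g b) (pH g c) := by
    intro g a b c h
    obtain ⟨a1, a2, a3⟩ := hγ a b c h
    obtain ⟨b1, b2, b3⟩ := hγ _ _ _ (h.map (pH g).injective)
    set g' := γ (pH g a) (pH g b) (pH g c) with hg'
    have := stab (g'⁻¹ * (g * γ a b c))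
      (by rw [map_mul, map_mul, map_inv, Perm.mul_apply, Perm.mul_apply, a1, ← b1]; simp)
      (by rw [map_mul, map_mul, map_inv, Perm.mul_apply, Perm.mul_apply, a2, ← b2]; simp)
      (by rw [map_mul, map_mul, map_inv, Perm.mul_apply, Perm.mul_apply, a3, ← b3]; simp)
    show _ = s g' * y0 * (s g')⁻¹
    calc _ = s (g' * (g'⁻¹ * (g * γ a b c))) * y0 * (s (g' * (g'⁻¹ * (g * γ a b c))))⁻¹ := by
          rw [mul_inv_cancel_left, sm]
      _ = _ := by rw [sm, this]
  have μy : ∀ a b c, D3 a b c → μ (y a b c) = φ (X a b c) := fun a b c h => by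
    obtain ⟨a1, a2, a3⟩ := hγ a b c h
    simp only [y, map_mul, map_inv, hs, hy0]
    rw [← map_inv, ← map_mul, ← map_mul, conj_X, a1, a2, a3]
  have y012 : y 0 1 2 = y0 := by
    obtain ⟨a1, a2, a3⟩ := hγ 0 1 2 h012
    exact stab _ a1 a2 a3
  have rot0 : y 0 1 2 = y 1 2 0 := by
    have := eqv (X 0 1 2) 0 1 2 h012
    rw [pH_X h012, cyc_apply h012, cyc_apply h012, cyc_apply h012, y012, ← hy0] at this
    rw [y012]
    simpa using this
  have rot : ∀ a b c, D3 a b c → y a b c = y b c a := fun a b c h => by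
    obtain ⟨a1, a2, a3⟩ := hγ a b c h
    have e1 := eqv (γ a b c) 0 1 2 h012
    have e2 := eqv (γ a b c) 1 2 0 ⟨by decide, by decide, by decide⟩
    rw [a1, a2, a3] at e1 e2
    rw [← e1, ← e2, rot0]
  set ζ := y 0 1 2 * y 0 2 3 * (y 1 2 3)⁻¹ with hζ
  have h023 : D3 (0 : I) 2 3 := ⟨by decide, by decide, by decide⟩
  have h123 : D3 (1 : I) 2 3 := ⟨by decide, by decide, by decide⟩
  have μζ : μ ζ = 1 := by
    rw [hζ, map_mul, map_mul, map_inv, μy _ _ _ h012, μy _ _ _ h023, μy _ _ _ h123, ← map_mul,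
      X_sys.mul 0 trivial 1 trivial 2 trivial 3 trivial h012 h123 (by decide), mul_inv_cancel]
  have mul : ∀ k i l m, D3 k i l → D3 i l m → k ≠ m → y k i l * y k l m = ζ * y i l m := by
    intro k i l m h h' e
    obtain ⟨g, g0, g1, g2, g3⟩ := exists_pH4 h012 h123 (by decide) h h' e
    have e1 := eqv g 0 1 2 h012
    have e2 := eqv g 0 2 3 h023
    have e3 := eqv g 1 2 3 h123
    rw [g0, g1, g2] at e1
    rw [g0, g2, g3] at e2
    rw [g1, g2, g3] at e3
    rw [← e1, ← e2, ← e3]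
    calc s g * y 0 1 2 * (s g)⁻¹ * (s g * y 0 2 3 * (s g)⁻¹)
        = s g * ζ * y 1 2 3 * (s g)⁻¹ := by rw [hζ]; group
      _ = _ := by rw [← (hμ ζ μζ (s g)).eq]; group
  refine ⟨hatLift (fun a b c => if D3 a b c then ζ⁻¹ * y a b c else 1) ⟨?_, ?_⟩
    (fun a b c h => if_neg h), ?_⟩
  · intro a _ b _ c _ h
    have : D3 b c a := ⟨h.2.2, h.1.symm, h.2.1.symm⟩
    simp only [if_pos h, if_pos this, rot a b c h]
  · intro k _ i _ l _ m _ h h' e
    have : D3 k l m := ⟨h.2.1, e, h'.2.2⟩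
    simp only [if_pos h, if_pos this, if_pos h']
    calc ζ⁻¹ * y k i l * (ζ⁻¹ * y k l m) = ζ⁻¹ * (y k i l * ζ⁻¹) * y k l m := by group
      _ = ζ⁻¹ * ζ⁻¹ * (y k i l * y k l m) := by rw [← (hμ ζ μζ (y k i l)).inv_left.eq]; group
      _ = _ := by rw [mul k i l m h h' e]; group
  · intro g
    refine DFunLike.congr_fun (hat_ext (u := μ.comp _) (v := φ) fun a b c h => ?_) g
    rw [MonoidHom.comp_apply, hatLift_X, if_pos h, map_mul, map_inv, μζ, μy a b c h]; simp

end Vale.Agent.P196
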