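import Vale.Agent.P196.Hom0

/-! P196: finiteness of the first homology with coefficients of exponent two. -/

namespace Vale.Agent.P196

set_option linter.deprecated false

namespace Hom1

open Hom0

theorem prim (f : ℤ → ZMod 2) (c : ZMod 2) :
    ∃ F : ℤ → ZMod 2, F 0 = c ∧ ∀ n, F n - F (n - 1) = f n := by
  refine ⟨fun n => Int.inductionOn' n 0 c (fun k _ x => x + f (k + 1)) fun k _ x => x - f k,
    Int.inductionOn'_self .., fun n => ?_⟩
  rcases le_total n 0 with h | h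
  · simp [Int.inductionOn'_sub_one h]
  rcases h.eq_or_lt with rfl | h
  · simp only [Int.inductionOn'_sub_one (le_refl (0 : ℤ))]
    simp
  · obtain ⟨m, rfl⟩ : ∃ m, n = m + 1 := ⟨n - 1, by ring⟩
    simp [Int.inductionOn'_add_one (show 0 ≤ m by omega)]

/-- `β` is a potential of `a` -/
def Pot (β : S0 → ZMod 2) (a : Bool → S0 → ZMod 2) : Prop :=
  ∀ ε p, β p - β (mv p (-ee ε)) = a ε p

theorem mv_t (k : Vx) (x y : ℤ) : mv (k, pt false x y) (-ee true) = (k, pt false x (y - 1)) :=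
  Prod.ext rfl (by funext δ; cases δ <;> simp [pt, ee, sub_eq_add_neg])

theorem mv_f (k : Vx) (x y : ℤ) : mv (k, pt false x y) (-ee false) = (k, pt false (x - 1) y) :=
  Prod.ext rfl (by funext δ; cases δ <;> simp [pt, ee, sub_eq_add_neg])

theorem exists_pot {a : Bool → S0 → ZMod 2} (h : ∀ p, a true p - a true (mv p (-ee false))
    = a false p - a false (mv p (-ee true))) : ∃ β, Pot β a := by
  choose G _ hG using fun k : Vx => prim (fun x => a false (k, pt false x 0)) 0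
  choose F h0 hF using fun (k : Vx) x => prim (fun y => a true (k, pt false x y)) (G k x)
  have D : ∀ k x y, F k x y - F k (x - 1) y = a false (k, pt false x y) := fun k x y => by
    have st : ∀ y, F k x y - F k (x - 1) y - a false (k, pt false x y)
        = F k x (y - 1) - F k (x - 1) (y - 1) - a false (k, pt false x (y - 1)) := fun y => by
      have := h (k, pt false x y)
      rw [mv_t, mv_f] at this
      linear_combination hF k x y - hF k (x - 1) y + this
    rw [← sub_eq_zero]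
    induction y using Int.induction_on with
    | zero => rw [h0, h0, hG, sub_self]
    | succ n ih => rw [st, add_sub_cancel_right, ih]
    | pred n ih => rw [← st, ih]
  refine ⟨fun p => F p.1 (p.2 false) (p.2 true), fun ε ⟨k, z⟩ => ?_⟩
  rw [← pt_self false z]
  cases ε
  · rw [mv_f]; simpa [pt] using D k _ _
  · rw [mv_t]; simpa [pt] using hF k _ _

variable {β : S0 → ZMod 2} {a : Bool → S0 → ZMod 2} {r : ℕ}

theorem Pot.hol (h : Pot β a) (hr : ∀ ε p q, Near r p q → a ε p = a ε q) (ε : Bool) (p q : S0)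
    (n : ℕ) (hn : ∀ j : ℕ, j ≤ n → Near r (mv p ((j : ℤ) • ee ε)) (mv q ((j : ℤ) • ee ε))) :
    β (mv p ((n : ℤ) • ee ε)) - β p = β (mv q ((n : ℤ) • ee ε)) - β q := by
  induction n with
  | zero => simp
  | succ n ih =>
    have e : ∀ p, β (mv p (((n + 1 : ℕ) : ℤ) • ee ε)) - β (mv p ((n : ℤ) • ee ε))
        = a ε (mv p (((n + 1 : ℕ) : ℤ) • ee ε)) := fun p => by
      rw [← h ε]
      simp [add_smul]
    linear_combination ih (fun j hj => hn j (by omega)) + e p - e q + hr ε _ _ (hn _ le_rfl)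

/-- the next vertex -/
def nx (ρ : ℕ) (v : S0) : S0 := mv v ((sg ρ : ℤ) • ee (par ρ))

theorem mul_mem {ρ : ℕ} {v : S0} (hv : v ∈ Vtx ρ) (n : ℤ) :
    mv v ((n * sg ρ) • ee (par ρ)) ∈ Vtx ρ :=
  ⟨by simpa using hv.1.add (dvd_mul_left _ n), by simpa using hv.2⟩

theorem Pot.loc (h : Pot β a) (hr : ∀ ε p q, Near r p q → a ε p = a ε q) {ρ : ℕ} (hρ : 3 ≤ ρ)
    (hs : 2 * r < sg (ρ - 1)) {v w : S0} (hv : v ∈ Vtx ρ) (hw : w ∈ Vtx ρ)
    (e : xx v.1 v.2 = xx w.1 w.2) (e' : xx (nx ρ v).1 (nx ρ v).2 = xx (nx ρ w).1 (nx ρ w).2) :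
    β (nx ρ v) - β v = β (nx ρ w) - β w := by
  have s0 : sg (ρ - 1) ≤ sg ρ := sg_mono (by omega)
  refine h.hol hr _ _ _ _ fun j hj => ?_
  rcases le_or_gt j r with c | c
  · exact near_of_vtx hρ hv hw e (by simp; omega) (by simp; omega)
  · have := near_of_vtx (r := r) (u := ((j : ℤ) - sg ρ) • ee (par ρ)) hρ
      (by simpa [nx] using mul_mem hv 1) (by simpa [nx] using mul_mem hw 1) e' (by
        simp only [Pi.smul_apply, ee_same, smul_eq_mul, mul_one]
        rw [abs_of_nonpos (by omega)]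
        omega) (by simp; omega)
    simpa only [nx, mv_mv, ← add_smul, add_sub_cancel] using this

/-- the holonomy invariant -/
def inv (β : S0 → ZMod 2) (ρ : ℕ) : Set (Tile × Tile) :=
  {t | ∃ v ∈ Vtx ρ, t = (xx v.1 v.2, xx (nx ρ v).1 (nx ρ v).2) ∧ β (nx ρ v) - β v = 1}

theorem Pot.inv_eq {β' : S0 → ZMod 2} {a' : Bool → S0 → ZMod 2} (h : Pot β a) (h' : Pot β' a')
    (hr : ∀ ε p q, Near r p q → a ε p = a ε q) (hr' : ∀ ε p q, Near r p q → a' ε p = a' ε q)
    {ρ : ℕ} (hρ : 3 ≤ ρ) (hs : 2 * r < sg (ρ - 1)) (e : inv β ρ = inv β' ρ) {v : S0}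
    (hv : v ∈ Vtx ρ) : β (nx ρ v) - β v = β' (nx ρ v) - β' v := by
  have : ∀ x y : ZMod 2, (x = 1 → y = 1) → (y = 1 → x = 1) → x = y := by decide
  refine this _ _ (fun c => ?_) fun c => ?_
  · obtain ⟨w, hw, t, b⟩ := e.le ⟨v, hv, rfl, c⟩
    exact (h'.loc hr' hρ hs hv hw (congrArg Prod.fst t) (congrArg Prod.snd t)).trans b
  · obtain ⟨w, hw, t, b⟩ := e.ge ⟨v, hv, rfl, c⟩
    exact (h.loc hr hρ hs hv hw (congrArg Prod.fst t) (congrArg Prod.snd t)).trans b

theorem line {ρ : ℕ} (h : ∀ v ∈ Vtx ρ, β (nx ρ v) = β v) {v : S0} (hv : v ∈ Vtx ρ) (n : ℤ) :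
    β (mv v ((n * sg ρ) • ee (par ρ))) = β v := by
  induction n using Int.induction_on with
  | zero => simp
  | succ n ih => rw [← ih, ← h _ (mul_mem hv n)]; simp [nx, add_mul, add_smul]
  | pred n ih => rw [← ih, ← h _ (mul_mem hv (-n - 1))]; simp [nx, sub_mul]

theorem const {ρ : ℕ} (h : ∀ v ∈ Vtx ρ, β (nx ρ v) = β v)
    (h' : ∀ v ∈ Vtx (ρ + 1), β (nx (ρ + 1) v) = β v) {v : S0} (hv : v ∈ Vtx ρ) :
    β v = β (v.1, 0) := by
  obtain ⟨⟨i, hi⟩, j, hj⟩ := hv
  have z : (v.1, (0 : Pos)) ∈ Vtx (ρ + 1) := ⟨by simp, by simp⟩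
  rw [← line h' z j, ← line h (v := mv (v.1, 0) ((j * sg (ρ + 1)) • ee (par (ρ + 1))))
    ⟨by simp [par_succ], by simp [par_succ]⟩ i]
  congr 1
  exact Prod.ext rfl (pos_ext (par ρ) (by simp [par_succ, hi, mul_comm])
    (by simp [par_succ, hj, mul_comm]))

theorem Pot.meas (h : Pot β a) (hr : ∀ ε p q, Near r p q → a ε p = a ε q) {ρ : ℕ}
    (h0 : ∀ v ∈ Vtx ρ, β v = 0) : Meas β := by
  obtain ⟨r0, h1⟩ := loc_vtx ρ
  refine ⟨r0 + r + (sg ρ + sg (ρ + 1)), fun p q n => ?_⟩
  obtain ⟨u, hu, ⟨a1, a2⟩, a3, a4⟩ := exists_off ρ 0 p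
  have cs : ∀ δ, δ = par ρ ∨ δ = !par ρ := fun δ => by cases δ <;> cases par ρ <;> simp
  have hq := h1 _ _ ((n.mv (d := -u) fun δ => by
    rcases cs δ with rfl | rfl <;> rw [abs_le] <;> simp only [Pi.neg_apply] <;> omega).mono
      (by omega)) hu
  obtain ⟨i, hi⟩ := Int.eq_ofNat_of_zero_le (show 0 ≤ u (par ρ) by omega)
  obtain ⟨j, hj⟩ := Int.eq_ofNat_of_zero_le (show 0 ≤ u (!par ρ) by omega)
  have e1 := h.hol hr (par ρ) (mv p (-u)) (mv q (-u)) i fun l hl => by
    rw [mv_mv, mv_mv]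
    refine (n.mv fun δ => ?_).mono (by omega)
    rcases cs δ with rfl | rfl <;> rw [abs_le] <;> simp <;> omega
  have e2 := h.hol hr (!par ρ) (mv (mv p (-u)) ((i : ℤ) • ee (par ρ)))
    (mv (mv q (-u)) ((i : ℤ) • ee (par ρ))) j fun l hl => by
    rw [mv_mv, mv_mv, mv_mv, mv_mv]
    refine (n.mv fun δ => ?_).mono (by omega)
    rcases cs δ with rfl | rfl <;> rw [abs_le] <;> simp <;> omega
  have e : ∀ p, mv (mv (mv p (-u)) ((i : ℤ) • ee (par ρ))) ((j : ℤ) • ee (!par ρ)) = p := fun p =>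
    Prod.ext rfl (pos_ext (par ρ) (by simp [hi]) (by simp [hj]))
  rw [e, e] at e2
  linear_combination e1 + e2 + h0 _ hu - h0 _ hq

open Classical in
/-- indicator -/
noncomputable def i1 (A : Set S0) (p : S0) : ZMod 2 := if p ∈ A then 1 else 0

/-- indicators of a pair of sets -/
noncomputable def ind (A B : Set S0) (ε : Bool) : S0 → ZMod 2 := i1 (cond ε A B)

end Hom1

open Hom0 Hom1

theorem hom1 {M : Type} [CommGroup M] (h : Bool → Set S0 → M)
    (hadd : ∀ ε U V, Loc U → Loc V → h ε (symmDiff U V) = h ε U * h ε V)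
    (hsq : ∀ U, Loc U →
      h false U * h true (sh (ee false) U) = h true U * h false (sh (ee true) U)) :
    {x | ∃ A B, Loc A ∧ Loc B ∧ symmDiff A (sh (ee false) A) = symmDiff B (sh (ee true) B) ∧
      x = h false A * h true B}.Finite := by
  classical
  have sq : ∀ ε U, Loc U → h ε U * h ε U = 1 := fun ε U hU => by
    have := hadd ε ∅ ∅ Loc.empty Loc.empty
    rw [← hadd ε U U hU hU]
    simpa using this.symm
  refine (fin_of (X := Set (Tile × Tile) × Set (Tile × Tile))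
    (fun r => {x | ∃ A B, (∀ p q, Near r p q → p ∈ A → q ∈ A) ∧ (∀ p q, Near r p q → p ∈ B → q ∈ B)
      ∧ symmDiff A (sh (ee false) A) = symmDiff B (sh (ee true) B) ∧ x = h false A * h true B})
    ?_ fun r => ?_).subset ?_
  · rintro r r' e _ ⟨A, B, a, b, c⟩
    exact ⟨A, B, fun p q n => a p q (n.mono e), fun p q n => b p q (n.mono e), c⟩
  · obtain ⟨ρ, h3, hr⟩ := exists_rho r
    refine ⟨fun m x => ∃ A B β, (∀ p q, Near r p q → p ∈ A → q ∈ A) ∧
      (∀ p q, Near r p q → p ∈ B → q ∈ B) ∧ Pot β (ind A B) ∧ m = h false A * h true B ∧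
        x = (inv β ρ, inv β (ρ + 1)), ?_, ?_⟩
    · rintro _ ⟨A, B, a, b, c, rfl⟩
      obtain ⟨β, hβ⟩ := exists_pot (a := ind A B) fun p => by
        have := Set.ext_iff.1 c p
        simp only [Set.mem_symmDiff, mem_sh] at this
        simp only [ind, cond_true, cond_false, i1]
        split_ifs <;> first | decide | tauto
      exact ⟨_, A, B, β, a, b, hβ, rfl, rfl⟩
    rintro _ _ _ ⟨A, B, β, a, b, hβ, rfl, rfl⟩ ⟨A', B', β', a', b', hβ', rfl, e⟩
    have rad : ∀ {A B : Set S0}, (∀ p q, Near r p q → p ∈ A → q ∈ A) →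
        (∀ p q, Near r p q → p ∈ B → q ∈ B) → ∀ ε p q, Near r p q → ind A B ε p = ind A B ε q :=
      fun a b ε p q n => by
        cases ε
        · exact if_congr ⟨b p q n, b q p n.symm⟩ rfl rfl
        · exact if_congr ⟨a p q n, a q p n.symm⟩ rfl rfl
    have s0 : sg (ρ - 1) ≤ sg (ρ + 1 - 1) := sg_mono (by omega)
    have c : ∀ v ∈ Vtx ρ, (β - β') v = (β - β') (v.1, 0) := fun v => const (fun v hv => by
      linear_combination (norm := (simp only [Pi.sub_apply]; ring))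
        hβ.inv_eq hβ' (rad a b) (rad a' b') h3 hr (congrArg Prod.fst e) hv) fun v hv => by
      linear_combination (norm := (simp only [Pi.sub_apply]; ring))
        hβ.inv_eq hβ' (rad a b) (rad a' b') (by omega) (by omega) (congrArg Prod.snd e) hv
    have P : Pot (fun p => (β - β') p - (β - β') (p.1, 0)) (ind A B - ind A' B') := fun ε p => by
      linear_combination (norm := (simp only [Pi.sub_apply, mv_fst]; ring)) hβ ε p - hβ' ε p
    have L := P.meas (r := r) (fun ε p q n => by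
      simp only [Pi.sub_apply, rad a b ε p q n, rad a' b' ε p q n])
      fun v hv => sub_eq_zero.2 (c v hv)
    generalize (fun p : S0 => (β - β') p - (β - β') (p.1, 0)) = γ at P L
    replace L := L.loc (· = 1)
    have key : ∀ ε, symmDiff (cond ε A B) (cond ε A' B')
        = symmDiff {p | γ p = 1} (sh (ee ε) {p | γ p = 1}) := fun ε => by
      ext p
      have := P ε p
      simp only [Set.mem_symmDiff, mem_sh, Set.mem_setOf_eq, ind, i1, Pi.sub_apply] at this ⊢
      generalize γ p = x at this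
      generalize γ (mv p (-ee ε)) = y at this
      revert x y
      split_ifs with c1 c2 c3 <;> simp only [*, not_true, not_false_iff] <;> decide
    have k1 := (hadd false A A' ⟨r, a⟩ ⟨r, a'⟩).symm.trans
      ((congrArg _ (key true)).trans (hadd false _ _ L (L.sh _)))
    have k2 := (hadd true B B' ⟨r, b⟩ ⟨r, b'⟩).symm.trans
      ((congrArg _ (key false)).trans (hadd true _ _ L (L.sh _)))
    have k3 := hsq _ L
    have : h false A * h true B * (h false A' * h true B') = 1 := by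
      rw [mul_mul_mul_comm, k1, k2, mul_comm (h true _), mul_mul_mul_comm, k3,
        mul_comm (h false _), mul_mul_mul_comm, sq _ _ L, sq _ _ (L.sh _), mul_one]
    rw [eq_inv_of_mul_eq_one_left this, inv_eq_iff_mul_eq_one, mul_mul_mul_comm, sq _ _ ⟨r, a'⟩,
      sq _ _ ⟨r, b'⟩, mul_one]
  · rintro _ ⟨A, B, ⟨r, a⟩, ⟨r', b⟩, c⟩
    exact Set.mem_iUnion.2 ⟨r + r', A, B, fun p q n => a p q (n.mono (by omega)),
      fun p q n => b p q (n.mono (by omega)), c⟩

end Vale.Agent.P196
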