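import Vale.Agent.P196.Conc

/-! P196: the abstract logic. -/

namespace Vale.Agent.P196

namespace QL

variable {L : Type} {Q : QL L} {c e e' f g p t u u' v v' w w' : L} {s : Set L}

theorem le_refl (u : L) : Q.le u u := Q.orth_cpl u
theorem orth_of_le (h : Q.le u c) (h' : Q.orth c v) : Q.orth u v := by
  exact Q.symm (Q.trans (c := Q.cpl c) (by rw [Q.cpl_cpl]; exact Q.symm h') h)
theorem le_trans (h : Q.le u v) (h' : Q.le v w) : Q.le u w := orth_of_le h h'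
theorem le_antisymm (h : Q.le u v) (h' : Q.le v u) : u = v := Q.antisymm h h'
theorem orth_mono (h : Q.le u u') (h' : Q.le v v') (h'' : Q.orth u' v') : Q.orth u v :=
  orth_of_le h (Q.symm (orth_of_le h' (Q.symm h'')))
theorem le_cpl_iff : Q.le u (Q.cpl v) ↔ Q.orth u v := by rw [QL.le, Q.cpl_cpl]
theorem orth_of_zero (h : Q.orth u u) (v : L) : Q.orth u v := Q.symm (Q.zero h v)
theorem le_of_zero (h : Q.orth u u) (v : L) : Q.le u v := orth_of_zero h _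
theorem le_top' (u : L) : Q.le u Q.top := Q.le_top u
theorem le_of_join {d : L} (hv : ∀ t, Q.orth t v ↔ Q.orth t u ∧ Q.orth t d) :
    Q.le u v ∧ Q.le d v :=
  let h := (hv _).1 (Q.symm (Q.orth_cpl v)); ⟨Q.symm h.1, Q.symm h.2⟩
/-- orthomodularity -/
theorem om {d : L} (hd : Q.orth u d) (hv : ∀ t, Q.orth t v ↔ Q.orth t u ∧ Q.orth t d)
    (h : Q.le t v) (h' : Q.orth t u) : Q.le t d := by
  obtain ⟨y, hy, hy'⟩ := Q.diff (u := u) (v := Q.cpl d) (by rw [Q.cpl_cpl]; exact hd)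
  have h1 : Q.orth d y := ((hy' d).1 (Q.orth_cpl d)).2
  have h2 : Q.orth y v := (hv y).2 ⟨Q.symm hy, Q.symm h1⟩
  exact (hy' t).2 ⟨h', orth_of_le h (Q.symm h2)⟩
theorem exists_join (hs : s.Finite) (h : ∀ w ∈ s, ∀ w' ∈ s, w ≠ w' → Q.orth w w') :
    ∃ j, ∀ t, Q.orth t j ↔ ∀ w ∈ s, Q.orth t w := by
  induction s, hs using Set.Finite.induction_on with
  | empty => exact ⟨Q.cpl Q.top, fun t => by simpa using Q.le_top t⟩
  | @insert a s ha _ ih =>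
    obtain ⟨j, hj⟩ := ih fun w hw w' hw' => h w (Or.inr hw) w' (Or.inr hw')
    obtain ⟨j', hj'⟩ := Q.join (u := a) (v := j) ((hj a).2 fun w hw =>
      h a (Or.inl rfl) w (Or.inr hw) fun e => ha (e ▸ hw))
    exact ⟨j', fun t => by simp [hj', hj]⟩
theorem Cov.orth_iff (h : Q.Cov c s) (t : L) : Q.orth t c ↔ ∀ w ∈ s, Q.orth t w := by
  refine ⟨fun ht w hw => Q.symm (orth_of_le (h.2.1 w hw) (Q.symm ht)), fun ht => ?_⟩
  obtain ⟨j, hj⟩ := exists_join h.1 h.2.2.1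
  have h1 : Q.le j c := Q.symm ((hj _).2 fun w hw => Q.symm (h.2.1 w hw))
  obtain ⟨d, hd, hd'⟩ := Q.diff h1
  exact (hd' t).2 ⟨(hj t).2 ht, Q.zero (h.2.2.2 d (le_of_join hd').2 ((hj d).1 (Q.symm hd))) t⟩
theorem Cov.orth_of (h : Q.Cov c s) (ht : Q.le t c) (h' : ∀ x ∈ s, Q.orth t x ∨ Q.orth w x) :
    Q.orth t w := by
  obtain ⟨j, hj⟩ := exists_join (Q := Q) (h.1.subset (Set.sep_subset s fun x => Q.orth t x))
    fun a ha b hb => h.2.2.1 a ha.1 b hb.1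
  obtain ⟨j', hj'⟩ := exists_join (Q := Q) (h.1.subset (Set.sep_subset s fun x => ¬ Q.orth t x))
    fun a ha b hb => h.2.2.1 a ha.1 b hb.1
  have o : Q.orth j j' := (hj' j).2 fun a ha => Q.symm ((hj a).2 fun b hb =>
    h.2.2.1 a ha.1 b hb.1 fun e => ha.2 (e ▸ hb.2))
  have l : Q.le t j' := by
    refine om o (fun x => ?_) ht ((hj t).2 fun a ha => ha.2)
    rw [h.orth_iff, hj, hj']
    refine ⟨fun a => ⟨fun b hb => a b hb.1, fun b hb => a b hb.1⟩, fun a b hb => ?_⟩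
    by_cases e : Q.orth t b
    · exact a.1 b ⟨hb, e⟩
    · exact a.2 b ⟨hb, e⟩
  exact orth_of_le l (Q.symm ((hj' w).2 fun a ha => (h' a ha.1).resolve_left ha.2))
theorem Cov.le_of (h : Q.Cov c s) (ht : Q.le t c) (h' : ∀ x ∈ s, Q.orth t x ∨ Q.le x v) :
    Q.le t v := h.orth_of ht fun x hx => (h' x hx).imp id Q.symm
theorem Cov.trans {P : L → Prop} (h : Q.Cov c s)
    (h' : ∀ w ∈ s, ∃ s', Q.Cov w s' ∧ ∀ x ∈ s', P x) : ∃ s', Q.Cov c s' ∧ ∀ x ∈ s', P x := by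
  choose! F hF hP using h'
  refine ⟨⋃ w ∈ s, F w, ⟨h.1.biUnion fun w hw => (hF w hw).1, ?_, ?_, ?_⟩, ?_⟩
  · simp only [Set.mem_iUnion]
    rintro x ⟨w, hw, hx⟩
    exact le_trans ((hF w hw).2.1 x hx) (h.2.1 w hw)
  · simp only [Set.mem_iUnion]
    rintro x ⟨w, hw, hx⟩ x' ⟨w', hw', hx'⟩ hne
    by_cases e : w = w'
    · subst e; exact (hF w hw).2.2.1 x hx x' hx' hne
    · exact orth_mono ((hF w hw).2.1 x hx) ((hF w' hw').2.1 x' hx') (h.2.2.1 w hw w' hw' e)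
  · intro t ht h2
    exact h.2.2.2 t ht fun w hw => ((hF w hw).orth_iff t).2 fun x hx =>
      h2 x (Set.mem_biUnion hw hx)
  · simp only [Set.mem_iUnion]
    rintro x ⟨w, hw, hx⟩
    exact hP w hw x hx
theorem cov_single (c : L) : Q.Cov c {c} :=
  ⟨Set.finite_singleton c, by rintro _ rfl; exact le_refl _,
    by rintro _ rfl _ rfl h; exact (h rfl).elim,
    fun t ht h => orth_of_le ht (Q.symm (h c rfl))⟩
theorem IsMeet.le_left (h : Q.IsMeet w u v) : Q.le w u := h.1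
theorem IsMeet.le_right (h : Q.IsMeet w u v) : Q.le w v :=
  let ⟨_, _, _, h⟩ := h; (le_of_join h).1
theorem IsMeet.orth_of (h : Q.IsMeet w u v) (h1 : Q.le t u) (h2 : Q.orth t w) : Q.orth t v :=
  let ⟨_, w', a, h⟩ := h; (h t).2 ⟨h2, orth_of_le h1 (Q.symm a)⟩
theorem IsMeet.glb (h : Q.IsMeet w u v) (h1 : Q.le t u) (h2 : Q.le t v) : Q.le t w := by
  obtain ⟨l, w', a, h⟩ := h
  exact om (Q.symm (orth_of_le l (Q.symm a))) (fun x => by rw [h x, and_comm]) h2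
    (orth_of_le h1 (Q.symm a))
theorem IsMeet.symm (h : Q.IsMeet w u v) : Q.IsMeet w v u := by
  obtain ⟨d, hd, hd'⟩ := Q.diff h.1
  exact ⟨h.le_right, d, h.orth_of (le_of_join hd').2 (Q.symm hd), hd'⟩
theorem IsMeet.unique (h : Q.IsMeet w u v) (h' : Q.IsMeet w' u v) : w = w' :=
  le_antisymm (h'.glb h.le_left h.le_right) (h.glb h'.le_left h'.le_right)
/-- a meet can be transported along an equivalence below the left factor -/
theorem IsMeet.transfer (h : Q.IsMeet w p e) (h1 : Q.le w e')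
    (h2 : ∀ x, Q.le x p → Q.orth x e → Q.orth x e') : Q.IsMeet w p e' := by
  obtain ⟨_, w', a, b⟩ := h.symm
  exact IsMeet.symm ⟨h1, w', h2 w' (le_of_join b).2 a, b⟩
theorem Cpt.symm (h : Q.Cpt u v) : Q.Cpt v u := let ⟨w, h⟩ := h; ⟨w, h.symm⟩
theorem Cpt.cpl (h : Q.Cpt u v) : Q.Cpt u (Q.cpl v) := by
  obtain ⟨w, h⟩ := h
  obtain ⟨l, w', a, b⟩ := h.symm
  exact ⟨w', IsMeet.symm ⟨le_cpl_iff.2 a, w, l, fun t => by rw [b t, and_comm]⟩⟩
theorem cpt_of_le (h : Q.le u v) : Q.Cpt u v := by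
  obtain ⟨d, hd, hd'⟩ := Q.diff h
  exact ⟨u, le_refl u, d, Q.symm hd, hd'⟩
theorem cpt_of_orth (h : Q.orth u v) : Q.Cpt u v := by
  have := (cpt_of_le (le_cpl_iff.2 h)).cpl
  rwa [Q.cpl_cpl] at this
theorem IsMeet.cpt (h : Q.IsMeet w e f) (h1 : Q.Cpt e g) (h2 : Q.Cpt f g) : Q.Cpt w g := by
  obtain ⟨a1, w', a2, a3⟩ := h
  obtain ⟨v, b1, v', b2, b3⟩ := h1
  obtain ⟨s, c1, s', c2, c3⟩ := h2
  obtain ⟨y, y', d1, d2, d3⟩ := Q.coh a1 a2 a3 b1 b2 b3 c1 c2 c3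
  exact ⟨y, d1, y', d2, d3⟩
theorem Cpt.transfer (h : Q.Cpt p e) (h1 : ∀ x, Q.le x p → Q.le x e → Q.le x e')
    (h2 : ∀ x, Q.le x p → Q.orth x e → Q.orth x e') : Q.Cpt p e' :=
  let ⟨w, h⟩ := h; ⟨w, h.transfer (h1 w h.le_left h.le_right) h2⟩

end QL

namespace TSys

variable {L : Type} {Q : QL L} (T : TSys Q) {c p w w' : L} {z : Pos} {P P' : Tile → Prop}

theorem ev_mono (z : Pos) (h : ∀ τ, Legal τ → P τ → P' τ) : Q.le (T.ev z P) (T.ev z P') := by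
  rw [QL.le, T.cpl_ev]
  exact T.disj z _ _ fun τ a b c => c (h τ a b)
theorem ev_congr (z : Pos) (h : ∀ τ, Legal τ → (P τ ↔ P' τ)) : T.ev z P = T.ev z P' :=
  QL.le_antisymm (T.ev_mono z fun τ a => (h τ a).1) (T.ev_mono z fun τ a => (h τ a).2)
theorem le_ev (w : L) (z : Pos) (h : ∀ τ, Legal τ → P τ) : Q.le w (T.ev z P) := by
  rw [QL.le, T.cpl_ev]
  exact Q.zero (T.disj z _ _ fun τ a b _ => b (h τ a)) w
theorem le_not_iff : Q.le w (T.ev z fun τ => ¬ P τ) ↔ Q.orth w (T.ev z P) := by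
  rw [← T.cpl_ev, QL.le_cpl_iff]
variable {T}
theorem le_imp (h : Q.le w (T.ev z P)) (h' : ∀ τ, Legal τ → P τ → P' τ) : Q.le w (T.ev z P') :=
  QL.le_trans h (T.ev_mono z h')
theorem le_and (h : Q.le w (T.ev z P)) (h' : Q.le w (T.ev z P')) :
    Q.le w (T.ev z fun τ => P τ ∧ P' τ) := by
  rw [QL.le, T.cpl_ev] at h h' ⊢
  rw [T.ev_congr z (P' := fun τ => ¬ P τ ∨ ¬ P' τ) fun τ _ => not_and_or]
  exact T.or_ev z _ _ w h h'
theorem le_imp₂ {P'' : Tile → Prop} (h : Q.le w (T.ev z P)) (h' : Q.le w (T.ev z P'))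
    (h'' : ∀ τ, Legal τ → P τ → P' τ → P'' τ) : Q.le w (T.ev z P'') :=
  le_imp (le_and h h') fun τ a b => h'' τ a b.1 b.2
theorem orth_of (h : Q.le w (T.ev z P)) (h' : Q.le w' (T.ev z P'))
    (h'' : ∀ τ, Legal τ → P τ → ¬ P' τ) : Q.orth w w' := QL.orth_mono h h' (T.disj z _ _ h'')
theorem zero_of (h : Q.le w (T.ev z P)) (h' : ∀ τ, Legal τ → ¬ P τ) : Q.orth w w :=
  orth_of h h fun τ a _ => h' τ a
variable (T)
theorem isMeet_ev (z : Pos) (P P' : Tile → Prop) :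
    Q.IsMeet (T.ev z fun τ => P τ ∧ P' τ) (T.ev z P) (T.ev z P') := by
  refine ⟨T.ev_mono z fun τ _ h => h.1, T.ev z fun τ => ¬ P τ ∧ P' τ,
    T.disj z _ _ fun τ _ h => h.1, fun t => ⟨fun h => ⟨?_, ?_⟩, fun h => ?_⟩⟩
  · exact Q.symm (QL.orth_of_le (T.ev_mono z fun τ _ h => h.2) (Q.symm h))
  · exact Q.symm (QL.orth_of_le (T.ev_mono z fun τ _ h => h.2) (Q.symm h))
  · rw [T.ev_congr z (P' := fun τ => (P τ ∧ P' τ) ∨ (¬ P τ ∧ P' τ)) fun τ _ => by tauto]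
    exact T.or_ev z _ _ t h.1 h.2
theorem cpt_ev (z : Pos) (P P' : Tile → Prop) : Q.Cpt (T.ev z P) (T.ev z P') :=
  ⟨_, T.isMeet_ev z P P'⟩
variable {T}
theorem cpt_not (h : Q.Cpt p (T.ev z P)) : Q.Cpt p (T.ev z fun τ => ¬ P τ) := by
  rw [← T.cpl_ev]; exact h.cpl
theorem cpt_and (h : Q.Cpt p (T.ev z P)) (h' : Q.Cpt p (T.ev z P')) :
    Q.Cpt p (T.ev z fun τ => P τ ∧ P' τ) := ((T.isMeet_ev z P P').cpt h.symm h'.symm).symm
theorem cpt_or (h : Q.Cpt p (T.ev z P)) (h' : Q.Cpt p (T.ev z P')) :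
    Q.Cpt p (T.ev z fun τ => P τ ∨ P' τ) := by
  rw [T.ev_congr z (P' := fun τ => ¬ (¬ P τ ∧ ¬ P' τ)) fun τ _ => by tauto]
  exact cpt_not (cpt_and (cpt_not h) (cpt_not h'))
theorem cpt_fun {α : Type} [Finite α] {f : Tile → α}
    (h : ∀ a, Q.Cpt p (T.ev z fun τ => f τ = a)) (R : α → Prop) :
    Q.Cpt p (T.ev z fun τ => R (f τ)) := by
  have : ∀ S : Set α, Q.Cpt p (T.ev z fun τ => f τ ∈ S) := fun S => by
    induction S, S.toFinite using Set.Finite.induction_on with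
    | empty => exact QL.cpt_of_orth (T.le_not_iff.1 (T.le_ev p z fun τ _ => by simp))
    | insert _ _ ih => exact cpt_or (h _) ih
  exact this {a | R a}
theorem orth_fun {α : Type} [Finite α] {f : Tile → α} {R : α → Prop}
    (h : ∀ a, R a → Q.orth w (T.ev z fun τ => f τ = a)) : Q.orth w (T.ev z fun τ => R (f τ)) := by
  have : ∀ S : Set α, (∀ a ∈ S, R a) → Q.orth w (T.ev z fun τ => f τ ∈ S) := fun S => by
    induction S, S.toFinite using Set.Finite.induction_on with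
    | empty => exact fun _ => T.le_not_iff.1 (T.le_ev w z fun τ _ => by simp)
    | insert _ _ ih =>
      exact fun hS => T.or_ev z _ _ w (h _ (hS _ (Or.inl rfl))) (ih fun a ha => hS a (Or.inr ha))
  exact this {a | R a} fun _ h => h
theorem cov_val {α : Type} [Finite α] (z : Pos) (f : Tile → α)
    (h : ∀ a, Q.Cpt c (T.ev z fun τ => f τ = a)) :
    ∃ m : α → L, (∀ a, Q.IsMeet (m a) c (T.ev z fun τ => f τ = a)) ∧ Q.Cov c (Set.range m) := by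
  choose m hm using h
  refine ⟨m, hm, Set.finite_range m, ?_, ?_, fun t ht h => ?_⟩
  · rintro _ ⟨a, rfl⟩; exact (hm a).le_left
  · rintro _ ⟨a, rfl⟩ _ ⟨b, rfl⟩ hne
    exact orth_of (hm a).le_right (hm b).le_right fun τ _ h1 h2 => hne (by rw [← h1, ← h2])
  · exact QL.orth_of_le (T.le_ev t z (P := fun τ => (fun _ => True) (f τ)) fun _ _ => trivial)
      (Q.symm (orth_fun (R := fun _ => True) fun a _ => (hm a).orth_of ht (h _ ⟨a, rfl⟩)))
variable (T)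
theorem ev_co (ε : Bool) (z : Pos) (R : Core → Prop) :
    T.ev z (fun τ => R (τ.co ε)) = T.ev (z + ee (!ε)) fun τ => R (τ.ci ε) :=
  T.mat ε z fun x => R x.1
theorem cen_shift (a : Pos) : (T.shift a).Cen c ↔ T.Cen c :=
  ⟨fun h z P => by simpa [shift] using h (z - a) P, fun h z P => h (a + z) P⟩
theorem shift_shift (a b : Pos) : (T.shift a).shift b = T.shift (a + b) := by
  simp only [shift, add_assoc]

variable {T}
theorem Forces.orth {r r' r₀ : ℕ} {p q : S0} (h : T.Forces r w p) (h' : T.Forces r' w' q)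
    (hr : r₀ ≤ r) (hr' : r₀ ≤ r') (hn : ¬ Near r₀ p q) : Q.orth w w' := by
  simp only [Near, not_forall] at hn
  obtain ⟨d, hd, hne⟩ := hn
  exact orth_of (h d fun ε => (hd ε).trans (by exact_mod_cast hr))
    (h' d fun ε => (hd ε).trans (by exact_mod_cast hr')) fun τ _ a b => hne (a.symm.trans b)

variable (T)
/-- local sets are represented in the logic -/
theorem exists_Phi (h : ∀ r, ∃ s, Q.Cov Q.top s ∧ ∀ w ∈ s, ∃ p, T.Forces r w p) :
    ∃ Φ : Set S0 → L, (∀ U V, Loc U → Loc V → Disjoint U V → Q.orth (Φ U) (Φ V)) ∧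
      (∀ U, Loc U → Φ Uᶜ = Q.cpl (Φ U)) ∧
      (∀ U V, Loc U → Loc V → ∀ t, Q.orth t (Φ (U ∪ V)) ↔ Q.orth t (Φ U) ∧ Q.orth t (Φ V)) ∧
      ∀ z P, Φ {p | P (xx p.1 (p.2 + z))} = T.ev z P := by
  choose s hs hp using h
  haveI : Nonempty S0 := ⟨(⟨⟨fun ε => ⟨⟨false, 0, false, false⟩, !ε, 0⟩,
    fun _ => ⟨⟨false, 0, false, false⟩, false, 0⟩⟩, by
      simp [High, Legal, Ok, Dom, Pas, Lab.car]⟩, 0)⟩
  haveI : Nonempty L := ⟨Q.top⟩
  choose! π hπ using hp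
  have key : ∀ U, Loc U → ∃ u, ∃ r₀, ∀ r w p, r₀ ≤ r → T.Forces r w p →
      (p ∈ U → Q.le w u) ∧ (p ∉ U → Q.orth w u) := by
    rintro U ⟨r, hr⟩
    obtain ⟨u, hu⟩ := QL.exists_join (Q := Q)
      ((hs r).1.subset (Set.sep_subset (s r) fun x => π r x ∈ U))
      fun a ha b hb => (hs r).2.2.1 a ha.1 b hb.1
    refine ⟨u, r, fun r' w p hr' hw => ⟨fun hp => ?_, fun hp => ?_⟩⟩
    · refine (hs r).le_of (QL.le_top' w) fun x hx => ?_
      by_cases e : π r x ∈ U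
      · exact Or.inr (Q.symm ((hu _).1 (Q.symm (Q.orth_cpl u)) x ⟨hx, e⟩))
      · exact Or.inl (hw.orth (hπ r x hx) hr' le_rfl fun n => e (hr _ _ n hp))
    · exact (hu w).2 fun x hx => hw.orth (hπ r x hx.1) hr' le_rfl fun n => hp (hr _ _ n.symm hx.2)
  choose! Φ r₀ hΦ using key
  have o : ∀ (a b : L) (r : ℕ), (∀ x ∈ s r, Q.orth a x ∨ Q.orth b x) → Q.orth a b :=
    fun a b r h => (hs r).orth_of (QL.le_top' a) h
  refine ⟨Φ, fun U V hU hV hd => ?_, fun U hU => ?_, fun U V hU hV t => ⟨fun ht => ⟨?_, ?_⟩,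
    fun ht => ?_⟩, fun z P => ?_⟩
  · refine o _ _ (r₀ U + r₀ V) fun x hx => ?_
    by_cases e : π (r₀ U + r₀ V) x ∈ U
    · exact Or.inr (Q.symm ((hΦ V hV _ x _ (by omega) (hπ _ x hx)).2 (Set.disjoint_left.1 hd e)))
    · exact Or.inl (Q.symm ((hΦ U hU _ x _ (by omega) (hπ _ x hx)).2 e))
  · refine QL.le_antisymm (QL.le_cpl_iff.2 ?_) ?_ <;> refine o _ _ (r₀ U + r₀ Uᶜ) fun x hx => ?_ <;>
      have a := hΦ U hU _ x _ (by omega) (hπ _ x hx) <;>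
      have b := hΦ Uᶜ hU.compl _ x _ (by omega) (hπ _ x hx) <;>
      by_cases e : π (r₀ U + r₀ Uᶜ) x ∈ U
    · exact Or.inl (Q.symm (b.2 fun h => h e))
    · exact Or.inr (Q.symm (a.2 e))
    · exact Or.inl (Q.symm (a.1 e))
    · exact Or.inr (Q.symm (b.1 e))
  · refine Q.symm (o _ _ (r₀ U + r₀ (U ∪ V)) fun x hx => ?_)
    by_cases e : π (r₀ U + r₀ (U ∪ V)) x ∈ U
    · exact Or.inr (Q.symm (QL.orth_of_le
        ((hΦ _ (hU.union hV) _ x _ (by omega) (hπ _ x hx)).1 (Or.inl e)) (Q.symm ht)))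
    · exact Or.inl (Q.symm ((hΦ U hU _ x _ (by omega) (hπ _ x hx)).2 e))
  · refine Q.symm (o _ _ (r₀ V + r₀ (U ∪ V)) fun x hx => ?_)
    by_cases e : π (r₀ V + r₀ (U ∪ V)) x ∈ V
    · exact Or.inr (Q.symm (QL.orth_of_le
        ((hΦ _ (hU.union hV) _ x _ (by omega) (hπ _ x hx)).1 (Or.inr e)) (Q.symm ht)))
    · exact Or.inl (Q.symm ((hΦ V hV _ x _ (by omega) (hπ _ x hx)).2 e))
  · refine o _ _ (r₀ U + r₀ V + r₀ (U ∪ V)) fun x hx => ?_
    by_cases e : π (r₀ U + r₀ V + r₀ (U ∪ V)) x ∈ U ∪ V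
    · refine Or.inl (Q.symm ?_)
      rcases e with e | e
      · exact QL.orth_of_le ((hΦ _ hU _ x _ (by omega) (hπ _ x hx)).1 e) (Q.symm ht.1)
      · exact QL.orth_of_le ((hΦ _ hV _ x _ (by omega) (hπ _ x hx)).1 e) (Q.symm ht.2)
    · exact Or.inr (Q.symm ((hΦ _ (hU.union hV) _ x _ (by omega) (hπ _ x hx)).2 e))
  · obtain ⟨m, hm⟩ := exists_bd z
    set U := {p : S0 | P (xx p.1 (p.2 + z))}
    have hU : Loc U := Loc.ev z P
    refine QL.le_antisymm (Q := Q) ?_ ?_ <;> refine o _ _ (r₀ U + m) fun x hx => ?_ <;>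
      have a := hΦ U hU _ x _ (by omega) (hπ _ x hx) <;>
      have b := hπ _ x hx z (fun ε => (hm ε).trans (by push_cast; omega)) <;>
      by_cases e : π (r₀ U + m) x ∈ U
    · exact Or.inr (Q.symm (le_imp b fun τ _ h => h ▸ e))
    · exact Or.inl (Q.symm (a.2 e))
    · exact Or.inr (Q.symm (a.1 e))
    · exact Or.inl (Q.symm (T.le_not_iff.1 (le_imp b fun τ _ h => h ▸ e)))

end TSys

end Vale.Agent.P196
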