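import Vale.Agent.P196.ModB

/-! P196: every high tile recurs; minimality. -/

namespace Vale.Agent.P196
open MAux

namespace MAux

theorem core_ext {a b : Core} (h1 : a.lab = b.lab) (h2 : a.fl = b.fl) (h3 : a.val.val = b.val.val) :
    a = b := by
  cases a; cases b
  simp only [Core.mk.injEq]
  exact ⟨h1, h2, Fin.ext h3⟩

theorem exists_idx (r : ℕ) {l : Lab} (h1 : l.star = false) (h2 : l.ph.val = 4 → l.fst = true)
    {s : ℕ} (hs : s < cc r) (h3 : l.fst = true ↔ s = 0) (h4 : l.lst = true ↔ s = cc r - 1) :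
    ∃ j, 0 < j ∧ j < nn (r + 1) ∧ labF (r + 1) j = l ∧ j - 1 = l.ph.val * cc r + s ∧
      (j - 1) % cc r = s := by
  have hc := cc_pos r
  have hl : l.ph.val * cc r + s + 1 < nn (r + 1) := by
    rw [nn_succ]
    by_cases h : l.ph.val = 4
    · rw [h, h3.1 (h2 h)]; omega
    · have := Nat.mul_le_mul_right (cc r) (show l.ph.val ≤ 3 by omega)
      omega
  have e1 : (l.ph.val * cc r + s + 1 - 1) / cc r = l.ph.val := (div_eq_iff' hc).2 (by omega)
  have e2 : (l.ph.val * cc r + s + 1 - 1) % cc r = s := by rw [mod_of_div e1]; omega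
  refine ⟨_, by omega, hl, ?_, by omega, e2⟩
  have a1 := (labF_ph (by omega) hl).trans e1
  have a2 := labF_fst r (l.ph.val * cc r + s + 1)
  have a3 := labF_lst r (l.ph.val * cc r + s + 1)
  have a4 := labF_star r (l.ph.val * cc r + s + 1)
  rw [e2, ← h3] at a2
  rw [e2, ← h4] at a3
  generalize labF (r + 1) (l.ph.val * cc r + s + 1) = l' at *
  cases l; cases l'
  simp only [Lab.mk.injEq]
  exact ⟨a4.trans h1.symm, Fin.ext a1, Bool.eq_iff_iff.2 a2, Bool.eq_iff_iff.2 a3⟩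

theorem exists_sub {c : ℕ} (hc : 8 ≤ c) {l : Lab} (h : ¬ (l.fst = true ∧ l.lst = true)) :
    ∃ s, s < c ∧ (l.fst = true ↔ s = 0) ∧ (l.lst = true ↔ s = c - 1) ∧
      (s = 0 ∨ s = 2 ∨ s = c - 1) := by
  by_cases h1 : l.fst = true
  · exact ⟨0, by omega, by simp [h1], ⟨fun h2 => (h ⟨h1, h2⟩).elim, by omega⟩, by simp⟩
  by_cases h2 : l.lst = true
  · exact ⟨c - 1, by omega, ⟨fun h => (h1 h).elim, by omega⟩, by simp [h2], by simp⟩
  · exact ⟨2, by omega, by simp [h1], ⟨fun h => (h2 h).elim, by omega⟩, by simp⟩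

theorem exists_time {R j : ℕ} (h0 : 0 < j) (hj : j < nn R) {a : Core} (ha : Ok a)
    (hl : labF R j = a.lab) :
    ∃ T, T < nn (R + 1) ∧ ∀ l, (coreF R j l T).val.val = a.val.val := by
  have hc := cc_pos R
  by_cases hcar : (labF R j).car
  · have h := (labF_car h0 hj).1 hcar
    obtain ⟨s, rfl⟩ : ∃ s, j = oo R + s := ⟨j - oo R, by omega⟩
    have hs : s < cc R := by omega
    by_cases h5 : a.val.val = 5
    · have : 4 * cc R + 1 < nn (R + 1) := by rw [nn_succ]; omega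
      exact ⟨_, this, fun l => by rw [coreF_val hs this, h5]; exact if_pos rfl⟩
    · have h4 := Nat.mul_le_mul_right (cc R) (show a.val.val ≤ 4 by omega)
      have : a.val.val * cc R + 0 < nn (R + 1) := by rw [nn_succ]; omega
      exact ⟨_, this, fun l => by
        rw [coreF_val hs this, valF_eq hs (by omega) (by omega), if_neg (by omega)]⟩
  · refine ⟨0, by rw [nn_succ]; omega, fun l => ?_⟩
    rw [ha.2.1 (hl ▸ hcar)]
    exact (coreF_ok h0 hj l 0).2.1 hcar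

theorem pas_det {Di Do Ci Co Ci' Co' : Core} (h : Pas Di Do Ci Co) (h' : Pas Di Do Ci' Co')
    (o1 : Ok Ci) (o2 : Ok Co) (o1' : Ok Ci') (o2' : Ok Co') (e : Ci.lab = Co.lab)
    (e' : Ci'.lab = Co'.lab) (l : Ci.lab = Ci'.lab) :
    Ci.val.val = Ci'.val.val ∧ Co.val.val = Co'.val.val := by
  by_cases hc : Ci.lab.car
  · have a := h.2.1 hc
    have b := h'.2.1 (l ▸ hc)
    omega
  · rw [o1.2.1 hc, o2.2.1 (e ▸ hc), o1'.2.1 (l ▸ hc), o2'.2.1 (e' ▸ l ▸ hc)]
    exact ⟨rfl, rfl⟩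

theorem act_det {Di Do Ci Co Ci' Co' : Core} (h : Act Di Do Ci Co) (h' : Act Di Do Ci' Co') :
    Ci.val.val = Ci'.val.val ∧ Co.val.val = Co'.val.val := by
  obtain ⟨-, h | h | h⟩ := h <;> obtain ⟨-, h' | h' | h'⟩ := h' <;> simp_all

theorem digit_lt {ρ j : ℕ} (hj : j < nn ρ) {δ : ℤ} (h1 : δ < sg ρ) :
    (j : ℤ) * sg ρ + δ < sg (ρ + 2) := by
  have := mul_le_mul_of_nonneg_right (show (j : ℤ) + 1 ≤ nn ρ by omega) (sg_pos' ρ).le
  rw [sg_add_two]
  linarith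

theorem idx_eq0 {ρ k : ℕ} (hk : k < nn ρ) (β : ℤ) : idx ρ (β * sg (ρ + 2) + k * sg ρ) = k := by
  simpa using idx_eq hk β le_rfl (sg_pos' ρ)

theorem vtx_anti {ρ ρ' : ℕ} (h : ρ ≤ ρ') : Vtx ρ' ⊆ Vtx ρ := by
  refine antitone_nat_of_succ_le (f := Vtx) (fun n p hp => ?_) h
  obtain ⟨h1, h2⟩ := hp
  rw [par_succ] at h1 h2
  rw [Bool.not_not] at h2
  exact ⟨(sg_dvd (by omega) (par_add_two n).symm).trans h2, h1⟩

theorem occ (k' : Vx) (r : ℕ) (hr : 8 ≤ cc r) {Di Do Ci Co : Core} (hd : Dom Di Do Ci Co)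
    (od : Ok Do) (o1 : Ok Ci) (o2 : Ok Co) (ed : Di.lab = Do.lab) (ec : Ci.lab = Co.lab)
    (hs : Ci.lab.star = false) (nc : ¬ (Ci.lab.fst = true ∧ Ci.lab.lst = true))
    (nd : ¬ (Di.lab.fst = true ∧ Di.lab.lst = true)) :
    ∃ u v : ℤ, IsRk (r + 1) u ∧ (sg (r + 2) : ℤ) ∣ v ∧ ¬ (sg (r + 6) : ℤ) ∣ v ∧
      ln k' (!par (r + 1)) v (u - 1) = Di ∧ ln k' (!par (r + 1)) v u = Do ∧
      ln k' (par (r + 1)) u (v - 1) = Ci ∧ ln k' (par (r + 1)) u v = Co := by
  obtain ⟨d1, d2, d3, d4⟩ := hd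
  have d3 := d3.resolve_left (by simp [hs])
  obtain ⟨s, s1, s2, s3, s4⟩ := exists_sub hr nc
  obtain ⟨j, j0, j1, j2, j3, -⟩ := exists_idx r hs o1.2.2 s1 s2 s3
  have fin : ∀ u v : ℤ, IsRk (r + 1) u → idx (r + 1) u = j → (sg (r + 2) : ℤ) ∣ v →
      ((ln k' (par (r + 1)) u (v - 1)).val.val = Ci.val.val ∧
        (ln k' (par (r + 1)) u v).val.val = Co.val.val) →
      ln k' (par (r + 1)) u (v - 1) = Ci ∧ ln k' (par (r + 1)) u v = Co := fun u v h1 h2 h3 h4 => by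
    rw [ln_rk k' h1, ln_rk k' h1, h2] at h4 ⊢
    have := (low_fl (ρ := r + 1) (j := j) h3 (idx (r + 1 + 1) (v - 1))
      (idx (r + 1 + 1) v)).resolve_left (by simp [coreF, labF])
    exact ⟨core_ext j2 (this.1.trans d3.1.symm) h4.1,
      core_ext (j2.trans ec) (this.2.trans d3.2.symm) h4.2⟩
  have c1 := cc_succ r
  rcases d4 with d4 | d4
  · have c2 : cc (r + 2) = 2 * cc (r + 1) := cc_succ (r + 1)
    have c3 : cc (r + 3) = 2 * cc (r + 2) := cc_succ (r + 2)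
    obtain ⟨s', t1, t2, t3, -⟩ := exists_sub (c := cc (r + 3)) (by omega) nd
    obtain ⟨j', k0, k1, k2, -, k4⟩ := exists_idx (r + 3) d1 (ed ▸ od.2.2) t1 t2 t3
    obtain ⟨T, T1, T2⟩ := exists_time k0 k1 od (k2.trans ed)
    obtain ⟨l, l1, l2⟩ : ∃ l, l < nn (r + 3) ∧ flF (r + 4) j' l = Do.fl := by
      have := oo_add_cc_le (r + 3)
      have := oo_pos (r + 3)
      cases Do.fl
      · exact ⟨0, by omega, decide_eq_false (by omega)⟩
      · exact ⟨nn (r + 3) - 1, by omega, decide_eq_true (by omega)⟩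
    let u : ℤ := T * sg (r + 5) + l * sg (r + 3) + j * sg (r + 1)
    have b1 : (j : ℤ) * sg (r + 1) < sg (r + 3) := by simpa using digit_lt j1 (sg_pos' _)
    have b0 : 0 ≤ (j : ℤ) * sg (r + 1) := by positivity
    have e1 : u = (T * nn (r + 3) + l) * sg (r + 3) + j * sg (r + 1) := by
      simp only [u, sg_add_two (r + 3)]; ring
    have hu : IsRk (r + 1) u := e1 ▸ isRk_digit j0 j1 _
    have i1 : idx (r + 1) u = j := e1 ▸ idx_eq0 j1 _
    have i2 : idx (r + 3) u = l := idx_eq l1 _ b0 b1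
    have i3 : idx (r + 5) u = T := by
      have := idx_eq T1 0 (δ := l * sg (r + 3) + j * sg (r + 1)) (by positivity) (digit_lt l1 b1)
      rwa [zero_mul, zero_add, ← add_assoc] at this
    have hv : IsRk (r + 4) (0 * sg (r + 6) + j' * sg (r + 4)) := isRk_digit k0 k1 0
    have i4 := idx_eq0 k1 0
    generalize (0 * sg (r + 6) + j' * sg (r + 4) : ℤ) = v at hv i4
    have hv2 : (sg (r + 2) : ℤ) ∣ v := (sg_dvd (by omega) (par_add_two _).symm).trans hv.1
    have p1 : (!par (r + 1)) = par (r + 4) := by rw [← par_succ, par_add_two (r + 2)]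
    have eo : ln k' (!par (r + 1)) v u = Do := by
      rw [p1, ln_rk k' hv, i4]
      exact core_ext (k2.trans ed) (by rw [← l2, ← i2]; rfl) (by rw [← T2, ← i3])
    have ei : ln k' (!par (r + 1)) v (u - 1) = Di := by
      have := ln_pass k' (ρ := r + 3) hv.1 hu.2
      rw [par_add_two (r + 1)] at this
      rw [this, eo]
      exact (core_ext ed d4.1 (congrArg _ d2)).symm
    refine ⟨u, v, hu, hv2, hv.2, ei, eo, fin u v hu i1 hv2 ?_⟩
    have hd := (dom_ln k' hu hv2).2.2.2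
    rw [ei, eo] at hd
    have lc : (ln k' (par (r + 1)) u (v - 1)).lab = Ci.lab := by
      rw [ln_rk k' hu, i1]; exact j2
    refine pas_det (hd.elim id fun hd => ?_) d4 (ln_ok _ _ _ _) (ln_ok _ _ _ _) o1 o2
      (ln_lab _ _ _ _ _) ec lc
    refine ⟨d4.1, fun hc => ?_, fun h => absurd (lc ▸ h) (by simp [hs])⟩
    have h1 := idx_high (ρ := r + 2) hv.1 le_rfl (sg_pos' _)
    have h2 := idx_high' (ρ := r + 2) hv.1 (δ := -1) (by omega) (by have := sg_pos' (r + 2); omega)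
    rw [add_zero] at h1
    rw [← sub_eq_add_neg] at h2
    change idx (r + 1 + 1) (v - 1) + 1 = 4 * cc (r + 1) + 2 at h2
    rw [lc, ← j2] at hc
    have hc' := (labF_car j0 j1).1 hc
    obtain ⟨s, rfl⟩ : ∃ s, j = oo (r + 1) + s := ⟨j - oo (r + 1), by omega⟩
    have hs' : s < cc (r + 1) := by omega
    rw [ln_rk k' hu, ln_rk k' hu, i1, coreF_val hs' (idx_lt _ _), coreF_val hs' (idx_lt _ _), h1]
    refine ⟨if_pos (by omega), ?_⟩
    simpa using valF_eq (q := 0) (j := 0) hs' (by omega) (by omega)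
  · have hc := d4.1
    rw [← j2] at hc
    have hc' := (labF_car j0 j1).1 hc
    obtain ⟨σ, rfl⟩ : ∃ σ, j = oo (r + 1) + σ := ⟨j - oo (r + 1), by omega⟩
    have hσ : σ < cc (r + 1) := by omega
    have hF := labF_isF hσ
    have hL := labF_isL hσ
    rw [j2] at hF hL
    have hph : Ci.lab.ph.val = 1 ∨ Ci.lab.ph.val = 2 := d4.1.resolve_left (by simp [hs])
    have hσ' : σ = s ∨ σ = cc r + s := by
      rw [oo_succ] at j3
      rcases hph with h | h <;> rw [h] at j3 <;> omega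
    obtain ⟨s', t1, t2, t3, t4, t5⟩ : ∃ s', s' < cc (r + 1) ∧ (Di.lab.fst = true ↔ s' = 0) ∧
        (Di.lab.lst = true ↔ s' = cc (r + 1) - 1) ∧ (Di.fl = true ↔ s' < σ) ∧
        (Do.fl = true ↔ s' ≤ σ) := by
      rcases d4.2 with ⟨a1, a2, -, a4, a5, -⟩ | ⟨a1, a2, a3, a4, -⟩ | ⟨a1, a2, a3, a4, -⟩
      · rw [hL] at a5
        by_cases h : Di.lab.lst = true
        · exact ⟨cc (r + 1) - 1, by omega, by simp [a4]; omega, by simp [h], by simp [a1]; omega,
            by simp [a2]; omega⟩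
        · exact ⟨cc (r + 1) - 2, by omega, by simp [a4]; omega, by simp [h]; omega,
            by simp [a1]; omega, by simp [a2]; omega⟩
      · exact ⟨σ, hσ, a3.trans hF, a4.trans (hL.trans (by omega)), by simp [a1], by simp [a2]⟩
      · rw [hF] at a4
        by_cases h : Di.lab.fst = true
        · exact ⟨0, by omega, by simp [h], by simp [a3]; omega, by simp [a1]; omega, by simp [a2]⟩
        · exact ⟨1, by omega, by simp [h], by simp [a3]; omega, by simp [a1]; omega,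
            by simp [a2]; omega⟩
    obtain ⟨j', k0, k1, k2, -, k4⟩ := exists_idx (r + 1) d1 (ed ▸ od.2.2) t1 t2 t3
    obtain ⟨T, T1, T2⟩ := exists_time k0 k1 od (k2.trans ed)
    have hu := isRk_digit j0 j1 T
    have i1 := idx_eq0 j1 T
    have i3 : idx (r + 3) (T * sg (r + 3) + (oo (r + 1) + σ : ℕ) * sg (r + 1)) = T := by
      have := idx_eq T1 0 (δ := (oo (r + 1) + σ : ℕ) * sg (r + 1)) (by positivity)
        (by simpa using digit_lt j1 (sg_pos' _))
      rwa [zero_mul, zero_add] at this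
    generalize (T * sg (r + 1 + 2) + (oo (r + 1) + σ : ℕ) * sg (r + 1) : ℤ) = u at hu i1 i3
    have hv := isRk_digit k0 k1 0
    have i4 := idx_eq0 k1 0
    generalize (0 * sg (r + 1 + 1 + 2) + j' * sg (r + 1 + 1) : ℤ) = v at hv i4
    have i2 := idx_pred_rk hu
    have i5 := idx_pred_rk hv
    have ho := oo_pos (r + 1)
    have eo : ln k' (!par (r + 1)) v u = Do := by
      rw [← par_succ, ln_rk k' hv, i4]
      refine core_ext (k2.trans ed) (Bool.eq_iff_iff.2 (decide_eq_true_iff.trans ?_))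
        (by rw [← T2, ← i3])
      rw [t5, k4, Nat.add_sub_cancel, i1]
      omega
    have ei : ln k' (!par (r + 1)) v (u - 1) = Di := by
      rw [← par_succ, ln_rk k' hv, i4]
      refine core_ext k2 (Bool.eq_iff_iff.2 (decide_eq_true_iff.trans ?_))
        (by rw [d2, ← T2, ← i3, idx_pred (ρ := r + 3) hu.2])
      rw [t4, k4, Nat.add_sub_cancel]
      omega
    refine ⟨u, v, hu, hv.1, fun h => hv.2 ((sg_dvd (by omega) (par_add_two (r + 4)).symm).trans h),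
      ei, eo, fin u v hu i1 hv.1 ?_⟩
    have hd := (dom_ln k' hu hv.1).2.2.2
    rw [ei, eo] at hd
    refine act_det (hd.resolve_left fun hd => ?_) d4
    have := (hd.2.1 (by rw [ln_rk k' hu, i1]; exact hc)).1
    rw [ln_rk k' hu, i1, coreF_val hσ (idx_lt _ _), valF_eq_five hσ (idx_lt _ _)] at this
    rw [nn_succ] at k1
    omega

end MAux

theorem high_occurs (k : Vx) (ρ : ℕ) : ∃ (v : Pos) (M : ℕ), 0 < M ∧ ∀ (k' : Vx) (m : Pos),
    (∀ ε, (M : ℤ) ∣ m ε) → (k', v + m) ∈ Vtx ρ ∧ xx k' (v + m) = k.1 := by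
  obtain ⟨⟨h1, h2, h3, ε, h4⟩, h5, h6⟩ := k.2
  obtain ⟨r, hr, hp⟩ := exists_par ε (ρ + 3)
  have hp' : par (r + 1) = !ε := by rw [par_succ, hp]
  have hh : ∀ δ, (k.1.ci δ).lab.star = false ∧
      ¬ ((k.1.ci δ).lab.fst = true ∧ (k.1.ci δ).lab.lst = true) := fun δ => by
    cases δ
    · exact ⟨h5, h3 h5⟩
    · exact ⟨h2, h6⟩
  obtain ⟨u, v, a1, a2, a3, a4, a5, a6, a7⟩ := occ k r
    (Nat.pow_le_pow_right two_pos (show 3 ≤ r by omega)) h4 (h1 ε).2.2 (h1 _).2.1 (h1 _).2.2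
    (h1 ε).1 (h1 _).1 (hh _).1 (hh _).2 (hh _).2
  have e : xx k (pt (par (r + 1)) u v) = k.1 := by
    have : ∀ δ, (xx k (pt (par (r + 1)) u v)).ci δ = k.1.ci δ ∧
        (xx k (pt (par (r + 1)) u v)).co δ = k.1.co δ := fun δ => by
      rw [ci_ln, co_ln]
      rcases Bool.eq_or_eq_not δ (par (r + 1)) with rfl | rfl
      · rw [pt_same, pt_not, a6, a7, hp']; exact ⟨rfl, rfl⟩
      · rw [Bool.not_not, pt_same, pt_not, a4, a5, hp', Bool.not_not]; exact ⟨rfl, rfl⟩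
    have e1 := funext fun δ => (this δ).1
    have e2 := funext fun δ => (this δ).2
    generalize xx k (pt (par (r + 1)) u v) = τ at e1 e2
    generalize k.1 = τ' at e1 e2
    cases τ; cases τ'
    simp only [Tile.mk.injEq]
    exact ⟨e1, e2⟩
  have p1 : par (r + 5) = par (r + 1) := (par_add_two (r + 3)).trans (par_add_two (r + 1))
  refine ⟨pt (par (r + 1)) u v, sg (r + 7) * sg (r + 8), Nat.mul_pos (sg_pos _) (sg_pos _),
    fun k' m hm => ?_⟩
  have m1 : ∀ δ, (sg (r + 7) : ℤ) ∣ m δ := fun δ => (Dvd.intro _ (by push_cast; rfl)).trans (hm δ)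
  have m2 : ∀ δ, (sg (r + 8) : ℤ) ∣ m δ :=
    fun δ => (Dvd.intro_left _ (by push_cast; rfl)).trans (hm δ)
  refine ⟨vtx_anti (show ρ ≤ r + 1 by omega) ⟨?_, ?_⟩, (xx_off (ρ := r + 5) k' k ?_ ?_ (m1 _)
    (m2 _)).trans e⟩
  · simp only [Pi.add_apply, pt_same]
    exact a1.1.add ((sg_dvd (by omega) (par_eq_iff.2 (by omega))).trans (m1 _))
  · simp only [Pi.add_apply, pt_not]
    exact a2.add ((sg_dvd (by omega) (par_eq_iff.2 (by omega))).trans (m2 _))
  · rw [p1, pt_same]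
    exact fun h => a1.2 ((sg_dvd (by omega) (par_eq_iff.2 (by omega))).trans h)
  · rwa [p1, pt_not]

theorem minimal {U : Set S0} (hU : Loc U) (hne : U.Nonempty) :
    ∃ D : Set Pos, D.Finite ∧ ∀ p, ∃ d ∈ D, mv p d ∈ U := by
  obtain ⟨r, hr⟩ := hU
  obtain ⟨⟨k, z⟩, hz⟩ := hne
  obtain ⟨n, hn⟩ := exists_bd z
  obtain ⟨ρ, hρ⟩ := sg_big (n + r + 1)
  obtain ⟨v, M, hM, h⟩ := high_occurs k (ρ + 3)
  refine ⟨(fun e => v + z - e) '' {d | ∀ ε, |d ε| ≤ M}, (ball_finite M).image _, fun p => ?_⟩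
  have hM' : (0 : ℤ) < M := by omega
  refine ⟨_, ⟨fun ε => p.2 ε % M, fun ε => ?_, rfl⟩, hr _ _ (fun d hd => ?_) hz⟩
  · rw [abs_of_nonneg (Int.emod_nonneg _ hM'.ne')]
    exact (Int.emod_lt_of_pos _ hM').le
  obtain ⟨h1, h2⟩ := h p.1 (p.2 - fun ε => p.2 ε % M) fun ε => Int.dvd_self_sub_emod
  obtain ⟨k', h3, h4⟩ := near_vtx (by omega) h1
  obtain rfl : k' = k := Subtype.ext (h3.trans h2)
  have b : ∀ ε, |(z + d) ε| ≤ n + r := fun ε =>
    (abs_add_le _ _).trans (add_le_add (hn ε) (hd ε))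
  have b1 := hρ (ρ + 3) (by omega)
  have b2 := hρ (ρ + 3 - 1) (by omega)
  rw [← h4 (z + d) ((b _).trans_lt (by omega)) ((b _).trans_lt (by omega))]
  simp only [mv_fst, mv_snd]
  congr 1
  abel

end Vale.Agent.P196
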