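import Vale.Agent.P196.BlockA
import Vale.Agent.P196.ModD
import Vale.Agent.P196.AmC

/-! P196: the group is infinite and simple. -/

namespace Vale.Agent.P196

open Equiv

namespace Simple

theorem tr_mem {z : I → Pos} (hz : ∑ i, z i = 0) : tr z ∈ AA :=
  Subgroup.subset_closure (Or.inr ⟨z, hz, rfl⟩)

theorem vact_mem {U : Set S0} (hU : Loc U) {a b c : I} (h : D3 a b c) :
    vact U (cyc a b c) ∈ AA :=
  Subgroup.subset_closure (Or.inl ⟨U, X a b c, hU, by rw [pH_X h]⟩)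

theorem sum_single (i k : I) (d : Pos) :
    ∑ j, (Pi.single i d - Pi.single k d : I → Pos) j = 0 := by
  simp [Finset.sum_sub_distrib]

theorem exists_two (i j : I) : ∃ a b : I, D3 i a b ∧ a ≠ j ∧ b ≠ j := by
  revert i j
  simp only [D3]
  decide

theorem exists_fresh (k i l : I) : ∃ j m : I, j ≠ k ∧ j ≠ i ∧ j ≠ l ∧ m ≠ k ∧ m ≠ i ∧ m ≠ l ∧
    j ≠ m := by
  have : ∀ s : Finset I, s.card ≤ 4 → ∃ j, j ∉ s := fun s hs => by
    by_contra h
    push Not at h
    have := Finset.card_le_card (show Finset.univ ⊆ s from fun x _ => h x)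
    simp at this
    omega
  obtain ⟨j, hj⟩ := this {k, i, l} (Finset.card_le_three.trans (by omega))
  obtain ⟨m, hm⟩ := this {k, i, l, j} Finset.card_le_four
  simp only [Finset.mem_insert, Finset.mem_singleton, not_or] at hj hm
  exact ⟨j, m, hj.1, hj.2.1, hj.2.2, hm.1, hm.2.1, hm.2.2.1, Ne.symm hm.2.2.2⟩

theorem vact_commutator {U V : Set S0} (h : V ⊆ U) (σ τ : Perm I) :
    vact V σ * vact U τ * (vact V σ)⁻¹ * (vact U τ)⁻¹ = vact V (σ * τ * σ⁻¹ * τ⁻¹) := by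
  rw [← map_inv, ← map_inv]
  ext1 ⟨p, i⟩
  simp only [Perm.mul_apply, vact_apply]
  by_cases a : p ∈ V
  · simp [a, h a]
  · by_cases b : p ∈ U <;> simp [a, b]

/-- the conjugate of a vertical cycle by an element with a constant rule on `U` -/
theorem isAct_conj {U : Set S0} {Q : Set Pos} (hF : Free U Q) {g : Perm SS} {a b c : I}
    (h : D3 a b c) {x y w : Om} (h' : D3 x y w) (hx : x.1 ∈ Q) (hy : y.1 ∈ Q) (hw : w.1 ∈ Q)
    (ga : ∀ q ∈ U, g (q, a) = (mv q x.1, x.2)) (gb : ∀ q ∈ U, g (q, b) = (mv q y.1, y.2))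
    (gc : ∀ q ∈ U, g (q, c) = (mv q w.1, w.2)) :
    IsAct U Q (fun _ => cyc x y w) (g * vact U (cyc a b c) * g⁻¹) := by
  have key : ∀ s : SS, (∀ q ∈ U, s ≠ (mv q x.1, x.2) ∧ s ≠ (mv q y.1, y.2) ∧ s ≠ (mv q w.1, w.2)) →
      (g * vact U (cyc a b c) * g⁻¹) s = s := fun s hs => by
    obtain ⟨⟨q, n⟩, rfl⟩ := g.surjective s
    simp only [Perm.mul_apply, Perm.coe_inv, symm_apply_apply, vact_apply]
    split_ifs with hq
    · obtain ⟨h1, h2, h3⟩ := hs q hq
      rw [cyc_apply h, if_neg (fun e : n = a => h1 (e ▸ ga q hq)),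
        if_neg (fun e : n = b => h2 (e ▸ gb q hq)), if_neg (fun e : n = c => h3 (e ▸ gc q hq))]
    · rfl
  refine ⟨fun o ho u hu m => ?_, fun p m hp => key _ fun q hq => ⟨fun e => ?_, fun e => ?_,
    fun e => ?_⟩⟩
  · by_cases e1 : (u, m) = x
    · subst e1
      have := ga o ho
      simp only at this
      rw [← this, cyc_apply h', if_pos rfl, ← gb o ho]
      simp [vact_apply, ho, cyc_apply h]
    by_cases e2 : (u, m) = y
    · subst e2
      have := gb o ho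
      simp only at this
      rw [← this, cyc_apply h', if_neg e1, if_pos rfl, ← gc o ho]
      simp [vact_apply, ho, cyc_apply h, h.1.symm]
    by_cases e3 : (u, m) = w
    · subst e3
      have := gc o ho
      simp only at this
      rw [← this, cyc_apply h', if_neg e1, if_neg e2, if_pos rfl, ← ga o ho]
      simp [vact_apply, ho, cyc_apply h, h.2.1.symm, h.2.2.symm]
    rw [cyc_apply h', if_neg e1, if_neg e2, if_neg e3]
    refine key _ fun q hq => ⟨fun e => e1 ?_, fun e => e2 ?_, fun e => e3 ?_⟩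
    · exact Prod.ext (hF o ho q hq u hu _ hx (congrArg Prod.fst e)) (Prod.ext_iff.1 e).2
    · exact Prod.ext (hF o ho q hq u hu _ hy (congrArg Prod.fst e)) (Prod.ext_iff.1 e).2
    · exact Prod.ext (hF o ho q hq u hu _ hw (congrArg Prod.fst e)) (Prod.ext_iff.1 e).2
  · exact hp q hq _ hx (congrArg Prod.fst e)
  · exact hp q hq _ hy (congrArg Prod.fst e)
  · exact hp q hq _ hw (congrArg Prod.fst e)

variable {N : Subgroup (Perm SS)} (hN : ∀ n ∈ N, ∀ g ∈ AA, g * n * g⁻¹ ∈ N)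
include hN

theorem first {g : Perm SS} (hg : g ∈ N) (hA : g ∈ AA) (h1 : g ≠ 1) :
    ∃ U, Loc U ∧ U.Nonempty ∧ ∀ a b c, D3 a b c → vact U (cyc a b c) ∈ N := by
  classical
  obtain ⟨⟨p, i⟩, hp⟩ : ∃ s, g s ≠ s := by
    by_contra h
    push Not at h
    exact h1 (Equiv.ext h)
  obtain ⟨r, hr, -⟩ := locP_of_mem hA
  choose d j hd hj using hr p
  obtain ⟨U, hU, hne, hs, hF⟩ : ∃ U, Loc U ∧ U.Nonempty ∧ U ⊆ {q | Near r p q} ∧
      Free U {d | ∀ ε, |d ε| ≤ r} := by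
    refine loc_free_induction r (P := fun V => V.Nonempty → ∃ U, Loc U ∧ U.Nonempty ∧ U ⊆ V ∧
      Free U {d | ∀ ε, |d ε| ≤ r}) ?_ (fun V a b c => ⟨V, a, c, le_rfl, b⟩)
      ⟨r, fun q q' a b => Near.trans b a⟩ ⟨p, Near.refl r p⟩
    rintro V V' - - - a b ⟨x, hx | hx⟩
    · obtain ⟨U, c1, c2, c3, c4⟩ := a ⟨x, hx⟩
      exact ⟨U, c1, c2, c3.trans Set.subset_union_left, c4⟩
    · obtain ⟨U, c1, c2, c3, c4⟩ := b ⟨x, hx⟩
      exact ⟨U, c1, c2, c3.trans Set.subset_union_right, c4⟩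
  refine ⟨U, hU, hne, ?_⟩
  set Q : Set Pos := {d | ∀ ε, |d ε| ≤ r} with hQ
  have Q0 : (0 : Pos) ∈ Q := fun ε => by simp
  have fin : (Q ×ˢ (Set.univ : Set I)).Finite := (ball_finite r).prod Set.finite_univ
  obtain ⟨C, hC, hπ⟩ := exists_conc
  obtain ⟨ρ, hρ⟩ := C.exists_rho hC hU (ball_finite r) hF
  have d3 : ∀ {a b c : I}, D3 a b c → D3 ((0 : Pos), a) (0, b) (0, c) := fun h =>
    ⟨fun e => h.1 (congrArg Prod.snd e), fun e => h.2.1 (congrArg Prod.snd e),
      fun e => h.2.2 (congrArg Prod.snd e)⟩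
  have m0 : ∀ {a b c : I}, D3 a b c →
      cyc ((0 : Pos), a) (0, b) (0, c) ∈ AltOn (Q ×ˢ (Set.univ : Set I)) := fun h =>
    cyc_mem_AltOn ⟨Q0, trivial⟩ ⟨Q0, trivial⟩ ⟨Q0, trivial⟩ (d3 h)
  have e0 : ∀ {a b c : I} (h : D3 a b c), C.π (ρ ⟨_, m0 h⟩) = vact U (cyc a b c) := fun h => by
    refine (congrArg C.π (hρ 0 _ _ _ (by simp) h (m0 h) Q0 Q0 Q0)).trans ?_
    rw [C.π_msec hU (by simp), pH_X h, tr_zero]
    simp
  have hsim := AltOn_simple fin (by
    have := Set.ncard_le_ncard (show (fun i : I => ((0 : Pos), i)) '' Set.univ ⊆ Q ×ˢ Set.univ by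
      rintro _ ⟨i, -, rfl⟩; exact ⟨Q0, trivial⟩) fin
    rw [Set.ncard_image_of_injective _ (Prod.mk_right_injective _), Set.ncard_univ, Nat.card_fin]
      at this
    omega)
  have mem : ∀ σ, C.π (ρ σ) ∈ AA := fun σ => by rw [hπ]; exact (ρ σ).2
  have nor : (N.comap (C.π.comp ρ)).Normal := ⟨fun n hn x => by
    simpa using hN _ hn _ (mem x)⟩
  obtain ⟨a, b, h3, ha, hb⟩ := exists_two i (j i)
  obtain ⟨o, ho⟩ := hne
  have inj : ∀ {m n : I}, m ≠ n → (d m, j m) ≠ (d n, j n) := fun {m n} h e => h (by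
    have := (hj m o (hs ho)).trans ((congrArg (fun x : Om => (mv o x.1, x.2)) e).trans
      (hj n o (hs ho)).symm)
    exact congrArg Prod.snd (g.injective this))
  have h3' : D3 (d i, j i) (d a, j a) (d b, j b) := ⟨inj h3.1, inj h3.2.1, inj h3.2.2⟩
  have m1 : cyc (d i, j i) (d a, j a) (d b, j b) ∈ AltOn (Q ×ˢ (Set.univ : Set I)) :=
    cyc_mem_AltOn ⟨hd i, trivial⟩ ⟨hd a, trivial⟩ ⟨hd b, trivial⟩ h3'
  have e1 : C.π (ρ ⟨_, m1⟩) = g * vact U (cyc i a b) * g⁻¹ :=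
    ((hρ.isAct C hU hF le_rfl ⟨_, m1⟩).congr fun o ho => if_pos ho).unique
      (isAct_conj hF h3 h3' (hd i) (hd a) (hd b) (fun q hq => hj i q (hs hq))
        (fun q hq => hj a q (hs hq)) fun q hq => hj b q (hs hq))
  have m2 : (⟨_, m1⟩ * (⟨_, m0 h3⟩ : AltOn (Q ×ˢ (Set.univ : Set I)))⁻¹) ∈
      N.comap (C.π.comp ρ) := by
    simp only [Subgroup.mem_comap, map_mul, map_inv, MonoidHom.comp_apply, e0 h3, e1]
    have := N.mul_mem hg (hN _ (N.inv_mem hg) _ (vact_mem hU h3))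
    simpa only [mul_assoc] using this
  rcases nor.eq_bot_or_eq_top with e | e
  · exfalso
    rw [e, Subgroup.mem_bot, mul_inv_eq_one] at m2
    have := congrArg (fun σ : AltOn (Q ×ˢ (Set.univ : Set I)) => (σ : Perm Om) (d i, j i)) m2
    have n0 : (d i, j i) ≠ ((0 : Pos), i) := fun e => hp (by
      rw [hj i p (Near.refl r p), (Prod.mk.inj e).1, (Prod.mk.inj e).2]
      simp)
    simp only [cyc_apply h3', cyc_apply (d3 h3), if_true, if_neg n0] at this
    rw [if_neg (fun e => ha (congrArg Prod.snd e).symm),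
      if_neg (fun e => hb (congrArg Prod.snd e).symm)] at this
    exact h3'.1 this.symm
  · intro a b c h
    rw [← e0 h]
    exact (e ▸ Subgroup.mem_top _ : (⟨_, m0 h⟩ : AltOn (Q ×ˢ (Set.univ : Set I))) ∈
      N.comap (C.π.comp ρ))

theorem second {U : Set S0} (hU : Loc U) (hne : U.Nonempty)
    (h : ∀ a b c, D3 a b c → vact U (cyc a b c) ∈ N) {W : Set S0} (hW : Loc W) {a b c : I}
    (h3 : D3 a b c) : vact W (cyc a b c) ∈ N := by
  have sub : ∀ V, Loc V → V ⊆ U → vact V (cyc a b c) ∈ N := fun V hV hs => by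
    obtain ⟨j, m, j1, j2, j3, m1, m2, m3, jm⟩ := exists_fresh a b c
    have d1 : D3 a b j := ⟨h3.1, j1.symm, j2.symm⟩
    have d2 : D3 a c m := ⟨h3.2.1, m1.symm, m3.symm⟩
    have e := congrArg pH (X_comm h3 d1 d2 j3 m2.symm jm)
    simp only [map_mul, map_inv, pH_X h3, pH_X d1, pH_X d2] at e
    rw [e, ← vact_commutator hs]
    exact N.mul_mem (hN _ (h _ _ _ d2) _ (vact_mem hV d1)) (N.inv_mem (h _ _ _ d2))
  have shf : ∀ d V, Loc V → V ⊆ sh d U → vact V (cyc a b c) ∈ N := fun d V hV hs => by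
    obtain ⟨z, hz, hz'⟩ := exists_sum_zero {a, b, c} (Finset.card_le_three.trans (by omega))
      fun _ => d
    have := hN _ (sub (sh (-d) V) (hV.sh _) fun p hp => by
      simpa [mem_sh] using hs hp) _ (tr_mem hz)
    rwa [tr_vact _ z d _ (fun i hi => hz' i (by
      by_contra hc
      simp only [Finset.mem_insert, Finset.mem_singleton, not_or] at hc
      exact hi (by rw [cyc_apply h3, if_neg hc.1, if_neg hc.2.1, if_neg hc.2.2]))), sh_sh,
      add_neg_cancel, sh_zero] at this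
  obtain ⟨D, hD, hc⟩ := minimal hU hne
  have : ∀ W, Loc W → (∀ p ∈ W, ∃ d ∈ D, mv p d ∈ U) → vact W (cyc a b c) ∈ N := by
    clear hc
    induction D, hD using Set.Finite.induction_on with
    | empty =>
      intro W hW hp
      exact sub W hW fun p h => by simpa using hp p h
    | @insert d D _ _ ih =>
      intro W hW hp
      rw [← Set.inter_union_sdiff W (sh (-d) U),
        vact_union (Set.disjoint_left.2 fun _ a b => b.2 a.2)]
      refine N.mul_mem (shf _ _ (hW.inter (hU.sh _)) Set.inter_subset_right)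
        (ih _ (hW.diff (hU.sh _)) fun p h => ?_)
      obtain ⟨d', h1 | h1, h2⟩ := hp p h.1
      · exact (h.2 (by simpa [mem_sh, ← h1] using h2)).elim
      · exact ⟨d', h1, h2⟩
  exact this W hW fun p _ => hc p

theorem third (h : ∀ W, Loc W → ∀ a b c, D3 a b c → vact W (cyc a b c) ∈ N) : AA ≤ N := by
  refine (Subgroup.closure_le _).2 ?_
  rintro _ (⟨U, x, hU, rfl⟩ | ⟨z, hz, rfl⟩)
  · have : AltOn (Set.univ : Set I) ≤ N.comap (vact U) := (Subgroup.closure_le _).2 (by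
      rintro _ ⟨a, -, b, -, c, -, h3, rfl⟩
      exact h U hU a b c h3)
    exact this (pH_mem x)
  · refine sum_zero_induction (S := ∅) (P := fun z => tr z ∈ N) (tr_zero ▸ N.one_mem)
      (fun i k ε _ _ hik => ?_) (fun z z' _ _ a b => tr_add z z' ▸ N.mul_mem a b) hz
      fun _ h => h.elim
    obtain ⟨l, m, l1, l2, -, m1, m2, -, lm⟩ := exists_fresh i k k
    have d2 : D3 i k m := ⟨hik, m1.symm, m2.symm⟩
    rw [tr_eq (ee ε) ⟨hik, l1.symm, l2.symm⟩ d2 lm]
    exact N.mul_mem (hN _ (h _ Loc.univ _ _ _ d2) _ (tr_mem (sum_single _ _ _)))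
      (N.inv_mem (h _ Loc.univ _ _ _ d2))

end Simple

open Simple

theorem infinite_AA : Infinite AA := by
  obtain ⟨k⟩ := vx_nonempty
  refine Infinite.of_injective (fun d : Pos => (⟨_, tr_mem (sum_single 0 1 d)⟩ : AA))
    fun d d' h => ?_
  have := congrArg (fun g : AA => ((g : Perm SS) ((k, 0), 0)).1.2) h
  simpa using this

theorem simple_AA : IsSimpleGroup AA := by
  have := infinite_AA
  refine ⟨fun N hN => ?_⟩
  rcases N.bot_or_exists_ne_one with h | ⟨g, hg, h1⟩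
  · exact Or.inl h
  have c : ∀ n ∈ N.map AA.subtype, ∀ g ∈ AA, g * n * g⁻¹ ∈ N.map AA.subtype := by
    rintro _ ⟨n, hn, rfl⟩ g hg
    exact ⟨_, hN.conj_mem n hn ⟨g, hg⟩, rfl⟩
  obtain ⟨U, hU, hne, h⟩ := first c ⟨g, hg, rfl⟩ g.2 fun e => h1 (Subtype.ext e)
  refine Or.inr (eq_top_iff.2 fun x _ => ?_)
  obtain ⟨y, hy, e⟩ := third c (fun W hW a b c' h3 => second c hU hne h hW h3) x.2
  exact Subtype.ext e ▸ hy

end Vale.Agent.P196
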