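import Vale.Agent.P196.Quot
import Vale.Agent.P196.Simple
import Vale.Agent.P196.AmB

/-! P196: assembly. -/

namespace Vale.Agent.P196

open Equiv Pointwise

theorem amenable_AA [DecidableEq AA] (K : Finset AA) {e : ℝ} (he : 0 < e) :
    ∃ D : Finset AA, D.Nonempty ∧ ∀ g ∈ K, ((symmDiff (g • D) D).card : ℝ) < e * D.card := by
  refine fol_of_gen (S := {g : AA | ∃ s : Sym, (g : Perm SS) = s.bar Set.univ}) ?_ ?_ K he
  · have h := Subgroup.closure_preimage_eq_top {g : Perm SS | ∃ s : Sym, g = s.bar Set.univ}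
    rw [← AA_gen] at h
    exact h
  · intro K hK e he
    have hr : ∃ r, ∀ g ∈ K, LocP r (g : Perm SS) ∧ LocP r (g : Perm SS)⁻¹ := by
      choose r hr using fun g : AA => locP_of_mem g.2
      exact ⟨K.sup r, fun g hg => ⟨(hr g).1.mono (Finset.le_sup hg), (hr g).2.mono (Finset.le_sup hg)⟩⟩
    obtain ⟨r, hr⟩ := hr
    have h3 : ∀ g ∈ K, g ^ 3 = 1 ∧ LocP r (g : Perm SS) ∧ LocP r (g : Perm SS)⁻¹ := fun g hg => by
      obtain ⟨s, hs⟩ := hK hg
      exact ⟨Subtype.ext (by simpa [hs] using s.bar_cube _), hr g hg⟩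
    have he' : 0 < e / (2 * (K.card + 1)) := by positivity
    obtain ⟨D, hD, hU⟩ := fol_upper false K h3 he'
    obtain ⟨D', hD', hU'⟩ := fol_upper true K h3 he'
    obtain ⟨F, hF⟩ := (hD.prod hD').ext fun ω hω s hs => stab_locFin (hU _ hω.1) (hU' _ hω.2) s hs
    refine ⟨F, hF.1, hF.2.1, fun g hg => (hF.2.2 g hg).trans ?_⟩
    gcongr
    have : (0 : ℝ) ≤ K.card := by positivity
    rw [← add_div, ← mul_div_assoc, div_le_iff₀ (by positivity)]
    nlinarith

end Vale.Agent.P196
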