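import Vale.Agent.P196.Conc

/-! P196: arithmetic of ranks and digits. -/

namespace Vale.Agent.P196

theorem cc_pos (ρ : ℕ) : 0 < cc ρ := by unfold cc; positivity
theorem MAux.cc_succ (ρ : ℕ) : cc (ρ + 1) = 2 * cc ρ := by simp [cc, pow_succ, mul_comm]
open MAux
theorem MAux.nn_succ (ρ : ℕ) : nn (ρ + 1) = 4 * cc ρ + 2 := rfl
theorem MAux.oo_succ (ρ : ℕ) : oo (ρ + 1) = cc ρ + 1 := rfl
theorem nn_ge (ρ : ℕ) : 2 ≤ nn ρ := by cases ρ <;> simp [nn]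
theorem oo_pos (ρ : ℕ) : 0 < oo ρ := by cases ρ <;> simp [oo]
theorem oo_add_cc_le (ρ : ℕ) : oo ρ + cc ρ ≤ nn ρ := by
  cases ρ with
  | zero => simp [oo, cc, nn]
  | succ ρ => rw [oo_succ, cc_succ, nn_succ]; omega
theorem MAux.nn_growth (ρ : ℕ) : 3 * nn ρ ≤ 2 * nn (ρ + 1) := by
  cases ρ with
  | zero => simp [cc, nn]
  | succ ρ => have := cc_pos ρ; rw [nn_succ, nn_succ, cc_succ]; omega
theorem MAux.sg_two (ρ : ℕ) : sg (ρ + 2) = nn ρ * sg ρ := rfl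
theorem sg_pos (ρ : ℕ) : 0 < sg ρ := by
  induction ρ using Nat.twoStepInduction with
  | zero => simp [sg]
  | one => simp [sg]
  | more ρ ih _ => exact Nat.mul_pos (by have := nn_ge ρ; omega) ih
theorem MAux.sg_pos' (ρ : ℕ) : (0 : ℤ) < sg ρ := by exact_mod_cast sg_pos ρ
theorem MAux.nn_pos' (ρ : ℕ) : (0 : ℤ) < nn ρ := by have := nn_ge ρ; omega
theorem sg_add_two (ρ : ℕ) : (sg (ρ + 2) : ℤ) = nn ρ * sg ρ := by rw [sg_two]; push_cast; rfl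
theorem par_eq_iff {ρ ρ' : ℕ} : par ρ = par ρ' ↔ ρ % 2 = ρ' % 2 := by
  simp only [par, decide_eq_decide]; omega
theorem sg_dvd {ρ ρ' : ℕ} (h : ρ ≤ ρ') (hp : par ρ = par ρ') : (sg ρ : ℤ) ∣ sg ρ' := by
  rw [par_eq_iff] at hp
  obtain ⟨j, rfl⟩ : ∃ j, ρ' = ρ + 2 * j := ⟨(ρ' - ρ) / 2, by omega⟩
  clear h hp
  induction j with
  | zero => simp
  | succ j ih => exact ih.trans ⟨nn (ρ + 2 * j), by
      rw [show ρ + 2 * (j + 1) = ρ + 2 * j + 2 by ring, sg_add_two, mul_comm]⟩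
theorem sg_le_succ (ρ : ℕ) : sg ρ ≤ sg (ρ + 1) := by
  induction ρ using Nat.twoStepInduction with
  | zero => simp [sg]
  | one => simp [sg, nn]
  | more ρ ih _ =>
    rw [sg_two, show ρ + 2 + 1 = ρ + 1 + 2 by ring, sg_two]
    exact Nat.mul_le_mul (by have := nn_growth ρ; omega) ih
theorem sg_mono {ρ ρ' : ℕ} (h : ρ ≤ ρ') : sg ρ ≤ sg ρ' := monotone_nat_of_le_succ sg_le_succ h
theorem sg_big (N : ℕ) : ∃ ρ₀, ∀ ρ, ρ₀ ≤ ρ → N ≤ sg ρ := by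
  have : ∀ n, n ≤ sg (2 * n) := fun n => by
    induction n with
    | zero => simp
    | succ n ih =>
      rw [show 2 * (n + 1) = 2 * n + 2 by ring, sg_two]
      have := Nat.mul_le_mul_right (sg (2 * n)) (nn_ge (2 * n))
      have := sg_pos (2 * n)
      omega
  exact ⟨2 * N, fun ρ h => (this N).trans (sg_mono h)⟩
theorem sg_ratio (lam : ℕ) : ∃ ρ₀, ∀ ρ, ρ₀ ≤ ρ → lam * sg ρ ≤ sg (ρ + 1) := by
  induction lam with
  | zero => exact ⟨0, fun _ _ => by simp⟩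
  | succ lam ih =>
    rcases Nat.eq_zero_or_pos lam with rfl | hl
    · exact ⟨0, fun ρ _ => by simpa using sg_le_succ ρ⟩
    obtain ⟨ρ₀, h⟩ := ih
    refine ⟨ρ₀ + 4, fun ρ hρ => ?_⟩
    obtain ⟨ρ, rfl⟩ : ∃ ρ', ρ = ρ' + 2 + 2 := ⟨ρ - 4, by omega⟩
    rw [show ρ + 2 + 2 + 1 = ρ + 1 + 2 + 2 by ring, sg_two, sg_two, sg_two, sg_two]
    have h1 := h ρ (by omega)
    have h2 := Nat.mul_le_mul (nn_growth ρ) (nn_growth (ρ + 2))
    rw [show ρ + 2 + 1 = ρ + 1 + 2 by ring] at h2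
    have h3 : 2 * (nn (ρ + 2) * nn ρ) ≤ nn (ρ + 1 + 2) * nn (ρ + 1) := by nlinarith
    have h4 := Nat.mul_le_mul h3 h1
    have h5 : (lam + 1) * (nn (ρ + 2) * (nn ρ * sg ρ)) ≤ (2 * lam) * (nn (ρ + 2) * (nn ρ * sg ρ)) :=
      Nat.mul_le_mul_right _ (by omega)
    nlinarith
theorem exists_par (ε : Bool) (N : ℕ) : ∃ ρ, N ≤ ρ ∧ par ρ = ε := by
  cases ε
  · exact ⟨2 * N, by omega, by simp [par]⟩
  · exact ⟨2 * N + 1, by omega, by simp [par]⟩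

theorem IsRk.ne_zero {ρ : ℕ} {u : ℤ} (h : IsRk ρ u) : u ≠ 0 := by
  rintro rfl; exact h.2 (dvd_zero _)
theorem IsRk.le {ρ ρ' : ℕ} {u : ℤ} (h : IsRk ρ' u) (hp : par ρ = par ρ') (hd : (sg ρ : ℤ) ∣ u) :
    ρ ≤ ρ' := by
  by_contra hlt
  have := par_eq_iff.1 hp
  exact h.2 ((sg_dvd (by omega) ((par_add_two ρ').trans hp.symm)).trans hd)
theorem IsRk.lt {ρ ρ' : ℕ} {u : ℤ} (h : IsRk ρ' u) (hp : par ρ = par ρ')
    (hd : ¬ (sg ρ : ℤ) ∣ u) : ρ' + 2 ≤ ρ := by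
  by_contra hlt
  have := par_eq_iff.1 hp
  exact hd ((sg_dvd (by omega) hp).trans h.1)
theorem IsRk.unique {ρ ρ' : ℕ} {u : ℤ} (h : IsRk ρ u) (h' : IsRk ρ' u) (hp : par ρ = par ρ') :
    ρ = ρ' := le_antisymm (h'.le hp h.1) (h.le hp.symm h'.1)
theorem IsRk.add {ρ : ℕ} {u m : ℤ} (h : IsRk ρ u) (hm : (sg (ρ + 2) : ℤ) ∣ m) : IsRk ρ (u + m) :=
  ⟨h.1.add ((sg_dvd (by omega) (par_add_two ρ).symm).trans hm),
    fun h' => h.2 ((dvd_add_left hm).1 h')⟩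
theorem exists_rk_lt {ρ : ℕ} {u : ℤ} (h : ¬ (sg ρ : ℤ) ∣ u) :
    ∃ ρ', ρ' + 2 ≤ ρ ∧ par ρ' = par ρ ∧ IsRk ρ' u := by
  induction ρ using Nat.twoStepInduction with
  | zero => simp [sg] at h
  | one => simp [sg] at h
  | more ρ ih _ =>
    by_cases h' : (sg ρ : ℤ) ∣ u
    · exact ⟨ρ, le_rfl, (par_add_two ρ).symm, h', h⟩
    · obtain ⟨ρ', h1, h2, h3⟩ := ih h'
      exact ⟨ρ', by omega, h2.trans (par_add_two ρ).symm, h3⟩
theorem exists_rk (ε : Bool) {u : ℤ} (h : u ≠ 0) : ∃ ρ, par ρ = ε ∧ IsRk ρ u := by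
  obtain ⟨ρ₀, h0⟩ := sg_big (u.natAbs + 1)
  obtain ⟨ρ, h1, rfl⟩ := exists_par ε ρ₀
  obtain ⟨ρ', -, h2, h3⟩ := exists_rk_lt (ρ := ρ) (u := u) fun hd => by
    have := Int.le_of_dvd (abs_pos.2 h) ((dvd_abs _ _).2 hd)
    have := h0 ρ h1
    rw [Int.abs_eq_natAbs] at *
    omega
  exact ⟨ρ', h2, h3⟩
theorem IsRk.rk_eq {ρ : ℕ} {u : ℤ} (h : IsRk ρ u) : rk (par ρ) u = ρ := by
  have e : ∃ ρ', par ρ' = par ρ ∧ IsRk ρ' u := ⟨ρ, rfl, h⟩
  rw [rk, dif_pos e]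
  exact e.choose_spec.2.unique h e.choose_spec.1
theorem IsRk.ms_eq {ρ : ℕ} {u : ℤ} (h : IsRk ρ u) (b : ℤ) :
    ms (par ρ) u b = coreF ρ (idx ρ u) (idx (ρ - 1) b) (idx (ρ + 1) b) := by
  rw [ms, h.rk_eq]

theorem MAux.idx_cast (ρ : ℕ) (u : ℤ) : (idx ρ u : ℤ) = u / sg ρ % nn ρ :=
  Int.toNat_of_nonneg (Int.emod_nonneg _ (nn_pos' ρ).ne')
theorem idx_lt (ρ : ℕ) (u : ℤ) : idx ρ u < nn ρ := by
  have := Int.emod_lt_of_pos (u / sg ρ) (nn_pos' ρ)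
  rw [← idx_cast] at this
  exact_mod_cast this
theorem idx_mul (ρ : ℕ) (t : ℤ) {δ : ℤ} (h0 : 0 ≤ δ) (h1 : δ < sg ρ) :
    (idx ρ (t * sg ρ + δ) : ℤ) = t % nn ρ := by
  rw [idx_cast, add_comm, Int.add_mul_ediv_right _ _ (sg_pos' ρ).ne',
    Int.ediv_eq_zero_of_lt h0 h1, zero_add]
theorem IsRk.idx_pos {ρ : ℕ} {u : ℤ} (h : IsRk ρ u) : 0 < idx ρ u := by
  obtain ⟨⟨t, rfl⟩, h⟩ := h
  by_contra h0
  have h1 := idx_mul ρ t le_rfl (sg_pos' ρ)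
  rw [add_zero, mul_comm, Nat.eq_zero_of_not_pos h0] at h1
  obtain ⟨s, rfl⟩ := Int.dvd_of_emod_eq_zero h1.symm
  exact h ⟨s, by rw [sg_add_two]; ring⟩
theorem idx_add {ρ : ℕ} {m : ℤ} (h : (sg (ρ + 2) : ℤ) ∣ m) (u : ℤ) : idx ρ (u + m) = idx ρ u := by
  obtain ⟨s, rfl⟩ := h
  rw [idx, idx, sg_add_two, show u + nn ρ * sg ρ * s = u + (nn ρ * s) * sg ρ by ring,
    Int.add_mul_ediv_right _ _ (sg_pos' ρ).ne', Int.add_mul_emod_self_left]
/-- the digit of `β σ(ρ+2) + k σ(ρ) + δ` is `k` -/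
theorem idx_eq {ρ k : ℕ} (hk : k < nn ρ) (β : ℤ) {δ : ℤ} (h0 : 0 ≤ δ) (h1 : δ < sg ρ) :
    idx ρ (β * sg (ρ + 2) + k * sg ρ + δ) = k := by
  rw [add_assoc, add_comm, idx_add (Dvd.intro_left β rfl)]
  have := idx_mul ρ k h0 h1
  rw [Int.emod_eq_of_lt (by omega) (by omega)] at this
  exact_mod_cast this
theorem exists_digits (ρ : ℕ) (u : ℤ) : ∃ β δ : ℤ, 0 ≤ δ ∧ δ < sg ρ ∧
    u = β * sg (ρ + 2) + (idx ρ u : ℕ) * sg ρ + δ := by
  refine ⟨u / sg ρ / nn ρ, u % sg ρ, Int.emod_nonneg _ (sg_pos' ρ).ne',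
    Int.emod_lt_of_pos _ (sg_pos' ρ), ?_⟩
  rw [idx_cast, sg_add_two]
  have h1 := Int.mul_ediv_add_emod u (sg ρ)
  have h2 := Int.mul_ediv_add_emod (u / sg ρ) (nn ρ)
  linear_combination -h1 - (sg ρ : ℤ) * h2
theorem isRk_digit {ρ k : ℕ} (h0 : 0 < k) (hk : k < nn ρ) (β : ℤ) :
    IsRk ρ (β * sg (ρ + 2) + k * sg ρ) := by
  refine ⟨⟨β * nn ρ + k, by rw [sg_add_two]; ring⟩, fun h => ?_⟩
  have h1 := idx_eq hk β le_rfl (sg_pos' ρ)
  have h2 := idx_add h 0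
  rw [add_zero] at h1
  rw [zero_add, h1] at h2
  simp [idx] at h2
  omega
theorem idx_pred {ρ : ℕ} {b : ℤ} (h : ¬ (sg ρ : ℤ) ∣ b) : idx ρ (b - 1) = idx ρ b := by
  obtain ⟨β, δ, h0, h1, h2⟩ := exists_digits ρ b
  have : δ ≠ 0 := by
    rintro rfl
    exact h ⟨β * nn ρ + idx ρ b, by rw [sg_add_two] at h2; linear_combination h2⟩
  conv_lhs => rw [h2, add_sub_assoc]
  exact idx_eq (idx_lt ρ b) β (by omega) (by omega)
theorem idx_const {ρ : ℕ} {b δ : ℤ} (h : (sg ρ : ℤ) ∣ b) (h0 : 0 ≤ δ) (h1 : δ < sg ρ) :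
    idx ρ (b + δ) = idx ρ b := by
  obtain ⟨t, rfl⟩ := h
  have h2 := idx_mul ρ t h0 h1
  have h3 := idx_mul ρ t le_rfl (sg_pos' ρ)
  rw [add_zero, ← h2, mul_comm] at h3
  exact_mod_cast h3.symm
theorem idx_const' {ρ : ℕ} {b δ : ℤ} (h : (sg ρ : ℤ) ∣ b) (h0 : δ < 0) (h1 : -(sg ρ : ℤ) ≤ δ) :
    idx ρ (b + δ) = idx ρ (b - 1) := by
  have hd : (sg ρ : ℤ) ∣ b - sg ρ := h.sub dvd_rfl
  have h2 := idx_const hd (δ := δ + sg ρ) (by omega) (by omega)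
  have h3 := idx_const hd (δ := sg ρ - 1) (by omega) (by omega)
  rw [show b - sg ρ + (δ + sg ρ) = b + δ by ring] at h2
  rw [show b - sg ρ + (sg ρ - 1) = b - 1 by ring] at h3
  rw [h2, h3]
theorem idx_pred_rk {ρ : ℕ} {b : ℤ} (h : IsRk ρ b) : idx ρ (b - 1) + 1 = idx ρ b := by
  obtain ⟨β, δ, h0, h1, h2⟩ := exists_digits ρ b
  have hp := h.idx_pos
  have hl := idx_lt ρ b
  have : δ = 0 := Int.eq_zero_of_dvd_of_nonneg_of_lt h0 h1 (by
    have : δ = b - (β * nn ρ + idx ρ b) * sg ρ := by rw [sg_add_two] at h2; linear_combination -h2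
    rw [this]
    exact h.1.sub (Dvd.intro_left _ rfl))
  obtain ⟨k, hk⟩ : ∃ k, idx ρ b = k + 1 := ⟨idx ρ b - 1, by omega⟩
  have h3 := idx_eq (show k < nn ρ by omega) β (δ := sg ρ - 1) (by have := sg_pos' ρ; omega)
    (by omega)
  rw [hk] at h2 ⊢
  rw [show β * sg (ρ + 2) + k * sg ρ + (sg ρ - 1) = b - 1 by
    rw [h2, this]; push_cast; ring] at h3
  rw [h3]
theorem idx_high {ρ : ℕ} {b δ : ℤ} (h : (sg (ρ + 2) : ℤ) ∣ b) (h0 : 0 ≤ δ) (h1 : δ < sg ρ) :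
    idx ρ (b + δ) = 0 := by
  rw [add_comm, idx_add h]
  simpa using idx_eq (k := 0) (by have := nn_ge ρ; omega) 0 h0 h1
theorem idx_high' {ρ : ℕ} {b δ : ℤ} (h : (sg (ρ + 2) : ℤ) ∣ b) (h0 : δ < 0) (h1 : -(sg ρ : ℤ) ≤ δ) :
    idx ρ (b + δ) + 1 = nn ρ := by
  rw [add_comm b, idx_add h]
  obtain ⟨k, hk⟩ : ∃ k, nn ρ = k + 1 := ⟨nn ρ - 1, by have := nn_ge ρ; omega⟩
  have := idx_eq (show k < nn ρ by omega) (-1) (δ := δ + sg ρ) (by omega) (by omega)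
  rw [show -1 * (sg (ρ + 2) : ℤ) + k * sg ρ + (δ + sg ρ) = δ by
    rw [sg_add_two, hk]; push_cast; ring] at this
  omega

theorem ms_lab {ρ : ℕ} {u : ℤ} (h : IsRk ρ u) (b : ℤ) :
    (ms (par ρ) u b).lab = labF ρ (idx ρ u) := by rw [h.ms_eq]; rfl
theorem ms_inv_fl {ρ : ℕ} {u m m' : ℤ} (h : IsRk ρ u) (hm : (sg (ρ + 2) : ℤ) ∣ m)
    (hm' : (sg (ρ + 1) : ℤ) ∣ m') (b : ℤ) :
    (ms (par ρ) (u + m) (b + m')).fl = (ms (par ρ) u b).fl := by
  rw [h.ms_eq, (h.add hm).ms_eq, idx_add hm]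
  cases ρ with
  | zero => rfl
  | succ ρ => simp only [coreF, Nat.add_sub_cancel]; rw [idx_add hm']
theorem ms_inv {ρ : ℕ} {u m m' : ℤ} (h : IsRk ρ u) (hm : (sg (ρ + 2) : ℤ) ∣ m)
    (hm' : (sg (ρ + 3) : ℤ) ∣ m') (b : ℤ) : ms (par ρ) (u + m) (b + m') = ms (par ρ) u b := by
  rw [h.ms_eq, (h.add hm).ms_eq, idx_add hm, idx_add (ρ := ρ + 1) hm']
  cases ρ with
  | zero => rfl
  | succ ρ =>
    rw [Nat.add_sub_cancel, idx_add ((sg_dvd (by omega) (par_add_two (ρ + 2)).symm).trans hm')]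

theorem labF_ph {ρ k : ℕ} (h0 : 0 < k) (hk : k < nn (ρ + 1)) :
    (labF (ρ + 1) k).ph.val = (k - 1) / cc ρ := by
  have hc := cc_pos ρ
  rw [nn_succ] at hk
  exact Nat.mod_eq_of_lt ((Nat.div_lt_iff_lt_mul hc).2 (by omega))
theorem MAux.div_eq_iff' {c x q : ℕ} (hc : 0 < c) : x / c = q ↔ q * c ≤ x ∧ x < q * c + c := by
  rw [Nat.div_eq_iff hc]; omega
/-- the label of the line number `k` of rank `ρ` is a carrier label iff `k` is in the range -/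
theorem labF_car {ρ k : ℕ} (h0 : 0 < k) (hk : k < nn ρ) :
    (labF ρ k).car ↔ oo ρ ≤ k ∧ k < oo ρ + cc ρ := by
  cases ρ with
  | zero => simp only [nn] at hk; simp [labF, Lab.car, oo, cc]; omega
  | succ ρ =>
    have hc := cc_pos ρ
    rw [Lab.car, labF_ph h0 hk, div_eq_iff' hc, div_eq_iff' hc, oo_succ, cc_succ]
    simp only [labF, Bool.false_eq_true, false_or]
    omega
theorem MAux.mod_of_div {c x q : ℕ} (h : x / c = q) : x % c = x - q * c := by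
  have := Nat.div_add_mod x c
  rw [h, mul_comm] at this
  omega
theorem MAux.labF_star (ρ k : ℕ) : (labF (ρ + 1) k).star = false := rfl
theorem MAux.labF_fst (ρ k : ℕ) : (labF (ρ + 1) k).fst = true ↔ (k - 1) % cc ρ = 0 :=
  decide_eq_true_iff
theorem MAux.labF_lst (ρ k : ℕ) : (labF (ρ + 1) k).lst = true ↔ (k - 1) % cc ρ = cc ρ - 1 :=
  decide_eq_true_iff
theorem labF_isF {ρ s : ℕ} (hs : s < cc ρ) : (labF ρ (oo ρ + s)).isF ↔ s = 0 := by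
  cases ρ with
  | zero => simp only [cc] at hs; simp [labF, Lab.isF]; omega
  | succ ρ =>
    have hc := cc_pos ρ
    have := oo_add_cc_le (ρ + 1)
    rw [Lab.isF, labF_ph (by have := oo_pos (ρ + 1); omega) (by omega)]
    rw [labF_fst, labF_star, oo_succ]
    simp only [Bool.false_eq_true, false_or]
    constructor
    · rintro ⟨h1, h2⟩
      rw [mod_of_div h1] at h2
      omega
    · rintro rfl
      simp [hc]
theorem labF_isL {ρ s : ℕ} (hs : s < cc ρ) : (labF ρ (oo ρ + s)).isL ↔ s + 1 = cc ρ := by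
  cases ρ with
  | zero => simp only [cc] at hs; simp [labF, Lab.isL, cc]; omega
  | succ ρ =>
    have hc := cc_pos ρ
    have := oo_add_cc_le (ρ + 1)
    rw [Lab.isL, labF_ph (by have := oo_pos (ρ + 1); omega) (by omega)]
    rw [labF_lst, labF_star, oo_succ, cc_succ]
    simp only [Bool.false_eq_true, false_or]
    constructor
    · rintro ⟨h1, h2⟩
      rw [mod_of_div h1] at h2
      rw [div_eq_iff' hc] at h1
      omega
    · intro h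
      have h1 : (cc ρ + 1 + s - 1) / cc ρ = 2 := (div_eq_iff' hc).2 (by omega)
      exact ⟨h1, by rw [mod_of_div h1]; omega⟩
theorem MAux.valF_lt {c t s : ℕ} (hs : s < c) (ht : t < 4 * c + 1) : valF c t s < 5 := by
  rw [valF, if_neg (by omega)]
  exact (Nat.div_lt_iff_lt_mul (by omega)).2 (by omega)
theorem valF_le {c t s : ℕ} (hs : s < c) (ht : t < 4 * c + 2) : valF c t s ≤ 5 := by
  by_cases h : t = 4 * c + 1
  · rw [valF, if_pos h]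
  · exact (valF_lt hs (by omega)).le
theorem valF_eq_five {c t s : ℕ} (hs : s < c) (ht : t < 4 * c + 2) :
    valF c t s = 5 ↔ t = 4 * c + 1 :=
  ⟨fun h => by_contra fun h' => (valF_lt hs (by omega)).ne h, fun h => if_pos h⟩
/-- the values at the time `q c + j` -/
theorem MAux.valF_eq {c q j s : ℕ} (hs : s < c) (hj : j ≤ c) (ht : q * c + j ≤ 4 * c) :
    valF c (q * c + j) s = if s < j then q + 1 else q := by
  rw [valF, if_neg (by omega), div_eq_iff' (by omega)]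
  split_ifs
  · rw [add_mul]; omega
  · omega
theorem valF_inj {c t t' : ℕ} (hc : 0 < c) (ht : t < 4 * c + 2) (ht' : t' < 4 * c + 2)
    (h : ∀ s, s < c → valF c t s = valF c t' s) : t = t' := by
  by_cases h1 : t = 4 * c + 1
  · exact h1.trans ((valF_eq_five hc ht').1 ((h 0 hc).symm.trans (if_pos h1))).symm
  by_cases h2 : t' = 4 * c + 1
  · exact ((valF_eq_five hc ht).1 ((h 0 hc).trans (if_pos h2))).trans h2.symm
  have e1 := Nat.div_add_mod' t c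
  have e2 := Nat.div_add_mod' t' c
  have l1 := Nat.mod_lt t hc
  have l2 := Nat.mod_lt t' hc
  generalize t / c = q, t % c = j at e1 l1
  generalize t' / c = q', t' % c = j' at e2 l2
  subst e1 e2
  have k : ∀ s, s < c → (if s < j then q + 1 else q) = if s < j' then q' + 1 else q' :=
    fun s hs => by
      rw [← valF_eq hs l1.le (by omega), ← valF_eq hs l2.le (by omega)]; exact h s hs
  have k1 := k (c - 1) (by omega)
  rw [if_neg (by omega), if_neg (by omega)] at k1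
  subst k1
  have k2 := k j l1
  have k3 := k j' l2
  have : j = j' := by split_ifs at k2 k3 <;> omega
  rw [this]
theorem coreF_val {ρ s l t : ℕ} (hs : s < cc ρ) (ht : t < nn (ρ + 1)) :
    (coreF ρ (oo ρ + s) l t).val.val = valF (cc ρ) t s := by
  simp only [coreF]
  rw [if_pos ⟨by omega, by omega⟩, Nat.add_sub_cancel_left]
  exact Nat.mod_eq_of_lt (Nat.lt_succ_of_le (valF_le hs ht))

theorem xx_co (k : Vx) (z : Pos) (ε : Bool) : (xx k z).co ε = st k ε z := rfl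
theorem xx_ci (k : Vx) (z : Pos) (ε : Bool) : (xx k z).ci ε = st k ε (z - ee (!ε)) := rfl
theorem xx_zero (k : Vx) : xx k 0 = k.1 := by
  have h1 : (fun ε => st k ε (0 - ee (!ε))) = k.1.ci := funext fun ε => by simp [st]
  have h2 : (fun ε => st k ε 0) = k.1.co := funext fun ε => by simp [st]
  rw [xx, h1, h2]
theorem st_pt (k : Vx) (ε : Bool) (u b : ℤ) : st k ε (pt ε u b) =
    if u = 0 then (if 0 ≤ b then k.1.co ε else k.1.ci ε) else ms ε u b := by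
  simp only [st, pt_same, pt_not]
/-- two tiles agree when the four edge states agree -/
theorem xx_ext {k k' : Vx} {z z' : Pos}
    (h : ∀ ε, st k ε z = st k' ε z' ∧ st k ε (z - ee (!ε)) = st k' ε (z' - ee (!ε))) :
    xx k z = xx k' z' := by
  simp only [xx, fun ε => (h ε).1, fun ε => (h ε).2]

end Vale.Agent.P196
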