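import Vale.Agent.P196.ModA

/-! P196: the model configurations are legal tilings. -/

namespace Vale.Agent.P196
open MAux

namespace MAux

/-- state of the line `(ε, u)` on the edge from `b` to `b + 1` -/
noncomputable def ln (k : Vx) (ε : Bool) (u b : ℤ) : Core :=
  if u = 0 then (if 0 ≤ b then k.1.co ε else k.1.ci ε) else ms ε u b

theorem co_ln (k : Vx) (z : Pos) (ε : Bool) : (xx k z).co ε = ln k ε (z ε) (z (!ε)) := rfl

theorem ci_ln (k : Vx) (z : Pos) (ε : Bool) : (xx k z).ci ε = ln k ε (z ε) (z (!ε) - 1) := by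
  simp [xx_ci, st, ln]

theorem ln_rk (k : Vx) {ρ : ℕ} {u : ℤ} (h : IsRk ρ u) (b : ℤ) :
    ln k (par ρ) u b = coreF ρ (idx ρ u) (idx (ρ - 1) b) (idx (ρ + 1) b) := by
  rw [ln, if_neg h.ne_zero, h.ms_eq]

theorem ln_ms (k : Vx) (ε : Bool) {u : ℤ} (h : u ≠ 0) (b : ℤ) : ln k ε u b = ms ε u b := if_neg h

theorem xx_ext' {k k' : Vx} {z z' : Pos}
    (h : ∀ ε, ln k ε (z ε) (z (!ε)) = ln k' ε (z' ε) (z' (!ε)) ∧
      ln k ε (z ε) (z (!ε) - 1) = ln k' ε (z' ε) (z' (!ε) - 1)) : xx k z = xx k' z' :=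
  xx_ext fun ε => ⟨(h ε).1, by
    rw [← xx_ci, ← xx_ci, ci_ln, ci_ln]; exact (h ε).2⟩

theorem ln_zero_lab (k : Vx) (ε : Bool) (b : ℤ) : (ln k ε 0 b).lab = (k.1.ci ε).lab := by
  rw [ln, if_pos rfl]
  split_ifs
  · exact (k.2.1.1 ε).1.symm
  · rfl

theorem ln_lab (k : Vx) (ε : Bool) (u b b' : ℤ) : (ln k ε u b).lab = (ln k ε u b').lab := by
  by_cases h : u = 0
  · rw [h, ln_zero_lab, ln_zero_lab]
  · obtain ⟨ρ, rfl, h⟩ := exists_rk ε h
    rw [ln_rk k h, ln_rk k h]; rfl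

theorem coreF_ok {ρ j : ℕ} (h0 : 0 < j) (hj : j < nn ρ) (l t : ℕ) : Ok (coreF ρ j l t) := by
  refine ⟨fun h => ?_, fun h => ?_, fun h => ?_⟩
  · cases ρ with
    | zero => exact ⟨rfl, rfl⟩
    | succ ρ => exact absurd h (by simp [coreF, labF])
  · simp only [coreF]
    rw [if_neg fun h' => h ((labF_car h0 hj).2 h')]
    rfl
  · cases ρ with
    | zero => rfl
    | succ ρ =>
      change (labF (ρ + 1) j).ph.val = 4 at h
      change (labF (ρ + 1) j).fst = true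
      rw [labF_ph h0 hj] at h
      rw [labF_fst, mod_of_div h]
      rw [nn_succ] at hj
      omega

theorem ln_ok (k : Vx) (ε : Bool) (u b : ℤ) : Ok (ln k ε u b) := by
  by_cases h : u = 0
  · rw [ln, if_pos h]
    split_ifs
    · exact (k.2.1.1 ε).2.2
    · exact (k.2.1.1 ε).2.1
  · obtain ⟨ρ, rfl, h⟩ := exists_rk ε h
    rw [ln_rk k h]
    exact coreF_ok h.idx_pos (idx_lt _ _) _ _

theorem labF_two (ρ j : ℕ) : ¬ ((labF (ρ + 2) j).fst = true ∧ (labF (ρ + 2) j).lst = true) := by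
  rw [labF_fst, labF_lst, cc_succ]
  have := cc_pos ρ
  omega

theorem ln_high (k : Vx) {ρ : ℕ} {v : ℤ} (h : (sg (ρ + 2) : ℤ) ∣ v) (b : ℤ) :
    (ln k (par ρ) v b).lab.star = false ∧
      ¬ ((ln k (par ρ) v b).lab.fst = true ∧ (ln k (par ρ) v b).lab.lst = true) := by
  by_cases h0 : v = 0
  · rw [h0, ln_zero_lab]
    cases par ρ
    · exact ⟨k.2.2.1, k.2.1.2.2.1 k.2.2.1⟩
    · exact ⟨k.2.1.2.1, k.2.2.2⟩
  · obtain ⟨ρ', h1, h2⟩ := exists_rk (par ρ) h0
    have := h2.le ((par_add_two ρ).trans h1.symm) h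
    obtain ⟨ρ', rfl⟩ : ∃ j, ρ' = j + 2 := ⟨ρ' - 2, by omega⟩
    rw [← h1, ln_rk k h2]
    exact ⟨rfl, labF_two _ _⟩

/-- a high line does not change at a crossing with a low line -/
theorem ln_pass (k : Vx) {ρ : ℕ} {v u : ℤ} (h : (sg (ρ + 1) : ℤ) ∣ v) (hu : ¬ (sg ρ : ℤ) ∣ u) :
    ln k (!par ρ) v (u - 1) = ln k (!par ρ) v u := by
  by_cases h0 : v = 0
  · have : u ≠ 0 := by rintro rfl; exact hu (dvd_zero _)
    simp only [ln, if_pos h0, show 0 ≤ u - 1 ↔ 0 ≤ u by omega]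
  · obtain ⟨ρ', h1, h2⟩ := exists_rk (!par ρ) h0
    have := h2.le ((par_succ ρ).trans h1.symm) h
    obtain ⟨ρ', rfl⟩ : ∃ j, ρ' = j + 1 := ⟨ρ' - 1, by omega⟩
    have hp : par ρ = par ρ' := by rw [par_succ] at h1; exact (Bool.not_inj h1).symm
    rw [← h1, ln_rk k h2, ln_rk k h2, Nat.add_sub_cancel,
      idx_pred fun h' => hu ((sg_dvd (by omega) hp).trans h'),
      idx_pred fun h' => hu ((sg_dvd (by omega) (hp.trans (par_add_two ρ').symm)).trans h')]

theorem low_fl {ρ j : ℕ} {v : ℤ} (h : (sg (ρ + 1) : ℤ) ∣ v) (t t' : ℕ) :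
    (coreF ρ j (idx (ρ - 1) (v - 1)) t).lab.star = true ∨
      ((coreF ρ j (idx (ρ - 1) (v - 1)) t).fl = true ∧ (coreF ρ j (idx (ρ - 1) v) t').fl = false) := by
  cases ρ with
  | zero => exact Or.inl rfl
  | succ ρ =>
    have h1 := idx_high h le_rfl (sg_pos' ρ)
    have h2 := idx_high' h (δ := -1) (by omega) (by have := sg_pos' ρ; omega)
    rw [add_zero] at h1
    rw [← sub_eq_add_neg] at h2
    have := oo_add_cc_le ρ
    have := oo_pos ρ
    have := Nat.mod_lt (j - 1) (cc_pos ρ)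
    right
    simp only [coreF, flF, Nat.add_sub_cancel, decide_eq_true_eq, decide_eq_false_iff_not]
    omega

theorem pas_act {ρ j j' : ℕ} (h0 : 0 < j) (hj : j < nn ρ) (h0' : 0 < j') (hj' : j' < nn (ρ + 1))
    (l l' t t' : ℕ) :
    Pas (coreF (ρ + 1) j' (j - 1) t) (coreF (ρ + 1) j' j t') (coreF ρ j l (j' - 1))
        (coreF ρ j l' j') ∨
      Act (coreF (ρ + 1) j' (j - 1) t) (coreF (ρ + 1) j' j t') (coreF ρ j l (j' - 1))
        (coreF ρ j l' j') := by
  have hc := cc_pos ρ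
  have hs0 := Nat.mod_lt (j' - 1) hc
  have ho := oo_pos ρ
  have f1 : ∀ l t, (coreF (ρ + 1) j' l t).fl = decide (oo ρ + (j' - 1) % cc ρ ≤ l) :=
    fun _ _ => rfl
  have f2 : ∀ ρ j l t, (coreF ρ j l t).lab = labF ρ j := fun _ _ _ _ => rfl
  by_cases hcar : (labF ρ j).car
  · right
    obtain ⟨s, rfl⟩ : ∃ s, j = oo ρ + s := ⟨j - oo ρ, by have := (labF_car h0 hj).1 hcar; omega⟩
    have hs : s < cc ρ := by have := (labF_car h0 hj).1 hcar; omega
    refine ⟨hcar, ?_⟩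
    rw [coreF_val hs hj', coreF_val hs (by omega), f1, f1, f2, f2, labF_ph h0' hj', labF_isF hs,
      labF_isL hs]
    have g1 := labF_fst ρ j'
    have g2 := labF_lst ρ j'
    have e1 := Nat.div_add_mod' (j' - 1) (cc ρ)
    rw [nn_succ] at hj'
    have hq : (j' - 1) / cc ρ = 4 ↔ j' = 4 * cc ρ + 1 := by rw [div_eq_iff' hc]; omega
    have hq' : (j' - 1) / cc ρ ≤ 4 := Nat.lt_succ_iff.1 ((Nat.div_lt_iff_lt_mul hc).2 (by omega))
    generalize (j' - 1) / cc ρ = q, (j' - 1) % cc ρ = s0 at *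
    have v1 : valF (cc ρ) (j' - 1) s = if s < s0 then q + 1 else q := by
      rw [← e1]; exact valF_eq hs hs0.le (by omega)
    have v2 : valF (cc ρ) j' s = if q = 4 then 5 else if s < s0 + 1 then q + 1 else q := by
      split_ifs with h h'
      · exact if_pos (hq.1 h)
      · rw [show j' = q * cc ρ + (s0 + 1) by omega, valF_eq hs hs0 (by omega), if_pos h']
      · rw [show j' = q * cc ρ + (s0 + 1) by omega, valF_eq hs hs0 (by omega), if_neg h']
    have hq0 : q = 4 → s0 = 0 := fun h => by subst h; omega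
    rw [v1, v2]
    simp only [← Bool.not_eq_true, g1, g2, decide_eq_true_eq]
    rcases lt_trichotomy s s0 with h | h | h
    · left
      rw [if_pos h, if_neg (by omega), if_pos (by omega)]
      omega
    · right; left
      rw [if_neg (by omega), if_pos (show s < s0 + 1 by omega)]
      split_ifs <;> omega
    · right; right
      rw [if_neg (by omega), if_neg (show ¬ s < s0 + 1 by omega)]
      omega
  · left
    refine ⟨?_, fun h => (hcar h).elim, fun h => (hcar (Or.inl h)).elim⟩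
    rw [labF_car h0 hj] at hcar
    rw [f1, f1, decide_eq_decide]
    omega

theorem dom_ln (k : Vx) {ρ : ℕ} {u v : ℤ} (hu : IsRk ρ u) (hv : (sg (ρ + 1) : ℤ) ∣ v) :
    Dom (ln k (!par ρ) v (u - 1)) (ln k (!par ρ) v u) (ln k (par ρ) u (v - 1))
      (ln k (par ρ) u v) := by
  rw [ln_rk k hu, ln_rk k hu]
  by_cases h : (sg (ρ + 3) : ℤ) ∣ v
  · have e := ln_pass k (ρ := ρ + 2) h hu.2
    have hh := ln_high k (ρ := ρ + 1) h u
    rw [par_add_two] at e
    rw [par_succ] at hh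
    rw [e]
    refine ⟨hh.1, rfl, low_fl hv _ _, Or.inl ⟨rfl, fun hc => ?_, fun _ => hh.2⟩⟩
    have h1 := idx_high (ρ := ρ + 1) h le_rfl (sg_pos' _)
    have h2 := idx_high' (ρ := ρ + 1) h (δ := -1) (by omega) (by have := sg_pos' (ρ + 1); omega)
    rw [add_zero] at h1
    rw [← sub_eq_add_neg] at h2
    have hc' := (labF_car hu.idx_pos (idx_lt _ _)).1 hc
    obtain ⟨s, hs⟩ : ∃ s, idx ρ u = oo ρ + s := ⟨idx ρ u - oo ρ, by omega⟩
    have hs' : s < cc ρ := by omega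
    rw [hs, coreF_val hs' (idx_lt _ _), coreF_val hs' (idx_lt _ _), h1]
    rw [nn_succ] at h2
    refine ⟨if_pos (by omega), ?_⟩
    simpa using valF_eq (q := 0) (j := 0) hs' (by omega) (by omega)
  · have hr : IsRk (ρ + 1) v := ⟨hv, h⟩
    rw [← par_succ, ln_rk k hr, ln_rk k hr, Nat.add_sub_cancel, idx_pred (ρ := ρ + 2) hu.2,
      show idx ρ (u - 1) = idx ρ u - 1 by have := idx_pred_rk hu; omega,
      show idx (ρ + 1) (v - 1) = idx (ρ + 1) v - 1 by have := idx_pred_rk hr; omega]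
    exact ⟨rfl, rfl, low_fl hv _ _, pas_act hu.idx_pos (idx_lt _ _) hr.idx_pos (idx_lt _ _) _ _ _ _⟩

end MAux

theorem xx_legal (k : Vx) (z : Pos) : Legal (xx k z) := by
  by_cases hz : z = 0
  · rw [hz, xx_zero]; exact k.2.1
  refine ⟨fun ε => ?_, ?_, ?_, ?_⟩
  · rw [ci_ln, co_ln]
    exact ⟨ln_lab _ _ _ _ _, ln_ok _ _ _ _, ln_ok _ _ _ _⟩
  · rw [ci_ln]
    by_cases h : (sg 3 : ℤ) ∣ z true
    · exact (ln_high k (ρ := 1) h _).1
    · have hr : IsRk 1 (z true) := ⟨by simp [sg], h⟩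
      exact congrArg (fun c : Core => c.lab.star) (ln_rk k hr _)
  · rw [ci_ln]
    by_cases h : (sg 2 : ℤ) ∣ z false
    · exact fun _ => (ln_high k (ρ := 0) h _).2
    · have hr : IsRk 0 (z false) := ⟨by simp [sg], h⟩
      intro h'
      exact absurd ((congrArg (fun c : Core => c.lab.star) (ln_rk k hr _)).symm.trans h')
        (by simp [coreF, labF])
  · have : ∃ ρ, IsRk ρ (z (par ρ)) ∧ (sg (ρ + 1) : ℤ) ∣ z (!par ρ) := by
      by_cases h0 : z false = 0
      · obtain ⟨ρ, h1, h2⟩ := exists_rk true (u := z true) fun h => hz (pos_ext true h h0)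
        exact ⟨ρ, by rwa [h1], by rw [h1]; exact h0 ▸ dvd_zero _⟩
      obtain ⟨ρ, h1, h2⟩ := exists_rk false h0
      by_cases h3 : (sg (ρ + 1) : ℤ) ∣ z true
      · exact ⟨ρ, by rwa [h1], by rwa [h1]⟩
      · obtain ⟨ρ', h4, h5, h6⟩ := exists_rk_lt h3
        rw [par_succ, h1] at h5
        refine ⟨ρ', by rwa [h5], ?_⟩
        rw [h5]
        exact (sg_dvd (by omega) (by rw [par_succ, h5, h1]; rfl)).trans h2.1
    obtain ⟨ρ, h1, h2⟩ := this
    refine ⟨!par ρ, ?_⟩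
    simp only [ci_ln, co_ln, Bool.not_not]
    exact dom_ln k h1 h2

theorem xx_star (k : Vx) (z : Pos) : ((xx k z).co false).lab.star = true ↔ ¬ 2 ∣ z false := by
  rw [co_ln]
  by_cases h : (sg 2 : ℤ) ∣ z false
  · have := (ln_high k (ρ := 0) h (z (!false))).1
    change (ln k false _ _).lab.star = false at this
    rw [this]
    exact ⟨fun h' => absurd h' (by simp), fun h' => (h' h).elim⟩
  · have hr : IsRk 0 (z false) := ⟨by simp [sg], h⟩
    exact ⟨fun _ => h, fun _ => congrArg (fun c : Core => c.lab.star) (ln_rk k hr _)⟩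

theorem xx_mat (k : Vx) (ε : Bool) (z : Pos) :
    outE ε (xx k z) = inE ε (xx k (z + ee (!ε))) := by
  refine Prod.ext ?_ ?_
  · change st k ε z = st k ε (z + ee (!ε) - ee (!ε))
    rw [add_sub_cancel_right]
  · cases ε
    · rfl
    · change ((xx k z).co false).lab.star = !((xx k (z + ee false)).ci false).lab.star
      rw [((xx_legal k _).1 false).1, Bool.eq_iff_iff, Bool.not_eq_true', ← Bool.not_eq_true,
        xx_star, xx_star, Pi.add_apply, ee_same]
      omega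

/-- a high tile in which the line `ε` keeps a prescribed state -/
theorem exists_high (ε : Bool) (s : Core) (h : Ok s) (h1 : s.lab.star = false)
    (h2 : ¬ (s.lab.fst = true ∧ s.lab.lst = true)) : ∃ k : Vx, k.1.ci ε = s ∧ k.1.co ε = s := by
  let l : Lab := ⟨false, 0, false, false⟩
  have ok : ∀ b, Ok ⟨l, b, 0⟩ := fun b => ⟨by simp [l], fun _ => rfl, by simp [l]⟩
  have dom : Dom s s ⟨l, true, 0⟩ ⟨l, false, 0⟩ :=
    ⟨h1, rfl, Or.inr ⟨rfl, rfl⟩, Or.inl ⟨rfl, by simp [l, Lab.car], by simp [l]⟩⟩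
  refine ⟨⟨⟨fun δ => if δ = ε then s else ⟨l, true, 0⟩, fun δ => if δ = ε then s else ⟨l, false, 0⟩⟩,
    ⟨fun δ => ?_, ?_, ?_, ε, ?_⟩, ?_, ?_⟩, if_pos rfl, if_pos rfl⟩
  · by_cases e : δ = ε
    · simp only [if_pos e]; exact ⟨trivial, h, h⟩
    · simp only [if_neg e]; exact ⟨trivial, ok _, ok _⟩
  · cases ε <;> simp [l, h1]
  · cases ε
    · exact fun _ => h2
    · simp [l]
  · simpa using dom
  · cases ε <;> simp [l, h1]
  · cases ε
    · simp [l]
    · exact h2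

theorem vx_nonempty : Nonempty Vx :=
  ⟨(exists_high false ⟨⟨false, 0, false, false⟩, false, 0⟩ ⟨by simp, fun _ => rfl, by simp⟩ rfl
    (by simp)).choose⟩

end Vale.Agent.P196
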