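import Vale.Agent.P196.Word
import Vale.Agent.P196.ModL

/-! P196: a finitely presented group with lifts of the one-cell generators. -/

namespace Vale.Agent.P196

open Equiv

namespace PresA

/-- generators -/
abbrev Gen := ((Tile → Prop) × I × I × I) ⊕ (I × Bool)

/-- cylinder of a predicate -/
def cyl (P : Tile → Prop) : Set S0 := {p | P (xx p.1 p.2)}

/-- concrete values of the generators -/
noncomputable def cv : Gen → Perm SS
  | .inl x => vact (cyl x.1) (pH (X x.2.1 x.2.2.1 x.2.2.2))
  | .inr x => tr (Pi.single x.1 (ee x.2) - Pi.single 0 (ee x.2))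

/-- all short words which are trivial in the concrete group -/
def rels : Set (FreeGroup Gen) :=
  {w | (∃ l : List (Gen × Bool), l.length ≤ 14 ∧ FreeGroup.mk l = w) ∧ FreeGroup.lift cv w = 1}

instance : Finite rels :=
  (((List.finite_length_le (Gen × Bool) 14).image FreeGroup.mk).subset fun _ h => h.1).to_subtype

/-- the group -/
abbrev Γ := PresentedGroup rels

theorem rel (l : List (Gen × Bool)) (hl : l.length ≤ 14)
    (h : (l.map fun x => cond x.2 (cv x.1) (cv x.1)⁻¹).prod = 1) :
    (l.map fun x => cond x.2 (PresentedGroup.of x.1 : Γ) (PresentedGroup.of x.1)⁻¹).prod = 1 := by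
  rw [← FreeGroup.lift_mk, ← FreeGroup.lift_unique (f := PresentedGroup.of)
    (PresentedGroup.mk rels) fun _ => rfl]
  exact PresentedGroup.one_of_mem ⟨⟨l, hl, rfl⟩, by rwa [FreeGroup.lift_mk]⟩

/-- the projection -/
noncomputable def π : Γ →* Perm SS := PresentedGroup.toGroup (f := cv) fun _ h => h.2

theorem π_of (x : Gen) : π (PresentedGroup.of x) = cv x := PresentedGroup.toGroup.of _

/-- cell generators -/
abbrev y (P : Tile → Prop) (a b c : I) : Γ := PresentedGroup.of (.inl (P, a, b, c))

/-- translation generators -/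
abbrev B (x : I × Bool) : Γ := PresentedGroup.of (.inr x)

theorem rel₃ {a b c : Gen} (h : cv a * cv b = cv c) :
    (PresentedGroup.of a * PresentedGroup.of b : Γ) = PresentedGroup.of c := by
  simpa [← mul_assoc, mul_inv_eq_one] using rel [(a, true), (b, true), (c, false)] (by simp)
    (by simp [← mul_assoc, h])

theorem rel_comm {a b : Gen} (h : Commute (cv a) (cv b)) :
    Commute (PresentedGroup.of a : Γ) (PresentedGroup.of b) := by
  have := rel [(a, true), (b, true), (a, false), (b, false)] (by simp) (by simp [← mul_assoc, h.eq])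
  simp only [List.map_cons, List.map_nil, List.prod_cons, List.prod_nil, cond_true, cond_false,
    mul_one, ← mul_assoc] at this
  exact commutatorElement_eq_one_iff_commute.1 this

/-- the cell homomorphisms -/
def E (P : Tile → Prop) : Hat →* Γ :=
  hatLift (y P) ⟨fun a _ b _ c _ h => by
      simpa [mul_inv_eq_one] using rel [(.inl (P, a, b, c), true), (.inl (P, b, c, a), false)]
        (by simp) (by simp [cv, X_sys.rot a trivial b trivial c trivial h]),
    fun k _ i _ l _ m _ h h' hkm => rel₃ (by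
      simp only [cv, ← map_mul, X_sys.mul k trivial i trivial l trivial m trivial h h' hkm])⟩
    fun a b c h => by
      simpa using rel [(.inl (P, a, b, c), true)] (by simp) (by simp [cv, X_degen h])

theorem E_X (P : Tile → Prop) (a b c : I) : E P (X a b c) = y P a b c := hatLift_X _ _ _ a b c

theorem tr_comm (z z' : I → Pos) : Commute (tr z) (tr z') := by
  rw [Commute, SemiconjBy, ← tr_add, ← tr_add, add_comm]

theorem B_comm : Pairwise fun a b : I × Bool => ∀ m n : Multiplicative ℤ,
    Commute (zpowersHom Γ (B a) m) (zpowersHom Γ (B b) n) := fun a b _ _ _ =>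
  (rel_comm (a := .inr a) (b := .inr b) (tr_comm _ _)).zpow_zpow _ _

theorem cv_inl (P : Tile → Prop) (a b c : I) :
    cv (.inl (P, a, b, c)) = vact (cyl P) (pH (X a b c)) := rfl

/-- translations -/
noncomputable def τ : (I × Bool → Multiplicative ℤ) →* Γ :=
  MonoidHom.noncommPiCoprod (fun x => zpowersHom Γ (B x)) B_comm

/-- translations -/
noncomputable def t (z : I → Pos) : Γ := τ fun x => Multiplicative.ofAdd (z x.1 x.2)

theorem t_add (z z' : I → Pos) : t (z + z') = t z * t z' := by
  rw [t, t, t, ← map_mul]; rfl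

theorem t_sub (z z' : I → Pos) : t (z - z') = t z * (t z')⁻¹ := by
  rw [eq_mul_inv_iff_mul_eq, ← t_add, sub_add_cancel]

theorem t_zero : t 0 = 1 := map_one τ

theorem t_single (i : I) (ε : Bool) : t (Pi.single i (ee ε)) = B (i, ε) := by
  have : (fun x : I × Bool => Multiplicative.ofAdd ((Pi.single i (ee ε) : I → Pos) x.1 x.2)) =
      Pi.mulSingle (i, ε) (Multiplicative.ofAdd 1) := by
    funext ⟨j, δ⟩
    by_cases h : j = i <;> by_cases h' : δ = ε <;> simp [h, h', ee]
  rw [t, this, τ, MonoidHom.noncommPiCoprod_mulSingle]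
  simp

theorem tr_sub (z z' : I → Pos) : tr (z - z') = tr z * (tr z')⁻¹ := by
  rw [eq_mul_inv_iff_mul_eq, ← tr_add, sub_add_cancel]

theorem cv_sub (i k : I) (ε : Bool) : cv (.inr (i, ε)) * (cv (.inr (k, ε)))⁻¹ =
    tr (Pi.single i (ee ε) - Pi.single k (ee ε)) := by
  simp only [cv, ← tr_sub, sub_sub_sub_cancel_right]

theorem π_t {z : I → Pos} (hz : ∑ i, z i = 0) : π (t z) = tr z := by
  refine sum_zero_induction (S := ∅) (P := fun z => π (t z) = tr z) (by rw [t_zero, map_one, tr_zero])
    (fun i k ε _ _ _ => ?_) (fun z z' _ _ a b => by rw [t_add, map_mul, a, b, tr_add]) hz (by simp)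
  rw [t_sub, t_single, t_single, map_mul, map_inv, π_of, π_of, cv_sub]

theorem pH_X_fix {a b c i : I} (h : pH (X a b c) i ≠ i) : i = a ∨ i = b ∨ i = c := by
  by_cases h3 : D3 a b c
  · rw [pH_X h3, cyc_apply h3] at h
    grind
  · simp [X_degen h3] at h

theorem t_comm (P : Tile → Prop) {z : I → Pos} {a b c : I} (hz : ∑ i, z i = 0) (ha : z a = 0)
    (hb : z b = 0) (hc : z c = 0) : Commute (t z) (E P (X a b c)) := by
  refine sum_zero_induction (S := {a, b, c}) (P := fun z => Commute (t z) (E P (X a b c)))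
    (by rw [t_zero]; exact Commute.one_left _) (fun i k ε hi hk _ => ?_)
    (fun z z' _ _ a b => by rw [t_add]; exact a.mul_left b) hz (by simp [*])
  have h := tr_vact (cyl P) (Pi.single i (ee ε) - Pi.single k (ee ε)) 0 (pH (X a b c))
    fun j hj => by
      have := pH_X_fix hj
      have h1 : j ≠ i := by rintro rfl; exact hi this
      have h2 : j ≠ k := by rintro rfl; exact hk this
      simp [h1, h2]
  rw [sh_zero, ← cv_sub] at h
  have := rel [(.inr (i, ε), true), (.inr (k, ε), false), (.inl (P, a, b, c), true),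
    (.inr (k, ε), true), (.inr (i, ε), false), (.inl (P, a, b, c), false)] (by simp)
    (by simpa [← mul_assoc, mul_inv_eq_one, cv_inl] using h)
  rw [t_sub, t_single, t_single, E_X, ← commutatorElement_eq_one_iff_commute]
  simpa [commutatorElement_def, mul_assoc] using this

theorem horth_X {G : Type} [Group G] {u v : Hat →* G}
    (h : ∀ a b c a' b' c', Commute (u (X a b c)) (v (X a' b' c'))) : HOrth u v := by
  have key : ∀ (w : Hat →* G) (x : G), (∀ a b c, Commute x (w (X a b c))) →
      ∀ g, Commute x (w g) := fun w x hx g => by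
    have := hat_ext (u := (MulAut.conj x).toMonoidHom.comp w) (v := w) fun a b c _ => by
      simp [(hx a b c).eq]
    have := DFunLike.congr_fun this g
    simp only [MonoidHom.comp_apply, MulEquiv.coe_toMonoidHom, MulAut.conj_apply] at this
    exact mul_inv_eq_iff_eq_mul.1 this
  intro g g'
  exact (key u _ (fun a b c => (key v _ (h a b c) g').symm) g).symm

theorem cyl_disj {P P' : Tile → Prop} (h : ∀ τ, Legal τ → P τ → ¬ P' τ) :
    Disjoint (cyl P) (cyl P') := Set.disjoint_left.2 fun p a => h _ (xx_legal p.1 p.2) a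

theorem E_orth {P P' : Tile → Prop} (h : ∀ τ, Legal τ → P τ → ¬ P' τ) : HOrth (E P) (E P') :=
  horth_X fun a b c a' b' c' => by
    rw [E_X, E_X]; exact rel_comm (vact_comm (cyl_disj h) _ _)

theorem E_or {P P' : Tile → Prop} (h : ∀ τ, Legal τ → P τ → ¬ P' τ) (g : Hat) :
    E (fun τ => P τ ∨ P' τ) g = E P g * E P' g :=
  DFunLike.congr_fun (hat_ext (u := E fun τ => P τ ∨ P' τ)
    (v := MonoidHom.mk' (fun g => E P g * E P' g) fun a b => by
      rw [map_mul, map_mul]; exact (E_orth h b a).mul_mul_mul_comm _ _) fun a b c _ => by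
    simp only [MonoidHom.mk'_apply, E_X]
    exact (rel₃ (vact_union (cyl_disj h) _).symm).symm) g

theorem mat (ε : Bool) (R : Core × Bool → Prop) {z : I → Pos} {a b c : I} (hz : ∑ i, z i = 0)
    (ha : z a = -ee (!ε)) (hb : z b = -ee (!ε)) (hc : z c = -ee (!ε)) :
    E (fun τ => R (outE ε τ)) (X a b c) =
      t z * E (fun τ => R (inE ε τ)) (X a b c) * (t z)⁻¹ := by
  by_cases h3 : D3 a b c
  swap
  · simp [X_degen h3]
  obtain ⟨m, hm⟩ : ∃ m : I, m ∉ ({a, b, c} : Finset I) := (Finset.exists_mem_notMem_of_card_lt_card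
    (t := Finset.univ) (Finset.card_le_three.trans_lt (by simp))).imp fun _ h => h.2
  simp only [Finset.mem_insert, Finset.mem_singleton, not_or] at hm
  let s : I → I → Pos := fun i => Pi.single m (ee (!ε)) - Pi.single i (ee (!ε))
  have hs : ∀ i, ∑ j, s i j = 0 := fun i => by simp [s, Finset.sum_sub_distrib]
  obtain ⟨h1, h2, h4⟩ := h3
  have sa : (s a + s b + s c) a = -ee (!ε) := by simp [s, *, Ne.symm]
  have sb : (s a + s b + s c) b = -ee (!ε) := by simp [s, *, Ne.symm]
  have sc : (s a + s b + s c) c = -ee (!ε) := by simp [s, *, Ne.symm]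
  have e : t z = t (s a + s b + s c) * t (z - (s a + s b + s c)) := by
    rw [← t_add, add_sub_cancel]
  have cm := t_comm (fun τ => R (inE ε τ)) (z := z - (s a + s b + s c)) (a := a) (b := b) (c := c)
    (by simp [Finset.sum_sub_distrib, Finset.sum_add_distrib, hs, hz])
    (by rw [Pi.sub_apply, sa, ha, sub_self]) (by rw [Pi.sub_apply, sb, hb, sub_self])
    (by rw [Pi.sub_apply, sc, hc, sub_self])
  rw [e, mul_assoc (t _), cm.eq, mul_inv_rev, mul_assoc, mul_assoc, mul_inv_cancel_left]
  have h := tr_vact (cyl fun τ => R (inE ε τ)) (s a + s b + s c) (-ee (!ε)) (pH (X a b c))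
    fun j hj => by rcases pH_X_fix hj with rfl | rfl | rfl <;> assumption
  have e2 : sh (-ee (!ε)) (cyl fun τ => R (inE ε τ)) = cyl fun τ => R (outE ε τ) := by
    ext p; simp [mem_sh, cyl, xx_mat]
  rw [e2, tr_add, tr_add, ← cv_sub, ← cv_sub, ← cv_sub] at h
  have := rel [(.inr (m, !ε), true), (.inr (a, !ε), false), (.inr (m, !ε), true),
    (.inr (b, !ε), false), (.inr (m, !ε), true), (.inr (c, !ε), false),
    (.inl (fun τ => R (inE ε τ), a, b, c), true), (.inr (c, !ε), true), (.inr (m, !ε), false),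
    (.inr (b, !ε), true), (.inr (m, !ε), false), (.inr (a, !ε), true), (.inr (m, !ε), false),
    (.inl (fun τ => R (outE ε τ), a, b, c), false)] (by simp)
    (by simpa [← mul_assoc, mul_inv_eq_one, cv_inl] using h)
  simp only [s, t_add, t_sub, t_single, E_X]
  rw [eq_comm, ← mul_inv_eq_one]
  simpa [mul_assoc] using this

theorem t_eq (ε : Bool) {i k l m : I} (h : D3 i k l) (h' : D3 i k m) (hlm : l ≠ m) :
    t (Pi.single i (ee ε) - Pi.single k (ee ε)) =
      t (Pi.single i (ee ε) - Pi.single l (ee ε)) * E (fun _ => True) (X i k m) *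
        (t (Pi.single i (ee ε) - Pi.single l (ee ε)))⁻¹ * (E (fun _ => True) (X i k m))⁻¹ := by
  have e := tr_eq (ee ε) h h' hlm
  rw [← cv_sub, ← cv_sub, ← pH_X h', eq_comm, ← mul_inv_eq_one] at e
  have := rel [(.inr (i, ε), true), (.inr (l, ε), false), (.inl (fun _ => True, i, k, m), true),
    (.inr (l, ε), true), (.inr (i, ε), false), (.inl (fun _ => True, i, k, m), false),
    (.inr (k, ε), true), (.inr (i, ε), false)] (by simp)
    (by simpa [← mul_assoc, cv_inl, cyl] using e)
  simp only [t_sub, t_single, E_X]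
  rw [eq_comm, ← mul_inv_eq_one]
  simpa [mul_assoc] using this

theorem gen : Subgroup.closure ({g | ∃ P h, g = E P h} ∪ {g | ∃ z, ∑ i, z i = 0 ∧ g = t z}) = ⊤ := by
  rw [eq_top_iff, ← PresentedGroup.closure_range_of]
  refine Subgroup.closure_mono ?_
  rintro _ ⟨⟨P, a, b, c⟩ | ⟨i, ε⟩, rfl⟩
  · exact Or.inl ⟨P, X a b c, (E_X P a b c).symm⟩
  · refine Or.inr ⟨Pi.single i (ee ε) - Pi.single 0 (ee ε), by simp [Finset.sum_sub_distrib], ?_⟩
    have : B (0, ε) = 1 := by
      simpa using rel [(.inr (0, ε), true)] (by simp) (by simp [cv, tr_zero])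
    rw [t_sub, t_single, t_single, this, inv_one, mul_one]

theorem π_E (P : Tile → Prop) (h : Hat) : π (E P h) = vact (cyl P) (pH h) :=
  DFunLike.congr_fun (hat_ext (u := π.comp (E P)) (v := (vact (cyl P)).comp pH) fun a b c _ => by
    simp only [MonoidHom.comp_apply, E_X]; exact π_of _) h

end PresA

open PresA in
theorem exists_pre : ∃ (G : Type) (_ : Group G), Group.IsFinitelyPresented G ∧ Nonempty (Pre G) :=
  ⟨Γ, inferInstance, inferInstance, ⟨⟨E, t, π, fun z z' _ _ => t_add z z', fun _ _ => E_orth,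
    fun _ _ => E_or, fun P _ _ _ _ => t_comm P, fun ε R _ _ _ _ => mat ε R,
    fun ε _ _ _ _ => t_eq ε, gen, π_E, fun _ => π_t⟩⟩⟩

end Vale.Agent.P196
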