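import Vale.Agent.P196.RigD

/-! P196: the digit partition is central. -/

namespace Vale.Agent.P196

theorem dom_out {Di Do Do' Ci Co : Core} (h : Dom Di Do Ci Co) (h' : Dom Di Do' Ci Co)
    (e : Do.lab = Do'.lab) : Do = Do' := by
  refine Core.ext' e ?_ (h.2.1.symm.trans h'.2.1)
  have := Di.lab.ph.2
  simp only [Dom, Pas, Act] at h h'
  grind

theorem dom_in {Di Di' Do Ci Co : Core} (h : Dom Di Do Ci Co) (h' : Dom Di' Do Ci Co)
    (e : Di.lab = Di'.lab) (o : Ok Di) : Di = Di' := by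
  refine Core.ext' e ?_ (h.2.1.trans h'.2.1.symm)
  have := Di.lab.ph.2
  have := o.2.2
  simp only [Dom, Pas, Act, ← e] at h h'
  grind

theorem labF_one {ρ k : ℕ} (h0 : 0 < k) (hk : k < nn (ρ + 1)) :
    ((labF (ρ + 1) k).ph.val = 0 ∧ (labF (ρ + 1) k).fst = true) ↔ k = 1 := by
  rw [labF_ph h0 hk]
  simp only [labF, decide_eq_true_eq]
  have := Nat.div_add_mod (k - 1) (cc ρ)
  refine ⟨fun h => ?_, by rintro rfl; simp⟩
  rw [h.1, h.2] at this
  omega

namespace TSys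

variable {L : Type} {Q : QL L} {T : TSys Q} {c : L} {ρ : ℕ} {p : ℤ → L}

theorem cpt_det {α : Type} [Finite α] {w : L} {z : Pos} (g : Tile → α) {D P : Tile → Prop}
    (hD : Q.le w (T.ev z D)) (hg : ∀ a, Q.Cpt w (T.ev z fun τ => g τ = a))
    (hP : ∀ τ τ', Legal τ → Legal τ' → D τ → D τ' → g τ = g τ' → P τ → P τ') :
    Q.Cpt w (T.ev z P) := by
  refine (cpt_fun hg fun a => ∃ τ', Legal τ' ∧ D τ' ∧ g τ' = a ∧ P τ').transfer
    (fun x hx h => le_imp₂ h (QL.le_trans hx hD) fun τ l a b => ?_)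
    fun x hx h => T.le_not_iff.1 (le_imp₂ (T.le_not_iff.2 h) (QL.le_trans hx hD)
      fun τ l a b c => a ⟨τ, l, b, rfl, c⟩)
  obtain ⟨τ', l', d, e, f⟩ := a
  exact hP τ' τ l' l d b e f

theorem cpt_full {w : L} {z : Pos} {ε : Bool} {s : Core}
    (h : Q.le w (T.ev z fun τ => τ.co ε = s)) (R : Core → Prop) :
    Q.Cpt w (T.ev z fun τ => R (τ.co ε)) :=
  cpt_det (fun _ => ()) h (fun _ => QL.cpt_of_le (T.le_ev _ _ fun _ _ => rfl))
    fun _ _ _ _ a b _ => by rw [a, b]; exact id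

theorem cpt_move {α : Type} {w : L} {z z' : Pos} {f f' : Tile → α}
    (h : ∀ x, Q.le x w → ∀ R : α → Prop,
      Q.le x (T.ev z fun τ => R (f τ)) → Q.le x (T.ev z' fun τ => R (f' τ))) {R : α → Prop}
    (h' : Q.Cpt w (T.ev z fun τ => R (f τ))) : Q.Cpt w (T.ev z' fun τ => R (f' τ)) :=
  h'.transfer (fun x hx => h x hx R) fun x hx a =>
    T.le_not_iff.1 (h x hx (fun y => ¬ R y) (T.le_not_iff.2 a))

theorem cpt_three {α β γ : Type} {w : L} {z : Pos} {f : Tile → α} {g : Tile → β} {k : Tile → γ}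
    (h1 : ∀ a, Q.Cpt w (T.ev z fun τ => f τ = a)) (h2 : ∀ a, Q.Cpt w (T.ev z fun τ => g τ = a))
    (h3 : ∀ a, Q.Cpt w (T.ev z fun τ => k τ = a)) (a : α × β × γ) :
    Q.Cpt w (T.ev z fun τ => (f τ, g τ, k τ) = a) := by
  simp only [Prod.ext_iff]
  exact cpt_and (h1 _) (cpt_and (h2 _) (h3 _))

theorem exists_res (ρ : ℕ) (m : ℤ) : ∃ k : ℕ, k < nn (ρ + 1) ∧ (nn (ρ + 1) : ℤ) ∣ m - k := by
  have n0 : (0 : ℤ) < nn (ρ + 1) := by have := nn_ge (ρ + 1); omega
  obtain ⟨k, hk⟩ := Int.eq_ofNat_of_zero_le (Int.emod_nonneg m n0.ne')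
  exact ⟨k, by have := Int.emod_lt_of_pos m n0; omega, hk ▸ Int.dvd_self_sub_of_emod_eq rfl⟩

theorem isRk_mul {ρ : ℕ} {j : ℤ} (h : ¬ (nn ρ : ℤ) ∣ j) : IsRk ρ (j * sg ρ) :=
  ⟨dvd_mul_left _ _, fun a => h (by
    rw [sg_add_two] at a
    exact Int.dvd_of_mul_dvd_mul_right (by have := sg_pos ρ; omega) a)⟩

theorem Atoms.cell_cpt (h : T.Atoms ρ c p) (hc : T.Cen c) (t t' β : ℤ) :
    ∃ s, s < cc ρ ∧ ∀ P, Q.Cpt (p t) (T.ev (cell ρ t' β s) P) := by
  obtain ⟨k, hk, hd⟩ := exists_res ρ (t' - t)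
  rcases Nat.eq_zero_or_pos k with rfl | h0
  · rw [← h.eq_of_dvd (t := t') (by simpa using hd)]
    exact ⟨0, cc_pos ρ, fun P => (h.pas t' β 0 (cc_pos ρ)).cpt (hc _ _) (T.cpt_ev _ _ _)⟩
  · rw [← h.eq_of_dvd (t := t' - k) (by convert hd using 1; ring)]
    exact ⟨_, Nat.mod_lt _ (cc_pos ρ), fun P => (h.act t' β k h0 hk).cpt (hc _ _) (T.cpt_ev _ _ _)⟩

theorem shift_row (T : TSys Q) (ρ : ℕ) (t t' x : ℤ) (P : Tile → Prop) :
    (T.shift (pt (par ρ) 0 (t * sg (ρ + 1)))).ev (pt (par ρ) x ((t' - t) * sg (ρ + 1))) P =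
      T.ev (pt (par ρ) x (t' * sg (ρ + 1))) P := by
  simp only [shift, pt_add, zero_add]
  congr 2; ring

theorem Atoms.row_cpt (h : T.Atoms ρ c p) (hc : T.Cen c) (hd : T.Det (ρ + 1) c) (t t' x : ℤ)
    (R : Core → Prop) :
    Q.Cpt (p t) (T.ev (pt (par ρ) x (t' * sg (ρ + 1))) fun τ => R (τ.co (!par ρ))) := by
  have p0 : (0 : ℤ) < sg (ρ + 2) := by exact_mod_cast sg_pos _
  have eb := Int.ediv_mul_add_emod x (sg (ρ + 2))
  have b0 := Int.emod_nonneg x p0.ne'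
  have b1 := Int.emod_lt_of_pos x p0
  generalize x / sg (ρ + 2) = β at *
  generalize x % sg (ρ + 2) = δ at *
  subst eb
  obtain ⟨s, hs, hcp⟩ := h.cell_cpt hc t t' β
  have s0 : (0 : ℤ) ≤ (oo ρ + s : ℕ) * sg ρ := by positivity
  have s1 : ((oo ρ + s : ℕ) : ℤ) * sg ρ < sg (ρ + 2) := by
    have := oo_add_cc_le ρ
    rw [sg_add_two]
    exact mul_lt_mul_of_pos_right (by omega) (by exact_mod_cast sg_pos ρ)
  have D := h.det hd t
  by_cases e : (nn (ρ + 1) : ℤ) ∣ t' - t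
  · have key : ∀ x, Q.le x (p t) → ∀ (R : Core → Prop) (δ : ℤ), 0 ≤ δ → δ < sg (ρ + 2) →
        (Q.le x (T.ev (pt (par ρ) (β * sg (ρ + 2)) (t' * sg (ρ + 1))) fun τ => R (τ.co (!par ρ))) ↔
        Q.le x (T.ev (pt (par ρ) (β * sg (ρ + 2) + δ) (t' * sg (ρ + 1)))
          fun τ => R (τ.co (!par ρ)))) := by
      intro x hx R δ d0 d1
      rw [← pt_swap, ← pt_swap (par ρ)]
      refine prop_line (!par ρ) _ (by omega) R fun y a b => QL.le_trans hx ?_
      obtain ⟨r, hr, hp, hy⟩ := exists_rk_lt (not_dvd_between a (by omega))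
      rw [par_add_two] at hp
      have := D.pass (ρ' := r) (b := (t' - t) * sg (ρ + 1)) (by omega) hy
        ((sg_dvd (ρ' := ρ + 3) (by omega) (by
          rw [par_succ (r + 2), par_succ (ρ + 2), par_add_two, par_add_two, hp])).trans
          (by rw [sg_add_two (ρ + 1)]; exact mul_dvd_mul_right e _))
      rw [hp, shift_row, ← pt_swap] at this
      exact le_imp this fun τ _ a => by rw [a.1]
    exact cpt_move (fun x hx R a => (key x hx R δ b0 b1).1 ((key x hx R _ s0 s1).2 a))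
      (hcp fun τ => R (τ.co (!par ρ)))
  · have a := D.at (ρ' := ρ + 1) (by omega) (isRk_mul e) (β * sg (ρ + 2) + δ)
    generalize ms (par (ρ + 1)) _ _ = s₀ at a
    rw [par_succ, pt_swap, shift_row] at a
    refine cpt_det (fun τ => (τ.co (!par ρ)).val) a (fun v => ?_) fun τ τ' _ _ a b e => by
      rw [Core.ext' (a.1.trans b.1.symm) (a.2.1.trans b.2.1.symm) e]; exact id
    exact cpt_move (f := fun τ => (τ.co (!par ρ)).val) (R := fun y => y = v) (fun x hx R a =>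
      (hd.row_val (QL.le_trans hx (h.le t)) t' β b0 b1 R).1
        ((hd.row_val (QL.le_trans hx (h.le t)) t' β s0 s1 R).2 a)) (hcp _)

theorem Atoms.row_lab (h : T.Atoms ρ c p) (hd : T.Det (ρ + 1) c) {t t' : ℤ} {k : ℕ} (h0 : 0 < k)
    (hk : k < nn (ρ + 1)) (hj : (nn (ρ + 1) : ℤ) ∣ t' - t - k) (x : ℤ) :
    Q.le (p t) (T.ev (pt (par ρ) x (t' * sg (ρ + 1))) fun τ =>
      ((τ.co (!par ρ)).lab.ph.val = 0 ∧ (τ.co (!par ρ)).lab.fst = true) ↔ k = 1) := by
  rw [← T.ev_cell_lab ρ t' 0 0 x fun l => (l.ph.val = 0 ∧ l.fst = true) ↔ k = 1]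
  exact le_imp (h.row hd h0 hk hj 0 (cc_pos ρ)) fun τ _ a => by
    rw [a.2.2.2.2]; exact labF_one h0 hk

theorem Det.col_next {w : L} (h : T.Det (ρ + 1) c) (hw : Q.le w c) {u : ℤ}
    (hu : (sg (ρ + 2) : ℤ) ∣ u) (t : ℤ) (R : Core → Prop) :
    Q.le w (T.ev (pt (par ρ) u (t * sg (ρ + 1))) fun τ => R (τ.co (par ρ))) ↔
      Q.le w (T.ev (pt (par ρ) u ((t + 1) * sg (ρ + 1))) fun τ => R (τ.ci (par ρ))) := by
  have := sg_pos (ρ + 1)
  rw [T.ev_ci_pt, h.col_high hw hu t (δ := sg (ρ + 1) - 1) (by omega) (by omega)]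
  congr! 3
  ring

theorem Atoms.col_one (h : T.Atoms ρ c p) (hc : T.Cen c) (hd : T.Det (ρ + 1) c) (t : ℤ) {u : ℤ}
    (hu : (sg (ρ + 2) : ℤ) ∣ u) (R : Core → Prop) :
    Q.Cpt (p t) (T.ev (pt (par ρ) u ((t + 1) * sg (ρ + 1))) fun τ => R (τ.co (par ρ))) := by
  have hn : 6 ≤ nn (ρ + 1) := by have := cc_pos ρ; simp only [nn]; omega
  obtain ⟨c₂, h2⟩ := hc (pt (par ρ) u ((t + 1 + 1) * sg (ρ + 1))) fun τ =>
    ¬ ((τ.co (!par ρ)).lab.ph.val = 0 ∧ (τ.co (!par ρ)).lab.fst = true)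
  obtain ⟨c₁, h1⟩ := hc (pt (par ρ) u ((t + 1) * sg (ρ + 1))) fun τ =>
    (τ.co (!par ρ)).lab.ph.val = 0 ∧ (τ.co (!par ρ)).lab.fst = true
  have a : Q.Cpt c₂ (T.ev (pt (par ρ) u ((t + 1) * sg (ρ + 1))) fun τ => R (τ.co (par ρ))) :=
    cpt_move (fun x hx R => (hd.col_next (QL.le_trans hx h2.le_left) hu (t + 1) R).2)
      (h2.cpt (hc _ _) (T.cpt_ev _ _ _))
  obtain ⟨d, d1, d2⟩ := Q.diff (h2.glb (h.le t) (le_imp (h.row_lab hd (k := 2) (by omega)
    (by omega) (by ring_nf; simp) u) fun τ _ a b => by simpa using a.1 b))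
  have dl := (QL.le_of_join d2).2
  refine QL.IsMeet.cpt ⟨le_imp (h.row_lab hd (k := 1) (by omega) (by omega) (by simp) u)
    fun τ _ a => a.2 rfl, d, ?_, d2⟩ (T.cpt_ev _ _ _) a
  refine h1.orth_of (QL.le_trans dl h2.le_left) (h.cov.orth_of (QL.le_trans dl h2.le_left) ?_)
  rintro _ ⟨t', rfl⟩
  obtain ⟨k, hk, hd'⟩ := exists_res ρ (t + 1 - t')
  rcases Nat.eq_zero_or_pos k with rfl | h0
  · exact Or.inl (orth_of (QL.le_trans dl h2.le_right) (h.row_lab hd (k := 1) (by omega)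
      (by omega) (by convert hd' using 1; push_cast; ring) u) fun τ _ a b => a (b.2 rfl))
  by_cases e : k = 1
  · subst e
    rw [← h.eq_of_dvd (t := t) (by convert hd' using 1; push_cast; ring)]
    exact Or.inl (Q.symm d1)
  · exact Or.inr (orth_of h1.le_right (h.row_lab hd h0 hk hd' u) fun τ _ a b => e (b.1 a))

theorem Atoms.col_cpt (h : T.Atoms ρ c p) (hc : T.Cen c) (hd : T.Det (ρ + 1) c) (t : ℤ) {u : ℤ}
    (hu : (sg (ρ + 2) : ℤ) ∣ u) {k : ℕ} (hk : k < nn (ρ + 1)) (R : Core → Prop) :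
    Q.Cpt (p t) (T.ev (pt (par ρ) u ((t + k) * sg (ρ + 1))) fun τ => R (τ.co (par ρ))) := by
  have dom : ∀ k : ℕ, 0 < k → k < nn (ρ + 1) →
      Q.le (p t) (T.ev (pt (par ρ) u ((t + k) * sg (ρ + 1))) fun τ =>
        Dom (τ.ci (par ρ)) (τ.co (par ρ)) (τ.ci (!par ρ)) (τ.co (!par ρ))) := by
    intro k h0 hk
    have := (h.det hd t).dom (ρ' := ρ + 1) (by omega) (isRk_mul (j := t + k - t) fun a => by
      have := Int.le_of_dvd (by omega) a
      omega) hu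
    rw [par_succ, pt_swap, shift_row, Bool.not_not] at this
    exact le_imp this fun τ _ a => a.2
  have ri : ∀ t' s, Q.Cpt (p t) (T.ev (pt (par ρ) u (t' * sg (ρ + 1)))
      fun τ => τ.ci (!par ρ) = s) := fun t' s => by
    rw [← pt_swap, T.ev_ci_pt _ _ _ fun x => x = s, pt_swap]
    exact h.row_cpt hc hd t t' _ fun x => x = s
  have ro := fun t' s => h.row_cpt hc hd t t' u fun x => x = s
  have nx := fun x (hx : Q.le x (p t)) => hd.col_next (QL.le_trans hx (h.le t)) hu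
  rcases k with _ | k
  · rw [Nat.cast_zero, add_zero]
    refine cpt_move (fun x hx R => (nx x hx t R).2) (cpt_det _ (dom 1 (by omega) (nn_ge _))
      (cpt_three (fun s => h.col_one hc hd t hu fun x => x = s) (ri _) (ro _))
      fun τ τ' l l' a b e => ?_)
    simp only [Prod.mk.injEq] at e
    rw [← e.1, ← e.2.1, ← e.2.2] at b
    rw [dom_in a b (by rw [(l.1 _).1, (l'.1 _).1, e.1]) (l.1 _).2.1]
    exact id
  · induction k generalizing R with
    | zero => exact h.col_one hc hd t hu R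
    | succ k ih =>
      refine cpt_det _ (dom _ (by omega) hk) (cpt_three (f := fun τ => τ.ci (par ρ)) (fun s => ?_)
        (ri _) (ro _)) fun τ τ' l l' a b e => ?_
      · rw [Nat.cast_add (k + 1), Nat.cast_one, ← add_assoc]
        exact cpt_move (R := fun x => x = s) (fun x hx R => (nx x hx _ R).1) 
          (ih (fun x => x = s) (by omega))
      · simp only [Prod.mk.injEq] at e
        rw [← e.1, ← e.2.1, ← e.2.2] at b
        rw [dom_out a b (by rw [← (l.1 _).1, ← (l'.1 _).1, e.1])]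
        exact id

theorem Atoms.edge (h : T.Atoms ρ c p) (hc : T.Cen c) (hd : T.Det (ρ + 1) c) (t : ℤ) (ε : Bool)
    (u b : ℤ) (R : Core → Prop) : Q.Cpt (p t) (T.ev (pt ε u b) fun τ => R (τ.co ε)) := by
  by_cases e : ε = par ρ
  · subst e
    by_cases hu : (sg (ρ + 2) : ℤ) ∣ u
    · have p0 : (0 : ℤ) < sg (ρ + 1) := by exact_mod_cast sg_pos _
      obtain ⟨k, hk, hd'⟩ := exists_res ρ (b / sg (ρ + 1) - t)
      have := h.col_cpt hc hd (b / sg (ρ + 1) - k) hu hk R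
      rw [sub_add_cancel, h.eq_of_dvd (t' := t) (by convert hd' using 1; ring)] at this
      rw [← Int.ediv_mul_add_emod b (sg (ρ + 1))]
      exact cpt_move (fun x hx R => (hd.col_high (QL.le_trans hx (h.le t)) hu _
        (Int.emod_nonneg b p0.ne') (Int.emod_lt_of_pos b p0) R).1) this
    · obtain ⟨r, hr, hp, hy⟩ := exists_rk_lt hu
      have := (h.det hd t).full (ρ' := r) (by omega) hy (b - t * sg (ρ + 1))
      rw [par_add_two] at hp
      simp only [hp, shift, pt_add, zero_add, add_sub_cancel] at this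
      exact cpt_full (le_imp this fun _ _ a => a.2) R
  · obtain rfl : ε = !par ρ := by revert e; cases ε <;> cases par ρ <;> simp
    by_cases hu : (sg (ρ + 1) : ℤ) ∣ u
    · obtain ⟨j, rfl⟩ := hu
      rw [pt_swap, mul_comm]
      exact h.row_cpt hc hd t j b R
    · obtain ⟨r, hr, hp, hy⟩ := exists_rk_lt hu
      have := QL.le_trans (h.le t) (hd.full (ρ' := r) (by omega) hy b)
      rw [hp, par_succ] at this
      exact cpt_full (le_imp this fun _ _ a => a.2) R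

theorem cen_of_edge {w : L}
    (h : ∀ ε u b (R : Core → Prop), Q.Cpt w (T.ev (pt ε u b) fun τ => R (τ.co ε))) : T.Cen w := by
  intro z P
  have o : ∀ ε s, Q.Cpt w (T.ev z fun τ => τ.co ε = s) := fun ε s => by
    rw [← pt_self ε z]; exact h ε _ _ fun x => x = s
  have i : ∀ ε s, Q.Cpt w (T.ev z fun τ => τ.ci ε = s) := fun ε s => by
    rw [← pt_self ε z, T.ev_ci_pt _ _ _ fun x => x = s]; exact h ε _ _ fun x => x = s
  refine cpt_fun (f := id) (fun a => ?_) P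
  rw [T.ev_congr z (P' := fun τ => (τ.ci false = a.ci false ∧ τ.ci true = a.ci true) ∧
    τ.co false = a.co false ∧ τ.co true = a.co true) fun τ _ => by
      cases τ; cases a; simp [funext_iff]]
  exact cpt_and (cpt_and (i _ _) (i _ _)) (cpt_and (o _ _) (o _ _))

theorem Atoms.cen (h : T.Atoms ρ c p) (hc : T.Cen c) (hd : T.Det (ρ + 1) c) (t : ℤ) :
    T.Cen (p t) := cen_of_edge (h.edge hc hd t)

end TSys

end Vale.Agent.P196
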