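import Vale.Agent.P196.RigA
import Vale.Agent.P196.RigB
import Vale.Agent.P196.ModL

/-! P196: the support theorem. -/

namespace Vale.Agent.P196.TSys

variable {L : Type} {Q : QL L} (T : TSys Q)

theorem star_step (z : Pos) (b : Bool) :
    T.ev z (fun τ => (τ.co false).lab.star = b) =
      T.ev (z + ee false) fun τ => (τ.co false).lab.star = !b := by
  have := T.mat true z fun x => x.2 = b
  simp only [outE, inE, Bool.true_and, Bool.not_true] at this
  rw [this, ← T.ev_lab_ci false _ fun l => l.star = !b]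
  exact T.ev_congr _ fun τ _ => by cases b <;> simp

theorem star_all (z : Pos) : T.ev z (fun τ => (τ.co false).lab.star = decide (¬ 2 ∣ z false)) =
    T.ev 0 fun τ => (τ.co false).lab.star = false := by
  have h1 : ∀ u : ℤ, T.ev (pt false u 0) (fun τ => (τ.co false).lab.star = decide (¬ 2 ∣ u)) =
      T.ev (pt false (u + 1) 0) fun τ => (τ.co false).lab.star = decide (¬ 2 ∣ (u + 1)) := fun u => by
    rw [T.star_step, show pt false u 0 + ee false = pt false (u + 1) 0 from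
      pos_ext false (by simp) (by simp [pt, ee])]
    have : (!decide (¬ 2 ∣ u)) = decide (¬ 2 ∣ (u + 1)) := by
      by_cases h : (2 : ℤ) ∣ u
      · simp [h, show ¬ (2 : ℤ) ∣ u + 1 by omega]
      · simp [h, show (2 : ℤ) ∣ u + 1 by omega]
    rw [this]
  have h2 : ∀ u : ℤ, T.ev (pt false u 0) (fun τ => (τ.co false).lab.star = decide (¬ 2 ∣ u)) =
      T.ev 0 fun τ => (τ.co false).lab.star = false := fun u => by
    induction u using Int.induction_on with
    | zero => rw [show pt false 0 0 = 0 from pos_ext false (by simp) (by simp [pt])]; simp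
    | succ n ih => rw [← h1, ih]
    | pred n ih => rw [h1, sub_add_cancel, ih]
  rw [← h2 (z false), T.ev_lab false _ 0 (z (!false)) fun l => l.star = decide (¬ 2 ∣ z false),
    pt_self]

theorem det_base : T.Cen (T.ev 0 fun τ => (τ.co false).lab.star = false) ∧
    T.Det 1 (T.ev 0 fun τ => (τ.co false).lab.star = false) := by
  refine ⟨fun z P => by rw [← T.star_all z]; exact T.cpt_ev _ _ _, fun z ρ hρ hz => ?_,
    fun z hz => ?_⟩
  · obtain rfl : ρ = 0 := by omega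
    rw [← T.star_all z, hz.ms_eq]
    have h2 : ¬ (2 : ℤ) ∣ z false := hz.2
    refine T.ev_mono z fun τ l h => ?_
    have := (l.1 false).2.2.1 (by simpa [h2] using h)
    exact ⟨this.2, this.1, fun h => absurd h (by omega)⟩
  · rw [← T.star_all z]
    exact T.ev_mono z fun τ _ h => by simpa [hz] using h

theorem exists_det (ρ : ℕ) :
    ∃ s, Q.Cov Q.top s ∧ ∀ w ∈ s, T.Cen w ∧ ∃ a, (T.shift a).Det (ρ + 1) w := by
  induction ρ with
  | zero =>
    obtain ⟨m, hm, hc⟩ := T.cov_val (c := Q.top) 0 (fun τ => (τ.co false).lab.star)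
      fun a => (QL.cpt_of_le (QL.le_top' _)).symm
    refine ⟨_, hc, ?_⟩
    rintro _ ⟨b, rfl⟩
    rw [QL.le_antisymm (hm b).le_right ((hm b).glb (QL.le_top' _) (QL.le_refl _))]
    cases b
    · have := (T.shift 0).det_base
      rw [T.cen_shift] at this
      simp only [shift, add_zero] at this
      exact ⟨this.1, 0, this.2⟩
    · have := (T.shift (ee false)).det_base
      rw [T.cen_shift] at this
      rw [T.star_step, add_comm]
      exact ⟨this.1, _, this.2⟩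
  | succ ρ ih =>
    obtain ⟨s, hs, h⟩ := ih
    refine hs.trans fun w hw => ?_
    obtain ⟨hc, a, hd⟩ := h w hw
    have hc' := (T.cen_shift a).2 hc
    obtain ⟨p, hp⟩ := exists_atoms hc' hd
    refine ⟨_, hp.cov, ?_⟩
    rintro _ ⟨t, rfl⟩
    exact ⟨(T.cen_shift a).1 (hp.cen hc' hd t), _, T.shift_shift _ _ ▸ hp.det hd t⟩

theorem pick {m : ℤ} (c : ℤ) {r : ℕ} (h : 2 * r < m) :
    ∃ v, m ∣ v ∧ ∀ u, |u - c| ≤ r → m ∣ u → u = v := by
  by_cases e : ∃ v, m ∣ v ∧ |v - c| ≤ r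
  · obtain ⟨v, h1, h2⟩ := e
    refine ⟨v, h1, fun u a b => ?_⟩
    have := Int.eq_zero_of_abs_lt_dvd (dvd_sub b h1) (by
      rw [abs_le] at a h2; rw [abs_lt]; omega)
    omega
  · exact ⟨0, dvd_zero _, fun u a b => absurd ⟨u, b, a⟩ e⟩

/-- all lines of the window other than those through `v` have low rank -/
def Low (N r : ℕ) (z v : Pos) : Prop := ∀ ε u, |u - z ε| ≤ r → u ≠ v ε →
  ∃ ρ, par ρ = ε ∧ IsRk ρ u ∧ ρ + 1 < N ∧ (sg (ρ + 2) : ℤ) ∣ v ε ∧ (sg (ρ + 3) : ℤ) ∣ v (!ε)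

theorem exists_low (r : ℕ) : ∃ N, ∀ z : Pos, ∃ v : Pos, Low (N + 2) r z v ∧ 2 ∣ v false ∧
    (sg 3 : ℤ) ∣ v true := by
  obtain ⟨n0, hn0⟩ := sg_big (2 * r + 1)
  have big : ∀ ρ, n0 ≤ ρ → 2 * (r : ℤ) < sg ρ := fun ρ h => by have := hn0 ρ h; omega
  refine ⟨n0 + 5, fun z => ?_⟩
  obtain ⟨n, h1, h2, h3⟩ : ∃ n, n0 + 3 ≤ n ∧ n ≤ n0 + 5 ∧
      ∀ u, |u - z (par n)| ≤ r → ¬ IsRk n u := by
    obtain ⟨v, -, hv⟩ := pick (z (par (n0 + 3))) (big (n0 + 3) (by omega))
    by_cases e : IsRk (n0 + 3) v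
    · refine ⟨n0 + 3 + 2, by omega, by omega, fun u a b => e.2 ?_⟩
      rw [par_add_two] at a
      rw [← hv u a ((sg_dvd (by omega) (par_add_two _).symm).trans b.1)]
      exact b.1
    · exact ⟨n0 + 3, le_rfl, by omega, fun u a b => e (hv u a b.1 ▸ b)⟩
  obtain ⟨v1, a1, b1⟩ := pick (z (par n)) (big (n + 2) (by omega))
  obtain ⟨v2, a2, b2⟩ := pick (z (!par n)) (big (n + 1) (by omega))
  refine ⟨pt (par n) v1 v2, fun ε u a b => ?_, ?_, ?_⟩
  · by_cases e : ε = par n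
    · subst e
      obtain ⟨ρ, c1, c2, c3⟩ := exists_rk_lt (ρ := n + 2) (u := u) fun h => b (by simpa using b1 u a h)
      rw [par_add_two] at c2
      have c4 : ρ ≠ n := by rintro rfl; exact h3 u a c3
      have c5 := par_eq_iff.1 c2
      refine ⟨ρ, c2, c3, by omega, ?_, ?_⟩
      · simpa using (sg_dvd (by omega) (par_eq_iff.2 (by omega))).trans a1
      · simpa using (sg_dvd (by omega) (par_eq_iff.2 (by omega))).trans a2
    · obtain rfl : ε = !par n := Bool.eq_not_iff.2 e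
      obtain ⟨ρ, c1, c2, c3⟩ := exists_rk_lt (ρ := n + 1) (u := u) fun h => b (by simpa using b2 u a h)
      have c5 := par_eq_iff.1 c2
      refine ⟨ρ, by rw [c2, par_succ], c3, by omega, ?_, ?_⟩
      · simpa using (sg_dvd (by omega) (par_eq_iff.2 (by omega))).trans a2
      · simpa using (sg_dvd (by omega) (par_eq_iff.2 (by omega))).trans a1
  · change ((sg 2 : ℕ) : ℤ) ∣ _
    rcases Nat.mod_two_eq_zero_or_one n with h | h
    · have e : par n = false := by simp [par, h]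
      rw [e, pt_same]
      exact (sg_dvd (by omega) (par_eq_iff.2 (by omega))).trans a1
    · have e : par n = !false := by simp [par, h]
      rw [e, pt_not']
      exact (sg_dvd (by omega) (par_eq_iff.2 (by omega))).trans a2
  · rcases Nat.mod_two_eq_zero_or_one n with h | h
    · have e : par n = !true := by simp [par, h]
      rw [e, pt_not']
      exact (sg_dvd (by omega) (par_eq_iff.2 (by omega))).trans a2
    · have e : par n = true := by simp [par, h]
      rw [e, pt_same]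
      exact (sg_dvd (by omega) (par_eq_iff.2 (by omega))).trans a1

variable {T} {N r : ℕ} {z v : Pos} {c w : L}

theorem Det.cross (hd : T.Det N c) (hl : Low N r z v) (ε : Bool) {y : ℤ}
    (h : |y - z (!ε)| ≤ r) (h' : y ≠ v (!ε)) :
    Q.le c (T.ev (pt ε (v ε) y) fun τ => τ.ci ε = τ.co ε) := by
  obtain ⟨ρ, c1, c2, c3, -, c5⟩ := hl _ y h h'
  rw [Bool.not_not] at c5
  have := hd.pass c3 c2 c5
  rw [c1, pt_swap, Bool.not_not] at this
  exact le_imp this fun τ _ a => a.1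

theorem Det.high (hd : T.Det (N + 2) c) (h2 : 2 ∣ v false) (h3 : (sg 3 : ℤ) ∣ v true) (ε : Bool)
    (b : ℤ) : Q.le c (T.ev (pt ε (v ε) b) fun τ => (τ.co ε).lab.star = false ∧
      ¬ ((τ.co ε).lab.fst = true ∧ (τ.co ε).lab.lst = true)) := by
  cases ε
  · refine le_imp (hd.2 _ (by simpa using h2)) fun τ l a => ⟨a, ?_⟩
    rw [← (l.1 false).1] at a ⊢
    exact l.2.2.1 a
  · have hu : IsRk 0 1 := ⟨by simp [sg], by simp [sg, nn]⟩
    rw [T.ev_lab true _ b 1 fun l => l.star = false ∧ ¬ (l.fst = true ∧ l.lst = true)]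
    have a1 := hd.pass (ρ' := 0) (by omega) hu h3
    have a2 := hd.lab (ρ' := 0) (by omega) hu (v true)
    rw [show pt (par 0) 1 (v true) = pt true (v true) 1 from pt_swap true _ _] at a1 a2
    refine le_imp₂ a1 a2 fun τ l a b => ?_
    rw [← (l.1 true).1]
    exact ⟨l.2.1, a.2.2.2 (by rw [b.1]; rfl)⟩

theorem Det.edge (hd : T.Det N w) (hl : Low N r z v) {y : Pos} {τ0 : Tile} {k : Vx}
    (hw : Q.le w (T.ev y fun τ => τ = τ0)) (hy : ∀ ε, |y ε - z ε| ≤ r)
    (hv : ∀ ε, |v ε - z ε| ≤ r → y ε = v ε ∧ k.1.ci ε = τ0.ci ε ∧ k.1.co ε = τ0.co ε ∧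
      (y (!ε) = v (!ε) ∨ k.1.ci ε = k.1.co ε))
    (ε : Bool) {u b : ℤ} (hu : |u - z ε| ≤ r) (h1 : z (!ε) - r - 1 ≤ b) (h2 : b ≤ z (!ε) + r) :
    Q.le w (T.ev (pt ε u b) fun τ => τ.co ε = st k ε (pt ε u b - v)) := by
  rw [show pt ε u b - v = pt ε (u - v ε) (b - v (!ε)) from pos_ext ε (by simp) (by simp), st_pt]
  by_cases e : u = v ε
  · subst e
    obtain ⟨a1, a2, a3, a4⟩ := hv ε hu
    have hy' := abs_le.1 (hy (!ε))
    have cr : ∀ s : Core, ∀ x, z (!ε) - r ≤ x → x ≤ z (!ε) + r → x ≠ y (!ε) →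
        Q.le w (T.ev (pt ε (v ε) x) fun τ => τ.ci ε = s ↔ τ.co ε = s) := fun s x i j l => by
      have i' : |x - z (!ε)| ≤ r := abs_le.2 ⟨by omega, by omega⟩
      refine le_imp (hd.cross hl ε i' ?_) fun τ _ a => by rw [a]
      rintro rfl
      exact l (hv _ i').1.symm
    rw [← pt_self ε y, a1] at hw
    rw [if_pos (sub_self _)]
    rcases le_or_gt (y (!ε)) b with h | h
    · have e : (if 0 ≤ b - v (!ε) then k.1.co ε else k.1.ci ε) = τ0.co ε := by
        rcases a4 with a4 | a4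
        · rw [if_pos (by omega), a3]
        · rw [a4, ite_self, a3]
      rw [e]
      exact (prop_line ε _ h (fun x => x = τ0.co ε) fun x i j =>
        cr _ x (by omega) (by omega) (by omega)).1 (le_imp hw fun τ _ a => by rw [a])
    · have e : (if 0 ≤ b - v (!ε) then k.1.co ε else k.1.ci ε) = τ0.ci ε := by
        rcases a4 with a4 | a4
        · rw [if_neg (by omega), a2]
        · rw [← a4, ite_self, a2]
      rw [e]
      refine (prop_line ε _ (b' := y (!ε) - 1) (by omega) (fun x => x = τ0.ci ε) fun x i j =>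
        cr _ x (by omega) (by omega) (by omega)).2 ?_
      rw [← T.ev_ci_pt ε _ _ fun x => x = τ0.ci ε]
      exact le_imp hw fun τ _ a => by rw [a]
  · obtain ⟨ρ, rfl, c2, c3, c4, c5⟩ := hl ε u hu e
    rw [if_neg (sub_ne_zero.2 e), sub_eq_add_neg, sub_eq_add_neg,
      ms_inv c2 (dvd_neg.2 c4) (dvd_neg.2 c5)]
    exact le_imp (hd.full c3 c2 b) fun τ _ a => a.2

theorem Det.forces (hd : T.Det (N + 2) c) (hc : T.Cen c) (hl : Low (N + 2) r z v)
    (h2 : 2 ∣ v false) (h3 : (sg 3 : ℤ) ∣ v true) :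
    ∃ s, Q.Cov c s ∧ ∀ w ∈ s, ∃ p, (T.shift z).Forces r w p := by
  classical
  obtain ⟨k0⟩ := vx_nonempty
  let y : Pos := fun ε => if |v ε - z ε| ≤ r then v ε else z ε
  have hy : ∀ ε, |y ε - z ε| ≤ r := fun ε => by
    simp only [y]; split_ifs with h
    · exact h
    · simp
  have y1 : ∀ ε, |v ε - z ε| ≤ r → y ε = v ε := fun ε h => if_pos h
  have good : ∀ ε, Q.le c (T.ev y fun τ => |v ε - z ε| ≤ r → ((τ.co ε).lab.star = false ∧
      ¬ ((τ.co ε).lab.fst = true ∧ (τ.co ε).lab.lst = true)) ∧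
      (¬ |v (!ε) - z (!ε)| ≤ r → τ.ci ε = τ.co ε)) := fun ε => by
    by_cases h : |v ε - z ε| ≤ r
    · have a1 := hd.high h2 h3 ε (y (!ε))
      by_cases h' : |v (!ε) - z (!ε)| ≤ r
      · rw [← y1 ε h, pt_self] at a1
        exact le_imp a1 fun τ _ a _ => ⟨a, fun x => absurd h' x⟩
      · have a2 := hd.cross hl ε (hy _) fun e => h' (e ▸ hy _)
        rw [← y1 ε h, pt_self] at a1 a2
        exact le_imp₂ a1 a2 fun τ _ a b _ => ⟨a, fun _ => b⟩
    · exact T.le_ev _ _ fun τ _ a => absurd a h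
  obtain ⟨m, hm, hs⟩ := T.cov_val (c := c) y id fun a => hc _ _
  refine ⟨_, hs, ?_⟩
  rintro _ ⟨τ0, rfl⟩
  have hw : Q.le (m τ0) (T.ev y fun τ => τ = τ0) := (hm τ0).le_right
  have hw' := (hm τ0).le_left
  by_cases hz : Q.orth (m τ0) (m τ0)
  · exact ⟨(k0, 0), fun d _ => QL.le_of_zero hz _⟩
  have l : Legal τ0 := by
    by_contra hn
    exact hz (zero_of hw fun τ l a => hn (a ▸ l))
  have g : ∀ ε, |v ε - z ε| ≤ r → ((τ0.co ε).lab.star = false ∧
      ¬ ((τ0.co ε).lab.fst = true ∧ (τ0.co ε).lab.lst = true)) ∧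
      (¬ |v (!ε) - z (!ε)| ≤ r → τ0.ci ε = τ0.co ε) := fun ε => by
    by_contra hn
    exact hz (zero_of (le_and hw (QL.le_trans hw' (good ε))) fun τ l a => hn (a.1 ▸ a.2))
  obtain ⟨k, hk⟩ : ∃ k : Vx, ∀ ε, |v ε - z ε| ≤ r → y ε = v ε ∧ k.1.ci ε = τ0.ci ε ∧
      k.1.co ε = τ0.co ε ∧ (y (!ε) = v (!ε) ∨ k.1.ci ε = k.1.co ε) := by
    have one : ∀ ε, |v ε - z ε| ≤ r → ¬ |v (!ε) - z (!ε)| ≤ r → ∃ k : Vx, ∀ ε, |v ε - z ε| ≤ r →
        y ε = v ε ∧ k.1.ci ε = τ0.ci ε ∧ k.1.co ε = τ0.co ε ∧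
        (y (!ε) = v (!ε) ∨ k.1.ci ε = k.1.co ε) := fun ε h h' => by
      obtain ⟨k, k1, k2⟩ := exists_high ε (τ0.co ε) (l.1 ε).2.2 (g ε h).1.1 (g ε h).1.2
      refine ⟨k, fun δ hδ => ?_⟩
      obtain rfl : δ = ε := by
        by_contra e
        obtain rfl : δ = !ε := Bool.eq_not_iff.2 e
        exact h' hδ
      exact ⟨y1 _ h, k1.trans ((g _ h).2 h').symm, k2, Or.inr (k1.trans k2.symm)⟩
    by_cases h : |v false - z false| ≤ r <;> by_cases h' : |v true - z true| ≤ r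
    · refine ⟨⟨τ0, l, ?_, ?_⟩, fun ε e => ⟨y1 ε e, rfl, rfl, Or.inl (y1 _ (by cases ε <;> assumption))⟩⟩
      · rw [(l.1 false).1]; exact (g false h).1.1
      · rw [(l.1 true).1]; exact (g true h').1.2
    · exact one false h h'
    · exact one true h' h
    · exact ⟨k0, fun ε e => by cases ε <;> contradiction⟩
  have ed := fun ε u b => (hd.mono le_rfl hw').edge hl hw hy hk ε (u := u) (b := b)
  refine ⟨(k, z - v), fun d hb => ?_⟩
  have both : ∀ ε, Q.le (m τ0) (T.ev (z + d) fun τ => τ.ci ε = (xx k (z - v + d)).ci ε ∧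
      τ.co ε = (xx k (z - v + d)).co ε) := fun ε => by
    have i1 : |(z + d) ε - z ε| ≤ r := by simpa using hb ε
    have i2 := abs_le.1 (hb (!ε))
    have a1 := ed ε _ ((z + d) (!ε)) i1 (by simp; omega) (by simp; omega)
    have a2 := ed ε _ ((z + d) (!ε) - 1) i1 (by simp; omega) (by simp; omega)
    rw [← T.ev_ci_pt ε _ _ fun x => x = st k ε (pt ε ((z + d) ε) ((z + d) (!ε) - 1) - v),
      show pt ε ((z + d) ε) ((z + d) (!ε) - 1) - v = z - v + d - ee (!ε) from
        pos_ext ε (by simp; ring) (by simp; ring)] at a2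
    rw [pt_self] at a1 a2
    rw [show z + d - v = z - v + d by ring] at a1
    exact le_and a2 a1
  refine le_imp₂ (both false) (both true) fun τ _ a b => ?_
  obtain ⟨ci, co⟩ := τ
  change (⟨ci, co⟩ : Tile) = ⟨(xx k (z - v + d)).ci, (xx k (z - v + d)).co⟩
  congr 1 <;> funext ε <;> cases ε
  exacts [a.1, b.1, a.2, b.2]

variable (T)

theorem support (r : ℕ) : ∃ s, Q.Cov Q.top s ∧ ∀ w ∈ s, ∃ p, T.Forces r w p := by
  obtain ⟨N, hN⟩ := exists_low r
  obtain ⟨s, hs, h⟩ := T.exists_det (N + 1)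
  refine hs.trans fun w hw => ?_
  obtain ⟨hc, a, hd⟩ := h w hw
  obtain ⟨v, h1, h2, h3⟩ := hN (-a)
  have := hd.forces ((T.cen_shift a).2 hc) h1 h2 h3
  simpa only [Forces, shift, add_neg_cancel_left] using this

end Vale.Agent.P196.TSys
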