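import Vale.Agent.P196.AltLogic
import Vale.Agent.P196.RigC
import Vale.Agent.P196.Word

/-! P196: from one-cell generators to the calculus of multisections. -/

namespace Vale.Agent.P196

namespace PresB

open AltLogic

variable {G : Type} [Group G]

theorem hom_eq_on {u v : Hat →* G} {S : Set I}
    (h : ∀ a ∈ S, ∀ b ∈ S, ∀ c ∈ S, u (X a b c) = v (X a b c)) {g : Hat} (hg : g ∈ HatOn S) :
    u g = v g := by
  refine MonoidHom.eqOn_closure (f := u) (g := v) ?_ hg
  rintro _ ⟨a, ha, b, hb, c, hc, rfl⟩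
  exact h a ha b hb c hc

theorem exists_z (a b c a' b' c' : I) (f : I → Pos) : ∃ z : I → Pos, ∑ i, z i = 0 ∧
    (z a = f a ∧ z b = f b ∧ z c = f c) ∧ z a' = f a' ∧ z b' = f b' ∧ z c' = f c' := by
  obtain ⟨z, h, h'⟩ := exists_sum_zero ({a, b, c} ∪ {a', b', c'})
    ((Finset.card_union_le _ _).trans ((add_le_add Finset.card_le_three
      Finset.card_le_three).trans (by norm_num))) f
  exact ⟨z, h, ⟨h' _ (by simp), h' _ (by simp), h' _ (by simp)⟩, h' _ (by simp), h' _ (by simp),
    h' _ (by simp)⟩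

theorem pos_const {β : Type} (f : Pos → β) (h : ∀ a δ, f (a + ee δ) = f a) (a : Pos) :
    f a = f 0 := by
  have key : ∀ δ (n : ℤ) b, f (b + n • ee δ) = f b := by
    intro δ n b
    induction n using Int.induction_on with
    | zero => simp
    | succ n ih => rw [add_smul, one_smul, ← add_assoc, h, ih]
    | pred n ih => rw [← h _ δ, sub_smul, one_smul, add_assoc, sub_add_cancel, ih]
  rw [show a = 0 + a false • ee false + a true • ee true from
    pos_ext false (by simp [ee]) (by simp [ee]), key, key]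

theorem inter_comm (Ψ : Set S0 → Hat →* G)
    (hu : ∀ U V, Loc U → Loc V → Disjoint U V → ∀ g, Ψ (U ∪ V) g = Ψ U g * Ψ V g)
    (ho : ∀ U V, Loc U → Loc V → Disjoint U V → HOrth (Ψ U) (Ψ V)) {U V : Set S0} (hU : Loc U)
    (hV : Loc V) (x y : Hat) :
    Ψ (U ∩ V) (x * y * x⁻¹ * y⁻¹) = Ψ U x * Ψ V y * (Ψ U x)⁻¹ * (Ψ V y)⁻¹ := by
  have e1 := hu _ _ (hU.inter hV) (hU.diff hV) (Set.disjoint_sdiff_right.mono_left
    Set.inter_subset_right) x
  have e2 := hu _ _ (hU.inter hV) (hV.diff hU) (Set.disjoint_sdiff_right.mono_left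
    Set.inter_subset_left) y
  rw [Set.inter_union_diff] at e1
  rw [Set.inter_comm, Set.inter_union_diff, Set.inter_comm] at e2
  have o1 := ho _ _ (hU.diff hV) hV Set.disjoint_sdiff_left x y
  have o2 := ho _ _ (hV.diff hU) (hU.inter hV) (Set.disjoint_sdiff_left.mono_right
    Set.inter_subset_left) y x
  have e3 := conj_of e2 o2.inv_right
  rw [conj_of e1 o1, map_mul, map_mul, map_mul, map_inv, map_inv]
  calc _ = Ψ (U ∩ V) x * (Ψ (U ∩ V) y * (Ψ (U ∩ V) x)⁻¹ * (Ψ (U ∩ V) y)⁻¹) := by group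
    _ = _ := by rw [← e3]; group

variable (P : Pre G)

theorem t_zero : P.t 0 = 1 := by
  have := P.t_add 0 0 (by simp) (by simp)
  rwa [add_zero, left_eq_mul] at this

/-- conjugation by a translation -/
def cj (z : I → Pos) : G →* G := (MulAut.conj (P.t z)).toMonoidHom

theorem cj_apply (z : I → Pos) (g : G) : cj P z g = P.t z * g * (P.t z)⁻¹ := rfl

theorem cj_add {z z' : I → Pos} (h : ∑ i, z i = 0) (h' : ∑ i, z' i = 0) (g : G) :
    cj P (z + z') g = cj P z (cj P z' g) := by
  simp only [cj_apply, P.t_add z z' h h']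
  group

theorem cj_zero (g : G) : cj P 0 g = g := by simp [cj_apply, t_zero]

theorem sum_add {z z' : I → Pos} (h : ∑ i, z i = 0) (h' : ∑ i, z' i = 0) :
    ∑ i, (z + z') i = 0 := by
  simp only [Pi.add_apply, Finset.sum_add_distrib, h, h', add_zero]

theorem sum_sub {z z' : I → Pos} (h : ∑ i, z i = 0) (h' : ∑ i, z' i = 0) :
    ∑ i, (z - z') i = 0 := by
  simp only [Pi.sub_apply, Finset.sum_sub_distrib, h, h', sub_zero]

theorem indep {z z' : I → Pos} (h : ∑ i, z i = 0) (h' : ∑ i, z' i = 0) {a b c : I}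
    (ha : z a = z' a) (hb : z b = z' b) (hc : z c = z' c) (R : Tile → Prop) :
    cj P z (P.E R (X a b c)) = cj P z' (P.E R (X a b c)) := by
  rw [← add_sub_cancel z' z, cj_add P h' (sum_sub h h'), cj_apply P (z - z'),
    (P.t_comm R _ a b c (sum_sub h h') (by simp [ha]) (by simp [hb]) (by simp [hc])).eq,
    mul_inv_cancel_right]

theorem exists_ev (d : Pos) (R : Tile → Prop) : ∃ u : Hat →* G, ∀ (z : I → Pos) a b c,
    ∑ i, z i = 0 → z a = -d → z b = -d → z c = -d → u (X a b c) = cj P z (P.E R (X a b c)) := by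
  choose z h1 h2 _ using fun a b c => exists_z a b c a b c fun _ => -d
  have key : ∀ (w : I → Pos) a b c, ∑ i, w i = 0 → w a = -d → w b = -d → w c = -d →
      cj P (z a b c) (P.E R (X a b c)) = cj P w (P.E R (X a b c)) := fun w a b c h ha hb hc =>
    indep P (h1 a b c) h ((h2 a b c).1.trans ha.symm) ((h2 a b c).2.1.trans hb.symm)
      ((h2 a b c).2.2.trans hc.symm) R
  refine ⟨hatLift (fun a b c => cj P (z a b c) (P.E R (X a b c))) ⟨fun a _ b _ c _ h => ?_,
    fun k _ i _ l _ m _ h h' hkm => ?_⟩ fun a b c h => by rw [X_degen h, map_one, map_one],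
    fun w a b c h ha hb hc => (hatLift_X _ _ _ a b c).trans (key w a b c h ha hb hc)⟩
  · rw [key _ b c a (h1 a b c) (h2 a b c).2.1 (h2 a b c).2.2 (h2 a b c).1,
      X_sys.rot a trivial b trivial c trivial h]
  · obtain ⟨w, hw, ⟨a, b, c⟩, e, -⟩ := exists_z k i l m m m fun _ => -d
    rw [key w k i l hw a b c, key w k l m hw a c e, key w i l m hw b c e, ← map_mul, ← map_mul,
      X_sys.mul k trivial i trivial l trivial m trivial h h' hkm]

/-- the translated generators -/
noncomputable def ev (d : Pos) (R : Tile → Prop) : Hat →* G := (exists_ev P d R).choose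

theorem ev_X (d : Pos) (R : Tile → Prop) {z : I → Pos} {a b c : I} (h : ∑ i, z i = 0)
    (ha : z a = -d) (hb : z b = -d) (hc : z c = -d) :
    ev P d R (X a b c) = cj P z (P.E R (X a b c)) := (exists_ev P d R).choose_spec z a b c h ha hb hc

theorem ev_zero (R : Tile → Prop) : ev P 0 R = P.E R := hat_ext fun a b c _ => by
  rw [ev_X P 0 R (z := 0) (by simp) (by simp) (by simp) (by simp), cj_zero]

theorem ev_orth (d : Pos) {R R' : Tile → Prop} (h : ∀ τ, Legal τ → R τ → ¬ R' τ) :
    HOrth (ev P d R) (ev P d R') := by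
  refine fun g => comm_all fun a b c _ => (comm_all (fun a' b' c' _ => ?_) g).symm
  obtain ⟨w, hw, ⟨h1, h2, h3⟩, h4, h5, h6⟩ := exists_z a b c a' b' c' fun _ => -d
  rw [ev_X P d R' hw h1 h2 h3, ev_X P d R hw h4 h5 h6]
  exact (P.E_orth R R' h _ _).symm.map _

theorem ev_or (d : Pos) {R R' : Tile → Prop} (h : ∀ τ, Legal τ → R τ → ¬ R' τ) (g : Hat) :
    ev P d (fun τ => R τ ∨ R' τ) g = ev P d R g * ev P d R' g :=
  DFunLike.congr_fun (hat_ext (v := hmul _ _ (ev_orth P d h)) fun a b c _ => by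
    obtain ⟨w, hw, ⟨h1, h2, h3⟩, -⟩ := exists_z a b c a b c fun _ => -d
    show _ = ev P d R _ * ev P d R' _
    rw [ev_X P d _ hw h1 h2 h3, ev_X P d _ hw h1 h2 h3, ev_X P d _ hw h1 h2 h3, P.E_or R R' h,
      map_mul]) g

theorem cj_ev (d : Pos) (R : Tile → Prop) {z : I → Pos} {e : Pos} {a b c : I} (h : ∑ i, z i = 0)
    (ha : z a = e) (hb : z b = e) (hc : z c = e) :
    cj P z (ev P d R (X a b c)) = ev P (d - e) R (X a b c) := by
  obtain ⟨w, hw, ⟨h1, h2, h3⟩, -⟩ := exists_z a b c a b c fun _ => -d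
  rw [ev_X P d _ hw h1 h2 h3, ← cj_add P h hw, ev_X P _ _ (sum_add h hw)] <;>
    simp only [Pi.add_apply, *] <;> abel

theorem ev_mat (ε : Bool) (d : Pos) (R : Core × Bool → Prop) :
    ev P d (fun τ => R (outE ε τ)) = ev P (d + ee (!ε)) fun τ => R (inE ε τ) :=
  hat_ext fun a b c _ => by
    obtain ⟨w, hw, ⟨h1, h2, h3⟩, -⟩ := exists_z a b c a b c fun _ => -d
    obtain ⟨z, hz, ⟨k1, k2, k3⟩, -⟩ := exists_z a b c a b c fun _ => -ee (!ε)
    rw [ev_X P d _ hw h1 h2 h3, P.mat ε R z a b c hz k1 k2 k3, ← cj_apply, ← cj_add P hw hz,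
      ev_X P _ _ (sum_add hw hz)] <;> simp only [Pi.add_apply, *] <;> abel

theorem ev_true (d : Pos) : ev P d (fun _ => True) = P.E fun _ => True :=
  (pos_const (fun d => ev P d fun _ => True) (fun a δ => by
    have := ev_mat P (!δ) a fun _ => True
    rw [Bool.not_not] at this
    exact this.symm) d).trans (ev_zero P _)

theorem E_comm (R R' : Tile → Prop) {g h : Hat} (e : Commute g h) :
    Commute (P.E R g) (P.E R' h) := by
  have e1 := P.E_or (fun τ => R τ ∧ R' τ) (fun τ => R τ ∧ ¬ R' τ) (by tauto) g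
  have e2 := P.E_or (fun τ => R τ ∧ R' τ) (fun τ => ¬ R τ ∧ R' τ) (by tauto) h
  rw [show (fun τ => R τ ∧ R' τ ∨ R τ ∧ ¬ R' τ) = R from funext fun τ => propext (by tauto)] at e1
  rw [show (fun τ => R τ ∧ R' τ ∨ ¬ R τ ∧ R' τ) = R' from funext fun τ => propext (by tauto)] at e2
  rw [e1]
  refine Commute.mul_left ?_ (P.E_orth _ _ (by tauto) _ _)
  rw [e2]
  exact (e.map _).mul_right (P.E_orth _ _ (by tauto) _ _)

/-- the track subgroups -/
def Gam (S : Set I) : Subgroup G :=
  Subgroup.closure {g | ∃ d R, ∃ a ∈ S, ∃ b ∈ S, ∃ c ∈ S, g = ev P d R (X a b c)}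

theorem ev_mem (d : Pos) (R : Tile → Prop) (S : Set I) (_ : 5 ≤ S.ncard) (g : Hat)
    (hg : g ∈ HatOn S) : ev P d R g ∈ Gam P S :=
  mem_all (fun a ha b hb c hc _ => by
    exact Subgroup.subset_closure ⟨d, R, a, ha, b, hb, c, hc, rfl⟩) hg

/-- the frame -/
noncomputable def frame : Frame G where
  κ := ev P 0 fun _ => True
  Γ := Gam P
  comm S S' hS g hg h hh := by
    classical
    have key : ∀ {T : Set G} {a b : G}, (∀ x ∈ T, Commute x a) → b ∈ Subgroup.closure T →
        Commute b a := fun {T a b} h1 h2 => Subgroup.mem_centralizer_singleton_iff.1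
      ((Subgroup.closure_le (Subgroup.centralizer {a})).2
        (fun x hx => Subgroup.mem_centralizer_singleton_iff.2 (h1 x hx)) h2)
    refine key ?_ hg
    rintro _ ⟨d, R, a, ha, b, hb, c, hc, rfl⟩
    refine (key ?_ hh).symm
    rintro _ ⟨d', R', a', ha', b', hb', c', hc', rfl⟩
    obtain ⟨w, hw, ⟨h1, h2, h3⟩, h4, h5, h6⟩ := exists_z a b c a' b' c'
      fun i => if i ∈ S then -d else -d'
    rw [ev_X P d R hw (h1.trans (if_pos ha)) (h2.trans (if_pos hb)) (h3.trans (if_pos hc)),
      ev_X P d' R' hw (h4.trans (if_neg (Set.disjoint_right.1 hS ha')))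
        (h5.trans (if_neg (Set.disjoint_right.1 hS hb')))
        (h6.trans (if_neg (Set.disjoint_right.1 hS hc')))]
    exact (E_comm P R R' (hatOn_comm hS (Subgroup.subset_closure ⟨a, ha, b, hb, c, hc, rfl⟩)
      (Subgroup.subset_closure ⟨a', ha', b', hb', c', hc', rfl⟩))).symm.map _
  mem := ev_mem P 0 _

/-- the events -/
noncomputable def idem (d : Pos) (R : Tile → Prop) : Idem (frame P) where
  e := ev P d R
  e' := ev P d fun τ => ¬ R τ
  orth := ev_orth P d fun _ _ h => not_not.2 h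
  tot g := by
    rw [← ev_or P d fun _ _ h => not_not.2 h,
      show (fun τ => R τ ∨ ¬ R τ) = fun _ => True from funext fun τ => propext (by tauto), ev_true,
      ← ev_zero]
    rfl
  mem := ev_mem P d _
  mem' := ev_mem P d _

theorem exists_Φ : ∃ Φ : Set S0 → Hat →* G,
    (∀ U V, Loc U → Loc V → Disjoint U V → ∀ g, Φ (U ∪ V) g = Φ U g * Φ V g) ∧
    (∀ U V, Loc U → Loc V → Disjoint U V → HOrth (Φ U) (Φ V)) ∧
    ∀ z R, Φ {p | R (xx p.1 (p.2 + z))} = ev P z R := by
  obtain ⟨Q, h1, h2, h3⟩ := altLogic (frame P)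
  let T : TSys Q :=
    { ev := idem P
      disj := fun z R R' h => (h1 _ _).2 (ev_orth P z h)
      cpl_ev := fun z R => Idem.ext' (h2 _)
      or_ev := fun z R R' t h h' => (h1 _ _).2 fun a b => by
        have e := ev_or P z (R := R) (R' := fun τ => R' τ ∧ ¬ R τ) (by tauto) b
        rw [show (fun τ => R τ ∨ R' τ ∧ ¬ R τ) = fun τ => R τ ∨ R' τ from
          funext fun τ => propext (by tauto)] at e
        show Commute _ (ev P z (fun τ => R τ ∨ R' τ) b)
        rw [e]
        exact ((h1 _ _).1 h a b).mul_right (trans (u := idem P z fun τ => R' τ ∧ ¬ R τ)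
          (c := idem P z R') (ev_orth P z (by tauto)) ((h1 _ _).1 h') b a).symm
      mat := fun ε z R => Idem.ext' (ev_mat P ε z R) }
  obtain ⟨Φ, k1, -, k3, k4⟩ := T.exists_Phi T.support
  exact ⟨fun U => (Φ U).e, fun U V hU hV h => h3 _ _ _ (k1 U V hU hV h) (k3 U V hU hV),
    fun U V hU hV h => (h1 _ _).1 (k1 U V hU hV h), fun z R => congrArg Idem.e (k4 z R)⟩

end PresB

open PresB AltLogic in
theorem Pre.calc {G : Type} [Group G] (P : Pre G) : Nonempty (Calc G) := by
  obtain ⟨Φ, hu, ho, he⟩ := exists_Φ P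
  have h1 : ∀ d, Φ Set.univ = ev P d fun _ => True := fun d => he d fun _ => True
  have hc : ∀ U, Loc U → ∀ g, Φ Uᶜ g = (Φ U g)⁻¹ * Φ Set.univ g := fun U hU g => by
    rw [← Set.union_compl_self U, hu _ _ hU hU.compl disjoint_compl_right, inv_mul_cancel_left]
  refine ⟨⟨Φ, P.t, P.π, P.t_add, hu, ho, fun U z d a b c hU => ?_, fun ε i k l m h h' e => ?_,
    ?_, fun U g hU => ?_, P.π_t⟩⟩
  · rw [← cj_apply]
    revert z d a b c
    refine Loc.induction (P := fun U => ∀ z d a b c, ∑ i, z i = 0 → z a = d → z b = d → z c = d →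
      cj P z (Φ U (X a b c)) = Φ (sh d U) (X a b c)) (fun w R z d a b c hz ha hb hc => ?_)
      (fun U hU ih z d a b c hz ha hb hc' => ?_)
      (fun U V hU hV ih ih' z d a b c hz ha hb hc => ?_) hU
    · rw [he, cj_ev P w R hz ha hb hc, ← he]
      congr 2
      ext p
      simp only [mem_sh, Set.mem_setOf_eq, mv_fst, mv_snd]
      rw [show p.2 + (w - d) = p.2 + -d + w by abel]
    · rw [show sh d Uᶜ = (sh d U)ᶜ from rfl, hc _ hU, hc _ (hU.sh d), map_mul, map_inv,
        ih z d a b c hz ha hb hc', h1 0, cj_ev P 0 _ hz ha hb hc', ev_true, ev_true]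
    · by_cases e : D3 a b c
      swap
      · rw [X_degen e, map_one, map_one, map_one]
      have key : ∀ (S : Set I) z d, 5 ≤ S.ncard → a ∈ S → b ∈ S → c ∈ S → ∑ i, z i = 0 →
          (∀ i ∈ S, z i = d) → cj P z (Φ (U ∩ V) (X a b c)) = Φ (sh d (U ∩ V)) (X a b c) := by
        intro S z d hS ha hb hc hz h
        obtain ⟨x, hx, y, hy, e'⟩ := X_is_comm hS ha hb hc e
        have e1 : cj P z (Φ U x) = Φ (sh d U) x := hom_eq_on (u := (cj P z).comp (Φ U))
          (fun a ha b hb c hc => ih z d a b c hz (h a ha) (h b hb) (h c hc)) hx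
        have e2 : cj P z (Φ V y) = Φ (sh d V) y := hom_eq_on (u := (cj P z).comp (Φ V))
          (fun a ha b hb c hc => ih' z d a b c hz (h a ha) (h b hb) (h c hc)) hy
        rw [e', show sh d (U ∩ V) = sh d U ∩ sh d V from rfl, inter_comm Φ hu ho hU hV,
          inter_comm Φ hu ho (hU.sh d) (hV.sh d), map_mul, map_mul, map_mul, map_inv, map_inv,
          e1, e2]
      have card : ∀ i k : I, 5 ≤ ({i, k}ᶜ : Set I).ncard := fun i k => by
        have h1 := Set.ncard_add_ncard_compl ({i, k} : Set I)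
        have h2 := Set.ncard_insert_le i ({k} : Set I)
        rw [Set.ncard_singleton] at h2
        rw [Nat.card_fin] at h1
        omega
      obtain ⟨i, hi⟩ := exists_fresh {a, b, c} (Finset.card_le_three.trans_lt (by norm_num))
      simp only [Finset.mem_insert, Finset.mem_singleton, not_or] at hi
      obtain ⟨w, hw, hw'⟩ := exists_sum_zero {i}ᶜ (by simp [Finset.card_compl]) fun _ => d
      have k1 : cj P (z - w) (Φ (U ∩ V) (X a b c)) = Φ (U ∩ V) (X a b c) := by
        refine sum_zero_induction (S := {a, b, c})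
          (P := fun z => cj P z (Φ (U ∩ V) (X a b c)) = Φ (U ∩ V) (X a b c)) (cj_zero P _)
          (fun j k ε hj hk _ => ?_) (fun z z' h h' e e' => by rw [cj_add P h h', e', e])
          (sum_sub hz hw) ?_
        · simp only [Set.mem_insert_iff, Set.mem_singleton_iff, not_or] at hj hk
          rw [key {j, k}ᶜ _ 0 (card j k) (by simp [Ne.symm hj.1, Ne.symm hk.1])
            (by simp [Ne.symm hj.2.1, Ne.symm hk.2.1]) (by simp [Ne.symm hj.2.2, Ne.symm hk.2.2])
            (by simp [Finset.sum_sub_distrib]) fun i hi => ?_, sh_zero]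
          simp only [Set.mem_compl_iff, Set.mem_insert_iff, Set.mem_singleton_iff, not_or] at hi
          simp [hi.1, hi.2]
        · rintro _ (rfl | rfl | rfl)
          · simp [ha, hw' _ (by simpa using Ne.symm hi.1)]
          · simp [hb, hw' _ (by simpa using Ne.symm hi.2.1)]
          · simp [hc, hw' _ (by simpa using Ne.symm hi.2.2)]
      rw [← add_sub_cancel w z, cj_add P hw (sum_sub hz hw), k1]
      exact key {i, i}ᶜ w d (card i i) (by simp [Ne.symm hi.1]) (by simp [Ne.symm hi.2.1])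
        (by simp [Ne.symm hi.2.2]) hw fun j hj => hw' j (by simpa using hj)
  · rw [h1 0, ev_zero]
    exact P.t_eq ε i k l m h h' e
  · rw [eq_top_iff, ← P.gen]
    refine Subgroup.closure_mono (Set.union_subset_union_left _ ?_)
    rintro _ ⟨R, h, rfl⟩
    exact ⟨_, h, Loc.ev 0 R, by rw [he, ev_zero]⟩
  · have hev : ∀ z R g, P.π (ev P z R g) = vact {p | R (xx p.1 (p.2 + z))} (pH g) := fun z R =>
      DFunLike.congr_fun (hat_ext (u := P.π.comp (ev P z R)) (v := (vact _).comp pH)
        fun a b c e => by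
          obtain ⟨w, hw, ⟨k1, k2, k3⟩, -⟩ := exists_z a b c a b c fun _ => -z
          rw [MonoidHom.comp_apply, MonoidHom.comp_apply, ev_X P z R hw k1 k2 k3, cj_apply, map_mul,
            map_mul, map_inv, P.π_t w hw, P.π_E, tr_vact _ w (-z) _ fun i hi => ?_]
          · congr 2
            ext p
            simp [mem_sh]
          · rw [pH_X e, cyc_apply e] at hi
            grind)
    revert g
    refine Loc.induction (P := fun U => ∀ g, P.π (Φ U g) = vact U (pH g))
      (fun z R g => by rw [he, hev]) (fun U hU ih g => ?_) (fun U V hU hV ih ih' => ?_) hU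
    · rw [hc U hU, map_mul, map_inv, ih, h1 0, hev, inv_mul_eq_iff_eq_mul,
        ← vact_union disjoint_compl_right, Set.union_compl_self]
      rfl
    · refine DFunLike.congr_fun (hat_ext (u := P.π.comp (Φ (U ∩ V))) (v := (vact _).comp pH)
        fun a b c e => ?_)
      obtain ⟨x, -, y, -, e'⟩ := X_is_comm (S := Set.univ) (by simp) trivial trivial trivial e
      rw [e', inter_comm (fun U => (vact U).comp pH) (fun _ _ _ _ h _ => vact_union h _)
        (fun _ _ _ _ h _ _ => vact_comm h _ _) hU hV, MonoidHom.comp_apply,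
        inter_comm Φ hu ho hU hV, map_mul, map_mul, map_mul, map_inv, map_inv, ih, ih']
      rfl

end Vale.Agent.P196
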