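import Vale.Agent.P196.BlockB
import Vale.Agent.P196.Hom1

/-! P196: the transposition lifts acting trivially form a finite set. -/

namespace Vale.Agent.P196

open Equiv

namespace Theta

/-- vertical transpositions over a set -/
noncomputable def sw (W : Set S0) : Perm SS := vact W (swap 0 1)

theorem sw_mul (W W' : Set S0) : sw W * sw W' = sw (symmDiff W W') := by
  ext1 ⟨p, i⟩
  by_cases a : p ∈ W <;> by_cases b : p ∈ W' <;> simp [sw, vact_apply, a, b, Set.mem_symmDiff]

theorem sw_eq_one {W : Set S0} (h : sw W = 1) : W = ∅ := by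
  ext p
  have := DFunLike.congr_fun h (p, 0)
  refine ⟨fun a => ?_, False.elim⟩
  simp [sw, vact_apply, a] at this

theorem swap_comm' : Commute (swap (0 : I) 1) (swap 2 3) := by
  show _ = _
  decide

theorem vact_comm' (W W' : Set S0) {σ σ' : Perm I} (h : Commute σ σ') :
    Commute (vact W σ) (vact W' σ') := by
  ext1 ⟨p, i⟩
  have := DFunLike.congr_fun h.eq i
  by_cases a : p ∈ W <;> by_cases b : p ∈ W' <;> simp_all [vact_apply]

/-- positions of the tracks -/
def zd (d : Pos) : I → Pos := Pi.single 0 d + Pi.single 1 d - Pi.single 4 (d + d)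

theorem zd_sum (d : Pos) : ∑ i, zd d i = 0 := by
  simp [zd, Finset.sum_sub_distrib, Finset.sum_add_distrib]

variable {G : Type} [Group G] (C : Calc G)

/-- lift of a double transposition -/
def η (d : Pos) (U : Set S0) : G := C.msec U (zd d) (X 0 1 2 * X 1 2 3)

theorem π_η (d : Pos) {U : Set S0} (hU : Loc U) :
    C.π (η C d U) = sw (sh d U) * vact U (swap 2 3) := by
  have e : pH (X 0 1 2 * X 1 2 3) = swap 0 1 * swap 2 3 := by
    rw [map_mul, pH_X (by simp [D3]), pH_X (by simp [D3])]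
    simp [cyc, mul_assoc]
  have h1 := tr_vact U (zd d) d (swap 0 1) fun i hi => by
    rcases swap_apply_ne_self_iff.1 hi with ⟨-, rfl | rfl⟩ <;> simp [zd]
  have h2 := tr_vact U (zd d) 0 (swap 2 3) fun i hi => by
    rcases swap_apply_ne_self_iff.1 hi with ⟨-, rfl | rfl⟩ <;> simp [zd]
  rw [sh_zero] at h2
  calc _ = tr (zd d) * vact U (swap 0 1) * (tr (zd d))⁻¹ *
        (tr (zd d) * vact U (swap 2 3) * (tr (zd d))⁻¹) := by
        rw [η, C.π_msec hU (zd_sum d), e, map_mul]; group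
    _ = _ := by rw [h1, h2, sw]

theorem η_mem {O U : Set S0} {Q : Set Pos} {u d : Pos} (hU : Loc U) (h : U ⊆ sh u O) (hu : u ∈ Q)
    (hd : u + d ∈ Q) : η C d U ∈ C.KK O Q := by
  refine C.KK_le (O := U) (Q := {0, d}) (-u) (fun p hp => by simpa [mem_sh] using h hp)
    (by rintro _ (rfl | rfl) <;> simpa [add_comm]) ?_
  have : η C d U = C.msec U (zd d) (X 0 1 2) * C.msec U (zd d) (X 1 2 3) := by
    simp [η, Calc.msec, mul_assoc]
  rw [this]
  exact mul_mem (Subgroup.subset_closure ⟨U, _, _, _, _, hU, le_rfl, zd_sum d, by simp [D3],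
    by simp [zd], by simp [zd], by simp [zd], rfl⟩) (Subgroup.subset_closure
      ⟨U, _, _, _, _, hU, le_rfl, zd_sum d, by simp [D3], by simp [zd], by simp [zd],
        by simp [zd], rfl⟩)

theorem η_union (d : Pos) {U V : Set S0} (hU : Loc U) (hV : Loc V) (h : Disjoint U V) :
    η C d (U ∪ V) = η C d U * η C d V := C.msec_union hU hV h _ _

theorem η_comm (hC : C.Cube) (d d' : Pos) {U V : Set S0} (hU : Loc U) (hV : Loc V) :
    Commute (η C d U) (η C d' V) := by
  obtain ⟨r, hr⟩ := exists_bd d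
  obtain ⟨r', hr'⟩ := exists_bd d'
  refine loc_pair_induction (r + r') (P := fun U V => Commute (η C d U) (η C d' V))
    (fun U U' V a b _ c e f => by rw [η_union C d a b c]; exact e.mul_left f)
    (fun U V V' _ a b c e f => by rw [η_union C d' a b c]; exact e.mul_right f)
    (fun O Q u v U V _ hQ hF hU hV h1 h2 h3 => ?_) hU hV
  have h0 := h3 0 fun ε => by simp; positivity
  rw [add_zero, add_zero] at h0
  have m1 := η_mem C hU h1 h0.1 (h3 d fun ε => (hr ε).trans (by push_cast; omega)).1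
  have m2 := η_mem C hV h2 h0.2 (h3 d' fun ε => (hr' ε).trans (by push_cast; omega)).2
  refine C.KK_inj hC hQ hF (mul_mem m1 m2) (mul_mem m2 m1) ?_
  rw [map_mul, map_mul, π_η C d hU, π_η C d' hV]
  have s := swap_comm'
  exact ((vact_comm' _ _ (Commute.refl _)).mul_right (vact_comm' _ _ s)).mul_left
    ((vact_comm' _ _ s.symm).mul_right (vact_comm' _ _ (Commute.refl _)))

/-- lift of the transpositions over a set and over a translate -/
def θ (d : Pos) (U : Set S0) : G := η C d U * η C 0 U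

theorem π_θ (d : Pos) {U : Set S0} (hU : Loc U) : C.π (θ C d U) = sw (symmDiff U (sh d U)) := by
  rw [θ, map_mul, π_η C d hU, π_η C 0 hU, sh_zero, symmDiff_comm, ← sw_mul, mul_assoc, sw, sw,
    (vact_comm' _ _ swap_comm').eq, ← mul_assoc (vact U _), ← map_mul, swap_mul_self, map_one,
    one_mul]

theorem θ_mem {O U : Set S0} {Q : Set Pos} {u d : Pos} (hU : Loc U) (h : U ⊆ sh u O) (hu : u ∈ Q)
    (hd : u + d ∈ Q) : θ C d U ∈ C.KK O Q :=
  mul_mem (η_mem C hU h hu hd) (η_mem C hU h hu (by simpa))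

theorem θ_comm (hC : C.Cube) (d d' : Pos) {U V : Set S0} (hU : Loc U) (hV : Loc V) :
    Commute (θ C d U) (θ C d' V) :=
  ((η_comm C hC _ _ hU hV).mul_right (η_comm C hC _ _ hU hV)).mul_left
    ((η_comm C hC _ _ hU hV).mul_right (η_comm C hC _ _ hU hV))

theorem θ_union (hC : C.Cube) (d : Pos) {U V : Set S0} (hU : Loc U) (hV : Loc V)
    (h : Disjoint U V) : θ C d (U ∪ V) = θ C d U * θ C d V := by
  rw [θ, η_union C d hU hV h, η_union C 0 hU hV h]
  exact (η_comm C hC _ _ hV hU).mul_mul_mul_comm _ _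

theorem θ_cocycle (hC : C.Cube) (d d' : Pos) {U : Set S0} (hU : Loc U) :
    θ C (d + d') U = θ C d U * θ C d' (sh d U) ∧ θ C d U * θ C d U = 1 ∧ θ C 0 U = 1 := by
  obtain ⟨r, hr⟩ := exists_bd d
  obtain ⟨r', hr'⟩ := exists_bd (d + d')
  refine loc_free_induction (r + r') (P := fun U => θ C (d + d') U = θ C d U * θ C d' (sh d U) ∧
    θ C d U * θ C d U = 1 ∧ θ C 0 U = 1) (fun U V a b c e f => ?_) (fun U hU hF => ?_) hU
  · rw [θ_union C hC _ a b c, θ_union C hC _ a b c, θ_union C hC _ a b c,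
      show sh d (U ∪ V) = sh d U ∪ sh d V from rfl, θ_union C hC _ (a.sh d) (b.sh d)
        (Set.disjoint_left.2 fun p x => Set.disjoint_left.1 c x), e.1, f.1, e.2.2, f.2.2,
      (θ_comm C hC _ _ b a).mul_mul_mul_comm, e.2.1, f.2.1]
    exact ⟨(θ_comm C hC _ _ (a.sh d) b).mul_mul_mul_comm _ _, mul_one _, mul_one _⟩
  · have h0 : (0 : Pos) ∈ {d : Pos | ∀ ε, |d ε| ≤ (r + r' : ℕ)} := fun ε => by simp; positivity
    have h1 : d ∈ {d : Pos | ∀ ε, |d ε| ≤ (r + r' : ℕ)} := fun ε =>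
      (hr ε).trans (by push_cast; omega)
    have h2 : d + d' ∈ {d : Pos | ∀ ε, |d ε| ≤ (r + r' : ℕ)} := fun ε =>
      (hr' ε).trans (by push_cast; omega)
    have m := fun {x} (hx : x ∈ {d : Pos | ∀ ε, |d ε| ≤ (r + r' : ℕ)}) =>
      θ_mem C (O := U) (d := x) hU (sh_zero U).ge h0 (by rwa [zero_add])
    refine ⟨C.KK_inj hC (ball_finite _) hF (m h2) (mul_mem (m h1) (θ_mem C (hU.sh d) le_rfl h1 h2))
      ?_, C.KK_inj hC (ball_finite _) hF (mul_mem (m h1) (m h1)) (one_mem _) ?_,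
      C.KK_inj hC (ball_finite _) hF (m h0) (one_mem _) ?_⟩
    · rw [map_mul, π_θ C _ hU, π_θ C _ hU, π_θ C _ (hU.sh d), sw_mul, sh_sh, add_comm d',
        symmDiff_assoc, symmDiff_symmDiff_cancel_left]
    · rw [map_mul, π_θ C _ hU, sw, ← map_mul, swap_mul_self, map_one, map_one]
    · rw [π_θ C _ hU, sh_zero, map_one, symmDiff_self]
      ext1 ⟨p, i⟩; simp [sw, vact_apply]

theorem θ_symmDiff (hC : C.Cube) (d : Pos) {U V : Set S0} (hU : Loc U) (hV : Loc V) :
    θ C d (symmDiff U V) = θ C d U * θ C d V := by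
  have h1 := θ_union C hC d (hU.diff hV) (hU.inter hV) Set.disjoint_sdiff_inter
  have h2 := θ_union C hC d (hU.inter hV) (hV.diff hU)
    (Set.disjoint_left.2 fun p a b => b.2 a.1)
  rw [Set.diff_union_inter] at h1
  rw [Set.inter_comm, Set.inter_union_diff, Set.inter_comm] at h2
  rw [h1, h2, mul_assoc, ← mul_assoc (θ C d (U ∩ V)), (θ_cocycle C hC d 0 (hU.inter hV)).2.1,
    one_mul]
  exact θ_union C hC d (hU.diff hV) (hV.diff hU) disjoint_sdiff_sdiff

/-- normal forms -/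
def nf (hC : C.Cube) : Subgroup G where
  carrier := {x | ∃ A B, Loc A ∧ Loc B ∧ x = θ C (ee false) A * θ C (ee true) B}
  one_mem' := ⟨∅, ∅, Loc.empty, Loc.empty, by simp [θ, η, Calc.msec, C.Φ_empty]⟩
  mul_mem' := by
    rintro _ _ ⟨A, B, a, b, rfl⟩ ⟨A', B', a', b', rfl⟩
    exact ⟨_, _, a.symmDiff a', b.symmDiff b', by
      rw [θ_symmDiff C hC _ a a', θ_symmDiff C hC _ b b', (θ_comm C hC _ _ b a').mul_mul_mul_comm]⟩
  inv_mem' := by
    rintro _ ⟨A, B, a, b, rfl⟩
    refine ⟨A, B, a, b, inv_eq_of_mul_eq_one_right ?_⟩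
    rw [(θ_comm C hC _ _ b a).mul_mul_mul_comm, (θ_cocycle C hC _ 0 a).2.1,
      (θ_cocycle C hC _ 0 b).2.1, mul_one]

theorem θ_nf (hC : C.Cube) (d : Pos) : ∀ U, Loc U → θ C d U ∈ nf C hC := by
  have e1 : ∀ ε U, Loc U → θ C (ee ε) U ∈ nf C hC := fun ε U h => by
    cases ε
    · exact ⟨U, ∅, h, Loc.empty, by simp [θ, η, Calc.msec, C.Φ_empty]⟩
    · exact ⟨∅, U, Loc.empty, h, by simp [θ, η, Calc.msec, C.Φ_empty]⟩
  have step : ∀ ε d, (∀ U, Loc U → θ C d U ∈ nf C hC) → ∀ (n : ℤ) U, Loc U →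
      θ C (d + n • ee ε) U ∈ nf C hC := by
    intro ε d hd n
    induction n using Int.induction_on with
    | zero => simpa using hd
    | succ n ih =>
      intro U h
      rw [add_smul, one_smul, ← add_assoc, (θ_cocycle C hC _ _ h).1]
      exact mul_mem (ih U h) (e1 _ _ (h.sh _))
    | pred n ih =>
      intro U h
      have := ih U h
      rw [show d + (-(n : ℤ)) • ee ε = d + (-(n : ℤ) - 1) • ee ε + ee ε by
        rw [sub_smul, one_smul]; abel, (θ_cocycle C hC _ _ h).1] at this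
      simpa using mul_mem this (inv_mem (e1 ε _ (h.sh (d + (-(n : ℤ) - 1) • ee ε))))
  have := step true _ (step false 0 (fun U h => by
    rw [(θ_cocycle C hC 0 0 h).2.2]; exact one_mem _) (d false)) (d true)
  rwa [show 0 + d false • ee false + d true • ee true = d from
    pos_ext false (by simp [ee]) (by simp [ee])] at this

theorem kk_nf (hC : C.Cube) {O : Set S0} {Q : Set Pos} (hO : Loc O) (hQ : Q.Finite) (hF : Free O Q)
    {u₀ : Pos} (h₀ : u₀ ∈ Q) {T : Set Pos} (hT : T ⊆ Q) : ∀ g ∈ C.KK O Q, ∀ S, C.π g = sw S →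
      (∀ p ∈ S, ∃ o ∈ O, ∃ u, (u = u₀ ∨ u ∈ T) ∧ p = mv o u) → g ∈ nf C hC := by
  induction T, hQ.subset hT using Set.Finite.induction_on with
  | empty =>
    intro g hg S e hS
    obtain ⟨f, -, f1, f2⟩ := C.KK_desc hF hg
    have : S = ∅ := Set.eq_empty_of_forall_notMem fun p hp => by
      obtain ⟨o, ho, u, rfl | h, rfl⟩ := hS p hp
      swap
      · exact h
      refine swap_not_mem_AltOn (hQ.prod (Set.finite_univ (α := I))) (a := (u, 0)) (b := (u, 1))
        (by simp) ?_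
      convert f1 o
      ext1 ⟨v, i⟩
      by_cases hv : v ∈ Q
      · have := f2.1 o ho v hv i
        rw [e, sw, vact_apply, Prod.ext_iff] at this
        refine Prod.ext ?_ ?_
        · rw [← mv_inj this.1]; simp only [swap_apply_def]; split_ifs <;> simp_all
        · rw [← this.2]
          by_cases h : v = u
          · subst h; simp only [hp, if_true, swap_apply_def, Prod.mk.injEq, true_and]
            split_ifs <;> rfl
          · rw [swap_apply_of_ne_of_ne (by simp [h]) (by simp [h]), if_neg]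
            intro hp'
            obtain ⟨o', ho', u', rfl | h', e'⟩ := hS _ hp'
            · exact h (hF o ho o' ho' v hv _ h₀ e')
            · exact h'
      · rw [AltOn_fix (f1 o) (by simp [hv]), swap_apply_of_ne_of_ne] <;>
          · intro h; exact hv ((Prod.mk.inj h).1.symm ▸ h₀)
    rw [C.KK_inj hC hQ hF hg (one_mem _) (by
      rw [e, this, map_one]; ext1 ⟨p, i⟩; simp [sw, vact_apply])]
    exact one_mem _
  | @insert u T _ _ ih =>
    intro g hg S e hS
    have hu : u ∈ Q := hT (Set.mem_insert _ _)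
    obtain ⟨f, f0, -, f2⟩ := C.KK_desc hF hg
    have hW : Loc (O ∩ {o | mv o u ∈ S}) := by
      convert hO.inter (f0.loc fun σ => (σ (u, 0)).2 ≠ 0) using 1
      ext o
      refine and_congr_right fun ho => ?_
      have := congrArg Prod.snd (f2.1 o ho u hu 0)
      rw [e, sw, vact_apply] at this
      dsimp only at this
      simp only [Set.mem_ofPred_eq, ← this]
      split_ifs <;> simp [*]
    have m := θ_mem C (O := O) (d := u - u₀) (hW.sh u₀) (fun p hp => hp.1) h₀ (by simpa)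
    have := ih (fun x hx => hT (Set.mem_insert_of_mem _ hx)) _ (mul_mem hg m) _
      (by rw [map_mul, e, π_θ C _ (hW.sh u₀), sw_mul, sh_sh, sub_add_cancel]) fun p hp => ?_
    · simpa using mul_mem this (inv_mem (θ_nf C hC (u - u₀) _ (hW.sh u₀)))
    · by_cases h1 : p ∈ sh u₀ (O ∩ {o | mv o u ∈ S})
      · exact ⟨_, h1.1, u₀, Or.inl rfl, by simp⟩
      by_cases h2 : p ∈ S
      · obtain ⟨o, ho, v, rfl | rfl | h, rfl⟩ := hS p h2
        · exact ⟨o, ho, _, Or.inl rfl, rfl⟩
        · have : mv o v ∈ sh v (O ∩ {o | mv o v ∈ S}) := mv_mem_sh.2 ⟨ho, h2⟩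
          simp only [Set.mem_symmDiff] at hp
          tauto
        · exact ⟨o, ho, v, Or.inr h, rfl⟩
      · have : p ∉ sh u (O ∩ {o | mv o u ∈ S}) := fun h => h2 (by simpa using h.2)
        simp only [Set.mem_symmDiff] at hp
        tauto

theorem th_le (hC : C.Cube) : C.Th ≤ nf C hC := by
  rw [Calc.Th, Subgroup.closure_le]
  rintro g ⟨O, Q, hO, hQ, hF, hg, hs⟩
  obtain ⟨f, -, -, f2⟩ := C.KK_desc hF hg
  rcases Q.eq_empty_or_nonempty with rfl | ⟨u₀, h₀⟩
  · rw [C.KK_inj hC hQ hF hg (one_mem _) (by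
      rw [map_one]; ext1 ⟨p, i⟩; exact f2.2 p i fun _ _ _ h => h.elim)]
    exact one_mem _
  refine kk_nf C hC hO hQ hF h₀ le_rfl g hg {p | C.π g (p, 0) ≠ (p, 0)} ?_ fun p hp => ?_
  · ext1 ⟨p, i⟩
    rcases hs p with h | h <;> simp [sw, vact_apply, h]
  · by_contra hn
    exact hp (f2.2 p 0 fun o ho u hu e => hn ⟨o, ho, u, Or.inr hu, e⟩)

end Theta

namespace Calc

variable {G : Type} [Group G] (C : Calc G)

open Theta Classical IsMulCommutative in
theorem theta_finite (hC : C.Cube) : {g | g ∈ C.Th ∧ C.π g = 1}.Finite := by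
  haveI : IsMulCommutative (nf C hC) := ⟨⟨by
    rintro ⟨_, A, B, a, b, rfl⟩ ⟨_, A', B', a', b', rfl⟩
    exact Subtype.ext (((θ_comm C hC _ _ a a').mul_right (θ_comm C hC _ _ a b')).mul_left
      ((θ_comm C hC _ _ b a').mul_right (θ_comm C hC _ _ b b')))⟩⟩
  let h : Bool → Set S0 → nf C hC := fun ε U => if a : Loc U then ⟨_, θ_nf C hC (ee ε) U a⟩ else 1
  have e : ∀ ε U, Loc U → (h ε U : G) = θ C (ee ε) U := fun ε U a => by simp only [h, dif_pos a]
  refine ((hom1 h (fun ε U V a b => Subtype.ext ?_) fun U a => Subtype.ext ?_).image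
    Subtype.val).subset ?_
  · rw [Subgroup.coe_mul, e _ _ a, e _ _ b, e _ _ (a.symmDiff b), θ_symmDiff C hC _ a b]
  · rw [Subgroup.coe_mul, Subgroup.coe_mul, e _ _ a, e _ _ a, e _ _ (a.sh _), e _ _ (a.sh _),
      ← (θ_cocycle C hC _ _ a).1, ← (θ_cocycle C hC _ _ a).1, add_comm]
  · rintro g ⟨h1, h2⟩
    obtain ⟨A, B, a, b, rfl⟩ := th_le C hC h1
    rw [map_mul, π_θ C _ a, π_θ C _ b, sw_mul] at h2
    exact ⟨_, ⟨A, B, a, b, symmDiff_eq_bot.1 (sw_eq_one h2), rfl⟩, by
      rw [Subgroup.coe_mul, e _ _ a, e _ _ b]⟩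

end Calc

end Vale.Agent.P196
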