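import Vale.Agent.P196.CutC
import Vale.Agent.P196.Theta
import Vale.Agent.P196.Hom0
import Vale.Agent.P196.PresA
import Vale.Agent.P196.PresB

/-! P196: the group is finitely presented. -/

namespace Vale.Agent.P196

theorem Calc.val_rev {G : Type} [Group G] (C : Calc G) (w : List Sym) :
    ((w.reverse.map Sym.inv).map C.val).prod = (w.map C.val).prod⁻¹ := by
  induction w with
  | nil => simp
  | cons s w ih => simp only [List.reverse_cons, List.map_append, List.prod_append, ih,
      List.map_cons, List.map_nil, List.prod_cons, List.prod_nil, mul_one, mul_inv_rev, C.val_inv]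

theorem Calc.ker_fng_cube {G : Type} [Group G] (C : Calc G) (hC : C.Cube) :
    C.π.ker.IsFinitelyNormallyGenerated := by
  have tv : ∀ w, Triv w ↔ C.π (w.map C.val).prod = 1 := fun w => by rw [C.π_word]; rfl
  have ta : ∀ w w', Triv w → Triv w' → Triv (w ++ w') := fun w w' a b => by
    rw [tv] at a b ⊢; rw [List.map_append, List.prod_append, map_mul, a, b, mul_one]
  have ti : ∀ w, Triv w → Triv (w.reverse.map Sym.inv) := fun w a => by
    rw [tv] at a ⊢; rw [C.val_rev, map_inv, a, inv_one]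
  have t0 : Triv [] := rfl
  have a0 : area [] = 0 := funext fun k => by simpa using area_append t0 t0 k
  let A : AddSubgroup (Vx → ℤ) :=
    { carrier := {a | ∃ w, Triv w ∧ area w = a}
      zero_mem' := ⟨[], t0, a0⟩
      add_mem' := by
        rintro _ _ ⟨w, a, rfl⟩ ⟨w', b, rfl⟩
        exact ⟨w ++ w', ta _ _ a b, funext (area_append a b)⟩
      neg_mem' := by
        rintro _ ⟨w, a, rfl⟩
        exact ⟨_, ti _ a, funext (area_inv a)⟩ }
  obtain ⟨S, hS⟩ : A.FG := by
    have := (IsNoetherian.noetherian (AddSubgroup.toIntSubmodule A))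
    rwa [Submodule.fg_iff_addSubgroup_fg] at this
  have : ∀ a ∈ S, ∃ w, Triv w ∧ area w = a := fun a ha =>
    show a ∈ A from hS ▸ AddSubgroup.subset_closure ha
  choose! W hW hW' using this
  refine ⟨(fun a => ((W a).map C.val).prod) '' S ∪ {g | g ∈ C.Th ∧ C.π g = 1},
    (S.finite_toSet.image _).union (C.theta_finite hC), le_antisymm
    (Subgroup.normalClosure_le_normal ?_) fun g hg => ?_⟩
  · rintro _ (⟨a, ha, rfl⟩ | h)
    · exact (tv _).1 (hW a ha)
    · exact h.2
  set N := Subgroup.normalClosure ((fun a => ((W a).map C.val).prod) '' S ∪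
    {g | g ∈ C.Th ∧ C.π g = 1})
  have key : ∀ a ∈ AddSubgroup.closure (S : Set (Vx → ℤ)),
      ∃ w, Triv w ∧ area w = a ∧ (w.map C.val).prod ∈ N := by
    intro a ha
    induction ha using AddSubgroup.closure_induction with
    | mem a ha => exact ⟨W a, hW a ha, hW' a ha, Subgroup.subset_normalClosure (Or.inl ⟨a, ha, rfl⟩)⟩
    | zero => exact ⟨[], t0, a0, one_mem N⟩
    | add a b _ _ ha hb =>
      obtain ⟨w, h1, rfl, h2⟩ := ha
      obtain ⟨w', h3, rfl, h4⟩ := hb
      exact ⟨w ++ w', ta _ _ h1 h3, funext (area_append h1 h3), by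
        rw [List.map_append, List.prod_append]; exact mul_mem h2 h4⟩
    | neg a _ ha =>
      obtain ⟨w, h1, rfl, h2⟩ := ha
      exact ⟨_, ti _ h1, funext (area_inv h1), by rw [C.val_rev]; exact inv_mem h2⟩
  obtain ⟨w, rfl⟩ := C.exists_word g
  have hw : Triv w := (tv w).2 hg
  obtain ⟨w', h1, h2, h3⟩ := key (area w) (hS ▸ ⟨w, hw, rfl⟩)
  have h4 := ta _ _ hw (ti _ h1)
  obtain ⟨x, hx⟩ := C.cut_conj hC h4 fun k => by
    rw [area_append hw (ti _ h1), area_inv h1, h2, add_neg_cancel]
  have h5 : x * ((w ++ w'.reverse.map Sym.inv).map C.val).prod * x⁻¹ ∈ N :=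
    Subgroup.subset_normalClosure (Or.inr ⟨hx, by
      rw [map_mul, map_mul, (tv _).1 h4, mul_one, ← map_mul, mul_inv_cancel, map_one]⟩)
  have h6 := Subgroup.normalClosure_normal.conj_mem _ h5 x⁻¹
  rw [List.map_append, List.prod_append, C.val_rev] at h6
  simpa [mul_assoc] using mul_mem h6 h3

theorem Calc.zz_sh {G : Type} [Group G] (C : Calc G) {U : Set S0} (hU : Loc U) {z : I → Pos}
    {d : Pos} {a b c : I} (h : D3 a b c) (hz : ∑ i, z i = 0) (ha : z a = d) (hb : z b = d)
    (hc : z c = d) : C.t z * C.Φ U zz * (C.t z)⁻¹ = C.Φ (sh d U) zz := by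
  rw [← X_cube h, map_pow, map_pow, ← C.equiv U z d a b c hU hz ha hb hc, conj_pow]

theorem Calc.zz_center {G : Type} [Group G] (C : Calc G) {U : Set S0} (hU : Loc U) :
    C.Φ U zz ∈ Subgroup.center G := by
  have : Subgroup.closure ({g | ∃ U h, Loc U ∧ g = C.Φ U h} ∪ {g | ∃ z, ∑ i, z i = 0 ∧ g = C.t z}) ≤
      Subgroup.centralizer {C.Φ U zz} := by
    rw [Subgroup.closure_le]
    rintro _ (⟨V, h, hV, rfl⟩ | ⟨z, hz, rfl⟩) _ rfl
    · exact C.Φ_comm hU hV (zz_comm h)
    · refine sum_zero_induction (S := ∅) (P := fun z => Commute (C.Φ U zz) (C.t z))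
        (by rw [C.t_zero]; exact Commute.one_right _) (fun i k ε _ _ _ => ?_)
        (fun z z' a b c d => by rw [C.t_add z z' a b]; exact c.mul_right d) hz (by simp)
      obtain ⟨a, b, c, h3, h⟩ : ∃ a b c : I, D3 a b c ∧ (a ≠ i ∧ b ≠ i ∧ c ≠ i) ∧
          a ≠ k ∧ b ≠ k ∧ c ≠ k := by
        obtain ⟨a, b, c, h⟩ := Finset.two_lt_card_iff.1
          (show 2 < ({i, k}ᶜ : Finset I).card by
            have := Finset.card_le_two (a := i) (b := k)
            rw [Finset.card_compl, Fintype.card_fin]; omega)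
        simp only [Finset.mem_compl, Finset.mem_insert, Finset.mem_singleton, not_or] at h
        exact ⟨a, b, c, h.2.2.2, ⟨h.1.1, h.2.1.1, h.2.2.1.1⟩, h.1.2, h.2.1.2, h.2.2.1.2⟩
      have := C.zz_sh hU h3 (z := Pi.single i (ee ε) - Pi.single k (ee ε)) (d := 0)
        (by simp [Finset.sum_sub_distrib]) (by simp [h]) (by simp [h]) (by simp [h])
      rw [sh_zero, mul_inv_eq_iff_eq_mul] at this
      exact this.symm
  rw [C.gen] at this
  exact Subgroup.mem_center_iff.2 fun g => (this (Subgroup.mem_top g) _ rfl).symm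

open Classical IsMulCommutative in
theorem Calc.zz_finite {G : Type} [Group G] (C : Calc G) :
    {g | ∃ U, Loc U ∧ g = C.Φ U zz}.Finite := by
  let ζ : Set S0 → Subgroup.center G := fun U => if h : Loc U then ⟨_, C.zz_center h⟩ else 1
  have e : ∀ U, Loc U → (ζ U : G) = C.Φ U zz := fun U h => by simp only [ζ, dif_pos h]
  refine ((hom0 ζ (fun U V a b d => Subtype.ext ?_) (fun U d a => Subtype.ext ?_)
    fun U a => Subtype.ext ?_).image Subtype.val).subset ?_
  · rw [Subgroup.coe_mul, e _ a, e _ b, e _ (a.union b), C.Φ_union U V a b d]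
  · obtain ⟨z, hz, h⟩ := exists_sum_zero {0, 1, 2} (by decide) fun _ => d
    rw [e _ a, e _ (a.sh d), ← C.zz_sh a (a := 0) (b := 1) (c := 2) (by simp [D3]) hz
      (h 0 (by simp)) (h 1 (by simp)) (h 2 (by simp)),
      Subgroup.mem_center_iff.1 (C.zz_center a), mul_inv_cancel_right]
  · rw [Subgroup.coe_mul, e _ a, ← map_mul, zz_sq, map_one, Subgroup.coe_one]
  · rintro _ ⟨U, h, rfl⟩
    exact ⟨_, ⟨U, h, rfl⟩, e U h⟩

theorem Calc.ker_fng {G : Type} [Group G] (C : Calc G) : C.π.ker.IsFinitelyNormallyGenerated := by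
  let N := Subgroup.normalClosure {g | ∃ U, Loc U ∧ g = C.Φ U zz}
  have hN : N ≤ C.π.ker := Subgroup.normalClosure_le_normal (by
    rintro _ ⟨U, h, rfl⟩
    simp [C.π_Φ U zz h, pH_zz])
  let q := QuotientGroup.mk' N
  let C' : Calc (G ⧸ N) :=
    { Φ := fun U => q.comp (C.Φ U)
      t := fun z => q (C.t z)
      π := QuotientGroup.lift N C.π hN
      t_add := fun z z' a b => by rw [C.t_add z z' a b, map_mul]
      Φ_union := fun U V a b d g => by simp only [MonoidHom.comp_apply, C.Φ_union U V a b d, map_mul]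
      Φ_orth := fun U V a b d g h => (C.Φ_orth U V a b d g h).map q
      equiv := fun U z d a b c h1 h2 h3 h4 h5 => by
        simp only [MonoidHom.comp_apply, ← C.equiv U z d a b c h1 h2 h3 h4 h5, map_mul, map_inv]
      t_eq := fun ε i k l m h1 h2 h3 => by
        rw [C.t_eq ε i k l m h1 h2 h3]; simp only [MonoidHom.comp_apply, map_mul, map_inv]
      gen := by
        rw [eq_top_iff, ← (MonoidHom.range_eq_top (f := q)).2 (QuotientGroup.mk'_surjective N),
          MonoidHom.range_eq_map, ← C.gen, MonoidHom.map_closure]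
        refine Subgroup.closure_mono ?_
        rintro _ ⟨_, ⟨U, h, a, rfl⟩ | ⟨z, a, rfl⟩, rfl⟩
        exacts [Or.inl ⟨U, h, a, rfl⟩, Or.inr ⟨z, a, rfl⟩]
      π_Φ := fun U h a => C.π_Φ U h a
      π_t := fun z a => C.π_t z a }
  have := (C'.ker_fng_cube fun U h => (QuotientGroup.eq_one_iff _).2
    (Subgroup.subset_normalClosure ⟨U, h, rfl⟩)).comap (QuotientGroup.mk'_surjective N)
    ⟨_, C.zz_finite, (QuotientGroup.ker_mk' N).symm⟩
  rwa [MonoidHom.comap_ker] at this

theorem fp_AA : Group.IsFinitelyPresented AA := by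
  obtain ⟨G, _, hG, ⟨P⟩⟩ := exists_pre
  obtain ⟨C⟩ := P.calc
  rw [← C.range_π]
  exact Group.IsFinitelyPresented.of_surjective C.π.rangeRestrict C.π.rangeRestrict_surjective
    (by rw [MonoidHom.ker_rangeRestrict]; exact C.ker_fng)

end Vale.Agent.P196
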