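import Vale.Agent.P196.RigBase

/-! P196: the digit partition exists. -/

namespace Vale.Agent.P196.TSys

variable {L : Type} {Q : QL L} {T : TSys Q} {c : L} {ρ : ℕ}

theorem orth_of_vals {w w' : L} {t β : ℤ} {k k' : ℕ} (f : Tile → ℕ) (hk : k < nn (ρ + 1))
    (hk' : k' < nn (ρ + 1)) (hne : k ≠ k')
    (h : ∀ s, s < cc ρ → Q.le w (T.ev (cell ρ t β s) fun τ => f τ = valF (cc ρ) k s))
    (h' : ∀ s, s < cc ρ → Q.le w' (T.ev (cell ρ t β s) fun τ => f τ = valF (cc ρ) k' s)) :
    Q.orth w w' := by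
  by_contra hn
  refine hne (valF_inj (cc_pos ρ) hk hk' fun s hs => ?_)
  by_contra e
  exact hn (orth_of (h s hs) (h' s hs) fun τ _ a b => e (a.symm.trans b))

theorem per_of_add {α : Type} {p : ℤ → α} {n : ℤ} (h : ∀ t, p (t + n) = p t) {t t' : ℤ}
    (hd : n ∣ t - t') : p t = p t' := by
  obtain ⟨m, hm⟩ := hd
  have := (show Function.Periodic p n from h).int_mul m t'
  rw [← this]; congr 1; push_cast; linarith

theorem exists_atoms (hc : T.Cen c) (hd : T.Det (ρ + 1) c) : ∃ p, T.Atoms ρ c p := by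
  have c0 := cc_pos ρ
  have hn : nn (ρ + 1) = 4 * cc ρ + 2 := rfl
  choose p hp0 using fun t => hc (cell ρ t 0 0) fun τ => (τ.ci (par ρ)).val.val = 5
  have hp : ∀ t β s, s < cc ρ →
      Q.IsMeet (p t) c (T.ev (cell ρ t β s) fun τ => (τ.ci (par ρ)).val.val = 5) := by
    intro t β s hs
    obtain ⟨m, hm⟩ := hc (cell ρ t β s) fun τ => (τ.ci (par ρ)).val.val = 5
    rwa [QL.le_antisymm
      (hm.glb (hp0 t).le_left (hd.pas_indep (hp0 t).le_left c0 hs (hp0 t).le_right))
      ((hp0 t).glb hm.le_left (hd.pas_indep hm.le_left hs c0 hm.le_right))]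
  choose J hJ using fun (t β : ℤ) (k : ℕ) => hc (cell ρ t β ((k - 1) % cc ρ)) fun τ =>
    (τ.ci (par ρ)).val.val ≠ 5 ∧ (τ.ci (!par ρ)).lab.ph.val = (k - 1) / cc ρ ∧
      (τ.ci (!par ρ)).fl = false ∧ (τ.co (!par ρ)).fl = true
  have hJ' := fun t β k (h0 : 0 < k) (hk : k < nn (ρ + 1)) s (hs : s < cc ρ) =>
    hd.atom_det (hJ t β k).le_left h0 hk (t := t) (β := β) (fun s hs => T.le_not_iff.2
      ((hp t β s hs).orth_of (hJ t β k).le_left (orth_of (hJ t β k).le_right
        (hp t β _ (Nat.mod_lt _ c0)).le_right fun τ _ a => a.1)))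
      (le_imp (hJ t β k).le_right fun τ _ a => a.2) hs
  let A : ℤ → ℤ → ℕ → L := fun t β k => if k = 0 then p t else J t β k
  have hle : ∀ t β k, Q.le (A t β k) c := fun t β k => by
    simp only [A]; split_ifs
    exacts [(hp0 t).le_left, (hJ t β k).le_left]
  have out : ∀ t β k, k < nn (ρ + 1) → ∀ s, s < cc ρ → Q.le (A t β k)
      (T.ev (cell ρ t β s) fun τ => (τ.co (par ρ)).val.val = valF (cc ρ) k s) := by
    intro t β k hk s hs
    simp only [A]; split_ifs with e
    · subst e
      refine le_imp₂ (hp t β s hs).le_right (QL.le_trans (hp0 t).le_left (hd.cell_dom t β hs))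
        fun τ l a b => ?_
      rw [((l.pas _ b.1 (Or.inr a)).2.2.1 b.2.1).2, valF, if_neg (by omega), eq_comm,
        Nat.div_eq_zero_iff]
      omega
    · exact le_imp (hJ' t β k (by omega) hk s hs) fun τ _ a => a.2.1
  have inn : ∀ t β k, k < nn (ρ + 1) → ∀ s, s < cc ρ → Q.le (A t β k)
      (T.ev (cell ρ t β s) fun τ => (τ.ci (par ρ)).val.val =
        valF (cc ρ) (if k = 0 then 4 * cc ρ + 1 else k - 1) s) := by
    intro t β k hk s hs
    simp only [A]; split_ifs with e
    · exact le_imp (hp t β s hs).le_right fun τ _ a => by rw [a, valF, if_pos rfl]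
    · exact le_imp (hJ' t β k (by omega) hk s hs) fun τ _ a => a.1
  have cov : ∀ t β, Q.Cov c (A t β '' {k | k < nn (ρ + 1)}) := by
    intro t β
    refine ⟨(Set.finite_lt_nat _).image _, by rintro _ ⟨k, -, rfl⟩; exact hle t β k, ?_, ?_⟩
    · rintro _ ⟨k, hk, rfl⟩ _ ⟨k', hk', rfl⟩ hne
      exact orth_of_vals (fun τ => (τ.co (par ρ)).val.val) hk hk' (fun e => hne (by rw [e]))
        (out t β k hk) (out t β k' hk')
    · intro x hx h
      have h5 : ∀ s, s < cc ρ → Q.le x (T.ev (cell ρ t β s) fun τ =>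
          ¬ (τ.ci (par ρ)).val.val = 5) := fun s hs =>
        T.le_not_iff.2 ((hp t β s hs).orth_of hx (h _ ⟨0, by simp [hn], rfl⟩))
      have nf : ∀ s, s < cc ρ → Q.le x (T.ev (cell ρ t β s) fun τ =>
          ¬ ((τ.ci (!par ρ)).fl = false ∧ (τ.co (!par ρ)).fl = true)) := by
        intro s hs
        have : ∀ q : ℕ, q ≤ 4 → (q = 4 → s = 0) → Q.le x (T.ev (cell ρ t β s) fun τ =>
            ¬ ((τ.ci (par ρ)).val.val ≠ 5 ∧ (τ.ci (!par ρ)).lab.ph.val = q ∧
            (τ.ci (!par ρ)).fl = false ∧ (τ.co (!par ρ)).fl = true)) := by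
          intro q h4 h0
          have hk : q * cc ρ + s + 1 < nn (ρ + 1) := by
            rcases Nat.lt_or_ge q 4 with l | l
            · have : q * cc ρ ≤ 3 * cc ρ := Nat.mul_le_mul_right _ (by omega)
              omega
            · obtain rfl : q = 4 := by omega
              rw [h0 rfl]; omega
          have a := (hJ t β (q * cc ρ + s + 1)).orth_of hx (h _ ⟨_, hk, if_neg (by omega)⟩)
          rw [Nat.add_sub_cancel, Nat.mul_add_mod_self_right, Nat.mod_eq_of_lt hs, add_comm,
            Nat.add_mul_div_right _ _ c0, Nat.div_eq_of_lt hs, zero_add] at a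
          exact T.le_not_iff.2 a
        have b := le_and (le_and (le_and (this 0 (by omega) (by omega))
          (this 1 (by omega) (by omega))) (le_and (this 2 (by omega) (by omega))
          (this 3 (by omega) (by omega)))) (le_and (h5 s hs) (QL.le_trans hx (hd.cell_dom t β hs)))
        by_cases e : s = 0
        · refine le_imp₂ b (this 4 le_rfl fun _ => e) fun τ _ a b => ?_
          have := (τ.ci (!par ρ)).lab.ph.2
          grind
        · refine le_imp b fun τ l a => ?_
          have := (τ.ci (!par ρ)).lab.ph.2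
          have := (l.1 (!par ρ)).2.1.2.2
          simp only [Dom, Pas, Act] at a
          grind
      have bef : ∀ s, s < cc ρ → Q.le x (T.ev (cell ρ t β s) fun τ =>
          (τ.co (!par ρ)).fl = false ∧ s + 1 ≠ cc ρ) := by
        intro s
        induction s with
        | zero =>
          intro hs
          refine le_imp₂ (le_and (h5 0 hs) (nf 0 hs)) (QL.le_trans hx (hd.cell_dom t β hs))
            fun τ _ a b => ?_
          simp only [Dom, Pas, Act] at b
          grind
        | succ s ih =>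
          intro hs
          refine le_imp₂ (le_and (le_and (h5 _ hs) (nf _ hs))
            ((hd.row_step hx t β hs fun y => y.fl = false).1 (le_imp (ih (by omega))
              fun _ _ a => a.1))) (QL.le_trans hx (hd.cell_dom t β hs)) fun τ _ a b => ?_
          simp only [Dom, Pas, Act] at b
          grind
      exact zero_of (bef (cc ρ - 1) (by omega)) fun τ _ a => a.2 (by omega)
  have step : ∀ t β k k', k < nn (ρ + 1) → k' < nn (ρ + 1) →
      k = (if k' = 0 then 4 * cc ρ + 1 else k' - 1) → A t β k = A (t + 1) β k' := by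
    have o : ∀ t β k k', k < nn (ρ + 1) → k' < nn (ρ + 1) →
        k ≠ (if k' = 0 then 4 * cc ρ + 1 else k' - 1) → Q.orth (A t β k) (A (t + 1) β k') :=
      fun t β k k' hk hk' hne => orth_of_vals (fun τ => (τ.ci (par ρ)).val.val) hk
        (by split_ifs <;> omega) hne (fun s hs => (hd.col_step (hle t β k) t β
          fun v => v.val = valF (cc ρ) k s).1 (out t β k hk s hs)) (inn (t + 1) β k' hk')
    intro t β k k' hk hk' e
    refine QL.le_antisymm ((cov (t + 1) β).le_of (hle _ _ _) ?_) ((cov t β).le_of (hle _ _ _) ?_)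
    · rintro _ ⟨j, hj, rfl⟩
      by_cases e' : j = k'
      · exact Or.inr (e' ▸ QL.le_refl _)
      · exact Or.inl (o t β k j hk hj (by
          have hj : j < nn (ρ + 1) := hj
          split_ifs at e ⊢ <;> omega))
    · rintro _ ⟨j, hj, rfl⟩
      by_cases e' : j = k
      · exact Or.inr (e' ▸ QL.le_refl _)
      · exact Or.inl (Q.symm (o t β j k' hj hk' (by omega)))
  have hA : ∀ (k : ℕ) t β, k < nn (ρ + 1) → A t β k = p (t - k) := by
    intro k
    induction k with
    | zero => intro t β _; simp [A]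
    | succ k ih =>
      intro t β hk
      rw [← sub_add_cancel t 1, ← step (t - 1) β k (k + 1) (by omega) hk (by simp),
        ih _ _ (by omega)]
      congr 1; push_cast; ring
  have per : ∀ t, p (t + nn (ρ + 1)) = p t := fun t => by
    have := step (t + (4 * cc ρ + 1 : ℕ)) 0 (4 * cc ρ + 1) 0 (by omega) (by omega) (by simp)
    rw [hA _ _ _ (by omega), hA _ _ _ (by omega), add_sub_cancel_right] at this
    rw [this, hn]; congr 1; push_cast; ring
  have red : ∀ t t' : ℤ, ∃ k : ℕ, k < nn (ρ + 1) ∧ (k : ℤ) = (t - t') % nn (ρ + 1) ∧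
      p t' = A t 0 k := fun t t' => by
    have n0 : (0 : ℤ) < nn (ρ + 1) := by omega
    obtain ⟨k, hk⟩ := Int.eq_ofNat_of_zero_le (Int.emod_nonneg (t - t') n0.ne')
    have h1 : k < nn (ρ + 1) := by have := Int.emod_lt_of_pos (t - t') n0; omega
    refine ⟨k, h1, hk.symm, (hA k t 0 h1).symm ▸ per_of_add per ?_⟩
    rw [← hk]
    exact ⟨-((t - t') / nn (ρ + 1)), by have := Int.emod_add_mul_ediv (t - t') (nn (ρ + 1)); linarith⟩
  refine ⟨p, per, fun t t' h => ?_, ?_, hp, fun t β k h0 hk => ?_⟩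
  · obtain ⟨k, h1, h2, h3⟩ := red t t'
    rw [h3]
    exact orth_of_vals (fun τ => (τ.co (par ρ)).val.val) (k := 0) (by omega) h1
      (fun e => h (Int.dvd_of_emod_eq_zero (by omega))) (out t 0 0 (by omega)) (out t 0 k h1)
  · convert cov 0 0
    ext x
    constructor
    · rintro ⟨t, rfl⟩
      obtain ⟨k, h1, -, h3⟩ := red 0 t
      exact ⟨k, h1, h3.symm⟩
    · rintro ⟨k, hk, rfl⟩
      exact ⟨_, (hA k 0 0 hk).symm⟩
  · rw [← hA k t β hk]
    simpa only [A, if_neg h0.ne'] using hJ t β k

end Vale.Agent.P196.TSys
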