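import Vale.Agent.P196.Logic
import Vale.Agent.P196.ModA

/-! P196: propagation of states in a tiling with values in a logic. -/

namespace Vale.Agent.P196

theorem Core.ext' {a b : Core} (h1 : a.lab = b.lab) (h2 : a.fl = b.fl) (h3 : a.val = b.val) :
    a = b := by cases a; cases b; simp_all

/-- a dominated line is recognised by its flags -/
theorem Legal.dom {τ : Tile} (h : Legal τ) (ε : Bool)
    (h' : (τ.ci ε).lab.star = true ∨ ((τ.ci ε).fl = true ∧ (τ.co ε).fl = false)) :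
    Dom (τ.ci (!ε)) (τ.co (!ε)) (τ.ci ε) (τ.co ε) := by
  obtain ⟨-, -, -, δ, hd⟩ := h
  by_cases e : δ = ε
  · subst e
    simp only [Dom, Pas, Act] at hd
    grind
  · obtain rfl : δ = !ε := by cases δ <;> cases ε <;> simp_all
    simpa using hd

theorem Legal.pas {τ : Tile} (h : Legal τ) (ε : Bool)
    (hd : Dom (τ.ci (!ε)) (τ.co (!ε)) (τ.ci ε) (τ.co ε))
    (h' : ¬ (τ.ci ε).lab.car ∨ (τ.ci ε).val.val = 5) :
    τ.ci (!ε) = τ.co (!ε) ∧ Pas (τ.ci (!ε)) (τ.co (!ε)) (τ.ci ε) (τ.co ε) := by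
  obtain ⟨-, h2, -, h3 | h3⟩ := hd
  · exact ⟨Core.ext' (h.1 _).1 h3.1 h2, h3⟩
  · have := (τ.ci (!ε)).lab.ph.2
    simp only [Act] at h3
    grind

theorem not_dvd_between {m t y : ℤ} (h : t * m < y) (h' : y < t * m + m) : ¬ m ∣ y := by
  rintro ⟨k, rfl⟩
  have hm : 0 < m := by linarith
  have h1 : t < k := by nlinarith
  have h2 : k < t + 1 := by nlinarith
  omega

namespace TSys

variable {L : Type} {Q : QL L} (T : TSys Q) {c w : L} {ρ ρ' : ℕ}

theorem ev_ci_pt (ε : Bool) (u b : ℤ) (R : Core → Prop) :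
    T.ev (pt ε u b) (fun τ => R (τ.ci ε)) = T.ev (pt ε u (b - 1)) fun τ => R (τ.co ε) := by
  rw [T.ev_co, show pt ε u (b - 1) + ee (!ε) = pt ε u b from pos_ext ε (by simp) (by simp)]

theorem ev_lab_ci (ε : Bool) (z : Pos) (R : Lab → Prop) :
    T.ev z (fun τ => R (τ.ci ε).lab) = T.ev z fun τ => R (τ.co ε).lab :=
  T.ev_congr z fun τ h => by rw [(h.1 ε).1]

/-- labels are global -/
theorem ev_lab (ε : Bool) (u b b' : ℤ) (R : Lab → Prop) :
    T.ev (pt ε u b) (fun τ => R (τ.co ε).lab) = T.ev (pt ε u b') fun τ => R (τ.co ε).lab := by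
  have h1 : ∀ b, T.ev (pt ε u b) (fun τ => R (τ.co ε).lab) =
      T.ev (pt ε u (b - 1)) fun τ => R (τ.co ε).lab := fun b => by
    rw [← T.ev_lab_ci, T.ev_ci_pt ε u b fun x => R x.lab]
  have h2 : ∀ b, T.ev (pt ε u b) (fun τ => R (τ.co ε).lab) =
      T.ev (pt ε u 0) fun τ => R (τ.co ε).lab := fun b => by
    induction b using Int.induction_on with
    | zero => rfl
    | succ n ih => rw [h1, add_sub_cancel_right, ih]
    | pred n ih => rw [← h1, ih]
  rw [h2 b, h2 b']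

variable {T}

/-- propagation along a line -/
theorem prop_line (ε : Bool) (u : ℤ) {b b' : ℤ} (hb : b ≤ b') (R : Core → Prop)
    (h : ∀ y, b < y → y ≤ b' → Q.le w (T.ev (pt ε u y) fun τ => R (τ.ci ε) ↔ R (τ.co ε))) :
    Q.le w (T.ev (pt ε u b) fun τ => R (τ.co ε)) ↔
      Q.le w (T.ev (pt ε u b') fun τ => R (τ.co ε)) := by
  induction b', hb using Int.le_induction with
  | base => rfl
  | succ n hn ih =>
    rw [ih fun y a b => h y a (by omega), ← add_sub_cancel_right n 1, ← T.ev_ci_pt,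
      sub_add_cancel]
    have := h (n + 1) (by omega) le_rfl
    exact ⟨fun a => le_imp₂ a this fun τ _ x y => y.1 x, fun a => le_imp₂ a this fun τ _ x y => y.2 x⟩

theorem Det.mono (h : T.Det ρ c) (hρ : ρ' ≤ ρ) (hw : Q.le w c) : T.Det ρ' w :=
  ⟨fun z r hr hz => le_imp (QL.le_trans hw (h.1 z r (by omega) hz)) fun τ _ a =>
    ⟨a.1, a.2.1, fun b => a.2.2 (by omega)⟩, fun z hz => QL.le_trans hw (h.2 z hz)⟩

theorem Det.at (h : T.Det ρ c) (hρ : ρ' < ρ) {u : ℤ} (hu : IsRk ρ' u) (b : ℤ) :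
    Q.le c (T.ev (pt (par ρ') u b) fun τ => (τ.co (par ρ')).lab = (ms (par ρ') u b).lab ∧
      (τ.co (par ρ')).fl = (ms (par ρ') u b).fl ∧
      (ρ' + 1 < ρ → (τ.co (par ρ')).val = (ms (par ρ') u b).val)) := by
  simpa using h.1 (pt (par ρ') u b) ρ' hρ (by simpa using hu)

theorem Det.at' (h : T.Det ρ c) (hρ : ρ' < ρ) {u : ℤ} (hu : IsRk ρ' u) (b : ℤ) :
    Q.le c (T.ev (pt (par ρ') u b) fun τ => (τ.ci (par ρ')).lab = (ms (par ρ') u (b - 1)).lab ∧
      (τ.ci (par ρ')).fl = (ms (par ρ') u (b - 1)).fl ∧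
      (ρ' + 1 < ρ → (τ.ci (par ρ')).val = (ms (par ρ') u (b - 1)).val)) := by
  rw [T.ev_ci_pt (par ρ') u b fun x => x.lab = (ms (par ρ') u (b - 1)).lab ∧
      x.fl = (ms (par ρ') u (b - 1)).fl ∧ (ρ' + 1 < ρ → x.val = (ms (par ρ') u (b - 1)).val)]
  exact h.at hρ hu _

theorem Det.lab (h : T.Det ρ c) (hρ : ρ' < ρ) {u : ℤ} (hu : IsRk ρ' u) (b : ℤ) :
    Q.le c (T.ev (pt (par ρ') u b) fun τ => (τ.ci (par ρ')).lab = labF ρ' (idx ρ' u) ∧
      (τ.co (par ρ')).lab = labF ρ' (idx ρ' u)) :=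
  le_imp (h.at hρ hu b) fun τ l a => by rw [(l.1 _).1, a.1, ms_lab hu]; exact ⟨rfl, rfl⟩

theorem Det.full (h : T.Det ρ c) (hρ : ρ' + 1 < ρ) {u : ℤ} (hu : IsRk ρ' u) (b : ℤ) :
    Q.le c (T.ev (pt (par ρ') u b) fun τ => τ.ci (par ρ') = ms (par ρ') u (b - 1) ∧
      τ.co (par ρ') = ms (par ρ') u b) :=
  le_imp₂ (h.at' (by omega) hu b) (h.at (by omega) hu b) fun τ _ a a' =>
    ⟨Core.ext' a.1 a.2.1 (a.2.2 hρ), Core.ext' a'.1 a'.2.1 (a'.2.2 hρ)⟩

/-- a determined line is dominated by the lines of higher rank -/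
theorem Det.dom (h : T.Det ρ c) (hρ : ρ' < ρ) {u b : ℤ} (hu : IsRk ρ' u)
    (hb : (sg (ρ' + 1) : ℤ) ∣ b) : Q.le c (T.ev (pt (par ρ') u b) fun τ =>
      ((τ.ci (par ρ')).lab.star = true ∨
        ((τ.ci (par ρ')).fl = true ∧ (τ.co (par ρ')).fl = false)) ∧
      Dom (τ.ci (!par ρ')) (τ.co (!par ρ')) (τ.ci (par ρ')) (τ.co (par ρ'))) := by
  refine le_imp₂ (h.at' hρ hu b) (h.at hρ hu b) fun τ l a a' => ?_
  suffices h : (τ.ci (par ρ')).lab.star = true ∨
    ((τ.ci (par ρ')).fl = true ∧ (τ.co (par ρ')).fl = false) from ⟨h, l.dom _ h⟩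
  rw [a.1, a.2.1, a'.2.1, hu.ms_eq, hu.ms_eq]
  rcases ρ' with _ | r
  · left; rfl
  · right
    have h1 := idx_high hb le_rfl (δ := 0) (by exact_mod_cast sg_pos r)
    have h2 := idx_high' hb (δ := -1) (by omega) (by have := sg_pos r; omega)
    have h3 := oo_add_cc_le r
    have h4 := oo_pos r
    have h5 := Nat.mod_lt (idx (r + 1) u - 1) (cc_pos r)
    rw [add_zero] at h1
    rw [← sub_eq_add_neg] at h2
    simp only [coreF, flF, Nat.add_sub_cancel, decide_eq_true_eq, decide_eq_false_iff_not]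
    omega

theorem Det.pass (h : T.Det ρ c) (hρ : ρ' + 1 < ρ) {u b : ℤ} (hu : IsRk ρ' u)
    (hb : (sg (ρ' + 3) : ℤ) ∣ b) : Q.le c (T.ev (pt (par ρ') u b) fun τ =>
      τ.ci (!par ρ') = τ.co (!par ρ') ∧
      Pas (τ.ci (!par ρ')) (τ.co (!par ρ')) (τ.ci (par ρ')) (τ.co (par ρ'))) := by
  refine le_imp₂ (h.full hρ hu b) (h.dom (by omega) hu
    ((sg_dvd (by omega) (par_add_two (ρ' + 1)).symm).trans hb)) fun τ l a a' => l.pas _ a'.2 ?_
  rw [a.1, or_iff_not_imp_left, not_not, ms_lab hu, labF_car hu.idx_pos (idx_lt _ _), hu.ms_eq]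
  intro hc
  obtain ⟨s, hs⟩ := Nat.exists_eq_add_of_le hc.1
  have h2 := idx_high' (ρ := ρ' + 1) hb (δ := -1) (by omega) (by have := sg_pos (ρ' + 1); omega)
  rw [← sub_eq_add_neg] at h2
  have h3 : s < cc ρ' := by omega
  rw [hs, coreF_val h3 (idx_lt _ _), valF_eq_five h3 (idx_lt (ρ' + 1) _)]
  simp only [nn] at h2
  omega

theorem Det.noncar (h : T.Det ρ c) (hρ : ρ' < ρ) {u b : ℤ} (hu : IsRk ρ' u)
    (hb : (sg (ρ' + 1) : ℤ) ∣ b) (hk : ¬ (oo ρ' ≤ idx ρ' u ∧ idx ρ' u < oo ρ' + cc ρ')) :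
    Q.le c (T.ev (pt (par ρ') u b) fun τ => τ.ci (!par ρ') = τ.co (!par ρ')) :=
  le_imp₂ (h.lab hρ hu b) (h.dom hρ hu hb) fun τ l a a' => (l.pas _ a'.2 (Or.inl (by
    rw [a.1, labF_car hu.idx_pos (idx_lt _ _)]; exact hk))).1

/-- the value of a line of rank at least `ρ` is constant between two rows -/
theorem Det.col_val (h : T.Det (ρ + 1) c) (hw : Q.le w c) {u : ℤ} (hu : (sg ρ : ℤ) ∣ u) (t : ℤ)
    {δ : ℤ} (h0 : 0 ≤ δ) (h1 : δ < sg (ρ + 1)) (R : Fin 6 → Prop) :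
    Q.le w (T.ev (pt (par ρ) u (t * sg (ρ + 1))) fun τ => R (τ.co (par ρ)).val) ↔
      Q.le w (T.ev (pt (par ρ) u (t * sg (ρ + 1) + δ)) fun τ => R (τ.co (par ρ)).val) := by
  refine prop_line (par ρ) u (by omega) (fun x => R x.val) fun y a b => QL.le_trans hw ?_
  obtain ⟨r, hr, hp, hy⟩ := exists_rk_lt (not_dvd_between a (by omega))
  have := h.dom (ρ' := r) (by omega) hy
    ((sg_dvd (by omega) (by rw [par_succ, hp, par_succ, Bool.not_not])).trans hu)
  rw [hp, par_succ, pt_swap, Bool.not_not] at this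
  exact le_imp this fun τ _ a => by rw [a.2.2.1]

/-- the state of a high column is constant between two rows -/
theorem Det.col_high (h : T.Det (ρ + 1) c) (hw : Q.le w c) {u : ℤ} (hu : (sg (ρ + 2) : ℤ) ∣ u)
    (t : ℤ) {δ : ℤ} (h0 : 0 ≤ δ) (h1 : δ < sg (ρ + 1)) (R : Core → Prop) :
    Q.le w (T.ev (pt (par ρ) u (t * sg (ρ + 1))) fun τ => R (τ.co (par ρ))) ↔
      Q.le w (T.ev (pt (par ρ) u (t * sg (ρ + 1) + δ)) fun τ => R (τ.co (par ρ))) := by
  refine prop_line (par ρ) u (by omega) R fun y a b => QL.le_trans hw ?_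
  obtain ⟨r, hr, hp, hy⟩ := exists_rk_lt (not_dvd_between a (by omega))
  have := h.pass (ρ' := r) (by omega) hy ((sg_dvd (ρ' := ρ + 2) (by omega) (by
    rw [par_succ (r + 2), par_add_two, par_add_two, hp, par_succ, Bool.not_not])).trans hu)
  rw [hp, par_succ, pt_swap, Bool.not_not] at this
  exact le_imp this fun τ _ a => by rw [a.1]

theorem cell_dvd (ρ : ℕ) (β : ℤ) (k : ℕ) : (sg ρ : ℤ) ∣ β * sg (ρ + 2) + k * sg ρ :=
  dvd_add ((sg_dvd (by omega) (par_add_two ρ).symm).mul_left _) (dvd_mul_left _ _)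

theorem Det.col_step (h : T.Det (ρ + 1) c) (hw : Q.le w c) (t β : ℤ) {s : ℕ} (R : Fin 6 → Prop) :
    Q.le w (T.ev (cell ρ t β s) fun τ => R (τ.co (par ρ)).val) ↔
      Q.le w (T.ev (cell ρ (t + 1) β s) fun τ => R (τ.ci (par ρ)).val) := by
  have := sg_pos (ρ + 1)
  rw [cell, cell, T.ev_ci_pt _ _ _ fun x => R x.val,
    h.col_val hw (cell_dvd ρ β _) t (δ := sg (ρ + 1) - 1) (by omega) (by omega)]
  congr! 3
  ring

/-- the value of a row is constant in a band -/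
theorem Det.row_val (h : T.Det (ρ + 1) c) (hw : Q.le w c) (t β : ℤ) {δ : ℤ} (h0 : 0 ≤ δ)
    (h1 : δ < sg (ρ + 2)) (R : Fin 6 → Prop) :
    Q.le w (T.ev (pt (par ρ) (β * sg (ρ + 2)) (t * sg (ρ + 1))) fun τ => R (τ.co (!par ρ)).val) ↔
      Q.le w (T.ev (pt (par ρ) (β * sg (ρ + 2) + δ) (t * sg (ρ + 1)))
        fun τ => R (τ.co (!par ρ)).val) := by
  rw [← pt_swap, ← pt_swap (par ρ)]
  refine prop_line (!par ρ) _ (by omega) (fun x => R x.val) fun y a b => QL.le_trans hw ?_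
  obtain ⟨r, hr, hp, hy⟩ := exists_rk_lt (not_dvd_between a (by omega))
  rw [par_add_two] at hp
  have := h.dom (ρ' := r) (b := t * sg (ρ + 1)) (by omega) hy
    ((sg_dvd (by omega) (by rw [par_succ, hp, par_succ])).mul_left _)
  rw [hp, ← pt_swap] at this
  exact le_imp this fun τ _ a => by rw [a.2.2.1]

/-- the state of a row is constant on an interval of a band without carriers -/
theorem Det.row_state (h : T.Det (ρ + 1) c) (hw : Q.le w c) (t β : ℤ) {δ δ' : ℤ} (h0 : 0 ≤ δ)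
    (h1 : δ ≤ δ') (h2 : δ' < sg (ρ + 2))
    (h3 : ∀ s, s < cc ρ → δ < (oo ρ + s : ℕ) * (sg ρ : ℤ) → δ' < (oo ρ + s : ℕ) * (sg ρ : ℤ))
    (R : Core → Prop) :
    Q.le w (T.ev (pt (par ρ) (β * sg (ρ + 2) + δ) (t * sg (ρ + 1))) fun τ => R (τ.co (!par ρ))) ↔
      Q.le w (T.ev (pt (par ρ) (β * sg (ρ + 2) + δ') (t * sg (ρ + 1)))
        fun τ => R (τ.co (!par ρ))) := by
  rw [← pt_swap, ← pt_swap (par ρ)]
  refine prop_line (!par ρ) _ (by omega) R fun y a b => QL.le_trans hw ?_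
  obtain ⟨r, hr, hp, hy⟩ := exists_rk_lt
    (not_dvd_between (t := β) (m := sg (ρ + 2)) (y := y) (by omega) (by omega))
  rw [par_add_two] at hp
  by_cases e : r = ρ
  · subst e
    have := h.noncar (ρ' := r) (b := t * sg (r + 1)) (by omega) hy (dvd_mul_left _ _) ?_
    · rw [← pt_swap] at this
      exact le_imp this fun τ _ a => by rw [a]
    · intro hc
      obtain ⟨s, hs⟩ := Nat.exists_eq_add_of_le hc.1
      obtain ⟨k, hk⟩ : (sg r : ℤ) ∣ y - β * sg (r + 2) :=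
        dvd_sub hy.1 ((sg_dvd (by omega) (par_add_two r).symm).mul_left _)
      have p0 : (0 : ℤ) < sg r := by exact_mod_cast sg_pos r
      have k0 : 0 ≤ k := by nlinarith
      have k1 : k < nn r := by have := sg_add_two r; nlinarith
      lift k to ℕ using k0
      have e1 := idx_eq (ρ := r) (k := k) (by exact_mod_cast k1) β le_rfl p0
      rw [show β * sg (r + 2) + k * sg r + 0 = y by linarith] at e1
      have := h3 s (by omega)
      rw [← hs, e1] at this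
      nlinarith [this (by nlinarith)]
  · have hr' : r + 2 ≤ ρ := by
      have := par_eq_iff.1 hp
      omega
    have := h.pass (ρ' := r) (b := t * sg (ρ + 1)) (by omega) hy ((sg_dvd (by omega) (by
      rw [par_succ (r + 2), par_add_two, hp, par_succ])).mul_left _)
    rw [hp, ← pt_swap] at this
    exact le_imp this fun τ _ a => by rw [a.1]

theorem Det.row_step (h : T.Det (ρ + 1) c) (hw : Q.le w c) (t β : ℤ) {s : ℕ} (hs : s + 1 < cc ρ)
    (R : Core → Prop) :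
    Q.le w (T.ev (cell ρ t β s) fun τ => R (τ.co (!par ρ))) ↔
      Q.le w (T.ev (cell ρ t β (s + 1)) fun τ => R (τ.ci (!par ρ))) := by
  have p0 : (0 : ℤ) < sg ρ := by exact_mod_cast sg_pos ρ
  have h1 : ((oo ρ + (s + 1) : ℕ) : ℤ) ≤ nn ρ := by have := oo_add_cc_le ρ; omega
  rw [cell, cell, ← pt_swap (par ρ) _ (_ + (oo ρ + (s + 1) : ℕ) * _), T.ev_ci_pt, pt_swap,
    add_sub_assoc]
  refine h.row_state hw t β (by positivity) (by push_cast; nlinarith)
    (by rw [sg_add_two]; nlinarith) (fun s' _ a => ?_) R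
  have : ((oo ρ + s : ℕ) : ℤ) < (oo ρ + s' : ℕ) := lt_of_mul_lt_mul_right a p0.le
  have : ((oo ρ + (s + 1) : ℕ) : ℤ) ≤ (oo ρ + s' : ℕ) := by omega
  nlinarith

theorem ev_cell_lab (T : TSys Q) (ρ : ℕ) (t β : ℤ) (s : ℕ) (x : ℤ) (R : Lab → Prop) :
    T.ev (cell ρ t β s) (fun τ => R (τ.ci (!par ρ)).lab) =
      T.ev (pt (par ρ) x (t * sg (ρ + 1))) fun τ => R (τ.co (!par ρ)).lab := by
  rw [T.ev_lab_ci, cell, ← pt_swap, ← pt_swap (par ρ), T.ev_lab]

theorem ev_cell_lab' (T : TSys Q) (ρ : ℕ) (t β β' : ℤ) (s s' : ℕ) (R : Lab → Prop) :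
    T.ev (cell ρ t β s) (fun τ => R (τ.ci (!par ρ)).lab) =
      T.ev (cell ρ t β' s') fun τ => R (τ.ci (!par ρ)).lab := by
  rw [T.ev_cell_lab ρ t β s 0, T.ev_cell_lab ρ t β' s' 0]

theorem Det.cell_dom (h : T.Det (ρ + 1) c) (t β : ℤ) {s : ℕ} (hs : s < cc ρ) :
    Q.le c (T.ev (cell ρ t β s) fun τ =>
      Dom (τ.ci (!par ρ)) (τ.co (!par ρ)) (τ.ci (par ρ)) (τ.co (par ρ)) ∧ (τ.ci (par ρ)).lab.car ∧
      ((τ.ci (par ρ)).lab.isF ↔ s = 0) ∧ ((τ.ci (par ρ)).lab.isL ↔ s + 1 = cc ρ)) := by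
  have h0 : 0 < oo ρ + s := by have := oo_pos ρ; omega
  have h1 : oo ρ + s < nn ρ := by have := oo_add_cc_le ρ; omega
  have hu := isRk_digit h0 h1 β
  have e1 := idx_eq h1 β le_rfl (by exact_mod_cast sg_pos ρ)
  rw [add_zero] at e1
  refine le_imp₂ (h.lab (by omega) hu _) (h.dom (by omega) hu (dvd_mul_left _ t)) fun τ _ a b => ?_
  rw [a.1, e1]
  exact ⟨b.2, (labF_car h0 h1).2 (by omega), labF_isF hs, labF_isL hs⟩

/-- a row which is passive at one carrier is passive at all carriers -/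
theorem Det.pas_indep (h : T.Det (ρ + 1) c) (hw : Q.le w c) {t β β' : ℤ} {s s' : ℕ}
    (hs : s < cc ρ) (hs' : s' < cc ρ)
    (h5 : Q.le w (T.ev (cell ρ t β s) fun τ => (τ.ci (par ρ)).val.val = 5)) :
    Q.le w (T.ev (cell ρ t β' s') fun τ => (τ.ci (par ρ)).val.val = 5) := by
  obtain ⟨t, rfl⟩ : ∃ t', t = t' + 1 + 1 := ⟨t - 2, by ring⟩
  rw [← h.col_step hw _ _ fun v => v.val = 5] at h5 ⊢
  have a1 : Q.le w (T.ev (cell ρ (t + 1) β s) fun τ =>
      (τ.ci (!par ρ)).lab.ph.val = 4 ∧ (τ.ci (par ρ)).val.val = 4) :=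
    le_imp₂ h5 (QL.le_trans hw (h.cell_dom _ β hs)) fun τ _ a b => by
      have := (τ.ci (!par ρ)).lab.ph.2
      simp only [Dom, Pas, Act] at b
      grind
  have a2 := (h.col_step hw t β fun v => v.val = 4).2 (le_imp a1 fun _ _ a => a.2)
  have a3 : Q.le w (T.ev (cell ρ t β s) fun τ => (τ.ci (!par ρ)).lab.ph.val ≠ 4) :=
    le_imp₂ a2 (QL.le_trans hw (h.cell_dom _ β hs)) fun τ _ a b => by
      simp only [Dom, Pas, Act] at b
      grind
  rw [T.ev_cell_lab' ρ t β β' s s' fun l => l.ph.val ≠ 4] at a3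
  have a4 := (h.col_step hw t β' (s := s') fun v => v.val ≠ 5).1
    (le_imp₂ a3 (QL.le_trans hw (h.cell_dom _ β' hs')) fun τ _ a b => by
      have := (τ.ci (!par ρ)).lab.ph.2
      simp only [Dom, Pas, Act] at b
      grind)
  have a5 := le_imp a1 (P' := fun τ => (τ.ci (!par ρ)).lab.ph.val = 4) fun _ _ a => a.1
  rw [T.ev_cell_lab' ρ (t + 1) β β' s s' fun l => l.ph.val = 4] at a5
  exact le_imp₂ (le_and a4 a5) (QL.le_trans hw (h.cell_dom _ β' hs')) fun τ _ a b => by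
    simp only [Dom, Pas, Act] at b
    grind

theorem valF_digit {c q j s : ℕ} (hs : s < c) (hj : j ≤ c) (h : q * c + j ≠ 4 * c + 1) :
    valF c (q * c + j) s = if s < j then q + 1 else q := by
  rw [valF, if_neg h]
  split_ifs with e
  · rw [Nat.div_eq_iff (by omega)]
    constructor
    · rw [Nat.add_mul]; omega
    · rw [Nat.add_mul]; omega
  · rw [Nat.div_eq_iff (by omega)]
    omega

/-- an active row determines the values of all carriers of the band -/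
theorem Det.atom_det (h : T.Det (ρ + 1) c) (hw : Q.le w c) {t β : ℤ} {k : ℕ} (h0 : 0 < k)
    (hk : k < nn (ρ + 1))
    (h5 : ∀ s, s < cc ρ → Q.le w (T.ev (cell ρ t β s) fun τ => (τ.ci (par ρ)).val.val ≠ 5))
    (ha : Q.le w (T.ev (cell ρ t β ((k - 1) % cc ρ)) fun τ =>
      (τ.ci (!par ρ)).lab.ph.val = (k - 1) / cc ρ ∧
        (τ.ci (!par ρ)).fl = false ∧ (τ.co (!par ρ)).fl = true)) {s : ℕ} (hs : s < cc ρ) :
    Q.le w (T.ev (cell ρ t β s) fun τ =>
      (τ.ci (par ρ)).val.val = valF (cc ρ) (k - 1) s ∧ (τ.co (par ρ)).val.val = valF (cc ρ) k s ∧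
      ((τ.ci (!par ρ)).fl = true ↔ (k - 1) % cc ρ < s) ∧
      ((τ.co (!par ρ)).fl = true ↔ (k - 1) % cc ρ ≤ s) ∧
      (τ.ci (!par ρ)).lab = labF (ρ + 1) k) := by
  have c0 := cc_pos ρ
  have j0 := Nat.mod_lt (k - 1) c0
  have act : ∀ s, s < cc ρ → Q.le w (T.ev (cell ρ t β s) fun τ =>
      Act (τ.ci (!par ρ)) (τ.co (!par ρ)) (τ.ci (par ρ)) (τ.co (par ρ)) ∧
      (τ.ci (!par ρ)).lab.star = false ∧
      ((τ.ci (par ρ)).lab.isF ↔ s = 0) ∧ ((τ.ci (par ρ)).lab.isL ↔ s + 1 = cc ρ)) := fun s hs =>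
    le_imp₂ (h5 s hs) (QL.le_trans hw (h.cell_dom t β hs)) fun τ _ a b =>
      ⟨b.1.2.2.2.resolve_left fun p => a (p.2.1 b.2.1).1, b.1.1, b.2.2⟩
  have hl : Q.le w (T.ev (cell ρ t β s) fun τ => (τ.ci (!par ρ)).lab = labF (ρ + 1) k) := by
    rw [T.ev_cell_lab' ρ t β β s ((k - 1) % cc ρ) fun l => l = labF (ρ + 1) k]
    refine le_imp₂ ha (act _ j0) fun τ _ a b => ?_
    have e := labF_ph h0 hk
    simp only [Act] at b
    generalize (τ.ci (!par ρ)).lab = l at a b ⊢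
    obtain ⟨st, ph, f, l⟩ := l
    simp only [labF, Lab.mk.injEq] at e ⊢
    refine ⟨b.2.1, Fin.ext (a.1.trans e.symm), ?_, ?_⟩ <;> rw [Bool.eq_iff_iff] <;>
      simp only [decide_eq_true_eq] <;> grind
  have up : ∀ s, (k - 1) % cc ρ ≤ s → s < cc ρ →
      Q.le w (T.ev (cell ρ t β s) fun τ => (τ.co (!par ρ)).fl = true) := by
    intro s h1
    induction s, h1 using Nat.le_induction with
    | base => exact fun _ => le_imp ha fun _ _ a => a.2.2
    | succ n hn ih =>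
      intro h2
      refine le_imp₂ ((h.row_step hw t β h2 fun x => x.fl = true).1 (ih (by omega))) (act _ h2)
        fun τ _ a b => ?_
      simp only [Act] at b
      grind
  have down : ∀ n s, s + n = (k - 1) % cc ρ →
      Q.le w (T.ev (cell ρ t β s) fun τ => (τ.ci (!par ρ)).fl = false) := by
    intro n
    induction n with
    | zero => rintro s rfl; exact le_imp ha fun _ _ a => a.2.1
    | succ n ih =>
      intro s h2
      refine le_imp₂ ((h.row_step hw t β (by omega) fun x => x.fl = false).2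
        (ih (s + 1) (by omega))) (act s (by omega)) fun τ _ a b => ?_
      simp only [Act] at b
      grind
  have e := labF_ph h0 hk
  simp only [nn] at hk
  have dm := Nat.div_add_mod' (k - 1) (cc ρ)
  generalize (k - 1) / cc ρ = q at *
  generalize (k - 1) % cc ρ = j at *
  have v1 : valF (cc ρ) (k - 1) s = if s < j then q + 1 else q := by
    rw [← dm]; exact valF_digit hs (by omega) (by omega)
  have q4 : q ≤ 4 := by
    by_contra hq
    have : 5 * cc ρ ≤ q * cc ρ := Nat.mul_le_mul_right _ (by omega)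
    omega
  have v2 : valF (cc ρ) k s = if q = 4 then 5 else if s < j + 1 then q + 1 else q := by
    split_ifs with e4 e5
    · subst e4; rw [valF, if_pos (by omega)]
    all_goals
      have : q * cc ρ ≤ 3 * cc ρ := Nat.mul_le_mul_right _ (by omega)
      rw [show k = q * cc ρ + (j + 1) by omega, valF_digit hs (by omega) (by omega)]
      simp [e5]
  have j4 : q = 4 → j = 0 := by rintro rfl; omega
  rw [v1, v2]
  rcases lt_trichotomy s j with lt | rfl | lt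
  · refine le_imp₂ (le_and hl ((h.row_step hw t β (by omega) fun x => x.fl = false).2
      (down (j - (s + 1)) (s + 1) (by omega)))) (act s hs) fun τ _ a b => ?_
    rw [← a.1] at e
    simp only [Act] at b
    grind
  · refine le_imp₂ (le_and hl ha) (act s hs) fun τ _ a b => ?_
    simp only [Act] at b
    grind
  · obtain ⟨s, rfl⟩ : ∃ s', s = s' + 1 := ⟨s - 1, by omega⟩
    refine le_imp₂ (le_and hl ((h.row_step hw t β hs fun x => x.fl = true).1
      (up s (by omega) (by omega)))) (act _ hs) fun τ _ a b => ?_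
    rw [← a.1] at e
    simp only [Act] at b
    grind

end TSys

end Vale.Agent.P196
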