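import Vale.Agent.P196.RigBase

/-! P196: the digit partition determines the next rank. -/

namespace Vale.Agent.P196.TSys

variable {L : Type} {Q : QL L} {T : TSys Q} {c : L} {ρ : ℕ} {p : ℤ → L}

theorem Atoms.le (h : T.Atoms ρ c p) (t : ℤ) : Q.le (p t) c := (h.pas t 0 0 (cc_pos ρ)).le_left

theorem Atoms.eq_of_dvd (h : T.Atoms ρ c p) {t t' : ℤ} (hd : (nn (ρ + 1) : ℤ) ∣ t - t') :
    p t = p t' := by
  obtain ⟨m, hm⟩ := hd
  have := (show Function.Periodic p (nn (ρ + 1) : ℤ) from h.per).int_mul m t'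
  rw [← this]; congr 1; push_cast; linarith

theorem Atoms.row (h : T.Atoms ρ c p) (hd : T.Det (ρ + 1) c) {t t' : ℤ} {k : ℕ} (h0 : 0 < k)
    (hk : k < nn (ρ + 1)) (hj : (nn (ρ + 1) : ℤ) ∣ t' - t - k) (β : ℤ) {s : ℕ} (hs : s < cc ρ) :
    Q.le (p t) (T.ev (cell ρ t' β s) fun τ =>
      (τ.ci (par ρ)).val.val = valF (cc ρ) (k - 1) s ∧ (τ.co (par ρ)).val.val = valF (cc ρ) k s ∧
      ((τ.ci (!par ρ)).fl = true ↔ (k - 1) % cc ρ < s) ∧
      ((τ.co (!par ρ)).fl = true ↔ (k - 1) % cc ρ ≤ s) ∧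
      (τ.ci (!par ρ)).lab = labF (ρ + 1) k) := by
  have e : p (t' - k) = p t := h.eq_of_dvd (by convert hj using 1; ring)
  refine hd.atom_det (h.le t) h0 hk (fun s hs => T.le_not_iff.2 ((h.pas t' β s hs).orth_of (h.le t)
    (h.orth _ _ fun hn => ?_))) (le_imp (e ▸ (h.act t' β k h0 hk).le_right) fun τ _ a => a.2) hs
  have : (nn (ρ + 1) : ℤ) ∣ k := by
    have := (dvd_add hn hj).neg_right
    rwa [show -(t - t' + (t' - t - k)) = k by ring] at this
  have := Int.le_of_dvd (by omega) this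
  omega

theorem Atoms.val (h : T.Atoms ρ c p) (hd : T.Det (ρ + 1) c) (t : ℤ) {u : ℤ} (hu : IsRk ρ u)
    (b : ℤ) : Q.le (p t) (T.ev (pt (par ρ) u (t * sg (ρ + 1) + b)) fun τ =>
      (τ.co (par ρ)).val = (ms (par ρ) u b).val) := by
  by_cases hk : oo ρ ≤ idx ρ u ∧ idx ρ u < oo ρ + cc ρ
  · obtain ⟨s, hs⟩ := Nat.exists_eq_add_of_le hk.1
    have hs' : s < cc ρ := by omega
    obtain ⟨β, δ, d0, d1, e⟩ := exists_digits ρ u
    obtain rfl : δ = 0 := Int.eq_zero_of_dvd_of_nonneg_of_lt d0 d1 (by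
      have := dvd_sub hu.1 (cell_dvd ρ β (idx ρ u))
      rwa [show u - (β * sg (ρ + 2) + idx ρ u * sg ρ) = δ by linarith] at this)
    have p0 : (0 : ℤ) < sg (ρ + 1) := by exact_mod_cast sg_pos _
    have eb := Int.ediv_mul_add_emod b (sg (ρ + 1))
    have b0 := Int.emod_nonneg b p0.ne'
    have b1 := Int.emod_lt_of_pos b p0
    have ek := idx_mul (ρ + 1) (b / sg (ρ + 1)) b0 b1
    rw [eb] at ek
    have hv : (ms (par ρ) u b).val.val = valF (cc ρ) (idx (ρ + 1) b) s := by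
      rw [hu.ms_eq, hs, coreF_val hs' (idx_lt _ _)]
    generalize b / sg (ρ + 1) = j at *
    rw [show t * sg (ρ + 1) + b = (t + j) * sg (ρ + 1) + b % sg (ρ + 1) by linarith,
      ← hd.col_val (h.le t) hu.1 _ b0 b1 fun v => v = (ms (par ρ) u b).val]
    have ec : pt (par ρ) u ((t + j) * sg (ρ + 1)) = cell ρ (t + j) β s := by
      rw [cell, ← hs, ← add_zero (_ + _ * _), ← e]
    rw [ec]
    have hdv : (nn (ρ + 1) : ℤ) ∣ t + j - t - (idx (ρ + 1) b : ℕ) := by
      rw [ek, add_sub_cancel_left]; exact Int.dvd_self_sub_of_emod_eq rfl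
    rcases Nat.eq_zero_or_pos (idx (ρ + 1) b) with h0 | h0
    · rw [h0] at hdv hv
      rw [← h.eq_of_dvd (t := t + j) (by simpa using hdv)]
      refine le_imp₂ (h.pas _ β s hs').le_right (QL.le_trans (h.le _) (hd.cell_dom _ β hs'))
        fun τ l a b => Fin.ext ?_
      rw [((l.pas _ b.1 (Or.inr a)).2.2.1 b.2.1).2, hv, valF, if_neg (by omega), eq_comm,
        Nat.div_eq_zero_iff]
      omega
    · exact le_imp (h.row hd h0 (idx_lt _ _) hdv β hs') fun τ _ a => Fin.ext (a.2.1.trans hv.symm)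
  · refine le_imp (QL.le_trans (h.le t) (hd.lab (by omega) hu _)) fun τ l a => Fin.ext ?_
    rw [(l.1 _).2.2.2.1 (by rw [a.2, labF_car hu.idx_pos (idx_lt _ _)]; exact hk), hu.ms_eq]
    simp only [coreF, if_neg hk]
    rfl

theorem Atoms.next (h : T.Atoms ρ c p) (hd : T.Det (ρ + 1) c) (t : ℤ) {u : ℤ}
    (hu : IsRk (ρ + 1) u) (b : ℤ) : Q.le (p t) (T.ev (pt (par ρ) b (t * sg (ρ + 1) + u)) fun τ =>
      (τ.co (!par ρ)).lab = (ms (par (ρ + 1)) u b).lab ∧
        (τ.co (!par ρ)).fl = (ms (par (ρ + 1)) u b).fl) := by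
  obtain ⟨j, rfl⟩ := hu.1
  have ek := idx_mul (ρ + 1) j le_rfl (by exact_mod_cast sg_pos _)
  rw [add_zero, mul_comm j] at ek
  have h0 := hu.idx_pos
  have hk := idx_lt (ρ + 1) (sg (ρ + 1) * j)
  have c0 := cc_pos ρ
  rw [hu.ms_eq, show t * sg (ρ + 1) + sg (ρ + 1) * j = (t + j) * sg (ρ + 1) by ring]
  generalize idx (ρ + 1) (sg (ρ + 1) * j) = k at *
  have row := fun β s (hs : s < cc ρ) => h.row hd (t := t) (t' := t + j) h0 hk (by
    rw [ek, add_sub_cancel_left]; exact Int.dvd_self_sub_of_emod_eq rfl) β hs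
  refine le_and ?_ ?_
  · rw [← T.ev_cell_lab ρ _ 0 0 b fun l => l = (coreF (ρ + 1) k _ _).lab]
    exact le_imp (row 0 0 c0) fun τ _ a => a.2.2.2.2
  obtain ⟨β, δ, d0, d1, e⟩ := exists_digits ρ b
  have hl := idx_lt ρ b
  have j0 := Nat.mod_lt (k - 1) c0
  have p0 : (0 : ℤ) < sg ρ := by exact_mod_cast sg_pos ρ
  have o1 := oo_add_cc_le ρ
  simp only [coreF, flF, Nat.add_sub_cancel]
  generalize idx ρ b = l at *
  have hl' : (l : ℤ) + 1 ≤ nn ρ := by omega
  rw [e, add_assoc]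
  rcases Nat.lt_or_ge l (oo ρ) with lt | ge
  · have lt' : (l : ℤ) + 1 ≤ oo ρ := by omega
    have o2 : (oo ρ : ℤ) ≤ nn ρ := by omega
    rw [hd.row_state (h.le t) _ β (δ' := (oo ρ + 0 : ℕ) * sg ρ - 1) (by positivity)
      (by push_cast; nlinarith) (by rw [sg_add_two]; push_cast; nlinarith)
      (fun s _ _ => by push_cast; nlinarith) fun x => x.fl = decide _, ← add_sub_assoc,
      ← pt_swap, ← T.ev_ci_pt _ _ _ fun x => x.fl = decide _, pt_swap]
    refine le_imp (row β 0 c0) fun τ _ a => ?_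
    rw [Bool.eq_iff_iff, a.2.2.1, decide_eq_true_eq]
    omega
  · obtain ⟨s, hs, h1, h2⟩ : ∃ s, s < cc ρ ∧ oo ρ + s ≤ l ∧ (s + 1 = cc ρ ∨ oo ρ + s = l) :=
      ⟨min (l - oo ρ) (cc ρ - 1), by omega⟩
    have h1' : ((oo ρ + s : ℕ) : ℤ) ≤ l := by omega
    rw [← hd.row_state (h.le t) _ β (δ := (oo ρ + s : ℕ) * sg ρ) (by positivity)
      (by nlinarith) (by rw [sg_add_two]; nlinarith) (fun s' hs' a => ?_) fun x => x.fl = decide _]
    · refine le_imp (row β s hs) fun τ _ a => ?_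
      rw [Bool.eq_iff_iff, a.2.2.2.1, decide_eq_true_eq]
      omega
    · have : ((oo ρ + s : ℕ) : ℤ) < (oo ρ + s' : ℕ) := lt_of_mul_lt_mul_right a p0.le
      have : (l : ℤ) + 1 ≤ (oo ρ + s' : ℕ) := by omega
      nlinarith

theorem Atoms.det (h : T.Atoms ρ c p) (hd : T.Det (ρ + 1) c) (t : ℤ) :
    (T.shift (pt (par ρ) 0 (t * sg (ρ + 1)))).Det (ρ + 2) (p t) := by
  refine ⟨fun z r hr hz => ?_, fun z hz => QL.le_trans (h.le t) (hd.2 _ ?_)⟩
  · rw [← pt_self (par r) z]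
    generalize z (par r) = u at *
    generalize z (!par r) = b at *
    simp only [shift, pt_same, pt_not]
    by_cases e : par r = par ρ
    · have e' := par_eq_iff.1 e
      have a := QL.le_trans (h.le t) (hd.at (ρ' := r) (by omega) hz (b + t * sg (ρ + 1)))
      have f := ms_inv_fl hz (dvd_zero _) (m' := t * sg (ρ + 1))
        ((sg_dvd (by omega) (by rw [par_succ, par_succ, e])).mul_left _) b
      rw [add_zero] at f
      rw [f, ms_lab hz, ← ms_lab hz b] at a
      rw [← e, pt_add, zero_add, add_comm _ b]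
      by_cases e2 : r = ρ
      · subst e2
        have v := h.val hd t hz b
        rw [add_comm _ b] at v
        exact le_imp₂ a v fun τ _ a b => ⟨a.1, a.2.1, fun _ => b⟩
      · have g := ms_inv hz (dvd_zero _) (m' := t * sg (ρ + 1))
          ((sg_dvd (by omega) (par_eq_iff.2 (by omega))).mul_left _) b
        rw [add_zero] at g
        rw [g] at a
        exact le_imp a fun τ _ a => ⟨a.1, a.2.1, fun _ => a.2.2 (by omega)⟩
    · have e1 : par r = !par ρ := by revert e; cases par r <;> cases par ρ <;> simp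
      have e' := par_eq_iff.1 (e1.trans (par_succ ρ).symm)
      by_cases e2 : r = ρ + 1
      · subst e2
        have := h.next hd t hz b
        rw [← e1] at this
        rw [show pt (par (ρ + 1)) u b = pt (par ρ) b u by rw [e1, pt_swap], pt_add, zero_add]
        exact le_imp this fun τ _ a => ⟨a.1, a.2, fun _ => by omega⟩
      · have hm : (sg (r + 2) : ℤ) ∣ t * sg (ρ + 1) :=
          (sg_dvd (by omega) (par_eq_iff.2 (by omega))).mul_left _
        have a := QL.le_trans (h.le t) (hd.at (ρ' := r) (by omega) (hz.add hm) b)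
        have g := ms_inv hz hm (dvd_zero _) b
        rw [add_zero] at g
        rw [g] at a
        rw [← pt_swap (par ρ), ← e1, pt_add, zero_add, add_comm _ u]
        exact le_imp a fun τ _ a => ⟨a.1, a.2.1, fun _ => a.2.2 (by omega)⟩
  · refine dvd_add ?_ hz
    cases e : par ρ
    · simp
    · have e' := par_eq_iff.1 (e.trans (show true = par 1 from rfl))
      exact (sg_dvd (ρ := 2) (by omega) (par_eq_iff.2 (by omega))).mul_left t

end Vale.Agent.P196.TSys
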